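import Mathlib.GroupTheory.SpecificGroups.Alternating
import Mathlib.GroupTheory.Perm.Sign

/-!
P180: a normal direct product of alternating groups, with the action on the points.
-/

namespace Vale.Agent.P180.R2.H47

/-- `G` has a normal subgroup `ι.range`, a direct product of alternating groups of degrees `N j`,
and the conjugation action of `G` on it is induced by the action `ρ` of `G` on the disjoint union
of the sets of points. -/
structure AltStr (G : Type) [Group G] where
  r : ℕ
  N : Fin r → ℕ
  ι : (∀ j, alternatingGroup (Fin (N j))) →* G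
  ρ : G →* Equiv.Perm (Σ j, Fin (N j))
  ρι : ∀ x, ρ (ι x) = Equiv.Perm.sigmaCongrRight fun j => (x j : Equiv.Perm (Fin (N j)))
  blk : ∀ (g : G) (j : Fin r) (x y : Fin (N j)), (ρ g ⟨j, x⟩).1 = (ρ g ⟨j, y⟩).1
  nrm : ι.range.Normal
  big : ∀ j, 5 ≤ N j

end Vale.Agent.P180.R2.H47
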