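import Vale.Agent.P180.R2.H47.Ups

/-!
P180: perfect groups centralising `N` embed in the twisted group.
-/

namespace Vale.Agent.P180.R2.H47

open Vale.Agent.P180 Vale.Agent.P180.KP

open scoped commutatorElement

section

variable {k : Type*} [Field k] {G : Type} [Group G] {N : Subgroup G} [N.Normal]

theorem single_mul_supp {g c c' : G} (hc : ∀ n ∈ N, c * n = n * c) (hc' : c' = g * c * g⁻¹)
    {x : MonoidAlgebra k G} (hx : SuppIn (cst N (g : G ⧸ N)) x) :
    MonoidAlgebra.single c' (1 : k) * x = x * MonoidAlgebra.single c 1 := by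
  refine SuppIn.induction (P := fun x => MonoidAlgebra.single c' (1 : k) * x =
    x * MonoidAlgebra.single c 1) hx (by simp) ?_ ?_
  · intro a b ha hb
    rw [mul_add, add_mul, ha, hb]
  · intro y hy r
    rw [mul_smul_comm, smul_mul_assoc, MonoidAlgebra.single_mul_single,
      MonoidAlgebra.single_mul_single, mul_one]
    congr 2
    have h1 : (g : G ⧸ N) = (y : G ⧸ N) := hy.symm
    rw [QuotientGroup.eq] at h1
    have h2 := hc _ h1
    rw [hc']
    calc g * c * g⁻¹ * y = g * (c * (g⁻¹ * y)) := by group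
      _ = g * (g⁻¹ * y * c) := by rw [h2]
      _ = y * c := by group

/-- The data on the perfect subgroups centralising `N`. -/
def Th (N : Subgroup G) [N.Normal] {H : Type} [Group H] (π : H →* G ⧸ N) : Prop :=
  ∀ T : Subgroup G, (∀ c ∈ T, ∀ n ∈ N, c * n = n * c) → ⁅T, T⁆ = T →
    ∃ θ : T →* H, (∀ c, π (θ c) = ((c : G) : G ⧸ N)) ∧
      ∀ (h : H) (g : G) (c c' : T), π h = (g : G ⧸ N) → (c' : G) = g * c * g⁻¹ →
        h * θ c * h⁻¹ = θ c'

theorem exists_theta {i : MonoidAlgebra k G} {hi : IsIdempotentElem i} {H : Type} [Group H]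
    {φ : H →* hi.Cornerˣ} {π : H →* G ⧸ N} (hφi : Function.Injective φ)
    (hφ : ∀ h, SuppIn (cst N (π h)) (vl hi (φ h)))
    (hθ : ∀ T : Subgroup G, (∀ c ∈ T, ∀ n ∈ N, c * n = n * c) → ∀ c ∈ ⁅T, T⁆,
      ∃ g : H, vl hi (φ g) = MonoidAlgebra.single c 1 * i ∧ π g = (c : G ⧸ N)) : Th N π := by
  intro T hT hTT
  have h1 : ∀ c : T, ∃ g : H, vl hi (φ g) = MonoidAlgebra.single (c : G) 1 * i ∧
      π g = ((c : G) : G ⧸ N) := fun c => hθ T hT c (by rw [hTT]; exact c.2)
  choose θ hθ1 hθ2 using h1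
  refine ⟨
    { toFun := θ
      map_one' := ?_
      map_mul' := ?_ }, hθ2, ?_⟩
  · apply hφi
    apply vl_ext
    rw [hθ1, map_one, vl_one, Subgroup.coe_one, ← MonoidAlgebra.one_def, one_mul]
  · intro x y
    apply hφi
    apply vl_ext
    rw [hθ1, map_mul, vl_mul, hθ1 x, mul_assoc, i_vl, hθ1 y, ← mul_assoc,
      MonoidAlgebra.single_mul_single, mul_one]
    rfl
  · intro h g c c' hg hc
    change h * θ c * h⁻¹ = θ c'
    rw [mul_inv_eq_iff_eq_mul]
    apply hφi
    apply vl_ext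
    have h2 := hφ h
    rw [hg] at h2
    rw [map_mul, map_mul, vl_mul, vl_mul, hθ1 c, hθ1 c', mul_assoc _ i, i_vl,
      single_mul_supp (hT c c.2) hc h2]
    have h3 : vl hi (φ h) * (MonoidAlgebra.single (c : G) 1 * i) =
        vl hi (φ h) * MonoidAlgebra.single (c : G) 1 := by
      rw [← mul_assoc, ← single_mul_supp (hT c c.2) hc h2, mul_assoc, vl_i]
    exact h3

end

end Vale.Agent.P180.R2.H47
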