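import Vale.Agent.P180.R2.H47.TwK
import Vale.Agent.P180.R2.H47.Theta

set_option linter.all false

/-!
P180: the reduction of Kulshammer and Puig, with the perfect subgroups centralising `N`.
-/

namespace Vale.Agent.P180.R2.H47

open Vale.Agent.P180 Vale.Agent.P180.KP

open scoped Classical

universe u

section Main

variable {k : Type u} [Field k] [IsAlgClosed k] {p : ℕ} [Fact p.Prime] [CharP k p]
variable {G : Type} [Group G] [Finite G] {N Y : Subgroup G} [N.Normal] [Y.Normal]

theorem kp_ext (hY : IsPGroup p Y) (hYN : Y ≤ N) (hYc : ∀ y ∈ Y, ∀ n ∈ N, y * n = n * y)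
    {e b : MonoidAlgebra k G} (he : IsBlockOf N e) (heG : ∀ g, cj k G g e = e) (hb : IsBlock b)
    (hbe : b * e ≠ 0)
    (heY : ∃ z ∈ SubAlg k N, z ∈ Fix (cj k G) Y ∧ e = tr (cj k G) Y N z)
    {D : Subgroup G} {a : MonoidAlgebra k G} (ha : a ∈ Fix (cj k G) D)
    (hba : b = tr (cj k G) D ⊤ a) (hYD : Y ≤ D) :
    ∃ (H : Type) (_ : Group H) (_ : Finite H) (Z : Subgroup H) (π : H →* G ⧸ N)
      (c : MonoidAlgebra k H) (hc : IsBlock c), (∀ z ∈ Z, ∀ h, z * h = h * z) ∧
      ¬ p ∣ Nat.card Z ∧ Z ≤ π.ker ∧ Z.index = Nat.card Y * N.index ∧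
      Function.Surjective π ∧ Nat.card π.ker = Nat.card Z * Nat.card Y ∧
      Nat.card H ≤ (Nat.card Y * N.index) ^ 2 ∧ IsMoritaEquivalent k hb.Alg hc.Alg ∧ Th N π ∧
      ∃ (D' : Subgroup H) (a' : MonoidAlgebra k H), Nat.card D' ≤ Nat.card D ∧
        a' ∈ Fix (cj k H) D' ∧ c = tr (cj k H) D' ⊤ a' ∧
        D' ≤ (D.map (QuotientGroup.mk' N)).comap π := by
  obtain ⟨C, _, κ, α, hκ, hκr, hα⟩ := exists_CC hYN hYc
  have hmem : ∀ c, κ c ∈ Y := fun c => by rw [← hκr]; exact ⟨c, rfl⟩
  haveI : Finite C := Finite.of_injective _ hκ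
  have hcardC : Nat.card C = Nat.card Y := by
    rw [← hκr]
    exact Nat.card_congr (κ.ofInjective hκ).toEquiv
  have hCp : IsPGroup p C := by
    have h1 : IsPGroup p κ.range := by rw [hκr]; exact hY
    exact h1.of_equiv (κ.ofInjective hκ).symm
  have hCB : CB N κ e := by
    refine ⟨hκ, fun c => hYN (hmem c), fun c n hn => hYc _ (hmem c) n hn, he, ?_⟩
    obtain ⟨z, hz, -, hz'⟩ := heY
    exact ⟨z, hz, by rw [hκr]; exact hz'⟩
  have heF : e ∈ Fix (cj k G) ⊤ := fun g _ => heG g
  obtain ⟨i, hi, hN, hie, hfull, H, _, _, φ, ε, s, π, Z, hε, hs1, hs2, hcardH, hπ, hφ, hZc, hpZ,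
    hZπ, hZi, hφi, hθ⟩ := exists_twisted_ext hCB hCp heF hα
  -- basic facts about `b`
  have hbB := isBlock_iff.mp hb
  have hbc : ∀ x, x * b = b * x := fun x => commute_of_mem (SubAlg_top x) hbB.mem.2
  have hec : ∀ x, x * e = e * x := fun x => commute_of_mem (SubAlg_top x) heF
  have hbb : b * b = b := hb.idem
  have hbe' : b * e = b := by
    have heZ : e ∈ Subalgebra.center k (MonoidAlgebra k G) := mem_center_iff_Fix_top.mpr heF
    rcases hb.primitive (b * e) (Subalgebra.mul_mem _ hb.central heZ)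
      (by
        change b * e * (b * e) = b * e
        rw [mul_assoc, ← mul_assoc e b e, ← hec b, mul_assoc b e e, he.idem.eq, ← mul_assoc, hbb])
      (by rw [mul_assoc, ← hec, ← mul_assoc, hbb]) with h | h
    · exact absurd h hbe
    · exact h
  have hib : IsIdempotentElem (i * b) := by
    change i * b * (i * b) = i * b
    rw [mul_assoc, ← mul_assoc b i b, ← hbc i, mul_assoc i b b, hbb, ← mul_assoc, hi.eq]
  have hi1 : i * (i * b) = i * b := by rw [← mul_assoc, hi.eq]
  have hi2 : (i * b) * i = i * b := by rw [mul_assoc, ← hbc, ← mul_assoc, hi.eq]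
  set β : hi.Corner := subIdem hi hi1 hi2 with hβ
  have hβv : β.1 = i * b := rfl
  have hPCI : IsPCI k β := by
    refine isPCI_corner hi hie hec he.idem.eq hfull hbc hbb hbe' hb.ne_zero ?_ β hβv
    intro c hc hcc hcb
    exact hb.primitive c (Subalgebra.mem_center_iff.mpr hc) hcc hcb
  have hcs := isBlock_s hε hs1 hs2 hPCI
  -- cardinalities
  have hker : Nat.card π.ker = Nat.card Z * Nat.card Y := by
    have h1 := π.ker.card_mul_index
    have h2 := Z.card_mul_index
    rw [Subgroup.index_ker, MonoidHom.range_eq_top.mpr hπ] at h1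
    have h3 : Nat.card (⊤ : Subgroup (G ⧸ N)) = N.index := by
      rw [Subgroup.index]; exact Nat.card_congr Subgroup.topEquiv.toEquiv
    rw [h3] at h1
    rw [hZi, hcardC] at h2
    have h4 : N.index ≠ 0 := Subgroup.index_ne_zero_of_finite
    apply Nat.eq_of_mul_eq_mul_right (Nat.pos_of_ne_zero h4)
    rw [h1, ← h2, mul_assoc]
  refine ⟨H, inferInstance, inferInstance, Z, π, s β, hcs, hZc, hpZ, hZπ, by rw [hZi, hcardC], hπ,
    hker, by rw [← hcardC]; exact hcardH, ?_, exists_theta hφi hφ hθ, ?_⟩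
  · -- Morita equivalence
    have h1 : IsMoritaEquivalent k hb.idem.Corner hib.Corner := by
      apply isMoritaEquivalent_corner_corner
      · rw [← mul_assoc, ← hbc, mul_assoc, hbb]
      · rw [mul_assoc, hbb]
      · obtain ⟨n, x, y, hxy⟩ := hfull
        refine ⟨n, x, y, ?_⟩
        conv_rhs => rw [← hbe', hxy, Finset.mul_sum]
        refine Finset.sum_congr rfl fun l _ => ?_
        rw [hbc i, ← mul_assoc, hbc (x l)]
        simp only [mul_assoc]
    refine IsMoritaEquivalent.trans k h1 ?_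
    have h2 : IsMoritaEquivalent k hib.Corner (subIdem_idem hi hib hi1 hi2).Corner :=
      IsMoritaEquivalent.of_algEquiv k (cornerCornerEquiv hi hib hi1 hi2).symm
    refine IsMoritaEquivalent.trans k h2 ?_
    exact IsMoritaEquivalent.of_algEquiv k
      (cornerEquiv hε hs1 hs2 (subIdem_idem hi hib hi1 hi2) hcs.idem).symm
  · -- the trace condition
    obtain ⟨x, hx⟩ : ∃ x, x = tr (cj k G) D (D ⊔ N) a := ⟨_, rfl⟩
    have hxF : x ∈ Fix (cj k G) (D ⊔ N) := by rw [hx]; exact tr_mem_Fix ha
    have hbx : b = tr (cj k G) (D ⊔ N) ⊤ x := by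
      rw [hx, tr_tr ha le_sup_left le_top]; exact hba
    obtain ⟨hF, hT⟩ := trace_transfer (hi := hi) hN hε hs1 hs2 hπ hφ hxF (β := β)
      (by rw [hβv, ← hbx])
    set H₁ : Subgroup H := (D.map (QuotientGroup.mk' N)).comap π with hH₁
    have hF' : s (mkCorner hi x) ∈ Fix (cj k H) H₁ := hF
    obtain ⟨Q⟩ : Nonempty (Sylow p H₁) := inferInstance
    have hidx : ((Q : Subgroup H₁).map H₁.subtype).relIndex H₁ = (Q : Subgroup H₁).index := by
      rw [Subgroup.relIndex, ← Subgroup.comap_subtype,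
        Subgroup.comap_map_eq_self_of_injective H₁.subtype_injective]
    have hne : ((((Q : Subgroup H₁).map H₁.subtype).relIndex H₁ : ℕ) : k) ≠ 0 := by
      rw [hidx, Ne, CharP.cast_eq_zero_iff k p]
      exact Q.not_dvd_index
    have hle : (Q : Subgroup H₁).map H₁.subtype ≤ H₁ := by
      rintro _ ⟨x, -, rfl⟩
      exact x.2
    refine ⟨(Q : Subgroup H₁).map H₁.subtype,
      ((((Q : Subgroup H₁).map H₁.subtype).relIndex H₁ : ℕ) : k)⁻¹ • s (mkCorner hi x),
      ?_, ?_, ?_, hle⟩
    · -- cardinality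
      have h1 : Nat.card ((Q : Subgroup H₁).map H₁.subtype) = Nat.card (Q : Subgroup H₁) :=
        Nat.card_congr ((Q : Subgroup H₁).equivMapOfInjective _
          H₁.subtype_injective).symm.toEquiv
      obtain ⟨n, hn⟩ := IsPGroup.iff_card.mp Q.2
      have h2 : Nat.card (Q : Subgroup H₁) ∣ Nat.card H₁ := (Q : Subgroup H₁).card_subgroup_dvd_card
      -- order of `H₁`
      have h3 : Nat.card H₁ = Nat.card Z * (Nat.card Y * Nat.card (D.map (QuotientGroup.mk' N))) := by
        have h4 := H₁.card_mul_index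
        have h5 := (D.map (QuotientGroup.mk' N)).card_mul_index
        have h6 := π.ker.card_mul_index
        rw [Subgroup.index_ker, MonoidHom.range_eq_top.mpr hπ] at h6
        have h7 : Nat.card (⊤ : Subgroup (G ⧸ N)) = Nat.card (G ⧸ N) :=
          Nat.card_congr Subgroup.topEquiv.toEquiv
        rw [hH₁, Subgroup.index_comap_of_surjective _ hπ] at h4
        have h8 : (D.map (QuotientGroup.mk' N)).index ≠ 0 := Subgroup.index_ne_zero_of_finite
        apply Nat.eq_of_mul_eq_mul_right (Nat.pos_of_ne_zero h8)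
        rw [hH₁, h4, ← h6, h7, hker, ← h5]
        ring
      have h9 : Nat.card (D.map (QuotientGroup.mk' N)) * Nat.card Y ≤ Nat.card D := by
        have h10 : Nat.card (D.map (QuotientGroup.mk' N)) = N.relIndex D := by
          rw [← Subgroup.relIndex_ker, QuotientGroup.ker_mk']
        have h11 : N.relIndex D ∣ Y.relIndex D := Subgroup.relIndex_dvd_of_le_left D hYN
        have h12 : Nat.card Y * Y.relIndex D = Nat.card D := by
          have h13 := Subgroup.relIndex_mul_relIndex (⊥ : Subgroup G) Y D bot_le hYD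
          rwa [Subgroup.relIndex_bot_left, Subgroup.relIndex_bot_left] at h13
        rw [h10, ← h12, mul_comm]
        apply Nat.mul_le_mul_left
        apply Nat.le_of_dvd _ h11
        apply Nat.pos_of_ne_zero
        intro h0
        rw [h0, mul_zero] at h12
        exact Nat.card_pos.ne' h12.symm
      rw [h1]
      refine le_trans ?_ h9
      rw [mul_comm]
      apply Nat.le_of_dvd
      · exact Nat.mul_pos Nat.card_pos Nat.card_pos
      · rw [h3] at h2
        apply Nat.Coprime.dvd_of_dvd_mul_left _ h2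
        rw [hn]
        apply Nat.Coprime.pow_left
        rw [(Fact.out : p.Prime).coprime_iff_not_dvd]
        exact hpZ
    · exact Subalgebra.smul_mem _ (Fix_mono _ hle hF') _
    · rw [hT]
      have h1 : ((((Q : Subgroup H₁).map H₁.subtype).relIndex H₁ : ℕ) : k)⁻¹ •
          s (mkCorner hi x) ∈ Fix (cj k H) ((Q : Subgroup H₁).map H₁.subtype) :=
        Subalgebra.smul_mem _ (Fix_mono _ hle hF') _
      rw [← tr_tr h1 hle le_top, tr_smul, tr_of_mem_Fix hF', smul_smul, inv_mul_cancel₀ hne,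
        one_smul]

end Main

end Vale.Agent.P180.R2.H47
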