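import Vale.Agent.P180.R2.H47.RCx
import Vale.Agent.P180.R2.H47.KpK
import Vale.Agent.P180.R2.H47.KpO

set_option linter.all false

/-!
P180: the reduction carrying a normal direct product of simple groups.
-/

namespace Vale.Agent.P180.R2.H47

open Vale.Agent.P180 Vale.Agent.P180.H768.Gd
open Vale.Agent.P180.H768 hiding pull mem_pull exists_factor Lay mk_mem comm_mem

open scoped Nat commutatorElement

universe u

/-- A property of blocks which passes backwards through the reductions of Fong-Reynolds and of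
Kulshammer-Puig. -/
structure Clo (k : Type u) [Field k] (p : ℕ)
    (P : ∀ (G : Type) [Group G], MonoidAlgebra k G → Prop) : Prop where
  fr : ∀ {G : Type} [Group G] [Finite G] {N : Subgroup G} [N.Normal] {e b : MonoidAlgebra k G},
    IsBlockOf N e → IsBlock b → b * e ≠ 0 → ∀ {b' : MonoidAlgebra k (stabE e)}, IsBlock b' →
    incl k (stabE e) b' = b * e → P (stabE e) b' → P G b
  kp : ∀ {G : Type} [Group G] [Finite G] {N Y : Subgroup G} [N.Normal] [Y.Normal],
    IsPGroup p Y → Y ≤ N → (∀ y ∈ Y, ∀ n ∈ N, y * n = n * y) →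
    ∀ {e b : MonoidAlgebra k G}, IsBlockOf N e → (∀ g, cj k G g e = e) → IsBlock b →
    b * e ≠ 0 → (∃ z ∈ SubAlg k N, z ∈ Fix (cj k G) Y ∧ e = tr (cj k G) Y N z) →
    ∀ {D : Subgroup G} {a : MonoidAlgebra k G}, a ∈ Fix (cj k G) D →
    b = tr (cj k G) D ⊤ a → Y ≤ D →
    ∃ (H : Type) (_ : Group H) (_ : Finite H) (Z : Subgroup H) (π : H →* G ⧸ N)
      (c : MonoidAlgebra k H), IsBlock c ∧ (∀ z ∈ Z, ∀ h, z * h = h * z) ∧
      ¬ p ∣ Nat.card Z ∧ Z ≤ π.ker ∧ Z.index = Nat.card Y * N.index ∧
      Function.Surjective π ∧ Nat.card π.ker = Nat.card Z * Nat.card Y ∧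
      (P H c → P G b) ∧ Th N π ∧
      ∃ (D' : Subgroup H) (a' : MonoidAlgebra k H), Nat.card D' ≤ Nat.card D ∧
        a' ∈ Fix (cj k H) D' ∧ c = tr (cj k H) D' ⊤ a' ∧
        D' ≤ (D.map (QuotientGroup.mk' N)).comap π

theorem tr_top_top {k : Type u} [Field k] {G : Type} [Group G] [Finite G] {a : MonoidAlgebra k G}
    (ha : a ∈ Fix (cj k G) ⊤) : tr (cj k G) ⊤ ⊤ a = a := by
  rw [tr_of_mem_Fix ha, Subgroup.relIndex_self, Nat.cast_one, one_smul]

/-- The property of `b` to be Morita equivalent over `k` to a member of a family of blocks. -/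
theorem clo_field (k : Type u) [Field k] [IsAlgClosed k] (p : ℕ) [Fact p.Prime] [CharP k p]
    {J : Type} (H : J → Type) [∀ j, Group (H j)] (c : ∀ j, MonoidAlgebra k (H j))
    (hc : ∀ j, IsBlock (c j)) :
    Clo k p (fun G _ b => ∀ hb : IsBlock b, ∃ j, IsMoritaEquivalent k hb.Alg (hc j).Alg) where
  fr := by
    intro G _ _ N _ e b he hb hbe b' hb' hbb' h hb0
    obtain ⟨b'', hb'', hbb'', hM, -⟩ := fong_reynolds he hb hbe (D := ⊤)
      (isBlock_iff.mp hb).mem.2 (tr_top_top (isBlock_iff.mp hb).mem.2).symm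
    have h1 : b'' = b' := incl_injective _ (hbb''.trans hbb'.symm)
    subst h1
    obtain ⟨j, hj⟩ := h hb'
    exact ⟨j, IsMoritaEquivalent.trans k hM hj⟩
  kp := by
    intro G _ _ N Y _ _ hY hYN hYc e b he heG hb hbe heY D a ha hba hYD
    obtain ⟨H', iH, fH, Z, π, d, hd, h1, h2, h3, h4, h5, h6, -, hM, h7, h8⟩ :=
      kp_ext hY hYN hYc he heG hb hbe heY ha hba hYD
    refine ⟨H', iH, fH, Z, π, d, hd, h1, h2, h3, h4, h5, h6, ?_, h7, h8⟩
    intro h hb0
    obtain ⟨j, hj⟩ := h hd
    exact ⟨j, IsMoritaEquivalent.trans k hM hj⟩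

section Integral

open IsLocalRing
open Vale.Agent.P180.I (EO EO_fr)

/-- The property of `b` that its lift is Morita equivalent over `O` to a member of a family. -/
theorem clo_integral (O : Type u) [CommRing O] [IsDomain O] [IsDiscreteValuationRing O]
    [IsAdicComplete (maximalIdeal O) O] [IsAlgClosed (ResidueField O)]
    (p : ℕ) [Fact p.Prime] [CharP (ResidueField O) p]
    {J : Type} (H : J → Type) [∀ j, Group (H j)]
    (c : ∀ j, MonoidAlgebra (ResidueField O) (H j)) :
    Clo (ResidueField O) p (fun G _ b => ∃ j, EO O b (c j)) where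
  fr := by
    intro G _ _ N _ e b he hb hbe b' hb' hbb' h
    obtain ⟨j, hj⟩ := h
    exact ⟨j, (EO_fr he hb hbe hb' hbb').trans hj⟩
  kp := by
    intro G _ _ N Y _ _ hY hYN hYc e b he heG hb hbe heY D a ha hba hYD
    obtain ⟨H', iH, fH, Z, π, d, hd, h1, h2, h3, h4, h5, h6, -, hM, h7, h8⟩ :=
      kpO_ext (O := O) hY hYN hYc he heG hb hbe heY ha hba hYD
    refine ⟨H', iH, fH, Z, π, d, hd, h1, h2, h3, h4, h5, h6, ?_, h7, h8⟩
    rintro ⟨j, hj⟩
    exact ⟨j, hM.trans hj⟩

end Integral

variable {k : Type u} [Field k]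

/-- The state of the reduction. -/
structure St (Q : ∀ (S : Type) [Group S], Prop) (p n m j : ℕ) {G : Type} [Group G] [Finite G]
    (Z X A D : Subgroup G) (a b : MonoidAlgebra k G) : Prop where
  An : A.Normal
  Xn : X.Normal
  Xss : SSP Q X
  XA : X ≤ A
  Dp : IsPGroup p D
  rc : RC p n m X A
  lay : Lay p n m D j A
  ZA : Z ≤ A
  Zc : ∀ z ∈ Z, ∀ g, z * g = g * z
  Zp : ¬ p ∣ Nat.card Z
  hb : IsBlock b
  ha : a ∈ Fix (cj k G) D
  hba : b = tr (cj k G) D ⊤ a
  Dn : Nat.card D ≤ n

/-- All covered blocks of normal subgroups are stable. -/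
def STab {G : Type} [Group G] [Finite G] (b : MonoidAlgebra k G) : Prop :=
  ∀ N : Subgroup G, N.Normal → ∀ e : MonoidAlgebra k G, IsBlockOf N e → b * e ≠ 0 →
    ∀ g, cj k G g e = e

/-- No further reduction inside `A`. -/
def NRed (p : ℕ) {G : Type} [Group G] [Finite G] (Z A : Subgroup G) (b : MonoidAlgebra k G) : Prop :=
  ∀ N Y : Subgroup G, N.Normal → Y.Normal → Z ≤ N → N ≤ A → Y ≤ N →
    IsPGroup p Y → (∀ y ∈ Y, ∀ x ∈ N, y * x = x * y) → ∀ e : MonoidAlgebra k G,
    IsBlockOf N e → b * e ≠ 0 →
    (∃ z ∈ SubAlg k N, z ∈ Fix (cj k G) Y ∧ e = tr (cj k G) Y N z) →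
    Nat.card N = Nat.card Z * Nat.card Y

variable {Q : ∀ (S : Type) [Group S], Prop} {p n : ℕ} [Fact p.Prime] [CharP k p]

theorem X_le_stabE {G : Type} [Group G] [Finite G] {X N : Subgroup G} [hXn : X.Normal]
    [hNn : N.Normal] (hX : SSP Q X) {e : MonoidAlgebra k G} (he : IsBlockOf N e) :
    X ≤ stabE e := by
  refine hX.trans (sSup_le fun S hS => ?_)
  rcases simps_dich N hS with h | h
  · exact h.trans (le_stabE he)
  · intro s hs
    rw [mem_stabE]
    exact cj_eq_self_of_commute he.mem.1 fun a ha => h s hs a ha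

theorem reduce (hQ : IsoInv Q) {P : ∀ (G : Type) [Group G], MonoidAlgebra k G → Prop}
    (hP : Clo k p P) {j m : ℕ} (hpm : p ≤ m)
    (hend : ∀ (G : Type) [Group G] [Finite G] (Z X A D : Subgroup G) (a b : MonoidAlgebra k G),
      St Q p n m j Z X A D a b → STab b → NRed p Z A b → P G b) (i : ℕ) :
    ∀ (G : Type) [Group G] [Finite G] (Z X A D : Subgroup G) (a b : MonoidAlgebra k G),
      St Q p n m j Z X A D a b → Z.index ≤ i → P G b := by
  induction i with
  | zero =>
    intro G _ _ Z X A D a b _ hi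
    exact absurd (Nat.le_zero.mp hi) Z.index_ne_zero_of_finite
  | succ i ih =>
    intro G _ _ Z X A D a b hs hi
    have hAn := hs.An
    have hXn := hs.Xn
    by_cases hST : STab b
    swap
    · unfold STab at hST
      push Not at hST
      obtain ⟨N, hN, e, he, hbe, g, hg⟩ := hST
      obtain ⟨b', hb', hbb', -, x, a', ha', hb'a'⟩ := fong_reynolds he hs.hb hbe hs.ha hs.hba
      refine hP.fr he hs.hb hbe hb' hbb' ?_
      have hZT : Z ≤ stabE e := by
        intro z hz
        rw [mem_stabE]
        exact cj_eq_self_of_commute he.mem.1 fun a _ => hs.Zc z hz a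
      have hXT : X ≤ stabE e := X_le_stabE hs.Xss he
      have hT : (stabE e).index ≠ 1 := by
        rw [Ne, Subgroup.index_eq_one]
        intro h
        apply hg
        rw [← mem_stabE, h]
        exact Subgroup.mem_top g
      have hT0 : (stabE e).index ≠ 0 := Subgroup.index_ne_zero_of_finite
      have hidx : (Z.subgroupOf (stabE e)).index ≤ i := by
        have h1 : Z.relIndex (stabE e) * (stabE e).index = Z.index :=
          Subgroup.relIndex_mul_index hZT
        have h2 : (Z.subgroupOf (stabE e)).index ≠ 0 := Subgroup.index_ne_zero_of_finite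
        have h3 : Z.relIndex (stabE e) * 2 ≤ Z.relIndex (stabE e) * (stabE e).index :=
          Nat.mul_le_mul_left _ (by omega)
        change Z.relIndex (stabE e) ≠ 0 at h2
        change Z.relIndex (stabE e) ≤ i
        omega
      have hDp : IsPGroup p ((conjS x D).subgroupOf (stabE e)) := by
        rintro ⟨⟨w, hwT⟩, hw⟩
        rw [Subgroup.mem_subgroupOf, mem_conjS] at hw
        obtain ⟨r, hr⟩ := hs.Dp ⟨_, hw⟩
        refine ⟨r, Subtype.ext (Subtype.ext ?_)⟩
        have h3 : (x⁻¹ * w * x) ^ (p ^ r) = 1 := congrArg Subtype.val hr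
        have h4 : (x⁻¹ * w * (x⁻¹)⁻¹) ^ (p ^ r) = 1 := by rwa [inv_inv]
        rw [conj_pow] at h4
        change w ^ (p ^ r) = 1
        calc w ^ (p ^ r) = x * (x⁻¹ * w ^ (p ^ r) * (x⁻¹)⁻¹) * x⁻¹ := by group
          _ = 1 := by rw [h4, mul_one, mul_inv_cancel]
      refine ih (stabE e) (Z.subgroupOf (stabE e)) (X.subgroupOf (stabE e))
        (A.subgroupOf (stabE e)) ((conjS x D).subgroupOf (stabE e)) a' b' ?_ hidx
      exact
        { An := inferInstance
          Xn := inferInstance
          Xss := SSP.of_map hQ (stabE e).subtype (fun x _ hx => Subtype.ext hx) (by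
            rw [Subgroup.map_subgroupOf_eq_of_le hXT]
            exact hs.Xss)
          XA := Subgroup.comap_mono hs.XA
          Dp := hDp
          rc := hs.rc.subgroupOf _
          lay := hs.lay.subgroupOf (stabE e) x hAn
          ZA := Subgroup.comap_mono hs.ZA
          Zc := fun z hz g => Subtype.ext (hs.Zc _ hz g)
          Zp := by
            rw [Nat.card_congr (Subgroup.subgroupOfEquivOfLe hZT).toEquiv]
            exact hs.Zp
          hb := hb'
          ha := ha'
          hba := hb'a'
          Dn := (card_subgroupOf_conjS_le _ x D).trans hs.Dn }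
    · by_cases hNR : NRed p Z A b
      swap
      · unfold NRed at hNR
        push Not at hNR
        obtain ⟨N, Y, hN, hYn, hZN, hNA, hYN, hY, hYc, e, he, hbe, hez, hcard⟩ := hNR
        have hYD : Y ≤ D := op_le p hY hs.hb.idem hs.hb.ne_zero hs.ha hs.hba
        obtain ⟨H, iH, fH, Z', π, c, hc, hZ', hpZ', hZπ, hidx', hπ, hker, hMo, hTh, D', a', hD',
          ha', hca', hD'M⟩ := hP.kp hY hYN hYc he (hST N hN e he hbe) hs.hb hbe hez hs.ha hs.hba
            hYD
        apply hMo
        have hidx : Z'.index ≤ i := by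
          have h1 : Nat.card Z * Nat.card Y ≤ Nat.card N := by
            rw [← card_sup_eq hs.Zp hY]
            exact Nat.card_le_card_of_injective _
              (Subgroup.inclusion_injective (sup_le hZN hYN))
          have h2 : Nat.card Z * Nat.card Y < Nat.card N :=
            lt_of_le_of_ne h1 (Ne.symm hcard)
          have h3 := Subgroup.card_mul_index N
          have h4 := Subgroup.card_mul_index Z
          have h5 : 0 < N.index := Nat.pos_of_ne_zero Subgroup.index_ne_zero_of_finite
          have h6 : Nat.card Z * (Nat.card Y * N.index) < Nat.card Z * Z.index := by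
            rw [h4, ← h3, ← mul_assoc]
            exact Nat.mul_lt_mul_of_pos_right h2 h5
          have h7 := Nat.lt_of_mul_lt_mul_left h6
          omega
        obtain ⟨P', hPD, hP', a'', ha'', hca''⟩ := exists_sylow_trace (p := p) ha' hca'
        obtain ⟨X', hX'n, hX's, hX'A, hX'R⟩ := kp_state (p := p) (q := n) (m := m) hpm hQ
          (X := X) (N := N) hs.Xss hTh hNA hs.XA (RC.of_le le_sup_left hs.rc) hY hZ' hZπ hker
        refine ih H Z' X' (pull N π A) P' a'' c ?_ hidx
        have hAn' : (A.map (QuotientGroup.mk' N)).Normal :=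
          Subgroup.Normal.map hAn _ (QuotientGroup.mk'_surjective N)
        exact
          { An := inferInstance
            Xn := hX'n
            Xss := hX's
            XA := hX'A
            Dp := hP'
            rc := hX'R
            lay := (hs.lay.pull π hD'M hNA).mono_D hPD
            ZA := by
              refine hZπ.trans ?_
              intro h hh
              exact mem_pull.mpr ⟨1, A.one_mem, (map_one _).trans (MonoidHom.mem_ker.mp hh).symm⟩
            Zc := hZ'
            Zp := hpZ'
            hb := hc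
            ha := ha''
            hba := hca''
            Dn := ((Nat.card_le_card_of_injective _ (Subgroup.inclusion_injective hPD)).trans
              hD').trans hs.Dn }
      · exact hend G Z X A D a b hs hST hNR

end Vale.Agent.P180.R2.H47
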