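import Vale.Agent.P180.R2.H47.TermK

set_option linter.all false

/-!
P180: the index of `E C_G(E)` for a product `E` of pairwise commuting subgroups permuted by `G`.
-/

namespace Vale.Agent.P180.R2.H47

open Subgroup

open scoped Nat

section Idx

variable {G : Type} [Group G] [Finite G] {𝒯 : Set (Subgroup G)}

theorem actSet_ker_le (hconj : ∀ S ∈ 𝒯, ∀ g : G, S.map (MulAut.conj g).toMonoidHom ∈ 𝒯)
    {S : Subgroup G} (hS : S ∈ 𝒯) : (actSet 𝒯 hconj).ker ≤ normalizer (S : Set G) := by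
  intro g hg
  rw [MonoidHom.mem_ker] at hg
  have h0 : actSet 𝒯 hconj g ⟨S, hS⟩ = ⟨S, hS⟩ := by rw [hg]; rfl
  have h1 : S.map (MulAut.conj g).toMonoidHom = S := congrArg Subtype.val h0
  rw [mem_normalizer_iff]
  intro x
  rw [← h1, mem_map_conj', mem_map_conj']
  have e : g⁻¹ * (g * x * g⁻¹) * g = x := by group
  rw [e, ← mem_map_conj', h1]

theorem exists_inner_set
    (hcomm : ∀ S ∈ 𝒯, ∀ T ∈ 𝒯, S ≠ T → ∀ x ∈ S, ∀ y ∈ T, x * y = y * x) {g : G}
    (s : Finset (Subgroup G)) (hs : ∀ S ∈ s, S ∈ 𝒯)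
    (hg : ∀ S ∈ s, g ∈ S ⊔ centralizer (S : Set G)) :
    ∃ x ∈ sSup 𝒯, (∀ S ∈ s, ∀ y ∈ S, x * y * x⁻¹ = g * y * g⁻¹) ∧
      ∀ S ∈ 𝒯, S ∉ s → ∀ y ∈ S, x * y = y * x := by
  classical
  induction s using Finset.induction_on with
  | empty =>
    refine ⟨1, (sSup 𝒯).one_mem, by simp, ?_⟩
    intro S _ _ y _
    rw [one_mul, mul_one]
  | insert S s hSs ih =>
    obtain ⟨x, hx, h1, h2⟩ := ih (fun S hS => hs S (Finset.mem_insert_of_mem hS))
      (fun S hS => hg S (Finset.mem_insert_of_mem hS))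
    have hS := hs S (Finset.mem_insert_self _ _)
    obtain ⟨a, ha, c, hc, hac⟩ := Vale.Agent.P180.mem_sup_of_commute (fun a ha b hb =>
      (mem_centralizer_iff.mp hb a ha)) (hg S (Finset.mem_insert_self _ _))
    have hgS : ∀ y ∈ S, g * y * g⁻¹ = a * y * a⁻¹ := by
      intro y hy
      rw [← hac]
      have h3 := mem_centralizer_iff.mp hc y hy
      calc a * c * y * (a * c)⁻¹ = a * (c * y) * c⁻¹ * a⁻¹ := by group
        _ = a * (y * c) * c⁻¹ * a⁻¹ := by rw [h3]
        _ = a * y * a⁻¹ := by group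
    refine ⟨x * a, mul_mem hx (le_sSup hS ha), ?_, ?_⟩
    · intro S' hS' y hy
      rcases Finset.mem_insert.mp hS' with rfl | hS's
      · have h3 : x * (a * y * a⁻¹) = a * y * a⁻¹ * x := h2 S' hS hSs _
          (S'.mul_mem (S'.mul_mem ha hy) (S'.inv_mem ha))
        rw [hgS y hy]
        calc x * a * y * (x * a)⁻¹ = x * (a * y * a⁻¹) * x⁻¹ := by group
          _ = a * y * a⁻¹ * x * x⁻¹ := by rw [h3]
          _ = a * y * a⁻¹ := by group
      · have hne : S ≠ S' := fun h => hSs (by rw [h]; exact hS's)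
        have h3 : a * y = y * a := hcomm S hS S' (hs S' hS') hne a ha y hy
        rw [← h1 S' hS's y hy]
        calc x * a * y * (x * a)⁻¹ = x * (a * y) * a⁻¹ * x⁻¹ := by group
          _ = x * (y * a) * a⁻¹ * x⁻¹ := by rw [h3]
          _ = x * y * x⁻¹ := by group
    · intro S' hS' hS's y hy
      rw [Finset.mem_insert, not_or] at hS's
      have h3 : a * y = y * a := hcomm S hS S' hS' (Ne.symm hS's.1) a ha y hy
      have h4 := h2 S' hS' hS's.2 y hy
      calc x * a * y = x * (a * y) := by group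
        _ = x * (y * a) := by rw [h3]
        _ = x * y * a := by group
        _ = y * x * a := by rw [h4]
        _ = y * (x * a) := by group

/-- **(E2)** -/
theorem index_sSup_le (hconj : ∀ S ∈ 𝒯, ∀ g : G, S.map (MulAut.conj g).toMonoidHom ∈ 𝒯)
    (hcomm : ∀ S ∈ 𝒯, ∀ T ∈ 𝒯, S ≠ T → ∀ x ∈ S, ∀ y ∈ T, x * y = y * x) {c : ℕ}
    (hc : ∀ S ∈ 𝒯, (S ⊔ centralizer (S : Set G)).relIndex (normalizer (S : Set G)) ≤ c) :
    (sSup 𝒯 ⊔ centralizer ((sSup 𝒯 : Subgroup G) : Set G)).index ≤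
      (Nat.card 𝒯)! * c ^ Nat.card 𝒯 := by
  classical
  have : Fintype 𝒯 := Fintype.ofFinite _
  set X := sSup 𝒯 with hX
  set K₀ := (actSet 𝒯 hconj).ker with hK₀
  let I : Subgroup G := ⨅ S : 𝒯, ((S : Subgroup G) ⊔ centralizer ((S : Subgroup G) : Set G))
  have h1 : I ⊓ K₀ ≤ X ⊔ centralizer (X : Set G) := by
    intro g hg
    have hg1 : ∀ S ∈ 𝒯, g ∈ S ⊔ centralizer (S : Set G) :=
      fun S hS => (mem_iInf.mp hg.1) ⟨S, hS⟩
    have hfin : 𝒯.Finite := Set.toFinite _
    obtain ⟨x, hx, h2, -⟩ := exists_inner_set hcomm (g := g) hfin.toFinset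
      (fun S hS => hfin.mem_toFinset.mp hS) (fun S hS => hg1 S (hfin.mem_toFinset.mp hS))
    have h3 : x⁻¹ * g ∈ centralizer (X : Set G) := by
      have h4 : X ≤ centralizer ({x⁻¹ * g} : Set G) := by
        refine sSup_le fun S hS y hy => ?_
        rw [mem_centralizer_singleton_iff]
        have h5 := h2 S (hfin.mem_toFinset.mpr hS) y hy
        calc y * (x⁻¹ * g) = x⁻¹ * (x * y * x⁻¹) * g := by group
          _ = x⁻¹ * (g * y * g⁻¹) * g := by rw [h5]
          _ = x⁻¹ * g * y := by group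
      rw [mem_centralizer_iff]
      intro y hy
      exact mem_centralizer_singleton_iff.mp (h4 hy)
    have h6 : g = x * (x⁻¹ * g) := by group
    rw [h6]
    exact mul_mem_sup hx h3
  have h2 : (X ⊔ centralizer (X : Set G)).index ≤ (I ⊓ K₀).index :=
    Nat.le_of_dvd (Nat.pos_of_ne_zero index_ne_zero_of_finite) (index_dvd_of_le h1)
  have h3 : (I ⊓ K₀).index = I.relIndex K₀ * K₀.index := by
    rw [← relIndex_mul_index (inf_le_right : I ⊓ K₀ ≤ K₀), inf_relIndex_right]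
  have h4 : I.relIndex K₀ ≤ c ^ Nat.card 𝒯 := by
    refine (relIndex_iInf_le _).trans ?_
    rw [Nat.card_eq_fintype_card, ← Finset.card_univ, ← Finset.prod_const]
    refine Finset.prod_le_prod' fun S _ => ?_
    exact (relIndex_le_of_le_right (actSet_ker_le hconj S.2)
      index_ne_zero_of_finite).trans (hc S S.2)
  have h5 : K₀.index ≤ (Nat.card 𝒯)! := by
    rw [hK₀, index_ker]
    refine (Nat.card_le_card_of_injective _ Subtype.val_injective).trans ?_
    rw [Nat.card_perm]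
  rw [h3, mul_comm] at h2
  exact h2.trans (Nat.mul_le_mul h5 h4)

end Idx

end Vale.Agent.P180.R2.H47
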