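import Vale.Agent.P180.R2.H47.Cnt

set_option linter.all false

/-!
P180: the induction on the layers above a normal direct product of simple groups.
-/

namespace Vale.Agent.P180.R2.H47

open Vale.Agent.P180 Vale.Agent.P180.H768.Gd
open Vale.Agent.P180.H768 hiding pull mem_pull exists_factor Lay mk_mem comm_mem

open scoped Nat commutatorElement

universe u

section Grp

variable {G : Type} [Group G] [Finite G] {p q m : ℕ} [Fact p.Prime]

theorem RC_X (hpm : p ≤ m) {Z X A C B : Subgroup G} [Z.Normal] [X.Normal] [A.Normal] [C.Normal]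
    [B.Normal] (hXC : X ≤ C) (hZ : ∀ z ∈ Z, ∀ g, z * g = g * z) {β γ : ℕ}
    (hβ : Z.relIndex (A ⊓ Subgroup.centralizer (X : Set G)) ≤ β)
    (hγ : (X ⊔ Subgroup.centralizer (X : Set G)).index ≤ γ) (h : RC p q m C B) :
    RC p q (max m (max (β !) γ))
      (X ⊔ NN (A ⊓ Subgroup.centralizer (X : Set G)) (C ⊓ Subgroup.centralizer (X : Set G))) B := by
  obtain ⟨m', hm'⟩ : ∃ m', m' = max m (max (β !) γ) := ⟨_, rfl⟩
  rw [← hm']
  have h0 : m ≤ m' := by rw [hm']; exact le_max_left _ _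
  have h0β : β ! ≤ m' := by rw [hm']; exact (le_max_left _ _).trans (le_max_right _ _)
  have h0γ : γ ≤ m' := by rw [hm']; exact (le_max_right _ _).trans (le_max_right _ _)
  have hpm' : p ≤ m' := hpm.trans h0
  obtain ⟨A₀, hA₀⟩ : ∃ A₀, A₀ = A ⊓ Subgroup.centralizer (X : Set G) := ⟨_, rfl⟩
  obtain ⟨C₁, hC₁⟩ : ∃ C₁, C₁ = C ⊓ Subgroup.centralizer (X : Set G) := ⟨_, rfl⟩
  have hA₀n : A₀.Normal := by rw [hA₀]; infer_instance
  have hC₁n : C₁.Normal := by rw [hC₁]; infer_instance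
  rw [← hA₀] at hβ ⊢
  rw [← hC₁]
  have h1 : RC p q m' (NN A₀ C₁) (XX A₀ C₁) := by
    refine RC.of_rcls (RCls.of_comm hpm' ?_)
    intro x hx y hy
    have := Subgroup.commutator_mem_commutator hx hy
    rwa [commutatorElement_def] at this
  have h2 : RC p q m' (XX A₀ C₁) (actTriv Z A₀ ⊓ C₁) := RC.of_rcls (RCls_actTriv hpm' hZ)
  have h3 : RC p q m' (actTriv Z A₀ ⊓ C₁) C₁ :=
    RC.of_rcls (RCls.of_index (K₀ := actTriv Z A₀) ((actTriv_index hβ).trans h0β) le_rfl)
  have h4 : RC p q m' (X ⊔ C₁) C := by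
    refine RC.of_rcls (RCls.of_index (K₀ := X ⊔ Subgroup.centralizer (X : Set G))
      (hγ.trans h0γ) ?_)
    intro x hx
    obtain ⟨hx1, hx2⟩ := Subgroup.mem_inf.mp hx
    obtain ⟨y, hy, c, hc, rfl⟩ := Subgroup.mem_sup_of_normal_left.mp hx1
    refine Subgroup.mul_mem_sup hy ?_
    rw [hC₁]
    refine Subgroup.mem_inf.mpr ⟨?_, hc⟩
    have := C.mul_mem (C.inv_mem (hXC hy)) hx2
    rwa [inv_mul_cancel_left] at this
  have h5 : RC p q m' C B := h.mono h0
  exact ((((RC_sup h1).trans (RC_sup h2)).trans (RC_sup h3)).trans h4).trans h5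

end Grp

variable {k : Type u} [Field k] {p n : ℕ} [Fact p.Prime] [CharP k p]
variable {Q : ∀ (S : Type) [Group S], Prop}

theorem centralizer_bound {j m : ℕ} {G : Type} [Group G] [Finite G]
    {Z X A D : Subgroup G} {a b : MonoidAlgebra k G} (hs : St Q p n m j Z X A D a b)
    (hST : STab b) (hNR : NRed p Z A b) :
    Z.relIndex (A ⊓ Subgroup.centralizer (X : Set G)) ≤ bd n m := by
  have hAn := hs.An
  have hXn := hs.Xn
  refine caseB_bound (B := A ⊓ Subgroup.centralizer (X : Set G)) ?_ ?_ hs.Zc hs.Zp hs.Dp hs.hb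
    hs.ha hs.hba hs.Dn hST ?_
  · refine RC_inf_centralizer ?_ hs.rc
    intro x hx hc
    exact hs.Xss.eq_one hx fun S hS y hy => hc y (hS.1 hy)
  · refine le_inf hs.ZA ?_
    intro z hz
    rw [Subgroup.mem_centralizer_iff]
    intro x _
    exact (hs.Zc z hz x).symm
  · intro N Y h1 h2 h3 h4
    exact hNR N Y h1 h2 h3 (h4.trans inf_le_left)

/-- One layer. -/
theorem layer (hQ : IsoInv Q) {P : ∀ (G : Type) [Group G], MonoidAlgebra k G → Prop}
    (hP : Clo k p P) {j m γ : ℕ} (hpm : p ≤ m) {G : Type} [Group G] [Finite G]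
    {Z X A D : Subgroup G} {a b : MonoidAlgebra k G}
    (hs : St Q p n m (j + 1) Z X A D a b) (hST : STab b) (hNR : NRed p Z A b)
    (hγ : (X ⊔ Subgroup.centralizer (X : Set G)).index ≤ γ)
    (hrec : ∀ (H : Type) [Group H] [Finite H] (Z' X' A' D' : Subgroup H) (a' c : MonoidAlgebra k H),
      St Q p n (max m (max ((bd n m) !) γ)) j Z' X' A' D' a' c → P H c) : P G b := by
  have hAn := hs.An
  have hXn := hs.Xn
  have hZn : Z.Normal := by
    constructor
    intro z hz g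
    rw [← hs.Zc z hz g, mul_inv_cancel_right]
    exact hz
  have hbB := isBlock_iff.mp hs.hb
  obtain ⟨C, B, hCn, hBn, hAC, hCB, hcen, hRB, hrest⟩ := hs.lay
  have hXC : X ≤ C := hs.XA.trans hAC
  have hβ := centralizer_bound hs hST hNR
  have hRN := RC_X (A := A) hpm hXC hs.Zc hβ hγ hRB
  obtain ⟨A₀, hA₀⟩ : ∃ A₀, A₀ = A ⊓ Subgroup.centralizer (X : Set G) := ⟨_, rfl⟩
  obtain ⟨C₁, hC₁⟩ : ∃ C₁, C₁ = C ⊓ Subgroup.centralizer (X : Set G) := ⟨_, rfl⟩
  have hA₀n : A₀.Normal := by rw [hA₀]; infer_instance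
  have hC₁n : C₁.Normal := by rw [hC₁]; infer_instance
  rw [← hA₀, ← hC₁] at hRN
  obtain ⟨N, hNdef⟩ : ∃ N, N = NN A₀ C₁ := ⟨_, rfl⟩
  rw [← hNdef] at hRN
  have hNn : N.Normal := by rw [hNdef]; infer_instance
  have hNB : N ≤ B := by
    rw [hNdef]
    refine (((NN_le_XX A₀ C₁).trans inf_le_left).trans ?_).trans hCB
    rw [hC₁]
    exact inf_le_left
  have hND : ∀ x ∈ D, x ∈ N → ∀ y ∈ N, x * y = y * x := by
    rw [hNdef]
    refine central_NN ?_
    intro x hx hxC y hyC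
    rw [hC₁] at hxC hyC
    rw [hA₀]
    obtain ⟨hx1, hx2⟩ := Subgroup.mem_inf.mp hxC
    obtain ⟨hy1, hy2⟩ := Subgroup.mem_inf.mp hyC
    refine Subgroup.mem_inf.mpr ⟨hcen x hx hx1 y hy1, ?_⟩
    exact Subgroup.mul_mem _ (Subgroup.mul_mem _ (Subgroup.mul_mem _ hx2 hy2)
      (Subgroup.inv_mem _ hx2)) (Subgroup.inv_mem _ hy2)
  obtain ⟨e, he, hbe⟩ := exists_isPrimIn (ZAlg k N) (by exact ZAlg_comm) hs.hb.ne_zero
  have hcomm : e * b = b * e := commute_of_mem (SubAlg_top e) hbB.mem.2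
  obtain ⟨x, z, hz, hzF, hez⟩ := covering he hs.hb.idem (by rwa [hcomm]) hs.ha hs.hba
  have hYn : (pZ p N).Normal := pZ_normal p hNn
  have hRY : N ⊓ conjS x D ≤ pZ p N := by
    intro w hw
    obtain ⟨hwN, hwD⟩ := Subgroup.mem_inf.mp hw
    rw [mem_conjS] at hwD
    refine ⟨hwN, fun n hn => ?_, ?_⟩
    · have h1 : x⁻¹ * n * x ∈ N := by
        have := hNn.conj_mem n hn x⁻¹
        simpa using this
      have h1' : x⁻¹ * w * x ∈ N := by
        have := hNn.conj_mem w hwN x⁻¹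
        simpa using this
      have h2 := hND _ hwD h1' _ h1
      calc w * n = x * ((x⁻¹ * w * x) * (x⁻¹ * n * x)) * x⁻¹ := by group
        _ = x * ((x⁻¹ * n * x) * (x⁻¹ * w * x)) * x⁻¹ := by rw [h2]
        _ = n * w := by group
    · obtain ⟨m, hm⟩ := hs.Dp ⟨_, hwD⟩
      refine ⟨m, ?_⟩
      have h3 : (x⁻¹ * w * x) ^ (p ^ m) = 1 := congrArg Subtype.val hm
      have h4 : (x⁻¹ * w * (x⁻¹)⁻¹) ^ (p ^ m) = 1 := by rwa [inv_inv]
      rw [conj_pow] at h4
      calc w ^ (p ^ m) = x * (x⁻¹ * w ^ (p ^ m) * (x⁻¹)⁻¹) * x⁻¹ := by group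
        _ = 1 := by rw [h4, mul_one, mul_inv_cancel]
  have hYN : pZ p N ≤ N := fun w hw => hw.1
  have hYc : ∀ y ∈ pZ p N, ∀ x ∈ N, y * x = x * y := fun y hy => hy.2.1
  have hYp : IsPGroup p (pZ p N) := by
    rintro ⟨w, hw⟩
    obtain ⟨m, hm⟩ := hw.2.2
    exact ⟨m, Subtype.ext hm⟩
  have hYD : pZ p N ≤ D := op_le p hYp hs.hb.idem hs.hb.ne_zero hs.ha hs.hba
  obtain ⟨H, iH, fH, Z', π, c, hc, hZ', hpZ', hZπ, -, hπ, hker, hMo, hTh, D', a', hD',
    ha', hca', hD'M⟩ := hP.kp hYp hYN hYc he (hST N hNn e he hbe) hs.hb hbe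
      ⟨tr (cj k G) (N ⊓ conjS x D) (pZ p N) z, KP.tr_mem_SubAlg hz, tr_mem_Fix hzF, by
        rw [tr_tr hzF hRY hYN]
        exact hez⟩ hs.ha hs.hba hYD
  apply hMo
  obtain ⟨P', hPD, hP', a'', ha'', hca''⟩ := exists_sylow_trace (p := p) ha' hca'
  have hpm' : p ≤ max m (max ((bd n m) !) γ) := hpm.trans (le_max_left _ _)
  obtain ⟨X', hX'n, hX's, hX'A, hX'R⟩ := kp_state (p := p) (q := n)
    (m := max m (max ((bd n m) !) γ)) hpm' hQ
    (X := X) (N := N) hs.Xss hTh hNB (hXC.trans hCB) hRN hYp hZ' hZπ hker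
  have hBn' : (B.map (QuotientGroup.mk' N)).Normal :=
    Subgroup.Normal.map hBn _ (QuotientGroup.mk'_surjective N)
  refine hrec H Z' X' (pull N π B) P' a'' c ?_
  exact
    { An := inferInstance
      Xn := hX'n
      Xss := hX's
      XA := hX'A
      Dp := hP'
      rc := hX'R
      lay := ((hrest.pull π hD'M hNB).mono (le_max_left _ _)).mono_D hPD
      ZA := by
        refine hZπ.trans ?_
        intro h hh
        exact mem_pull.mpr ⟨1, B.one_mem, (map_one _).trans (MonoidHom.mem_ker.mp hh).symm⟩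
      Zc := hZ'
      Zp := hpZ'
      hb := hc
      ha := ha''
      hba := hca''
      Dn := ((Nat.card_le_card_of_injective _ (Subgroup.inclusion_injective hPD)).trans
        hD').trans hs.Dn }

/-- The terminal configuration. -/
structure Term (Q : ∀ (S : Type) [Group S], Prop) (p n β : ℕ) {G : Type} [Group G] [Finite G]
    (Z X D : Subgroup G) (a b : MonoidAlgebra k G) : Prop where
  Xn : X.Normal
  Xss : SSP Q X
  Dp : IsPGroup p D
  Zc : ∀ z ∈ Z, ∀ g, z * g = g * z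
  Zp : ¬ p ∣ Nat.card Z
  hb : IsBlock b
  ha : a ∈ Fix (cj k G) D
  hba : b = tr (cj k G) D ⊤ a
  Dn : Nat.card D ≤ n
  st : STab b
  idx : (Z ⊔ X).index ≤ β
  cnt : Nat.card (simps Q X) ≤ n

/-- The bound for the sections after `j` layers. -/
def MF (n γ : ℕ) : ℕ → ℕ → ℕ
  | 0, m => m
  | j + 1, m => MF n γ j (max m (max ((bd n m) !) γ))

theorem index_le_of {G : Type} [Group G] [Finite G] {Z X : Subgroup G} [Z.Normal] [X.Normal]
    {β γ : ℕ} (hβ : Z.relIndex (Subgroup.centralizer (X : Set G)) ≤ β)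
    (hγ : (X ⊔ Subgroup.centralizer (X : Set G)).index ≤ γ)
    (hZ : ∀ z ∈ Z, ∀ g, z * g = g * z) : (Z ⊔ X).index ≤ β * γ := by
  have hZC : Z ≤ Subgroup.centralizer (X : Set G) := by
    intro z hz
    rw [Subgroup.mem_centralizer_iff]
    intro x _
    exact (hZ z hz x).symm
  have h1 : Z ⊔ X ≤ X ⊔ Subgroup.centralizer (X : Set G) :=
    sup_le (hZC.trans le_sup_right) le_sup_left
  rw [← Subgroup.relIndex_mul_index h1]
  refine Nat.mul_le_mul ?_ hγ
  refine le_trans ?_ hβ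
  -- `X C / X Z` is a quotient of `C / Z`
  have h2 : X ⊔ Subgroup.centralizer (X : Set G) = (Z ⊔ X) ⊔ Subgroup.centralizer (X : Set G) := by
    apply le_antisymm
    · exact sup_le (le_sup_right.trans le_sup_left) le_sup_right
    · exact sup_le h1 le_sup_right
  have h3 : (Z ⊔ X).relIndex (X ⊔ Subgroup.centralizer (X : Set G)) =
      (Z ⊔ X).relIndex (Subgroup.centralizer (X : Set G)) := by
    rw [h2, sup_comm (Z ⊔ X), Subgroup.relIndex_sup_right]
  rw [h3]
  refine Nat.le_of_dvd (Nat.pos_of_ne_zero Subgroup.index_ne_zero_of_finite) ?_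
  exact Subgroup.relIndex_dvd_of_le_left _ le_sup_left

theorem main (hQ : IsoInv Q) {P : ∀ (G : Type) [Group G], MonoidAlgebra k G → Prop}
    (hP : Clo k p P) {γ : ℕ}
    (hγ : ∀ (G : Type) [Group G] [Finite G] (X : Subgroup G) [X.Normal], SSP Q X →
      Nat.card (simps Q X) ≤ n → (X ⊔ Subgroup.centralizer (X : Set G)).index ≤ γ) (j : ℕ) :
    ∀ (m : ℕ), p ≤ m →
    (∀ (G : Type) [Group G] [Finite G] (Z X D : Subgroup G) (a b : MonoidAlgebra k G),
      Term Q p n (bd n (MF n γ j m) * γ) Z X D a b → P G b) →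
    ∀ (G : Type) [Group G] [Finite G] (Z X A D : Subgroup G) (a b : MonoidAlgebra k G),
      St Q p n m j Z X A D a b → P G b := by
  induction j with
  | zero =>
    intro m hpm hend G _ _ Z X A D a b hs
    refine reduce hQ hP hpm ?_ Z.index G Z X A D a b hs le_rfl
    intro G _ _ Z X A D a b hs hST hNR
    have hXn := hs.Xn
    have hAtop : A = ⊤ := hs.lay
    have hZn : Z.Normal := by
      constructor
      intro z hz g
      rw [← hs.Zc z hz g, mul_inv_cancel_right]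
      exact hz
    have hcnt := card_simps_le hQ hs hST hNR
    have hβ := centralizer_bound hs hST hNR
    rw [hAtop, top_inf_eq] at hβ
    refine hend G Z X D a b ?_
    exact
      { Xn := hXn
        Xss := hs.Xss
        Dp := hs.Dp
        Zc := hs.Zc
        Zp := hs.Zp
        hb := hs.hb
        ha := hs.ha
        hba := hs.hba
        Dn := hs.Dn
        st := hST
        idx := index_le_of hβ (hγ G X hs.Xss hcnt) hs.Zc
        cnt := hcnt }
  | succ j ih =>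
    intro m hpm hend G _ _ Z X A D a b hs
    refine reduce hQ hP hpm ?_ Z.index G Z X A D a b hs le_rfl
    intro G _ _ Z X A D a b hs hST hNR
    have hXn := hs.Xn
    have hcnt := card_simps_le hQ hs hST hNR
    exact layer hQ hP hpm hs hST hNR (hγ G X hs.Xss hcnt)
      (ih (max m (max ((bd n m) !) γ)) (hpm.trans (le_max_left _ _)) hend)

end Vale.Agent.P180.R2.H47
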