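import Vale.Agent.P180.R2.H47.AltStr
import Vale.Agent.P180.R2.H47.Lyr

set_option linter.all false

/-!
P180: the local statement about the terminal configuration.
-/

namespace Vale.Agent.P180.R2.H47

open Vale.Agent.P180

universe u

/-- Alternating groups of degree at least `7`. -/
def QA (S : Type) [Group S] : Prop := ∃ d : ℕ, 7 ≤ d ∧ Nonempty (S ≃* alternatingGroup (Fin d))

theorem isoInv_QA : IsoInv QA := by
  rintro S T _ _ ⟨e⟩ ⟨d, hd, ⟨f⟩⟩
  exact ⟨d, hd, ⟨e.symm.trans f⟩⟩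

/-- The local statement: in the terminal configuration there is an idempotent with a corner of
dimension at most `C` from which the block is obtained as a relative trace. -/
def LOC (p n β C : ℕ) : Prop :=
  ∀ (k : Type u) [Field k] [IsAlgClosed k] [CharP k p] (G : Type) [Group G] [Finite G]
    (𝒜 : AltStr G) (Z D : Subgroup G) (a b : MonoidAlgebra k G), 𝒜.r ≤ n → (∀ j, 7 ≤ 𝒜.N j) →
    𝒜.ρ.ker = Subgroup.centralizer (𝒜.ι.range : Set G) → (∀ z ∈ Z, ∀ g, z * g = g * z) →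
    ¬ p ∣ Nat.card Z → (Z ⊔ 𝒜.ι.range).index ≤ β → IsBlock b → IsPGroup p D → Nat.card D ≤ n →
    a ∈ Fix (cj k G) D → b = tr (cj k G) D ⊤ a → STab b →
    ∃ (P : Subgroup G) (_ : P ≤ D) (i : MonoidAlgebra k G) (hi : IsIdempotentElem i),
      i ∈ Fix (cj k G) P ∧ b * i = i ∧
      (∃ (m : ℕ) (u v : Fin m → MonoidAlgebra k G), (∀ l, u l ∈ Fix (cj k G) P) ∧
        (∀ l, v l ∈ Fix (cj k G) P) ∧ b = tr (cj k G) P ⊤ (∑ l, u l * i * v l)) ∧
      Module.finrank k hi.Corner ≤ C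

/-- The statement on a normal direct product of alternating groups of degree at least `7`. -/
def ALT : Prop :=
  ∀ (G : Type) [Group G] [Finite G] (X : Subgroup G) [X.Normal], SSP QA X →
    (∃ 𝒜 : AltStr G, 𝒜.r = Nat.card (simps QA X) ∧ (∀ j, 7 ≤ 𝒜.N j) ∧ 𝒜.ι.range = X ∧
      𝒜.ρ.ker = Subgroup.centralizer (X : Set G)) ∧
    (X ⊔ Subgroup.centralizer (X : Set G)).index ≤
      (Nat.card (simps QA X)).factorial * 2 ^ Nat.card (simps QA X)

end Vale.Agent.P180.R2.H47
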