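import Vale.Agent.P180.R2.H47.Lyr
import Vale.Agent.P180.R2.H259.Unif
import Vale.Agent.P180.H768.Final
import Vale.Agent.P180.Int.Ser

set_option linter.all false

/-!
P180: the final assembly, for a class of simple groups whose terminal configurations have a small
corner.
-/

namespace Vale.Agent.P180.R2.H47

open IsLocalRing
open Vale.Agent.P180 Vale.Agent.P180.H768.Gd Vale.Agent.P180.R2.H259
open Vale.Agent.P180.I (EO rd Lf isBlock_rd isBlockR_of_lf exists_trace_rd isBlockR_iff exists_lf)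
open Vale.Agent.P180.H768 hiding pull mem_pull exists_factor Lay mk_mem comm_mem

open scoped Nat

universe u

variable (Q : ∀ (S : Type) [Group S], Prop)

/-- The terminal configurations have a small corner. -/
def LocT (k : Type u) [Field k] (p n β C : ℕ) : Prop :=
  ∀ (G : Type) [Group G] [Finite G] (Z X D : Subgroup G) (a b : MonoidAlgebra k G),
    Term Q p n β Z X D a b → ∃ (P : Subgroup G) (i : MonoidAlgebra k G)
      (hi : IsIdempotentElem i), Nat.card P ≤ n ∧ i ∈ Fix (cj k G) P ∧ b * i = i ∧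
      Gen P b i ∧ Module.finrank k hi.Corner ≤ C

/-- The index of `X C_G(X)` is bounded. -/
def IndB (n γ : ℕ) : Prop :=
  ∀ (G : Type) [Group G] [Finite G] (X : Subgroup G) [X.Normal], SSP Q X →
    Nat.card (simps Q X) ≤ n → (X ⊔ Subgroup.centralizer (X : Set G)).index ≤ γ

variable {Q} {p n m : ℕ} [Fact p.Prime]

theorem gen_of_tr1 {k : Type u} [Field k] {G : Type} [Group G] [Finite G] {R : Subgroup G}
    {b i : MonoidAlgebra k G} (hi : i ∈ Fix (cj k G) R)
    (h : ∃ w ∈ Fix (cj k G) R, b = tr (cj k G) R ⊤ (i * w)) : Gen R b i := by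
  obtain ⟨w, hw, hb⟩ := h
  refine gen_of_tr (n := 1) hi (fun _ => 1) (fun _ => w) (fun _ => Subalgebra.one_mem _)
    (fun _ => hw) ?_
  rw [hb]
  congr 1
  rw [Fin.sum_univ_one, one_mul]

theorem comm_of_fix {k : Type u} [Field k] {G : Type} [Group G] {R : Subgroup G}
    {i : MonoidAlgebra k G} (hi : i ∈ Fix (cj k G) R) (r : G) (hr : r ∈ R) :
    sg k r * i = i * sg k r := mem_Fix_cj_iff.1 hi r hr

/-- the initial state -/
theorem st_init (hpm : p ≤ m) {k : Type u} [Field k] {G : Type} [Group G] [Finite G]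
    {b : MonoidAlgebra k G} (hb : IsBlock b) {D : Subgroup G} {a : MonoidAlgebra k G}
    (hD : IsPGroup p D) (ha : a ∈ Fix (cj k G) D) (hba : b = tr (cj k G) D ⊤ a)
    (hn : Nat.card D ≤ n) {X : Subgroup G} [X.Normal] (hX : SSP Q X) (l : ℕ)
    (N : ℕ → Subgroup G) [hNn : ∀ i, (N i).Normal] (h0 : X ≤ N 0) (hRX : RC p n m X (N 0))
    (hl : N l = ⊤)
    (hle : ∀ i < l, N i ≤ N (i + 1))
    (hlay : ∀ i < l, RC p n m (N i) (N (i + 1)) ∨
      ∀ x ∈ D, x ∈ N (i + 1) → ∀ y ∈ N (i + 1), x * y * x⁻¹ * y⁻¹ ∈ N i) :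
    St Q p n m (2 * n + 2) (⊥ : Subgroup G) X X D a b := by
  have hL : Lay p n m D (2 * n + 1) (N 0) :=
    lay_of_series hn l N hl hle hlay n 0 (Nat.zero_le _) (Nat.le_add_left _ _)
  exact
    { An := inferInstance
      Xn := inferInstance
      Xss := hX
      XA := le_rfl
      Dp := hD
      rc := RC.self p n m X
      lay := ⟨X, N 0, inferInstance, hNn 0, le_rfl, h0, fun _ _ hx _ _ => comm_mem hx, hRX, hL⟩
      ZA := bot_le
      Zc := by
        intro z hz g
        rw [Subgroup.mem_bot] at hz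
        rw [hz, one_mul, mul_one]
      Zp := by
        rw [Subgroup.card_bot]
        exact (Nat.Prime.one_lt Fact.out).ne' ∘ Nat.dvd_one.mp
      hb := hb
      ha := ha
      hba := hba
      Dn := hn }

/-- the bound for the index of `Z X` in the terminal configuration -/
def bI (n γ m : ℕ) : ℕ := bd n (MF n γ (2 * n + 2) m) * γ

theorem final (hQ : IsoInv Q) {γ C : ℕ} (hγ : IndB Q n γ) (hpm : p ≤ m)
    (hloc : ∀ (k : Type u) [Field k] [IsAlgClosed k] [CharP k p],
      LocT Q k p n (bI n γ m) C) :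
    ∃ (r : ℕ) (H : Fin r → Type) (_ : ∀ i, Group (H i)) (_ : ∀ i, Finite (H i)),
      (∀ (k : Type u) [Field k] [IsAlgClosed k] [CharP k p],
        ∃ (c : ∀ i, MonoidAlgebra k (H i)) (hc : ∀ i, IsBlockR (c i)),
          ∀ (G : Type) [Group G] [Finite G] (b : MonoidAlgebra k G) (hb : IsBlockR b)
            (D : Subgroup G), IsDefectGroupR b D → Nat.card D ≤ n →
            ∀ (X : Subgroup G) [X.Normal], SSP Q X → ∀ (l : ℕ) (N : ℕ → Subgroup G)
            [∀ i, (N i).Normal], X ≤ N 0 → RC p n m X (N 0) → N l = ⊤ →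
            (∀ i < l, N i ≤ N (i + 1)) →
            (∀ i < l, RC p n m (N i) (N (i + 1)) ∨
              ∀ x ∈ D, x ∈ N (i + 1) → ∀ y ∈ N (i + 1), x * y * x⁻¹ * y⁻¹ ∈ N i) →
            ∃ i, IsMoritaEquivalent k hb.Alg (hc i).Alg) ∧
      (∀ (O : Type u) [CommRing O] [IsDomain O] [IsDiscreteValuationRing O]
        [IsAdicComplete (maximalIdeal O) O] [IsAlgClosed (ResidueField O)]
        [CharP (ResidueField O) p],
        ∃ (C : ∀ i, MonoidAlgebra O (H i)) (hC : ∀ i, IsBlockR (C i)),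
          ∀ (G : Type) [Group G] [Finite G] (B : MonoidAlgebra O G) (hB : IsBlockR B)
            (D : Subgroup G),
            (IsDefectGroupR B D ∨
              IsDefectGroupR (MonoidAlgebra.mapRingHom G (residue O) B) D) → Nat.card D ≤ n →
            ∀ (X : Subgroup G) [X.Normal], SSP Q X → ∀ (l : ℕ) (N : ℕ → Subgroup G)
            [∀ i, (N i).Normal], X ≤ N 0 → RC p n m X (N 0) → N l = ⊤ →
            (∀ i < l, N i ≤ N (i + 1)) →
            (∀ i < l, RC p n m (N i) (N (i + 1)) ∨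
              ∀ x ∈ D, x ∈ N (i + 1) → ∀ y ∈ N (i + 1), x * y * x⁻¹ * y⁻¹ ∈ N i) →
            ∃ i, IsMoritaEquivalent O hB.Alg (hC i).Alg) := by
  obtain ⟨r, H, iG, iF, h1, h2⟩ := unif.{u} p (max n C)
  refine ⟨r, H, iG, iF, ?_, ?_⟩
  · intro k _ _ _
    obtain ⟨c, hc, h⟩ := h1 k
    refine ⟨c, hc, ?_⟩
    intro G _ _ b hb D hD hn X _ hX l N _ h0 hRX hl hle hlay
    have hb' : IsBlock b := isBlockR_iff.mp hb
    obtain ⟨a, ha, hba⟩ := exists_trace hb' (hb'.isSummand hD.prop)
    obtain ⟨P, hPD, hP, a', ha', hba'⟩ := exists_sylow_trace (p := p) ha hba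
    have hPn : Nat.card P ≤ n :=
      (Nat.card_le_card_of_injective _ (Subgroup.inclusion_injective hPD)).trans hn
    have hst : St Q p n m (2 * n + 2) (⊥ : Subgroup G) X X P a' b := by
      refine st_init hpm hb' hP ha' hba' hPn hX l N h0 hRX hl hle ?_
      intro i hi
      rcases hlay i hi with h | h
      · exact Or.inl h
      · right
        exact fun x hx => h x (hPD hx)
    have hclo := clo_field k p H c (fun j => isBlockR_iff.mp (hc j))
    refine main hQ hclo hγ (2 * n + 2) m hpm ?_ G ⊥ X X P a' b hst hb'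
    intro G _ _ Z X D a b ht hb0
    obtain ⟨R, i, hi, hR, hiR, hbi, hw, hfr⟩ := hloc k G Z X D a b ht
    obtain ⟨t, ht⟩ := h G b (isBlockR_iff.mpr hb0) R i hi (hR.trans (le_max_left _ _))
      (comm_of_fix hiR) hbi hw (hfr.trans (le_max_right _ _))
    exact ⟨t, ht⟩
  · intro O _ _ _ _ _ _
    obtain ⟨c, hc, h⟩ := h2 O
    refine ⟨c, hc, ?_⟩
    intro G _ _ B hB D hD hn X _ hX l N _ h0 hRX hl hle hlay
    obtain ⟨hb', hlf⟩ := isBlock_rd hB
    obtain ⟨a, ha, hba⟩ : ∃ a ∈ Fix (cj (ResidueField O) G) D,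
        rd B = tr (cj (ResidueField O) G) D ⊤ a := by
      rcases hD with h | h
      · exact exists_trace_rd hB h.prop
      · exact exists_trace hb' (hb'.isSummand h.prop)
    obtain ⟨P, hPD, hP, a', ha', hba'⟩ := exists_sylow_trace (p := p) ha hba
    have hPn : Nat.card P ≤ n :=
      (Nat.card_le_card_of_injective _ (Subgroup.inclusion_injective hPD)).trans hn
    have hst : St Q p n m (2 * n + 2) (⊥ : Subgroup G) X X P a' (rd B) := by
      refine st_init hpm hb' hP ha' hba' hPn hX l N h0 hRX hl hle ?_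
      intro i hi
      rcases hlay i hi with h | h
      · exact Or.inl h
      · right
        exact fun x hx => h x (hPD hx)
    have hclo := clo_integral O p H (fun j => rd (c j))
    obtain ⟨j, B', C', hB', hC', hM⟩ := main hQ hclo hγ (2 * n + 2) m hpm (by
      intro G _ _ Z X D a b ht
      have hbB := isBlock_iff.mp ht.hb
      obtain ⟨R, i, hi, hR, hiR, hbi, hw, hfr⟩ := hloc (ResidueField O) G Z X D a b ht
      obtain ⟨B₁, hB₁⟩ := exists_lf (O := O) (b := b)
        (fun x => commute_of_mem (SubAlg_top x) hbB.mem.2) ht.hb.idem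
      have hB₁R : IsBlockR B₁ := isBlockR_of_lf ht.hb hB₁
      have hrd : rd B₁ = b := hB₁.rd_eq
      obtain ⟨t, ht'⟩ := h G B₁ hB₁R R i hi (hR.trans (le_max_left _ _))
        (comm_of_fix hiR) (by rw [hrd]; exact hbi) (by rw [hrd]; exact hw)
        (hfr.trans (le_max_right _ _))
      exact ⟨t, B₁, c t, hB₁, (isBlock_rd (hc t)).2, ht'⟩) G ⊥ X X P a' (rd B) hst
    obtain rfl := hB'.unique hlf
    obtain rfl := hC'.unique (isBlock_rd (hc j)).2
    exact ⟨j, hM⟩

end Vale.Agent.P180.R2.H47
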