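import Vale.Agent.P180.R2.H47.IdxK
import Vale.Agent.P180.R2.H47.Fin3
import Vale.Agent.P180.R2.H365.LocF
import Vale.Agent.P180.R2.H954.LocCP

set_option linter.all false

/-!
P180: small corners in the terminal configurations: alternating factors and factors with bounded
corners.
-/

namespace Vale.Agent.P180.R2.H47

open Vale.Agent.P180 Vale.Agent.P180.H768.Gd Vale.Agent.P180.R2.H259
open Vale.Agent.P180.R2.H954 (Below Cor)
open Vale.Agent.P180.R2.H12 (Fam)
open Vale.Agent.P180.H768 hiding pull mem_pull exists_factor Lay mk_mem comm_mem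
open Vale.Agent.P180.R2.H471 (QA)

open scoped Nat

universe u

section ActSet

variable {G : Type} [Group G]

/-- the permutation action on a set of subgroups -/
noncomputable def actSet (𝒮 : Set (Subgroup G))
    (h : ∀ S ∈ 𝒮, ∀ g : G, S.map (MulAut.conj g).toMonoidHom ∈ 𝒮) : G →* Equiv.Perm 𝒮 where
  toFun g :=
    { toFun := fun S => ⟨S.1.map (MulAut.conj g).toMonoidHom, h S.1 S.2 g⟩
      invFun := fun S => ⟨S.1.map (MulAut.conj g⁻¹).toMonoidHom, h S.1 S.2 g⁻¹⟩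
      left_inv := by
        rintro ⟨S, hS⟩
        apply Subtype.ext
        ext x
        change x ∈ (S.map (MulAut.conj g).toMonoidHom).map (MulAut.conj g⁻¹).toMonoidHom ↔ x ∈ S
        rw [mem_map_conj', mem_map_conj']
        have e : g⁻¹ * (g⁻¹⁻¹ * x * g⁻¹) * g = x := by group
        rw [e]
      right_inv := by
        rintro ⟨S, hS⟩
        apply Subtype.ext
        ext x
        change x ∈ (S.map (MulAut.conj g⁻¹).toMonoidHom).map (MulAut.conj g).toMonoidHom ↔ x ∈ S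
        rw [mem_map_conj', mem_map_conj']
        have e : g⁻¹⁻¹ * (g⁻¹ * x * g) * g⁻¹ = x := by group
        rw [e] }
  map_one' := by
    ext ⟨S, hS⟩ x
    change x ∈ S.map (MulAut.conj 1).toMonoidHom ↔ x ∈ S
    rw [mem_map_conj']
    have e : (1 : G)⁻¹ * x * 1 = x := by group
    rw [e]
  map_mul' := by
    intro g h
    ext ⟨S, hS⟩ x
    change x ∈ S.map (MulAut.conj (g * h)).toMonoidHom ↔
      x ∈ (S.map (MulAut.conj h).toMonoidHom).map (MulAut.conj g).toMonoidHom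
    rw [mem_map_conj', mem_map_conj', mem_map_conj']
    have e : (g * h)⁻¹ * x * (g * h) = h⁻¹ * (g⁻¹ * x * g) * h := by group
    rw [e]

theorem actSet_val (𝒮 : Set (Subgroup G))
    (h : ∀ S ∈ 𝒮, ∀ g : G, S.map (MulAut.conj g).toMonoidHom ∈ 𝒮) (g : G) (S : 𝒮) :
    ((actSet 𝒮 h g S : 𝒮) : Subgroup G) = S.1.map (MulAut.conj g).toMonoidHom := rfl

/-- a `G`-stable finite set of pairwise commuting subgroups as a family -/
theorem exists_fam [Finite G] (𝒮 : Set (Subgroup G))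
    (h : ∀ S ∈ 𝒮, ∀ g : G, S.map (MulAut.conj g).toMonoidHom ∈ 𝒮)
    (hc : ∀ S ∈ 𝒮, ∀ T ∈ 𝒮, S ≠ T → ∀ x ∈ S, ∀ y ∈ T, x * y = y * x) :
    ∃ F : Fam G (Nat.card 𝒮) (⊤ : Subgroup G), (∀ j, F.A j ∈ 𝒮) ∧
      (∀ S ∈ 𝒮, ∃ j, F.A j = S) ∧ ∀ i j, F.A i = F.A j → i = j := by
  let e : Fin (Nat.card 𝒮) ≃ 𝒮 := (Finite.equivFin 𝒮).symm
  let F : Fam G (Nat.card 𝒮) (⊤ : Subgroup G) :=
    { A := fun j => (e j : Subgroup G)
      σ := (((Equiv.permCongrHom e.symm).toMonoidHom.comp (actSet 𝒮 h)).comp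
        (⊤ : Subgroup G).subtype)
      comm := fun i j hij x hx y hy => hc _ (e i).2 _ (e j).2
        (fun h => hij (e.injective (Subtype.ext h))) x hx y hy
      conj := by
        intro g j x hx
        change (g : G) * x * (g : G)⁻¹ ∈ ((e (e.symm (actSet 𝒮 h g (e j))) : 𝒮) : Subgroup G)
        rw [e.apply_symm_apply, actSet_val, mem_map_conj']
        have e1 : (g : G)⁻¹ * (g * x * (g : G)⁻¹) * g = x := by group
        rw [e1]
        exact hx }
  refine ⟨F, fun j => (e j).2, fun S hS => ⟨e.symm ⟨S, hS⟩, ?_⟩, fun i j hij => ?_⟩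
  · change ((e (e.symm ⟨S, hS⟩) : 𝒮) : Subgroup G) = S
    rw [e.apply_symm_apply]
  · exact e.injective (Subtype.ext hij)

end ActSet

/-- The corner property of the factors with cyclic intersection with the defect group. -/
def CorCyc (k : Type u) [Field k] (p n C : ℕ) : Prop :=
  ∀ (G : Type) [Group G] [Finite G] (S D R : Subgroup G) (b e : MonoidAlgebra k G),
    IsPGroup p D → Nat.card D ≤ n → IsCyclic (Pj D S) → ¬ p ∣ outI S →
    (∀ x ∈ S, (∀ y ∈ S, x * y = y * x) → x = 1) → R ≤ D →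
    (∀ x ∈ R, ∀ s ∈ S, x * s * x⁻¹ ∈ S) → Below b S e → e ∈ Fix (cj k G) R → br R e ≠ 0 →
    (∃ z ∈ SubAlg k S, z ∈ Fix (cj k G) (S ⊓ R) ∧ e = tr (cj k G) (S ⊓ R) S z) →
    (∃ z ∈ SubAlg k S, z ∈ Fix (cj k G) R ∧ e = tr (cj k G) R (S ⊔ R) z) →
    Cor C S R e

/-- The terminal configurations have a small corner. -/
def LocK (K : ∀ (G : Type) [Group G], Subgroup G → Subgroup G → Prop) (k : Type u) [Field k]
    (p n β C : ℕ) : Prop :=
  ∀ (G : Type) [Group G] [Finite G] (Z X D : Subgroup G) (a b : MonoidAlgebra k G),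
    Term QT p n β Z X D a b → K G X D → (∀ S ∈ simps QT X, D ⊓ S ≠ ⊥) →
    ∃ (P : Subgroup G) (i : MonoidAlgebra k G) (hi : IsIdempotentElem i),
      Nat.card P ≤ n ∧ i ∈ Fix (cj k G) P ∧ b * i = i ∧
      Gen P b i ∧ Module.finrank k hi.Corner ≤ C

section AltPart

variable {G : Type} [Group G] [Finite G] {X : Subgroup G} [hXn : X.Normal]

theorem simps_QA {S : Subgroup G} : S ∈ simps QA X ↔ S ∈ simps QT X ∧ QA S := by
  constructor
  · rintro ⟨h1, h2, h3, h4, h5⟩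
    exact ⟨⟨h1, h2, h3, h4, ⟨1⟩⟩, h5⟩
  · rintro ⟨⟨h1, h2, h3, h4, -⟩, h5⟩
    exact ⟨h1, h2, h3, h4, h5⟩

/-- the alternating part -/
abbrev XA (X : Subgroup G) : Subgroup G := sSup (simps QA X)

theorem XA_le : XA X ≤ X := sSup_le fun S hS => hS.1

theorem XA_normal : (XA X).Normal := by
  constructor
  intro x hx g
  have h6 : sSup (simps QA X) ≤ (sSup (simps QA X)).comap (MulAut.conj g).toMonoidHom := by
    refine sSup_le fun S hS => ?_
    rw [← Subgroup.map_le_iff_le_comap]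
    exact le_sSup (simps_conj H471.QA_isoInv hS g)
  exact h6 hx

theorem XA_SSP : SSP QA (XA X) := by
  refine sSup_le fun S hS => le_sSup ?_
  refine ⟨le_sSup hS, ?_, hS.2.2.1, hS.2.2.2.1, hS.2.2.2.2⟩
  intro x hx s hs
  exact hS.2.1 x (XA_le hx) s hs

theorem simps_XA (hX : SSP QT X) {S : Subgroup G} (hS : S ∈ simps QA (XA X)) :
    S ∈ simps QT X := by
  obtain ⟨h1, h2, h3, h4, h5⟩ := hS
  refine ⟨h1.trans XA_le, ?_, h3, h4, ⟨1⟩⟩
  have h6 : X ≤ Subgroup.normalizer (S : Set G) := by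
    refine hX.trans (sSup_le fun T hT => ?_)
    by_cases hTQ : QA T
    · have h7 : T ≤ XA X := le_sSup (simps_QA.mpr ⟨hT, hTQ⟩)
      intro t ht
      rw [Subgroup.mem_normalizer_iff]
      intro s
      constructor
      · exact fun hs => h2 t (h7 ht) s hs
      · intro hs
        have := h2 t⁻¹ ((XA X).inv_mem (h7 ht)) _ hs
        have e : t⁻¹ * (t * s * t⁻¹) * t⁻¹⁻¹ = s := by group
        rwa [e] at this
    · -- `T` commutes with the alternating part
      have h7 : ∀ t ∈ T, ∀ y ∈ XA X, t * y = y * t := by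
        intro t ht y hy
        have h8 : XA X ≤ Subgroup.centralizer ({t} : Set G) := by
          refine sSup_le fun U hU z hz => ?_
          rw [Subgroup.mem_centralizer_singleton_iff]
          have hU' := simps_QA.mp hU
          have hne : U ≠ T := fun h => hTQ (by rw [← h]; exact hU'.2)
          exact simps_comm hU'.1 hT hne hz ht
        exact (Subgroup.mem_centralizer_singleton_iff.mp (h8 hy)).symm
      intro t ht
      rw [Subgroup.mem_normalizer_iff]
      intro s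
      constructor
      · intro hs
        rw [h7 t ht s (h1 hs), mul_inv_cancel_right]
        exact hs
      · intro hs
        have h8 := h7 t ht _ (h1 hs)
        have h9 : t * s * t⁻¹ = s := by
          calc t * s * t⁻¹ = t⁻¹ * (t * (t * s * t⁻¹)) := by group
            _ = t⁻¹ * (t * s * t⁻¹ * t) := by rw [h8]
            _ = s := by group
        rwa [h9] at hs
  intro x hx s hs
  exact (Subgroup.mem_normalizer_iff.mp (h6 hx) s).mp hs

end AltPart

/-- the constant of the alternating part -/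
def CA (n : ℕ) : ℕ :=
  ((((Finset.range (n + 1)).sup fun s =>
    (Finset.range (n * n + 4 + 1)).sup (H589.CC s)) + 1) ^ n)

section H0

variable {k : Type u} [Field k] [IsAlgClosed k] {p : ℕ} [Fact p.Prime] [CharP k p]

/-- the idempotent of the alternating part -/
theorem alt_part {n : ℕ} {G : Type} [Group G] [Finite G] (𝒜 : AltStr G) (hr : 𝒜.r ≤ n)
    (h7 : ∀ j, 7 ≤ 𝒜.N j)
    (hker : 𝒜.ρ.ker = Subgroup.centralizer (𝒜.ι.range : Set G)) {b a : MonoidAlgebra k G}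
    (hb : IsBlockOf (⊤ : Subgroup G) b) {P : Subgroup G} (hP : IsPGroup p P)
    (hPn : Nat.card P ≤ n) (ha : a ∈ Fix (cj k G) P) (hba : b = tr (cj k G) P ⊤ a)
    (hbr : br P b ≠ 0) :
    ∃ f₀ ∈ SubAlg k 𝒜.ι.range, f₀ ∈ Fix (cj k G) P ∧ f₀ * f₀ = f₀ ∧ br P (f₀ * b) ≠ 0 ∧
      ∀ e₀ : MonoidAlgebra k G, IsBlockOf 𝒜.ι.range e₀ → e₀ ∈ Fix (cj k G) ⊤ → e₀ * b = b →
        (∃ z ∈ SubAlg k 𝒜.ι.range, z ∈ Fix (cj k G) (𝒜.ι.range ⊓ P) ∧
          e₀ = tr (cj k G) (𝒜.ι.range ⊓ P) 𝒜.ι.range (f₀ * z)) →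
        br (𝒜.ι.range ⊓ P) (f₀ * e₀) ≠ 0 →
        Module.finrank k (H799.NN (SubAlg k 𝒜.ι.range) (e₀ * f₀) (e₀ * f₀)) ≤ CA n := by
  have hinj : Function.Injective 𝒜.ι := (H12.toData 𝒜).inj
  obtain ⟨F, f, hFM, hFF, hf1, hfP, hfb⟩ := H365.i1 k p n G 𝒜 P b a h7 hinj hker hb hP hPn ha hba
    hbr
  have hXn : (𝒜.ι.range).Normal := 𝒜.nrm
  have hff : H365.pr 𝒜 f * H365.pr 𝒜 f = H365.pr 𝒜 f := H365.pr_idem 𝒜 fun j => (hf1 j).2.1
  refine ⟨H365.pr 𝒜 f, H365.pr_mem 𝒜 f, hfP, hff, hfb, ?_⟩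
  intro e₀ he₀ heT heb hz hbre
  obtain ⟨w, hw, hwF, hew⟩ := hz
  set X := 𝒜.ι.range with hX
  have hQP : X ⊓ P ≤ P := inf_le_right
  have hQF : H365.FixF 𝒜 (X ⊓ P) F := fun g hg => hFF g hg.2
  have hQn : Nat.card (X ⊓ P : Subgroup G) ≤ n := (Nat.card_le_card_of_injective _
    (Subgroup.inclusion_injective hQP)).trans hPn
  have hdim := H365.i3 k p G 𝒜 (X ⊓ P) e₀ (H365.pr 𝒜 f * w) F f hinj inf_le_left (hP.to_le hQP)
    he₀ (Subalgebra.mul_mem _ (H365.pr_mem 𝒜 f) hw)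
    (Subalgebra.mul_mem _ (Fix_mono _ hQP hfP) hwF) hew hQF hf1 hbre
  refine hdim.trans ((Finset.prod_le_prod' (g := fun _ => (Finset.range (n + 1)).sup fun s =>
    (Finset.range (n * n + 4 + 1)).sup (H589.CC s)) fun j _ => ?_).trans ?_)
  · have h5 : H589.CC (Nat.card (X ⊓ P : Subgroup G)) (F j)ᶜ.card ≤
        (Finset.range (n * n + 4 + 1)).sup (H589.CC (Nat.card (X ⊓ P : Subgroup G))) :=
      Finset.le_sup (f := H589.CC (Nat.card (X ⊓ P : Subgroup G)))
        (Finset.mem_range.mpr (Nat.lt_succ_of_le (hFM j)))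
    exact h5.trans (Finset.le_sup
      (f := fun s => (Finset.range (n * n + 4 + 1)).sup (H589.CC s))
      (Finset.mem_range.mpr (Nat.lt_succ_of_le hQn)))
  · rw [Finset.prod_const, Finset.card_univ, Fintype.card_fin]
    exact (Nat.pow_le_pow_left (Nat.le_succ _) _).trans
      (Nat.pow_le_pow_right (Nat.succ_pos _) hr)

/-- the constant of the local theorem -/
def LK (n β C : ℕ) : ℕ := β * ((CA n * (C + 1) ^ n) ^ 2)

theorem locK_KK {n β M C : ℕ} (hcyc : CorCyc k p n C) :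
    LocK (KK QA p M) k p n β (LK n β C) := by
  intro G _ _ Z X D a b ht hK hne
  have hXn := ht.Xn
  have hX₀n : (XA X).Normal := XA_normal
  have hb : IsBlockOf (⊤ : Subgroup G) b := isBlock_iff.mp ht.hb
  have hfinS : Nat.card (simps QT X) ≤ n := ht.cnt
  -- the alternating structure
  obtain ⟨𝒜, hr, h7, -, hrange, hker, -⟩ := H471.exists_alt (X := XA X) XA_SSP
  have hrn : 𝒜.r ≤ n := by
    rw [hr]
    refine le_trans (Nat.card_mono (Set.toFinite _) ?_) hfinS
    intro S hS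
    exact simps_XA ht.Xss hS
  -- the other factors
  obtain ⟨ℬ, hℬ⟩ : ∃ ℬ : Set (Subgroup G), ℬ = {S | S ∈ simps QT X ∧ ¬ QA S} := ⟨_, rfl⟩
  have hℬm : ∀ {S}, S ∈ ℬ ↔ S ∈ simps QT X ∧ ¬ QA S := by intro S; rw [hℬ]; rfl
  obtain ⟨F, hF1, hF2, hF3⟩ := exists_fam ℬ (by
    intro S hS g
    rw [hℬm] at hS ⊢
    refine ⟨simps_conj (Q := QT) (fun _ _ _ _ _ _ => ⟨1⟩) hS.1 g, fun h => hS.2 ?_⟩
    exact H471.QA_isoInv _ _ ⟨(S.equivMapOfInjective _ (MulAut.conj g).injective).symm⟩ h) (by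
    intro S hS T hT hST x hx y hy
    exact simps_comm (hℬm.mp hS).1 (hℬm.mp hT).1 hST hx hy)
  have hF1' : ∀ j, F.A j ∈ simps QT X ∧ ¬ QA (F.A j) := fun j => hℬm.mp (hF1 j)
  have hcardB : Nat.card ℬ ≤ n := by
    refine le_trans (Nat.card_mono (Set.toFinite _) ?_) hfinS
    intro S hS
    exact (hℬm.mp hS).1
  have hμ : F.μ.range = ⨆ j, F.A j := Subgroup.noncommPiCoprod_range
  have hXX : X = XA X ⊔ F.μ.range := by
    apply le_antisymm
    · refine ht.Xss.trans (sSup_le fun S hS => ?_)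
      by_cases hSQ : QA S
      · exact (le_sSup (simps_QA.mpr ⟨hS, hSQ⟩)).trans le_sup_left
      · obtain ⟨j, hj⟩ := hF2 S (hℬm.mpr ⟨hS, hSQ⟩)
        rw [hμ, ← hj]
        exact (le_iSup F.A j).trans le_sup_right
    · refine sup_le XA_le ?_
      rw [hμ]
      exact iSup_le fun j => (hF1' j).1.1
  have hcomm : ∀ j, ∀ x ∈ XA X, ∀ y ∈ F.A j, x * y = y * x := by
    intro j x hx y hy
    have h8 : XA X ≤ Subgroup.centralizer ({y} : Set G) := by
      refine sSup_le fun U hU z hz => ?_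
      rw [Subgroup.mem_centralizer_singleton_iff]
      have hU' := simps_QA.mp hU
      have hne : U ≠ F.A j := fun h => (hF1' j).2 (by rw [← h]; exact hU'.2)
      exact simps_comm hU'.1 (hF1' j).1 hne hz hy
    exact Subgroup.mem_centralizer_singleton_iff.mp (h8 hx)
  have hinj : ∀ i j, F.A i ≤ F.A j → i = j := by
    intro i j hij
    by_contra hne
    apply (hF1' i).1.2.2.2.1
    intro x hx y hy
    exact simps_comm (hF1' i).1 (hF1' j).1 (fun h => hne (hF3 i j h)) hx (hij hy)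
  obtain ⟨P, i, hi, hPD, hiP, hbi, ⟨w, hw, hbw⟩, hdim⟩ := H954.loc_cp (C := C) (C₀ := CA n) F hXX
    hcomm hinj ht.Zc ht.Zp ht.idx hb ht.Dp ht.ha ht.hba ht.st (by
      intro P hPD a' ha' hba' hbr
      have h1 := alt_part 𝒜 hrn h7 (by rw [hrange]; exact hker) hb (ht.Dp.to_le hPD)
        ((Nat.card_le_card_of_injective _ (Subgroup.inclusion_injective hPD)).trans ht.Dn)
        ha' hba' hbr
      rw [hrange] at h1
      exact h1) (by
      intro j R hRD hRn e he heF hbre hz1 hz2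
      have hS := (hF1' j).1
      rcases hK _ hS with h | ⟨h1, -, h3⟩ | h
      · exact absurd h (hF1' j).2
      · exact hcyc G (F.A j) D R b e ht.Dp ht.Dn h1 h3
          (fun x hx h => simps_center hS hx h) hRD hRn he heF hbre hz1 hz2
      · exfalso
        apply hne _ hS
        rw [eq_bot_iff, ← h]
        exact inf_le_Pj D _)
  refine ⟨P, i, hi, (Nat.card_le_card_of_injective _
    (Subgroup.inclusion_injective hPD)).trans ht.Dn, hiP, hbi, gen_of_tr1 hiP ⟨w, hw, hbw⟩, ?_⟩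
  refine hdim.trans ?_
  unfold LK
  refine Nat.mul_le_mul_left _ (Nat.pow_le_pow_left (Nat.mul_le_mul_left _ ?_) 2)
  exact (Nat.pow_le_pow_left (Nat.le_succ _) _).trans (Nat.pow_le_pow_right (Nat.succ_pos _) hcardB)

end H0

end Vale.Agent.P180.R2.H47
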