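import Vale.Agent.P180.R2.H259.Par.Def
import Vale.Agent.P180.R2.H799.BZ1
import Vale.Agent.P180.R2.H799.CC0
import Mathlib.LinearAlgebra.SpecialLinearGroup
import Mathlib.GroupTheory.SpecificGroups.Cyclic
import Mathlib.Algebra.CharP.Defs

/-!
P180: pairs `(L, A)`, `A` a `p`-subgroup of `L`, with small source idempotents (definitions).
-/

namespace Vale.Agent.P180

/-- `B` is a nondegenerate form on `E`, linear in the first variable, with
`B y x = ε θ (B x y)`, `θ` an automorphism of `K` with `θ ^ 2 = 1`. -/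
def IsFormOn {K E : Type} [Field K] [AddCommGroup E] [Module K E] (B : E → E → K) (θ : K →+* K)
    (ε : K) : Prop :=
  (∀ x y z, B (x + y) z = B x z + B y z) ∧ (∀ (a : K) x y, B (a • x) y = a * B x y) ∧
  (∀ a, θ (θ a) = a) ∧ ε * θ ε = 1 ∧ (∀ x y, B y x = ε * θ (B x y)) ∧
  ∀ x, (∀ y, B x y = 0) → x = 0

/-- `X` is a subgroup of index at most two in the group of the isometries of determinant one of a
nondegenerate form `B` with field automorphism `θ`, `|K|` is odd or `X` is the group of all
isometries of determinant one of a hermitian or alternating form, and `p` does not divide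
`r ^ j + 1` if `θ` is `c ↦ c ^ (r ^ j)`, `r` the characteristic of `K` (so `p` is odd and a linear
prime: for `θ = 1` the order of `|K|` modulo `p` is odd; for `|K| = q ^ 2` and `θ ≠ 1` the order of
`- q` modulo `p` is even). -/
def ClassicalForm (p : ℕ) (K E : Type) [Field K] [AddCommGroup E] [Module K E] (θ : K →+* K)
    (X : Subgroup (SpecialLinearGroup K E)) : Prop :=
  ∃ (B : E → E → K) (ε : K), IsFormOn B θ ε ∧ (∀ g ∈ X, ∀ x y, B (g x) (g y) = B x y) ∧
    (∀ g h : SpecialLinearGroup K E, g ∉ X → h ∉ X → (∀ x y, B (g x) (g y) = B x y) →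
      (∀ x y, B (h x) (h y) = B x y) → g * h ∈ X) ∧
    (Odd (Nat.card K) ∨ ((∀ g : SpecialLinearGroup K E, (∀ x y, B (g x) (g y) = B x y) → g ∈ X) ∧
      ((∃ a, θ a ≠ a) ∨ ∀ x, B x x = 0))) ∧
    ∀ j : ℕ, (∀ c, θ c = c ^ (ringChar K ^ j)) → ¬ p ∣ ringChar K ^ j + 1

/-- `X` is the group `SL(E)` and `θ = 1`, or `X` is as in `ClassicalForm`. -/
def ClassicalOn (p : ℕ) (K E : Type) [Field K] [AddCommGroup E] [Module K E] (θ : K →+* K)
    (X : Subgroup (SpecialLinearGroup K E)) : Prop :=
  ((∀ a, θ a = a) ∧ X = ⊤) ∨ ClassicalForm p K E θ X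

/-- `L` is the image of `X`, the preimage of the centre of `L` consists of scalars, and with
`d = dim E`: `d < p`, or the elements of `p`-power order of `X` with image in `A` commute and
either `d ≤ m`, or `K` has a `p`-th root of unity `ζ ≠ 1` fixed by `θ` and `p` does not divide `d`
or `X` is as in `ClassicalForm` or these elements `x` have `x ^ (|K| - 1) = 1`. -/
def ClassicalData (p m d : ℕ) (K E : Type) [Field K] [AddCommGroup E] [Module K E] (L : Type)
    [Group L] (A : Subgroup L) : Prop :=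
  ∃ (θ : K →+* K) (X : Subgroup (SpecialLinearGroup K E)) (π : X →* L),
    ClassicalOn p K E θ X ∧ Function.Surjective π ∧
    (∀ x : X, π x ∈ Subgroup.center L → (x : SpecialLinearGroup K E) ∈ Subgroup.center _) ∧
    (d < p ∨ ((∀ x y : X, (∃ i, x ^ (p ^ i) = 1) → (∃ i, y ^ (p ^ i) = 1) → π x ∈ A → π y ∈ A →
        x * y = y * x) ∧
      (d ≤ m ∨ ((∃ ζ : K, ζ ^ p = 1 ∧ ζ ≠ 1 ∧ θ ζ = ζ) ∧
        (¬ p ∣ d ∨ ClassicalForm p K E θ X ∨
          ∀ x : X, (∃ i, x ^ (p ^ i) = 1) → π x ∈ A → x ^ (Nat.card K - 1) = 1)))))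

/-- `L` is a classical group of dimension `d` over a finite field `K` of characteristic different
from `p`, as in `ClassicalData`. -/
def ClassicalPair (p m : ℕ) (L : Type) [Group L] (A : Subgroup L) : Prop :=
  ∃ (K : Type) (_ : Field K) (_ : Finite K) (d : ℕ), 0 < d ∧ ¬ p ∣ Nat.card K ∧
    ClassicalData p m d K (Fin d → K) L A

/-- The `p`-subgroup `A` of the quasisimple group `L` is cyclic, or `(L, A)` is as in `ParPair`,
`LevPair` or `ClassicalPair`, or `L` is as in `CoverPair`. -/
def TamePair (p m : ℕ) (L : Type) [Group L] (A : Subgroup L) : Prop :=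
  IsCyclic A ∨ (ParPair p L A ∨ LevPair p m L A ∨ CoverPair p L) ∨ ClassicalPair p m L A

/-- `T` is the quotient, by the scalars which it contains, of a classical group `X` on the space
`E` of dimension `d`: `B` is a nondegenerate form on `E`, `X` is a subgroup of index at most two in
the group of all the isometries of determinant one of `B`, or the whole group if `|K|` is even, and
`B` is alternating or hermitian or `|K|` is odd and `d ≠ 4`. -/
def ClassicalQuot (d : ℕ) (K E : Type) [Field K] [AddCommGroup E] [Module K E] (T : Type)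
    [Group T] : Prop :=
  ∃ (θ : K →+* K) (ε : K) (B : E → E → K) (X : Subgroup (SpecialLinearGroup K E)) (π : X →* T),
    IsFormOn B θ ε ∧ (∀ g ∈ X, ∀ x y, B (g x) (g y) = B x y) ∧
    (∀ g h : SpecialLinearGroup K E, g ∉ X → h ∉ X → (∀ x y, B (g x) (g y) = B x y) →
      (∀ x y, B (h x) (h y) = B x y) → g * h ∈ X) ∧
    (Odd (Nat.card K) ∨ ∀ g : SpecialLinearGroup K E, (∀ x y, B (g x) (g y) = B x y) → g ∈ X) ∧
    ((∀ x, B x x = 0) ∨ (∃ a, θ a ≠ a) ∨ (Odd (Nat.card K) ∧ d ≠ 4)) ∧
    Function.Surjective π ∧ ∀ x : X, π x = 1 ↔ (x : SpecialLinearGroup K E) ∈ Subgroup.center _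

/-- `T` is the quotient modulo scalars of a classical group of dimension `d ≥ 3` over a finite field
`K` of characteristic `p` (symplectic, unitary or orthogonal, as in `ClassicalQuot`). -/
def ClassicalIn (p : ℕ) (T : Type) [Group T] : Prop :=
  ∃ (K : Type) (_ : Field K) (_ : Finite K) (d : ℕ), p ∣ Nat.card K ∧ 3 ≤ d ∧
    ClassicalQuot d K (Fin d → K) T

end Vale.Agent.P180
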