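import Vale.Agent.P180.R2.H47.Qs

set_option linter.all false

/-!
P180: conditions on quasisimple subgroups relative to the defect group, and their transfer along
central extensions.
-/

namespace Vale.Agent.P180.R2.H47

open scoped commutatorElement

open Subgroup

section Defs

variable {G : Type} [Group G]

/-- the group of outer automorphisms of `L` induced by `D` satisfies the condition `𝒟` -/
def OD (𝒟 : ∀ (Γ : Type) [Group Γ], Subgroup Γ → Prop) (D L : Subgroup G) : Prop :=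
  𝒟 (D ⊓ normalizer (L : Set G) : Subgroup G)
    ((L ⊔ centralizer (L : Set G)).subgroupOf (D ⊓ normalizer (L : Set G)))

/-- the `p`-subgroups of the projection of `D` to `L` are in the class `𝒦` -/
def KD (𝒦 : ∀ (S : Type) [Group S], Subgroup S → Prop) (p : ℕ) (D L : Subgroup G) : Prop :=
  ∀ Q : Subgroup L, Q.map L.subtype ≤ Pj D L → IsPGroup p Q → 𝒦 L Q

end Defs

/-- a condition on the group of outer automorphisms, inherited by sections -/
structure OutC (𝒪 : ∀ (Γ : Type) [Group Γ], Subgroup Γ → Prop) : Prop where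
  tr : ∀ {Γ Γ' E : Type} [Group Γ] [Finite Γ] [Group Γ'] [Finite Γ'] [Group E] (a : E →* Γ')
    (b : E →* Γ) {Δ : Subgroup Γ} {Δ' : Subgroup Γ'}, Δ.Normal → Function.Surjective a →
    Δ'.comap a = Δ.comap b → 𝒪 Γ Δ → 𝒪 Γ' Δ'

/-- a class of perfect groups, inherited by central quotients -/
def CQ (Q : ∀ (S : Type) [Group S], Prop) : Prop :=
  ∀ {S S' : Type} [Group S] [Finite S] [Group S'] [Finite S'] (f : S →* S'),
    Function.Surjective f → (∀ x, f x = 1 → ∀ y, x * y = y * x) → commutator S = ⊤ → Q S → Q S'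

/-- a class of pairs of a perfect group and a `p`-subgroup, inherited by central quotients and
subgroups of the `p`-subgroup -/
structure CK (p : ℕ) (𝒦 : ∀ (S : Type) [Group S], Subgroup S → Prop) : Prop where
  map : ∀ {S S' : Type} [Group S] [Finite S] [Group S'] [Finite S'] (f : S →* S'),
    Function.Surjective f → (∀ x, f x = 1 → ∀ y, x * y = y * x) → commutator S = ⊤ →
    ∀ A : Subgroup S, IsPGroup p A → 𝒦 S A → 𝒦 S' (A.map f)
  sub : ∀ {S : Type} [Group S] [Finite S] {A A' : Subgroup S}, A' ≤ A → 𝒦 S A → 𝒦 S A'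

/-- The condition on one component. -/
def CdQ (Q1 : ∀ (S : Type) [Group S], Prop) {ι : Type}
    (Q : ι → ∀ (S : Type) [Group S], Subgroup S → Prop)
    (𝒟 : ι → ∀ (Γ : Type) [Group Γ], Subgroup Γ → Prop)
    (𝒪 : ∀ (Γ : Type) [Group Γ], Subgroup Γ → Prop)
    (p : ℕ) {G : Type} [Group G] (D L : Subgroup G) : Prop :=
  Q1 L ∨
  (∃ a : ι, KD (Q a) p D L ∧ OD (𝒟 a) D L ∧
    𝒪 (normalizer (L : Set G)) ((L ⊔ centralizer (L : Set G)).subgroupOf
      (normalizer (L : Set G)))) ∨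
  Cm (Pj D L) L

variable {Q1 : ∀ (S : Type) [Group S], Prop} {ι : Type}
  {Q : ι → ∀ (S : Type) [Group S], Subgroup S → Prop}
  {𝒟 : ι → ∀ (Γ : Type) [Group Γ], Subgroup Γ → Prop}
  {𝒪 : ∀ (Γ : Type) [Group Γ], Subgroup Γ → Prop} {p : ℕ}

section Transfer

variable {G H : Type} [Group G] [Group H]

/-- `t` acts on `L'` as `g` on `L` -/
def Rl {L : Subgroup G} {L' : Subgroup H} (f : L →* L') (t : H) (g : G) : Prop :=
  ∀ s s' : L, (s' : G) = g * s * g⁻¹ → ((f s' : L') : H) = t * (f s : L') * t⁻¹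

variable {L D : Subgroup G} {L' D' : Subgroup H} {f : L →* L'}

theorem Rl.cent (hL : ⁅L, L⁆ = L) (hker : ∀ x, f x = 1 → ∀ y, x * y = y * x)
    {t : H} {g : G} (hg : g ∈ normalizer (L : Set G)) (hr : Rl f t g) (l : L)
    (hl : ∀ s : L, t * (f s : L') * t⁻¹ = (f l : L') * (f s : L') * ((f l : L') : H)⁻¹) :
    (l : G)⁻¹ * g ∈ centralizer (L : Set G) := by
  have hc : ∀ y ∈ L, ((l : G)⁻¹ * g) * y * ((l : G)⁻¹ * g)⁻¹ ∈ L := by
    intro y hy
    have e : ((l : G)⁻¹ * g) * y * ((l : G)⁻¹ * g)⁻¹ = (l : G)⁻¹ * (g * y * g⁻¹) * l := by group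
    rw [e]
    exact L.mul_mem (L.mul_mem (L.inv_mem l.2) ((mem_normalizer_iff.mp hg y).mp hy)) l.2
  have key := perf_act hL (c := (l : G)⁻¹ * g) (by
    intro y hy
    have hz : ((l : G)⁻¹ * g) * y * ((l : G)⁻¹ * g)⁻¹ * y⁻¹ ∈ L :=
      L.mul_mem (hc y hy) (L.inv_mem hy)
    refine ⟨hz, ?_⟩
    have h1 : f ⟨_, hz⟩ = 1 := by
      apply Subtype.ext
      have hgy : g * y * g⁻¹ ∈ L := (mem_normalizer_iff.mp hg y).mp hy
      have e : (⟨_, hz⟩ : L) = l⁻¹ * ⟨g * y * g⁻¹, hgy⟩ * l * (⟨y, hy⟩ : L)⁻¹ := by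
        apply Subtype.ext
        change ((l : G)⁻¹ * g) * y * ((l : G)⁻¹ * g)⁻¹ * y⁻¹ =
          (l : G)⁻¹ * (g * y * g⁻¹) * l * y⁻¹
        group
      rw [e, map_mul, map_mul, map_mul, map_inv, map_inv]
      have h2 := hr ⟨y, hy⟩ ⟨g * y * g⁻¹, hgy⟩ rfl
      have h3 := hl ⟨y, hy⟩
      change ((f l : L') : H)⁻¹ * (f ⟨g * y * g⁻¹, hgy⟩ : L') * (f l : L') *
        ((f ⟨y, hy⟩ : L') : H)⁻¹ = 1
      rw [h2, h3]
      group
    intro x hx
    have h2 := hker _ h1 ⟨x, hx⟩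
    exact congrArg Subtype.val h2)
  rw [mem_centralizer_iff]
  intro y hy
  exact (key y hy).symm

theorem Rl.inner {t : H} {g : G} (hr : Rl f t g) (hf : Function.Surjective f) (l : L) {c : G}
    (hc : c ∈ centralizer (L : Set G)) (hg : g = l * c) :
    ((f l : L') : H)⁻¹ * t ∈ centralizer (L' : Set H) := by
  rw [mem_centralizer_iff]
  intro y hy
  obtain ⟨s, hs⟩ := hf ⟨y, hy⟩
  have h1 : (l * s * l⁻¹ : L) = g * (s : G) * g⁻¹ := by
    rw [hg]
    have h2 := mem_centralizer_iff.mp hc s s.2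
    change (l : G) * s * (l : G)⁻¹ = _
    calc (l : G) * s * (l : G)⁻¹ = l * (s * c) * c⁻¹ * (l : G)⁻¹ := by group
      _ = l * (c * s) * c⁻¹ * (l : G)⁻¹ := by rw [h2]
      _ = l * c * s * (l * c)⁻¹ := by group
  have h2 := hr s _ h1
  rw [map_mul, map_mul, map_inv] at h2
  have h3 : ((f s : L') : H) = y := congrArg Subtype.val hs
  change ((f l : L') : H) * (f s : L') * ((f l : L') : H)⁻¹ = _ at h2
  rw [h3] at h2
  calc y * (((f l : L') : H)⁻¹ * t) =
        ((f l : L') : H)⁻¹ * (((f l : L') : H) * y * ((f l : L') : H)⁻¹) * t := by group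
    _ = ((f l : L') : H)⁻¹ * (t * y * t⁻¹) * t := by rw [h2]
    _ = ((f l : L') : H)⁻¹ * t * y := by group

theorem mem_sup_cent_iff {L : Subgroup G} {g : G} : g ∈ L ⊔ centralizer (L : Set G) ↔
    ∃ l : L, ∃ c ∈ centralizer (L : Set G), g = l * c := by
  constructor
  · intro h
    obtain ⟨l, hl, c, hc, h⟩ := Vale.Agent.P180.mem_sup_of_commute
      (fun s hs c hc => mem_centralizer_iff.mp hc s hs) h
    exact ⟨⟨l, hl⟩, c, hc, h.symm⟩
  · rintro ⟨l, c, hc, rfl⟩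
    exact mul_mem_sup l.2 hc

theorem acts_inner {L' : Subgroup H} {t l c : H} (hc : c ∈ centralizer (L' : Set H))
    (ht : t = l * c) {y : H} (hy : y ∈ L') : t * y * t⁻¹ = l * y * l⁻¹ := by
  have h := mem_centralizer_iff.mp hc y hy
  rw [ht]
  calc l * c * y * (l * c)⁻¹ = l * (c * y) * c⁻¹ * l⁻¹ := by group
    _ = l * (y * c) * c⁻¹ * l⁻¹ := by rw [h]
    _ = l * y * l⁻¹ := by group

variable (hL : ⁅L, L⁆ = L) (hf : Function.Surjective f)
  (hker : ∀ x, f x = 1 → ∀ y, x * y = y * x)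

include hL hf hker

theorem Pj_transfer (hD : ∀ t ∈ D', t ∈ normalizer (L' : Set H) →
      ∃ g ∈ D, g ∈ normalizer (L : Set G) ∧ Rl f t g) {x : L}
    (hx : ((f x : L') : H) ∈ Pj D' L') : (x : G) ∈ Pj D L := by
  obtain ⟨-, c', hc', ht⟩ := hx
  have htN : ((f x : L') : H) * c' ∈ normalizer (L' : Set H) :=
    mul_mem (le_normalizer (f x).2) (centralizer_le_normalizer _ hc')
  obtain ⟨g, hgD, hgN, hr⟩ := hD _ ht htN
  refine ⟨x.2, (x : G)⁻¹ * g, ?_, by rwa [mul_inv_cancel_left]⟩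
  exact hr.cent hL hker hgN x fun s => acts_inner hc' rfl (f s).2

theorem Out_aux [Finite G] [Finite H] (h𝒪 : OutC 𝒪) {B : Subgroup G} {B' : Subgroup H}
    (hB : B ≤ normalizer (L : Set G)) (h : ∀ t ∈ B', ∃ g ∈ B, Rl f t g)
    (hO : 𝒪 B ((L ⊔ centralizer (L : Set G)).subgroupOf B)) :
    𝒪 B' ((L' ⊔ centralizer (L' : Set H)).subgroupOf B') := by
  have hn : ((L ⊔ centralizer (L : Set G)).subgroupOf B).Normal := by
    have h1 : ((L ⊔ centralizer (L : Set G)).subgroupOf (normalizer (L : Set G))).Normal := by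
      rw [sup_cent_subgroupOf]
      exact (inn_normal L).comap _
    constructor
    rintro ⟨x, hx⟩ hxL ⟨g, hg⟩
    exact h1.conj_mem ⟨x, hB hx⟩ hxL ⟨g, hB hg⟩
  let E : Subgroup (B' × B) :=
    { carrier := {x | Rl f (x.1 : H) (x.2 : G)}
      mul_mem' := by
        rintro ⟨t, g⟩ ⟨t', g'⟩ hr hr' s s'' hs
        have hg' : (g' : G) * s * (g' : G)⁻¹ ∈ L := (mem_normalizer_iff.mp (hB g'.2) s).mp s.2
        have h1 := hr' s ⟨_, hg'⟩ rfl
        have h2 := hr ⟨_, hg'⟩ s'' (by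
          rw [hs]
          change (g : G) * g' * s * ((g : G) * g')⁻¹ = g * (g' * s * (g' : G)⁻¹) * (g : G)⁻¹
          group)
        rw [h2, h1]
        change (t : H) * (t' * (f s : L') * (t' : H)⁻¹) * (t : H)⁻¹ =
          (t : H) * t' * (f s : L') * ((t : H) * t')⁻¹
        group
      one_mem' := by
        intro s s' hs
        have : s' = s := Subtype.ext (by rw [hs]; change (1 : G) * s * (1 : G)⁻¹ = s; group)
        rw [this]
        change _ = (1 : H) * (f s : L') * (1 : H)⁻¹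
        group
      inv_mem' := by
        rintro ⟨t, g⟩ hr s s' hs
        have h1 := hr s' s (by
          rw [hs]
          change (s : G) = (g : G) * ((g : G)⁻¹ * s * ((g : G)⁻¹)⁻¹) * (g : G)⁻¹
          group)
        rw [h1]
        change _ = (t : H)⁻¹ * ((t : H) * (f s' : L') * (t : H)⁻¹) * ((t : H)⁻¹)⁻¹
        group }
  refine h𝒪.tr ((MonoidHom.fst _ _).comp E.subtype) ((MonoidHom.snd _ _).comp E.subtype) hn ?_ ?_ hO
  · rintro ⟨t, ht⟩
    obtain ⟨g, hg, hr⟩ := h t ht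
    exact ⟨⟨(⟨t, ht⟩, ⟨g, hg⟩), hr⟩, rfl⟩
  · ext ⟨⟨t, g⟩, hr⟩
    have hr' : Rl f (t : H) (g : G) := hr
    change (t : H) ∈ L' ⊔ centralizer (L' : Set H) ↔ (g : G) ∈ L ⊔ centralizer (L : Set G)
    constructor
    · intro h1
      obtain ⟨l', c', hc', ht⟩ := mem_sup_cent_iff.mp h1
      obtain ⟨l, rfl⟩ := hf l'
      exact mem_sup_cent_iff.mpr ⟨l, _, hr'.cent hL hker (hB g.2) l fun s =>
        acts_inner hc' ht (f s).2, by rw [mul_inv_cancel_left]⟩
    · intro h1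
      obtain ⟨l, c, hc, hg⟩ := mem_sup_cent_iff.mp h1
      exact mem_sup_cent_iff.mpr ⟨f l, _, hr'.inner hf l hc hg, by rw [mul_inv_cancel_left]⟩

theorem Out_transfer [Finite G] [Finite H] (h𝒪 : OutC 𝒪)
    (h : ∀ t ∈ normalizer (L' : Set H), ∃ g ∈ normalizer (L : Set G), Rl f t g)
    (hO : 𝒪 (normalizer (L : Set G)) ((L ⊔ centralizer (L : Set G)).subgroupOf
      (normalizer (L : Set G)))) :
    𝒪 (normalizer (L' : Set H)) ((L' ⊔ centralizer (L' : Set H)).subgroupOf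
      (normalizer (L' : Set H))) :=
  Out_aux hL hf hker h𝒪 le_rfl h hO

theorem OD_transfer [Finite G] [Finite H] (h𝒪 : OutC 𝒪)
    (hD : ∀ t ∈ D', t ∈ normalizer (L' : Set H) →
      ∃ g ∈ D, g ∈ normalizer (L : Set G) ∧ Rl f t g) (h : OD 𝒪 D L) : OD 𝒪 D' L' := by
  refine Out_aux hL hf hker h𝒪 inf_le_right ?_ h
  intro t ht
  obtain ⟨g, hgD, hgN, hr⟩ := hD t ht.1 ht.2
  exact ⟨g, ⟨hgD, hgN⟩, hr⟩

theorem KD_transfer {𝒦 : ∀ (S : Type) [Group S], Subgroup S → Prop} [Finite G] [Finite H]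
    [Fact p.Prime] (h𝒦 : CK p 𝒦) (hD : ∀ t ∈ D', t ∈ normalizer (L' : Set H) →
      ∃ g ∈ D, g ∈ normalizer (L : Set G) ∧ Rl f t g) (h : KD 𝒦 p D L) : KD 𝒦 p D' L' := by
  have hperf : commutator L = ⊤ := by
    apply map_injective L.subtype_injective
    rw [commutator_def, Subgroup.map_commutator, ← MonoidHom.range_eq_map, range_subtype]
    exact hL
  intro Q' hQ' hQp
  -- the preimage of `Q'`
  let T : Subgroup L := Q'.comap f
  let g : T →* Q' :=
    { toFun := fun x => ⟨f x.1, x.2⟩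
      map_one' := Subtype.ext (map_one f)
      map_mul' := fun x y => Subtype.ext (map_mul f x.1 y.1) }
  have hg : Function.Surjective g := by
    rintro ⟨y, hy⟩
    obtain ⟨x, hx⟩ := hf y
    exact ⟨⟨x, by change f x ∈ Q'; rw [hx]; exact hy⟩, Subtype.ext hx⟩
  obtain ⟨P⟩ : Nonempty (Sylow p T) := inferInstance
  have hPt : P.1.map g = ⊤ := by
    have h1 := (P.mapSurjective hg).is_maximal' (Q := ⊤) (hQp.to_subgroup ⊤) le_top
    exact h1.symm
  have hQ : (P.1.map T.subtype).map f = Q' := by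
    ext y
    constructor
    · rintro ⟨_, ⟨x, -, rfl⟩, rfl⟩
      exact x.2
    · intro hy
      have h1 : (⟨y, hy⟩ : Q') ∈ P.1.map g := by rw [hPt]; exact mem_top _
      obtain ⟨x, hx, hxy⟩ := h1
      exact ⟨x, ⟨x, hx, rfl⟩, congrArg Subtype.val hxy⟩
  rw [← hQ]
  refine h𝒦.map f hf hker hperf _ (P.2.map _) (h _ ?_ (P.2.map _))
  rintro _ ⟨_, ⟨x, -, rfl⟩, rfl⟩
  refine Pj_transfer hL hf hker hD (x := x.1) ?_
  exact hQ' ⟨f x.1, x.2, rfl⟩

/-- **Transfer of the condition on a component.** -/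
theorem CdQ.transfer [Finite G] [Finite H] [Fact p.Prime] (hQ1 : CQ Q1) (hQ : ∀ a, CK p (Q a))
    (h𝒟 : ∀ a, OutC (𝒟 a)) (h𝒪 : OutC 𝒪)
    (h : ∀ t ∈ normalizer (L' : Set H), ∃ g ∈ normalizer (L : Set G), Rl f t g)
    (hD : ∀ t ∈ D', t ∈ normalizer (L' : Set H) → ∃ g ∈ D, g ∈ normalizer (L : Set G) ∧ Rl f t g)
    (hC : CdQ Q1 Q 𝒟 𝒪 p D L) : CdQ Q1 Q 𝒟 𝒪 p D' L' := by
  have hperf : commutator L = ⊤ := by
    apply map_injective L.subtype_injective
    rw [commutator_def, Subgroup.map_commutator, ← MonoidHom.range_eq_map, range_subtype]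
    exact hL
  rcases hC with h1 | ⟨a, h1, h2, h3⟩ | h1
  · exact Or.inl (hQ1 f hf hker hperf h1)
  · exact Or.inr (Or.inl ⟨a, KD_transfer hL hf hker (hQ a) hD h1,
      OD_transfer hL hf hker (h𝒟 a) hD h2, Out_transfer hL hf hker h𝒪 h h3⟩)
  · right; right
    intro x' hx' y' hy'
    obtain ⟨x, hx⟩ := hf ⟨x', hx'.1⟩
    obtain ⟨y, hy⟩ := hf ⟨y', hy'⟩
    have hx2 : ((f x : L') : H) = x' := congrArg Subtype.val hx
    have hy2 : ((f y : L') : H) = y' := congrArg Subtype.val hy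
    have hxP : (x : G) ∈ Pj D L := Pj_transfer hL hf hker hD (by rw [hx2]; exact hx')
    have h2 : x * y = y * x := Subtype.ext (h1 x hxP y y.2)
    rw [← hx2, ← hy2]
    change ((f x * f y : L') : H) = (f y * f x : L')
    rw [← map_mul, h2, map_mul]

end Transfer

theorem OD.mono {G : Type} [Group G] [Finite G] {D D' L : Subgroup G} (h𝒪 : OutC 𝒪)
    (h : D' ≤ D) (hD : OD 𝒪 D L) : OD 𝒪 D' L := by
  have hn : ((L ⊔ centralizer (L : Set G)).subgroupOf (D ⊓ normalizer (L : Set G))).Normal := by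
    have h1 : ((L ⊔ centralizer (L : Set G)).subgroupOf (normalizer (L : Set G))).Normal := by
      rw [sup_cent_subgroupOf]
      exact (inn_normal L).comap _
    constructor
    rintro ⟨x, hx⟩ hxL ⟨g, hg⟩
    exact h1.conj_mem ⟨x, hx.2⟩ hxL ⟨g, hg.2⟩
  exact h𝒪.tr (MonoidHom.id _)
    (Subgroup.inclusion (inf_le_inf_right (normalizer (L : Set G)) h)) hn
    (fun x => ⟨x, rfl⟩) rfl hD

theorem CdQ.mono {G : Type} [Group G] [Finite G] {D D' L : Subgroup G} (h𝒟 : ∀ a, OutC (𝒟 a))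
    (h : D' ≤ D) (hC : CdQ Q1 Q 𝒟 𝒪 p D L) : CdQ Q1 Q 𝒟 𝒪 p D' L := by
  rcases hC with h1 | ⟨a, h1, h2, h3⟩ | h1
  · exact Or.inl h1
  · exact Or.inr (Or.inl ⟨a, fun P hP => h1 P (hP.trans (Pj_mono h L)), h2.mono (h𝒟 a) h, h3⟩)
  · exact Or.inr (Or.inr (h1.mono (Pj_mono h L) le_rfl))

/-- The condition on all components. -/
def KQ (Q1 : ∀ (S : Type) [Group S], Prop) {ι : Type}
    (Q : ι → ∀ (S : Type) [Group S], Subgroup S → Prop)
    (𝒟 : ι → ∀ (Γ : Type) [Group Γ], Subgroup Γ → Prop)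
    (𝒪 : ∀ (Γ : Type) [Group Γ], Subgroup Γ → Prop) (p : ℕ)
    {G : Type} [Group G] (X D : Subgroup G) : Prop :=
  ∀ L ∈ comps X, CdQ Q1 Q 𝒟 𝒪 p D L

section Classes

/-- inner automorphisms -/
def DI (Γ : Type) [Group Γ] (Δ : Subgroup Γ) : Prop := ∀ x : Γ, x ∈ Δ

theorem outC_DI : OutC DI where
  tr := by
    intro Γ Γ' E _ _ _ _ _ a b Δ Δ' _ ha he h x
    obtain ⟨e, rfl⟩ := ha x
    have h1 : e ∈ Δ'.comap a := by
      rw [he]
      exact h (b e)
    exact h1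

/-- cyclic groups of outer automorphisms -/
def DC (Γ : Type) [Group Γ] (Δ : Subgroup Γ) : Prop := ∃ x : Γ, ∀ y : Γ, ∃ i : ℤ, x ^ i * y ∈ Δ

theorem outC_DC : OutC DC where
  tr := by
    rintro Γ Γ' E _ _ _ _ _ a b Δ Δ' hΔ ha he ⟨x, hx⟩
    -- `Γ ⧸ Δ` is cyclic
    have hc : IsCyclic (Γ ⧸ Δ) := by
      refine ⟨⟨(x : Γ ⧸ Δ), ?_⟩⟩
      intro y
      obtain ⟨y, rfl⟩ := QuotientGroup.mk_surjective y
      obtain ⟨i, hi⟩ := hx y
      refine ⟨-i, ?_⟩
      change (x : Γ ⧸ Δ) ^ (-i) = y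
      rw [zpow_neg, ← QuotientGroup.mk_zpow, ← QuotientGroup.mk_inv, QuotientGroup.eq, inv_inv]
      exact hi
    let φ : E →* Γ ⧸ Δ := (QuotientGroup.mk' Δ).comp b
    have hcr : IsCyclic φ.range :=
      isCyclic_of_injective φ.range.subtype φ.range.subtype_injective
    obtain ⟨⟨_, e₀, rfl⟩, hgen⟩ := hcr
    refine ⟨a e₀, fun y => ?_⟩
    obtain ⟨e, rfl⟩ := ha y
    obtain ⟨i, hi⟩ := hgen ⟨φ e, e, rfl⟩
    refine ⟨-i, ?_⟩
    have h1 : φ e₀ ^ i = φ e := congrArg Subtype.val hi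
    have h2 : e₀ ^ (-i) * e ∈ Δ.comap b := by
      rw [Subgroup.mem_comap, ← QuotientGroup.eq_one_iff]
      change φ (e₀ ^ (-i) * e) = 1
      rw [map_mul, map_zpow, zpow_neg, h1, inv_mul_cancel]
    rw [← he, Subgroup.mem_comap, map_mul, map_zpow] at h2
    exact h2

end Classes

end Vale.Agent.P180.R2.H47
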