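import Vale.Agent.P180.Bdl.B2

set_option linter.unusedSectionVars false

/-!
P180: finite direct products of nonabelian simple groups, as normal subgroups.
-/

namespace Vale.Agent.P180.R2.H47

open scoped commutatorElement

open Vale.Agent.P180 (mem_sup_of_commute center_trivial)

section Gen

variable {G : Type} [Group G]

/-- pairwise commuting subgroups with trivial centre: an element of the join commuting with all of
them is trivial -/
theorem eq_one_of_comm (s : Finset (Subgroup G))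
    (hcen : ∀ S ∈ s, ∀ x ∈ S, (∀ y ∈ S, x * y = y * x) → x = 1)
    (hcomm : ∀ S ∈ s, ∀ S' ∈ s, S ≠ S' → ∀ x ∈ S, ∀ y ∈ S', x * y = y * x) {y : G}
    (hy : y ∈ s.sup id) (hyc : ∀ S ∈ s, ∀ x ∈ S, y * x = x * y) : y = 1 := by
  classical
  induction s using Finset.induction_on generalizing y with
  | empty =>
    rw [Finset.sup_empty, Subgroup.mem_bot] at hy
    exact hy
  | insert S s hS ih =>
    rw [Finset.sup_insert, id] at hy
    have hle : ∀ x ∈ S, ∀ z ∈ s.sup id, x * z = z * x := by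
      intro x hx z hz
      have h1 : s.sup id ≤ Subgroup.centralizer {x} := by
        rw [Finset.sup_le_iff]
        intro S' hS' w hw
        rw [Subgroup.mem_centralizer_iff]
        intro x' hx'
        rw [Set.mem_singleton_iff.mp hx']
        exact hcomm S (Finset.mem_insert_self _ _) S' (Finset.mem_insert_of_mem hS')
          (fun h => hS (by rw [h]; exact hS')) x hx w hw
      exact Subgroup.mem_centralizer_iff.mp (h1 hz) x rfl
    obtain ⟨x, hx, z, hz, rfl⟩ := mem_sup_of_commute hle hy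
    have hx1 : x = 1 := by
      apply hcen S (Finset.mem_insert_self _ _) x hx
      intro w hw
      have h4 := hyc S (Finset.mem_insert_self _ _) w hw
      have h5 := hle w hw z hz
      have h6 : x * w * z = w * x * z := by
        calc x * w * z = x * (w * z) := by group
          _ = x * (z * w) := by rw [h5]
          _ = x * z * w := by group
          _ = w * (x * z) := h4
          _ = w * x * z := by group
      exact mul_right_cancel h6
    rw [hx1, one_mul]
    apply ih (fun S' hS' => hcen S' (Finset.mem_insert_of_mem hS'))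
      (fun S' hS' S'' hS'' => hcomm S' (Finset.mem_insert_of_mem hS') S''
        (Finset.mem_insert_of_mem hS'')) hz
    intro S' hS' w hw
    have h4 := hyc S' (Finset.mem_insert_of_mem hS') w hw
    rwa [hx1, one_mul] at h4

theorem eq_one_of_comm_set [Finite G] (𝒮 : Set (Subgroup G))
    (hcen : ∀ S ∈ 𝒮, ∀ x ∈ S, (∀ y ∈ S, x * y = y * x) → x = 1)
    (hcomm : ∀ S ∈ 𝒮, ∀ S' ∈ 𝒮, S ≠ S' → ∀ x ∈ S, ∀ y ∈ S', x * y = y * x) {y : G}
    (hy : y ∈ sSup 𝒮) (hyc : ∀ S ∈ 𝒮, ∀ x ∈ S, y * x = x * y) : y = 1 := by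
  classical
  have hfin : 𝒮.Finite := Set.toFinite 𝒮
  have hmem : ∀ {S}, S ∈ hfin.toFinset ↔ S ∈ 𝒮 := hfin.mem_toFinset
  have hsup : hfin.toFinset.sup id = sSup 𝒮 := by
    rw [Finset.sup_id_eq_sSup, hfin.coe_toFinset]
  exact eq_one_of_comm hfin.toFinset (fun S hS => hcen S (hmem.mp hS))
    (fun S hS S' hS' => hcomm S (hmem.mp hS) S' (hmem.mp hS')) (by rw [hsup]; exact hy)
    (fun S hS => hyc S (hmem.mp hS))

end Gen

variable (Q : ∀ (S : Type) [Group S], Prop)

/-- The nonabelian simple subgroups of `X` in the class `Q`, normalised by `X`. -/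
def simps {G : Type} [Group G] (X : Subgroup G) : Set (Subgroup G) :=
  {S | S ≤ X ∧ (∀ x ∈ X, ∀ s ∈ S, x * s * x⁻¹ ∈ S) ∧ IsSimpleGroup S ∧
    (¬ ∀ x ∈ S, ∀ y ∈ S, x * y = y * x) ∧ Q S}

/-- `X` is generated by nonabelian simple normal subgroups of the class `Q`. -/
def SSP {G : Type} [Group G] (X : Subgroup G) : Prop := X ≤ sSup (simps Q X)

/-- The class `Q` is closed under isomorphisms. -/
def IsoInv : Prop := ∀ (S T : Type) [Group S] [Group T], Nonempty (S ≃* T) → Q S → Q T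

variable {Q}

/-- The class of all groups. -/
def QT (S : Type) [Group S] : Prop := Nonempty S

section Trans

variable {G H : Type} [Group G] [Group H]

theorem simps_map (hQ : IsoInv Q) (f : G →* H) (X : Subgroup G)
    (hf : ∀ x ∈ X, f x = 1 → x = 1) {S : Subgroup G} (hS : S ∈ simps Q X) :
    S.map f ∈ simps Q (X.map f) := by
  obtain ⟨h1, h2, h3, h4, h5⟩ := hS
  have hinj : ∀ x ∈ X, ∀ y ∈ X, f x = f y → x = y := by
    intro x hx y hy hxy
    have := hf (x * y⁻¹) (X.mul_mem hx (X.inv_mem hy)) (by rw [map_mul, map_inv, hxy,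
      mul_inv_cancel])
    exact mul_inv_eq_one.mp this
  let e : S ≃* S.map f :=
    MulEquiv.ofBijective (f.subgroupMap S) ⟨fun x y hxy => Subtype.ext
      (hinj x (h1 x.2) y (h1 y.2) (congrArg Subtype.val hxy)), f.subgroupMap_surjective S⟩
  refine ⟨Subgroup.map_mono h1, ?_, ?_, ?_, hQ _ _ ⟨e⟩ h5⟩
  · rintro _ ⟨x, hx, rfl⟩ _ ⟨s, hs, rfl⟩
    exact ⟨x * s * x⁻¹, h2 x hx s hs, by rw [map_mul, map_mul, map_inv]⟩
  · exact Vale.Agent.P180.simple_of_equiv e h3
  · intro h
    apply h4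
    intro x hx y hy
    apply hinj _ (X.mul_mem (h1 hx) (h1 hy)) _ (X.mul_mem (h1 hy) (h1 hx))
    rw [map_mul, map_mul]
    exact h _ ⟨x, hx, rfl⟩ _ ⟨y, hy, rfl⟩

theorem SSP.map (hQ : IsoInv Q) (f : G →* H) {X : Subgroup G}
    (hf : ∀ x ∈ X, f x = 1 → x = 1) (hX : SSP Q X) : SSP Q (X.map f) := by
  have h1 : X.map f ≤ (sSup (simps Q X)).map f := Subgroup.map_mono hX
  refine h1.trans ?_
  rw [Subgroup.map_le_iff_le_comap]
  refine sSup_le fun S hS => ?_
  rw [← Subgroup.map_le_iff_le_comap]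
  exact le_sSup (simps_map hQ f X hf hS)

theorem SSP.of_map (hQ : IsoInv Q) (f : G →* H) {X : Subgroup G}
    (hf : ∀ x ∈ X, f x = 1 → x = 1) (hX : SSP Q (X.map f)) : SSP Q X := by
  have hinj : ∀ x ∈ X, ∀ y ∈ X, f x = f y → x = y := by
    intro x hx y hy hxy
    have := hf (x * y⁻¹) (X.mul_mem hx (X.inv_mem hy)) (by rw [map_mul, map_inv, hxy,
      mul_inv_cancel])
    exact mul_inv_eq_one.mp this
  let e : X ≃* X.map f :=
    MulEquiv.ofBijective (f.subgroupMap X) ⟨fun x y hxy => Subtype.ext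
      (hinj x x.2 y y.2 (congrArg Subtype.val hxy)), f.subgroupMap_surjective X⟩
  let g : X.map f →* G := X.subtype.comp e.symm.toMonoidHom
  have hg : ∀ y : X.map f, f (g y) = y := by
    intro y
    have h1 : ((e (e.symm y) : X.map f) : H) = f (e.symm y) := rfl
    rw [e.apply_symm_apply] at h1
    exact h1.symm
  have hgi : Function.Injective g := X.subtype_injective.comp e.symm.injective
  have h0 : (X.map f).map (MonoidHom.id H) = X.map f := Subgroup.map_id _
  -- the top subgroup of `X.map f`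
  have h1 : SSP Q (⊤ : Subgroup (X.map f)) := by
    intro y _
    have hy : (y : H) ∈ sSup (simps Q (X.map f)) := hX y.2
    have hle : sSup (simps Q (X.map f)) ≤
        (sSup (simps Q (⊤ : Subgroup (X.map f)))).map (X.map f).subtype := by
      refine sSup_le fun S hS => ?_
      obtain ⟨a1, a2, a3, a4, a5⟩ := hS
      have e1 : (S.subgroupOf (X.map f)) ≃* S := Subgroup.subgroupOfEquivOfLe a1
      have hmem : S.subgroupOf (X.map f) ∈ simps Q (⊤ : Subgroup (X.map f)) := by
        refine ⟨le_top, ?_, Vale.Agent.P180.simple_of_equiv e1.symm a3, ?_, hQ _ _ ⟨e1.symm⟩ a5⟩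
        · intro x _ s hs
          exact a2 x x.2 s hs
        · intro h
          apply a4
          intro x hx y hy
          exact congrArg Subtype.val (h ⟨x, a1 hx⟩ hx ⟨y, a1 hy⟩ hy)
      intro s hs
      exact ⟨⟨s, a1 hs⟩, (le_sSup hmem) hs, rfl⟩
    obtain ⟨z, hz, hzy⟩ := hle hy
    have : z = y := Subtype.ext hzy
    rw [← this]
    exact hz
  have h2 := h1.map hQ g (fun y _ hy => hgi (by rw [hy, map_one]))
  have h3 : (⊤ : Subgroup (X.map f)).map g = X := by
    apply le_antisymm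
    · rintro _ ⟨y, -, rfl⟩
      exact (e.symm y).2
    · intro x hx
      refine ⟨e ⟨x, hx⟩, trivial, ?_⟩
      change ((e.symm (e ⟨x, hx⟩) : X) : G) = x
      rw [e.symm_apply_apply]
  rwa [h3] at h2

end Trans

section Str

variable {G : Type} [Group G] [Finite G] {X : Subgroup G}

theorem simps_center {S : Subgroup G} (hS : S ∈ simps Q X) {x : G} (hx : x ∈ S)
    (h : ∀ y ∈ S, x * y = y * x) : x = 1 := center_trivial hS.2.2.1 hS.2.2.2.1 hx h

theorem simps_comm {S S' : Subgroup G} (hS : S ∈ simps Q X) (hS' : S' ∈ simps Q X)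
    (hne : S ≠ S') {x y : G} (hx : x ∈ S) (hy : y ∈ S') : x * y = y * x := by
  have key : ∀ T T' : Subgroup G, T ∈ simps Q X → T' ∈ simps Q X → T ⊓ T' = ⊥ ∨ T ≤ T' := by
    intro T T' hT hT'
    have hsimple := hT.2.2.1
    have hn : (T'.subgroupOf T).Normal := by
      constructor
      intro t ht g
      exact hT'.2.1 g (hT.1 g.2) t ht
    rcases hsimple.eq_bot_or_eq_top_of_normal _ hn with h | h
    · left
      rw [eq_bot_iff]
      intro z hz
      have h1 : (⟨z, hz.1⟩ : T) ∈ T'.subgroupOf T := hz.2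
      rw [h, Subgroup.mem_bot] at h1
      rw [Subgroup.mem_bot]
      exact congrArg Subtype.val h1
    · right
      exact Subgroup.subgroupOf_eq_top.mp h
  have hbot : S ⊓ S' = ⊥ := by
    rcases key S S' hS hS' with h | h
    · exact h
    rcases key S' S hS' hS with h' | h'
    · rw [inf_comm]; exact h'
    · exact absurd (le_antisymm h h') hne
  have h1 : x * y * x⁻¹ * y⁻¹ ∈ S ⊓ S' := by
    refine ⟨?_, ?_⟩
    · have := S.mul_mem hx (hS.2.1 y (hS'.1 hy) _ (S.inv_mem hx))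
      have e : x * y * x⁻¹ * y⁻¹ = x * (y * x⁻¹ * y⁻¹) := by group
      rw [e]
      exact this
    · exact S'.mul_mem (hS'.2.1 x (hS.1 hx) y hy) (S'.inv_mem hy)
  rw [hbot, Subgroup.mem_bot, mul_inv_eq_one, mul_inv_eq_iff_eq_mul] at h1
  exact h1

/-- a simple factor of `X` lies in `N` or centralises `N` -/
theorem simps_dich [X.Normal] (N : Subgroup G) [N.Normal] {S : Subgroup G} (hS : S ∈ simps Q X) :
    S ≤ N ∨ ∀ s ∈ S, ∀ n ∈ N, s * n = n * s := by
  have hXn : X.Normal := inferInstance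
  have hNn : N.Normal := inferInstance
  have hsimple := hS.2.2.1
  have hn : (N.subgroupOf S).Normal := by
    constructor
    intro t ht g
    exact hNn.conj_mem t ht g
  rcases hsimple.eq_bot_or_eq_top_of_normal _ hn with h | h
  swap
  · exact Or.inl (Subgroup.subgroupOf_eq_top.mp h)
  right
  have hbot : ∀ z, z ∈ S → z ∈ N → z = 1 := by
    intro z hz hzN
    have h1 : (⟨z, hz⟩ : S) ∈ N.subgroupOf S := hzN
    rw [h, Subgroup.mem_bot] at h1
    exact congrArg Subtype.val h1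
  -- `S` commutes with `X ⊓ N`
  have hc1 : ∀ s ∈ S, ∀ m ∈ X ⊓ N, s * m = m * s := by
    intro s hs m hm
    have h1 : s * m * s⁻¹ * m⁻¹ = 1 := by
      apply hbot
      · have := S.mul_mem hs (hS.2.1 m hm.1 _ (S.inv_mem hs))
        have e : s * m * s⁻¹ * m⁻¹ = s * (m * s⁻¹ * m⁻¹) := by group
        rw [e]
        exact this
      · exact N.mul_mem (hNn.conj_mem m hm.2 s) (N.inv_mem hm.2)
    rwa [mul_inv_eq_one, mul_inv_eq_iff_eq_mul] at h1
  intro s hs n hn
  have hm : s * n * s⁻¹ * n⁻¹ ∈ X ⊓ N := by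
    refine ⟨?_, ?_⟩
    · have := X.mul_mem (hS.1 hs) (hXn.conj_mem _ (X.inv_mem (hS.1 hs)) n)
      have e : s * n * s⁻¹ * n⁻¹ = s * (n * s⁻¹ * n⁻¹) := by group
      rw [e]
      exact this
    · exact N.mul_mem (hNn.conj_mem n hn s) (N.inv_mem hn)
  -- the conjugate of `S`
  have hSn : S.map (MulAut.conj n).toMonoidHom ∈ simps QT X := by
    have h0 : S ∈ simps QT X := ⟨hS.1, hS.2.1, hS.2.2.1, hS.2.2.2.1, ⟨1⟩⟩
    have h1 := simps_map (Q := QT) (fun _ _ _ _ _ _ => ⟨1⟩)
      (MulAut.conj n).toMonoidHom X (fun x _ hx => (MulAut.conj n).injective (by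
        rw [map_one]; exact hx)) h0
    have h2 : X.map (MulAut.conj n).toMonoidHom = X := by
      ext x
      constructor
      · rintro ⟨y, hy, rfl⟩
        exact hXn.conj_mem y hy n
      · intro hx
        refine ⟨n⁻¹ * x * n, ?_, ?_⟩
        · have := hXn.conj_mem x hx n⁻¹
          rwa [inv_inv] at this
        · change n * (n⁻¹ * x * n) * n⁻¹ = x
          group
    rwa [h2] at h1
  have hS0 : S ∈ simps QT X := ⟨hS.1, hS.2.1, hS.2.2.1, hS.2.2.2.1, ⟨1⟩⟩
  by_cases hne : S = S.map (MulAut.conj n).toMonoidHom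
  · have h1 : n * s⁻¹ * n⁻¹ ∈ S := by
      rw [hne]
      exact ⟨s⁻¹, S.inv_mem hs, rfl⟩
    have h2 := hbot _ (by
      have := S.mul_mem hs h1
      have e : s * n * s⁻¹ * n⁻¹ = s * (n * s⁻¹ * n⁻¹) := by group
      rw [e]
      exact this) hm.2
    rwa [mul_inv_eq_one, mul_inv_eq_iff_eq_mul] at h2
  · have h1 : s = 1 := by
      apply simps_center hS hs
      intro t ht
      have h2 := hc1 t ht _ hm
      have h3 : t * (n * s⁻¹ * n⁻¹) = (n * s⁻¹ * n⁻¹) * t :=
        simps_comm hS0 hSn hne ht ⟨s⁻¹, S.inv_mem hs, rfl⟩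
      have h4 : s * t * (n * s⁻¹ * n⁻¹) = t * s * (n * s⁻¹ * n⁻¹) := by
        calc s * t * (n * s⁻¹ * n⁻¹) = s * (t * (n * s⁻¹ * n⁻¹)) := by group
          _ = s * ((n * s⁻¹ * n⁻¹) * t) := by rw [h3]
          _ = (s * n * s⁻¹ * n⁻¹) * t := by group
          _ = t * (s * n * s⁻¹ * n⁻¹) := h2.symm
          _ = t * s * (n * s⁻¹ * n⁻¹) := by group
      exact mul_right_cancel h4
    rw [h1, one_mul, mul_one]

theorem simps_perfect {S : Subgroup G} (hS : S ∈ simps Q X) : ⁅S, S⁆ = S := by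
  have hle : ⁅S, S⁆ ≤ S := Subgroup.commutator_le_self S
  have hsimple := hS.2.2.1
  have hn : ((⁅S, S⁆ : Subgroup G).subgroupOf S).Normal := by
    constructor
    intro t ht g
    have h1 : (⁅S, S⁆ : Subgroup G).map (MulAut.conj (g : G)).toMonoidHom = ⁅S, S⁆ := by
      rw [Subgroup.map_commutator]
      have h2 : S.map (MulAut.conj (g : G)).toMonoidHom = S := by
        ext x
        constructor
        · rintro ⟨y, hy, rfl⟩
          exact S.mul_mem (S.mul_mem g.2 hy) (S.inv_mem g.2)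
        · intro hx
          refine ⟨(g : G)⁻¹ * x * g, S.mul_mem (S.mul_mem (S.inv_mem g.2) hx) g.2, ?_⟩
          change (g : G) * ((g : G)⁻¹ * x * g) * (g : G)⁻¹ = x
          group
      rw [h2]
    change (g : G) * t * (g : G)⁻¹ ∈ ⁅S, S⁆
    rw [← h1]
    exact ⟨t, ht, rfl⟩
  rcases hsimple.eq_bot_or_eq_top_of_normal _ hn with h | h
  · exfalso
    apply hS.2.2.2.1
    intro x hx y hy
    have h1 : ⁅x, y⁆ ∈ ⁅S, S⁆ := Subgroup.commutator_mem_commutator hx hy
    have h2 : (⟨⁅x, y⁆, hle h1⟩ : S) ∈ (⁅S, S⁆ : Subgroup G).subgroupOf S := h1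
    rw [h, Subgroup.mem_bot] at h2
    have h3 : ⁅x, y⁆ = 1 := congrArg Subtype.val h2
    rwa [commutatorElement_def, mul_inv_eq_one, mul_inv_eq_iff_eq_mul] at h3
  · exact le_antisymm hle (Subgroup.subgroupOf_eq_top.mp h)

theorem SSP.perfect (hX : SSP Q X) : ⁅X, X⁆ = X := by
  refine le_antisymm (Subgroup.commutator_le_self X) (hX.trans (sSup_le fun S hS => ?_))
  rw [← simps_perfect hS]
  exact Subgroup.commutator_mono hS.1 hS.1

/-- an element of `X` commuting with all simple factors -/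
theorem SSP.eq_one (hX : SSP Q X) {x : G} (hx : x ∈ X)
    (h : ∀ S ∈ simps Q X, ∀ y ∈ S, x * y = y * x) : x = 1 :=
  eq_one_of_comm_set (simps Q X) (fun _ hS _ hx h => simps_center hS hx h)
    (fun _ hS _ hS' hne _ hx _ hy => simps_comm hS hS' hne hx hy) (hX hx) h

variable [hXn : X.Normal] (N : Subgroup G) [hNn : N.Normal]

/-- The part of `X` centralising `N`. -/
abbrev cenP (X N : Subgroup G) : Subgroup G := X ⊓ Subgroup.centralizer (N : Set G)

theorem mem_cenP {N : Subgroup G} {x : G} : x ∈ cenP X N ↔ x ∈ X ∧ ∀ n ∈ N, x * n = n * x := by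
  rw [cenP, Subgroup.mem_inf, Subgroup.mem_centralizer_iff]
  constructor
  · rintro ⟨h1, h2⟩
    exact ⟨h1, fun n hn => (h2 n hn).symm⟩
  · rintro ⟨h1, h2⟩
    exact ⟨h1, fun n hn => (h2 n hn).symm⟩

theorem SSP.inf_eq_bot (hX : SSP Q X) : cenP X N ⊓ N = ⊥ := by
  rw [eq_bot_iff]
  intro x hx
  obtain ⟨hx1, hx2⟩ := mem_cenP.mp hx.1
  rw [Subgroup.mem_bot]
  apply hX.eq_one hx1
  intro S hS y hy
  rcases simps_dich N hS with h | h
  · exact hx2 y (h hy)
  · exact (h y hy x hx.2).symm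

theorem SSP.le_sup (hX : SSP Q X) : X ≤ (X ⊓ N) ⊔ cenP X N := by
  refine hX.trans (sSup_le fun S hS => ?_)
  rcases simps_dich N hS with h | h
  · exact (le_inf hS.1 h).trans le_sup_left
  · exact le_trans (fun s hs => mem_cenP.mpr ⟨hS.1 hs, h s hs⟩) le_sup_right

theorem SSP.cenP (hX : SSP Q X) : SSP Q (H47.cenP X N) := by
  classical
  intro x hx
  obtain ⟨hx1, hx2⟩ := mem_cenP.mp hx
  let 𝒜 : Set (Subgroup G) := {S | S ∈ simps Q X ∧ S ≤ N}
  let ℬ : Set (Subgroup G) := {S | S ∈ simps Q X ∧ ∀ s ∈ S, ∀ n ∈ N, s * n = n * s}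
  have hAN : sSup 𝒜 ≤ N := sSup_le fun S hS => hS.2
  have hBN : sSup ℬ ≤ H47.cenP X N := sSup_le fun S hS s hs => mem_cenP.mpr ⟨hS.1.1 hs, hS.2 s hs⟩
  have h1 : x ∈ sSup 𝒜 ⊔ sSup ℬ := by
    have h2 : sSup (simps Q X) ≤ sSup 𝒜 ⊔ sSup ℬ := by
      refine sSup_le fun S hS => ?_
      rcases simps_dich N hS with h | h
      · exact (le_sSup (show S ∈ 𝒜 from ⟨hS, h⟩)).trans le_sup_left
      · exact (le_sSup (show S ∈ ℬ from ⟨hS, h⟩)).trans le_sup_right
    exact h2 (hX hx1)
  obtain ⟨y, hy, z, hz, rfl⟩ := mem_sup_of_commute (fun a ha b hb =>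
    ((mem_cenP.mp (hBN hb)).2 a (hAN ha)).symm) h1
  have hy1 : y = 1 := by
    refine eq_one_of_comm_set 𝒜 (fun S hS x hx h => simps_center hS.1 hx h)
      (fun S hS S' hS' hne x hx y hy => simps_comm hS.1 hS'.1 hne hx hy) hy ?_
    intro S hS w hw
    have h2 := hx2 w (hS.2 hw)
    have h3 := (mem_cenP.mp (hBN hz)).2 w (hS.2 hw)
    have h4 : y * w * z = w * y * z := by
      calc y * w * z = y * (w * z) := by group
        _ = y * (z * w) := by rw [h3]
        _ = y * z * w := by group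
        _ = w * (y * z) := h2
        _ = w * y * z := by group
    exact mul_right_cancel h4
  rw [hy1, one_mul]
  have h5 : sSup ℬ ≤ sSup (simps Q (H47.cenP X N)) := by
    refine sSup_le fun S hS => le_sSup ?_
    refine ⟨fun s hs => mem_cenP.mpr ⟨hS.1.1 hs, hS.2 s hs⟩, fun a ha s hs =>
      hS.1.2.1 a (mem_cenP.mp ha).1 s hs, hS.1.2.2.1, hS.1.2.2.2.1, hS.1.2.2.2.2⟩
  exact h5 hz

end Str

end Vale.Agent.P180.R2.H47
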