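import Vale.Agent.P180.R2.H47.LyrK
import Vale.Agent.P180.R2.H471.AltSS

set_option linter.all false

/-!
P180: the index of `X C_G(X)` in terms of the outer automorphisms of the simple factors.
-/

namespace Vale.Agent.P180.R2.H47

open Vale.Agent.P180 Vale.Agent.P180.H768.Gd
open Vale.Agent.P180.H768 hiding pull mem_pull exists_factor Lay mk_mem comm_mem

open Subgroup

open scoped Nat

section Idx

variable {G : Type} [Group G] [Finite G] {X : Subgroup G} [hXn : X.Normal]

/-- the permutation of the simple factors -/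
noncomputable def actS (X : Subgroup G) [X.Normal] : G →* Equiv.Perm (simps QT X) where
  toFun g :=
    { toFun := fun S => ⟨S.1.map (MulAut.conj g).toMonoidHom,
        simps_conj (Q := QT) (fun _ _ _ _ _ _ => ⟨1⟩) S.2 g⟩
      invFun := fun S => ⟨S.1.map (MulAut.conj g⁻¹).toMonoidHom,
        simps_conj (Q := QT) (fun _ _ _ _ _ _ => ⟨1⟩) S.2 g⁻¹⟩
      left_inv := by
        rintro ⟨S, hS⟩
        apply Subtype.ext
        ext x
        change x ∈ (S.map (MulAut.conj g).toMonoidHom).map (MulAut.conj g⁻¹).toMonoidHom ↔ x ∈ S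
        rw [mem_map_conj', mem_map_conj']
        have e : g⁻¹ * (g⁻¹⁻¹ * x * g⁻¹) * g = x := by group
        rw [e]
      right_inv := by
        rintro ⟨S, hS⟩
        apply Subtype.ext
        ext x
        change x ∈ (S.map (MulAut.conj g⁻¹).toMonoidHom).map (MulAut.conj g).toMonoidHom ↔ x ∈ S
        rw [mem_map_conj', mem_map_conj']
        have e : g⁻¹⁻¹ * (g⁻¹ * x * g) * g⁻¹ = x := by group
        rw [e] }
  map_one' := by
    ext ⟨S, hS⟩ x
    change x ∈ S.map (MulAut.conj 1).toMonoidHom ↔ x ∈ S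
    rw [mem_map_conj']
    have e : (1 : G)⁻¹ * x * 1 = x := by group
    rw [e]
  map_mul' := by
    intro g h
    ext ⟨S, hS⟩ x
    change x ∈ S.map (MulAut.conj (g * h)).toMonoidHom ↔
      x ∈ (S.map (MulAut.conj h).toMonoidHom).map (MulAut.conj g).toMonoidHom
    rw [mem_map_conj', mem_map_conj', mem_map_conj']
    have e : (g * h)⁻¹ * x * (g * h) = h⁻¹ * (g⁻¹ * x * g) * h := by group
    rw [e]

theorem ker_le_normalizer {S : Subgroup G} (hS : S ∈ simps QT X) :
    (actS X).ker ≤ normalizer (S : Set G) := by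
  intro g hg
  rw [MonoidHom.mem_ker] at hg
  have h0 : actS X g ⟨S, hS⟩ = ⟨S, hS⟩ := by rw [hg]; rfl
  have h1 : S.map (MulAut.conj g).toMonoidHom = S := congrArg Subtype.val h0
  rw [mem_normalizer_iff]
  intro x
  rw [← h1, mem_map_conj', mem_map_conj']
  have e : g⁻¹ * (g * x * g⁻¹) * g = x := by group
  rw [e, ← mem_map_conj', h1]

theorem ker_index_le : (actS X).ker.index ≤ (Nat.card (simps QT X))! := by
  rw [index_ker]
  refine (Nat.card_le_card_of_injective _ Subtype.val_injective).trans ?_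
  rw [Nat.card_perm]

theorem exists_inner {g : G} (s : Finset (Subgroup G)) (hs : ∀ S ∈ s, S ∈ simps QT X)
    (hg : ∀ S ∈ s, g ∈ S ⊔ centralizer (S : Set G)) :
    ∃ x ∈ X, (∀ S ∈ s, ∀ y ∈ S, x * y * x⁻¹ = g * y * g⁻¹) ∧
      ∀ S ∈ simps QT X, S ∉ s → ∀ y ∈ S, x * y = y * x := by
  classical
  induction s using Finset.induction_on with
  | empty =>
    refine ⟨1, X.one_mem, by simp, ?_⟩
    intro S _ _ y _
    rw [one_mul, mul_one]
  | insert S s hSs ih =>
    obtain ⟨x, hx, h1, h2⟩ := ih (fun S hS => hs S (Finset.mem_insert_of_mem hS))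
      (fun S hS => hg S (Finset.mem_insert_of_mem hS))
    have hS := hs S (Finset.mem_insert_self _ _)
    obtain ⟨a, ha, c, hc, hac⟩ := Vale.Agent.P180.mem_sup_of_commute (fun a ha b hb =>
      (mem_centralizer_iff.mp hb a ha)) (hg S (Finset.mem_insert_self _ _))
    have hgS : ∀ y ∈ S, g * y * g⁻¹ = a * y * a⁻¹ := by
      intro y hy
      rw [← hac]
      have h3 := mem_centralizer_iff.mp hc y hy
      calc a * c * y * (a * c)⁻¹ = a * (c * y) * c⁻¹ * a⁻¹ := by group
        _ = a * (y * c) * c⁻¹ * a⁻¹ := by rw [h3]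
        _ = a * y * a⁻¹ := by group
    refine ⟨x * a, X.mul_mem hx (hS.1 ha), ?_, ?_⟩
    · intro S' hS' y hy
      rcases Finset.mem_insert.mp hS' with rfl | hS's
      · have h3 : x * (a * y * a⁻¹) = a * y * a⁻¹ * x := h2 S' hS hSs _
          (S'.mul_mem (S'.mul_mem ha hy) (S'.inv_mem ha))
        rw [hgS y hy]
        calc x * a * y * (x * a)⁻¹ = x * (a * y * a⁻¹) * x⁻¹ := by group
          _ = a * y * a⁻¹ * x * x⁻¹ := by rw [h3]
          _ = a * y * a⁻¹ := by group
      · have hne : S ≠ S' := fun h => hSs (by rw [h]; exact hS's)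
        have h3 : a * y = y * a := simps_comm hS (hs S' hS') hne ha hy
        rw [← h1 S' hS's y hy]
        calc x * a * y * (x * a)⁻¹ = x * (a * y) * a⁻¹ * x⁻¹ := by group
          _ = x * (y * a) * a⁻¹ * x⁻¹ := by rw [h3]
          _ = x * y * x⁻¹ := by group
    · intro S' hS' hS's y hy
      rw [Finset.mem_insert, not_or] at hS's
      have h3 : a * y = y * a := simps_comm hS hS' (Ne.symm hS's.1) ha hy
      have h4 := h2 S' hS' hS's.2 y hy
      calc x * a * y = x * (a * y) := by group
        _ = x * (y * a) := by rw [h3]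
        _ = x * y * a := by group
        _ = y * x * a := by rw [h4]
        _ = y * (x * a) := by group

theorem index_bound (hX : SSP QT X) {c : ℕ} (hc : ∀ S ∈ simps QT X, outI S ≤ c) :
    (X ⊔ centralizer (X : Set G)).index ≤
      (Nat.card (simps QT X))! * c ^ Nat.card (simps QT X) := by
  classical
  have : Fintype (simps QT X) := Fintype.ofFinite _
  set K₀ := (actS X).ker with hK₀
  let I : Subgroup G := ⨅ S : simps QT X, ((S : Subgroup G) ⊔ centralizer ((S : Subgroup G) : Set G))
  have h1 : I ⊓ K₀ ≤ X ⊔ centralizer (X : Set G) := by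
    intro g hg
    have hg1 : ∀ S ∈ simps QT X, g ∈ S ⊔ centralizer (S : Set G) :=
      fun S hS => (mem_iInf.mp hg.1) ⟨S, hS⟩
    have hfin : (simps QT X).Finite := Set.toFinite _
    obtain ⟨x, hx, h2, -⟩ := exists_inner (X := X) (g := g) hfin.toFinset
      (fun S hS => hfin.mem_toFinset.mp hS) (fun S hS => hg1 S (hfin.mem_toFinset.mp hS))
    have h3 : x⁻¹ * g ∈ centralizer (X : Set G) := by
      have h4 : X ≤ centralizer ({x⁻¹ * g} : Set G) := by
        refine hX.trans (sSup_le fun S hS y hy => ?_)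
        rw [mem_centralizer_singleton_iff]
        have h5 := h2 S (hfin.mem_toFinset.mpr hS) y hy
        calc y * (x⁻¹ * g) = x⁻¹ * (x * y * x⁻¹) * g := by group
          _ = x⁻¹ * (g * y * g⁻¹) * g := by rw [h5]
          _ = x⁻¹ * g * y := by group
      rw [mem_centralizer_iff]
      intro y hy
      exact mem_centralizer_singleton_iff.mp (h4 hy)
    have h6 : g = x * (x⁻¹ * g) := by group
    rw [h6]
    exact mul_mem_sup hx h3
  have h2 : (X ⊔ centralizer (X : Set G)).index ≤ (I ⊓ K₀).index :=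
    Nat.le_of_dvd (Nat.pos_of_ne_zero index_ne_zero_of_finite) (index_dvd_of_le h1)
  have h3 : (I ⊓ K₀).index = I.relIndex K₀ * K₀.index := by
    rw [← relIndex_mul_index (inf_le_right : I ⊓ K₀ ≤ K₀), inf_relIndex_right]
  have h4 : I.relIndex K₀ ≤ c ^ Nat.card (simps QT X) := by
    refine (relIndex_iInf_le _).trans ?_
    rw [Nat.card_eq_fintype_card, ← Finset.card_univ, ← Finset.prod_const]
    refine Finset.prod_le_prod' fun S _ => ?_
    exact (relIndex_le_of_le_right (ker_le_normalizer S.2)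
      index_ne_zero_of_finite).trans (hc S S.2)
  rw [h3, mul_comm] at h2
  exact h2.trans (Nat.mul_le_mul ker_index_le h4)

end Idx

section Alt

open Vale.Agent.P180.R2.H471 (QA)

variable {G : Type} [Group G] [Finite G]

theorem outI_alt {S : Subgroup G} (hS : IsSimpleGroup S)
    (hna : ¬ ∀ x ∈ S, ∀ y ∈ S, x * y = y * x) (hQ : QA S) : outI S ≤ 2 := by
  obtain ⟨Y, hY⟩ : ∃ Y, Y = S.subgroupOf (normalizer (S : Set G)) := ⟨_, rfl⟩
  have hSN : S ≤ normalizer (S : Set G) := le_normalizer
  have e : Y ≃* S := by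
    rw [hY]; exact subgroupOfEquivOfLe hSN
  have hYn : Y.Normal := by
    rw [hY]
    exact normal_in_normalizer
  have hmem : ∀ {y : normalizer (S : Set G)}, y ∈ Y ↔ (y : G) ∈ S := by
    intro y; rw [hY, mem_subgroupOf]
  have hYsimp : Y ∈ simps QA Y := by
    refine ⟨le_rfl, fun x hx s hs => Y.mul_mem (Y.mul_mem hx hs) (Y.inv_mem hx),
      simple_of_equiv e.symm hS, ?_, H471.QA_isoInv _ _ ⟨e.symm⟩ hQ⟩
    intro h
    apply hna
    intro x hx y hy
    exact congrArg Subtype.val (h ⟨x, hSN hx⟩ (hmem.mpr hx) ⟨y, hSN hy⟩ (hmem.mpr hy))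
  have hYS : SSP QA Y := le_sSup hYsimp
  have hcard : Nat.card (simps QA Y) = 1 := by
    have h1 : simps QA Y = {Y} := by
      ext T
      rw [Set.mem_singleton_iff]
      constructor
      · intro hT
        have h2 : (T.subgroupOf Y).Normal := by
          constructor
          intro t ht g
          exact hT.2.1 g g.2 t ht
        rcases hYsimp.2.2.1.eq_bot_or_eq_top_of_normal _ h2 with h | h
        · exfalso
          apply hT.2.2.2.1
          intro x hx y hy
          have h3 : (⟨x, hT.1 hx⟩ : Y) ∈ T.subgroupOf Y := hx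
          rw [h, mem_bot] at h3
          have h4 : x = 1 := congrArg Subtype.val h3
          rw [h4, one_mul, mul_one]
        · exact le_antisymm hT.1 (subgroupOf_eq_top.mp h)
      · rintro rfl
        exact hYsimp
    rw [h1]
    exact Nat.card_unique
  obtain ⟨𝒜, hr, -, -, -, -, hidx⟩ := H471.exists_alt (X := Y) hYS
  rw [hr, hcard] at hidx
  have h1 : Y ⊔ centralizer (Y : Set (normalizer (S : Set G))) ≤
      (S ⊔ centralizer (S : Set G)).subgroupOf (normalizer (S : Set G)) := by
    refine sup_le ?_ ?_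
    · intro y hy
      rw [mem_subgroupOf]
      exact mem_sup_left (hmem.mp hy)
    · intro y hy
      rw [mem_subgroupOf]
      refine mem_sup_right ?_
      rw [mem_centralizer_iff]
      intro s hs
      exact congrArg Subtype.val (mem_centralizer_iff.mp hy ⟨s, hSN hs⟩ (hmem.mpr hs))
  have h2 : outI S ≤ (Y ⊔ centralizer (Y : Set (normalizer (S : Set G)))).index :=
    Nat.le_of_dvd (Nat.pos_of_ne_zero index_ne_zero_of_finite) (index_dvd_of_le h1)
  exact h2.trans (hidx.trans (by norm_num))

end Alt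

open Vale.Agent.P180.R2.H471 (QA)

theorem indK_KK (p n M : ℕ) : IndK (KK QA p M) n (n ! * (max 2 M) ^ n) := by
  intro G _ _ X D _ hX hK hn hne
  refine (index_bound hX (c := max 2 M) ?_).trans ?_
  · intro S hS
    rcases hK S hS with h | ⟨-, h, -⟩ | h
    · exact (outI_alt hS.2.2.1 hS.2.2.2.1 h).trans (le_max_left _ _)
    · exact h.trans (le_max_right _ _)
    · exfalso
      apply hne S hS
      rw [eq_bot_iff, ← h]
      exact inf_le_Pj D S
  · exact Nat.mul_le_mul (Nat.factorial_le hn) (Nat.pow_le_pow_right (by positivity) hn)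

end Vale.Agent.P180.R2.H47
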