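import Vale.Agent.P180.R2.H47.Qs
import Vale.Agent.P180.R2.H799.BNQ
import Vale.Agent.P180.R2.H799.BNL5

set_option linter.all false

/-!
P180: the corner property of the pairs `TamePair`: elementary lemmas.
-/

namespace Vale.Agent.P180.R2.H47.PairP

open Module Vale.Agent.P180 Vale.Agent.P180.R2.H799

section Center

variable {K E : Type} [Field K] [Finite K] [AddCommGroup E] [Module K E] [FiniteDimensional K E]

/-- the number of scalars of determinant one -/
theorem card_center_le (hd : 0 < finrank K E) {Z : Subgroup (SpecialLinearGroup K E)}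
    (hZ : Z ≤ Subgroup.center _) : Nat.card Z ≤ finrank K E := by
  classical
  have _ := Fintype.ofFinite K
  have _ : Finite (SpecialLinearGroup K E) := BN.finite_sl
  refine (Nat.card_le_card_of_injective _ (Subgroup.inclusion_injective hZ)).trans ?_
  rw [Nat.card_congr (SpecialLinearGroup.centerEquivRootsOfUnity (R := K) (V := E)).toEquiv]
  have h : NeZero (max (finrank K E) 1) := ⟨by omega⟩
  exact (card_rootsOfUnity K (max (finrank K E) 1)).trans (max_le le_rfl hd)

theorem orderOf_center_dvd {c : SpecialLinearGroup K E}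
    (hc : c ∈ Subgroup.center (SpecialLinearGroup K E)) : c ^ (Nat.card K - 1) = 1 := by
  classical
  have _ := Fintype.ofFinite K
  let e := SpecialLinearGroup.centerEquivRootsOfUnity (R := K) (V := E)
  have h1 : (e ⟨c, hc⟩) ^ (Nat.card K - 1) = 1 := by
    apply Subtype.ext
    change ((e ⟨c, hc⟩ : _) : Kˣ) ^ (Nat.card K - 1) = 1
    rw [Nat.card_eq_fintype_card, ← Fintype.card_units]
    exact pow_card_eq_one
  rw [← map_pow, MulEquiv.map_eq_one_iff] at h1
  exact congrArg Subtype.val h1

end Center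

section Map

/-- In a central extension of perfect groups, the preimage of the centre is the centre. -/
theorem center_of_map {S S' : Type} [Group S] [Group S'] (f : S →* S')
    (hker : ∀ x, f x = 1 → ∀ y, x * y = y * x)
    (hS : commutator S = ⊤) {x : S} (h : f x ∈ Subgroup.center S') : x ∈ Subgroup.center S := by
  have hS2 : ⁅(⊤ : Subgroup S), (⊤ : Subgroup S)⁆ = ⊤ := by
    rw [← commutator_def]; exact hS
  rw [Subgroup.mem_center_iff] at h ⊢
  have h1 := perf_act hS2 (c := x) (by
    intro y _
    refine ⟨trivial, fun z _ => ?_⟩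
    refine hker _ ?_ z
    rw [map_mul, map_mul, map_mul, map_inv, map_inv, ← h (f y)]
    group)
  intro g
  exact (h1 g trivial).symm

/-- lifting of `p`-elements -/
theorem exists_lift_elt {p : ℕ} [Fact p.Prime] {X S : Type} [Group X] [Finite X] [Group S]
    {π : X →* S} (hπ : Function.Surjective π) {a : S} (ha : ∃ i, a ^ (p ^ i) = 1) :
    ∃ x : X, (∃ i, x ^ (p ^ i) = 1) ∧ π x = a := by
  obtain ⟨i, hi⟩ := ha
  have hp : IsPGroup p (Subgroup.zpowers a) := by
    rintro ⟨_, j, rfl⟩
    refine ⟨i, Subtype.ext ?_⟩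
    change (a ^ j) ^ p ^ i = 1
    rw [← zpow_natCast, ← zpow_mul, mul_comm, zpow_mul, zpow_natCast, hi, one_zpow]
  obtain ⟨Q, hQ, hQa⟩ := BN.exists_lift (p := p) π hπ hp
  have h1 : a ∈ Q.map π := by rw [hQa]; exact Subgroup.mem_zpowers a
  obtain ⟨x, hx, hxa⟩ := h1
  obtain ⟨j, hj⟩ := hQ ⟨x, hx⟩
  exact ⟨x, ⟨j, congrArg Subtype.val hj⟩, hxa⟩

end Map

end Vale.Agent.P180.R2.H47.PairP
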