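import Vale.Agent.P180.R2.H47.PairDef
import Vale.Agent.P180.R2.H47.PairB
import Vale.Agent.P180.R2.H259.Par.Cor
import Vale.Agent.P180.R2.H471.He10
import Vale.Agent.P180.R2.H799.BNG3
import Vale.Agent.P180.R2.H854.TD4
import Vale.Agent.P180.R2.H854.TP
import Vale.Agent.P180.R2.H365.LocD
import Vale.Agent.P180.R2.H799.BW2
import Vale.Agent.P180.R2.H471.Co1
import Vale.Agent.P180.R2.H799.BZ2
import Vale.Agent.P180.R2.H799.CG0

set_option linter.all false

/-!
P180: the corner property of the pairs `TamePair`.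
-/

namespace Vale.Agent.P180.R2.H47.PairP

open Module Vale.Agent.P180 Vale.Agent.P180.H768.Gd Vale.Agent.P180.R2.H799
  Vale.Agent.P180.R2.H365 Vale.Agent.P180.R2.H854 Vale.Agent.P180.R2.H954
  Vale.Agent.P180.R2.H471.Hc Vale.Agent.P180.R2.H471.Hd Vale.Agent.P180.R2.H471.He
open scoped Nat

universe u

theorem oneBd_le {k : Type u} [Field k] {L : Type} [Group L] [Finite L] {Q : Subgroup L}
    {C C' : ℕ} (h : OneBd k Q C) (hC : C ≤ C') : OneBd k Q C' := by
  intro e a he ha hea hbr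
  obtain ⟨i, h1, h2, h3, h4, h5⟩ := h e a he ha hea hbr
  exact ⟨i, h1, h2, h3, h4, h5.trans hC⟩

section Map

theorem classical_map {p m : ℕ} [Fact p.Prime] {S S' : Type} [Group S] [Finite S] [Group S']
    (f : S →* S') (hf : Function.Surjective f) (hker : ∀ x, f x = 1 → ∀ y, x * y = y * x)
    (hS : commutator S = ⊤) {A : Subgroup S} (hA : IsPGroup p A) (h : ClassicalPair p m S A) :
    ClassicalPair p m S' (A.map f) := by
  obtain ⟨K, iK, fK, d, hd0, hpK, θ, X, π, hX, hπ, hc, hd⟩ := h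
  have _ : Finite (SpecialLinearGroup K (Fin d → K)) := BN.finite_sl
  refine ⟨K, iK, fK, d, hd0, hpK, θ, X, f.comp π, hX, hf.comp hπ, ?_, ?_⟩
  · intro x hx
    exact hc x (center_of_map f hker hS hx)
  refine hd.imp_right fun h => ?_
  have key : ∀ x : X, (∃ i, x ^ (p ^ i) = 1) → f (π x) ∈ A.map f → ∃ x₀ : X,
      (∃ i, x₀ ^ (p ^ i) = 1) ∧ π x₀ ∈ A ∧
      ((x₀⁻¹ * x : X) : SpecialLinearGroup K (Fin d → K)) ∈ Subgroup.center _ := by
    rintro x hx ⟨a, ha, hax⟩
    obtain ⟨i, hi⟩ := hA ⟨a, ha⟩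
    obtain ⟨x₀, hx₀, hxa⟩ := exists_lift_elt (p := p) hπ (a := a) ⟨i, congrArg Subtype.val hi⟩
    refine ⟨x₀, hx₀, by rw [hxa]; exact ha, hc _ ?_⟩
    apply center_of_map f hker hS
    have h1 : f (π (x₀⁻¹ * x)) = 1 := by
      rw [map_mul, map_inv, map_mul, map_inv, hxa, hax, inv_mul_cancel]
    rw [h1]
    exact Subgroup.one_mem _
  have hcc : ∀ c : X, (c : SpecialLinearGroup K (Fin d → K)) ∈ Subgroup.center _ →
      ∀ y : X, y * c = c * y := fun c hc y => Subtype.ext (Subgroup.mem_center_iff.mp hc y.1)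
  refine ⟨?_, h.2.imp_right fun h' => ⟨h'.1, h'.2.imp_right fun h'' => h''.imp_right fun h'' => ?_⟩⟩
  · intro x y hx hy hxA hyA
    obtain ⟨x₀, hx₀, hx₀A, hcx⟩ := key x hx hxA
    obtain ⟨y₀, hy₀, hy₀A, hcy⟩ := key y hy hyA
    obtain ⟨c, rfl⟩ : ∃ c, x = x₀ * c := ⟨x₀⁻¹ * x, by group⟩
    obtain ⟨c', rfl⟩ : ∃ c, y = y₀ * c := ⟨y₀⁻¹ * y, by group⟩
    rw [inv_mul_cancel_left] at hcx hcy
    have h0 := h.1 x₀ y₀ hx₀ hy₀ hx₀A hy₀A
    calc x₀ * c * (y₀ * c') = x₀ * (c * y₀) * c' := by group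
      _ = x₀ * y₀ * (c * c') := by rw [← hcc c hcx]; group
      _ = y₀ * x₀ * (c' * c) := by rw [h0, hcc c' hcy]
      _ = y₀ * (x₀ * c') * c := by group
      _ = y₀ * c' * (x₀ * c) := by rw [hcc c' hcy]; group
  · intro x hx hxA
    obtain ⟨x₀, hx₀, hx₀A, hcx⟩ := key x hx hxA
    obtain ⟨c, rfl⟩ : ∃ c, x = x₀ * c := ⟨x₀⁻¹ * x, by group⟩
    rw [inv_mul_cancel_left] at hcx
    have h1 : Commute x₀ c := hcc c hcx x₀
    have h2 : c ^ (Nat.card K - 1) = 1 := Subtype.ext (orderOf_center_dvd hcx)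
    rw [h1.mul_pow, h'' x₀ hx₀ hx₀A, h2, one_mul]

theorem classical_sub {p m : ℕ} {S : Type} [Group S] {A A' : Subgroup S} (hA : A' ≤ A)
    (h : ClassicalPair p m S A) : ClassicalPair p m S A' := by
  obtain ⟨K, iK, fK, d, hd0, hpK, θ, X, π, hX, hπ, hc, hd⟩ := h
  refine ⟨K, iK, fK, d, hd0, hpK, θ, X, π, hX, hπ, hc, hd.imp_right fun h => ?_⟩
  exact ⟨fun x y hx hy hxA hyA => h.1 x y hx hy (hA hxA) (hA hyA),
    h.2.imp_right fun h' => ⟨h'.1, h'.2.imp_right fun h'' => h''.imp_right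
      fun h'' x hx hxA => h'' x hx (hA hxA)⟩⟩

theorem ck_tame {p m : ℕ} [Fact p.Prime] : CK p (TamePair p m) where
  map := by
    rintro S S' _ _ _ _ f hf hker hS A hA (h | h | h)
    · left
      exact isCyclic_of_surjective (f.subgroupMap A) (f.subgroupMap_surjective A)
    · exact Or.inr (Or.inl (h.imp (H259.Par.ck_par.map f hf hker hS A hA)
        (Or.imp (H799.BZ.ck_lev.map f hf hker hS A hA) (H799.CG.cover_map2 hf hker hS))))
    · exact Or.inr (Or.inr (classical_map f hf hker hS hA h))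
  sub := by
    rintro S _ _ A A' hA (h | h | h)
    · left
      exact isCyclic_of_injective (Subgroup.inclusion hA) (Subgroup.inclusion_injective hA)
    · exact Or.inr (Or.inl (h.imp (H259.Par.ck_par.sub hA)
        (Or.imp_left (H799.BZ.ck_lev.sub hA))))
    · exact Or.inr (Or.inr (classical_sub hA h))

end Map

section Cor

theorem relIndex_of_two {H : Type} [Group H] {X Y : Subgroup H}
    (h : ∀ g ∈ Y, ∀ g' ∈ Y, g ∉ X → g' ∉ X → g * g' ∈ X) : X.relIndex Y ∣ 2 := by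
  by_cases hY : Y ≤ X
  · rw [Subgroup.relIndex_eq_one.mpr hY]
    exact one_dvd 2
  · obtain ⟨a, haY, haX⟩ := SetLike.not_le_iff_exists.mp hY
    have : X.relIndex Y = 2 := by
      rw [Subgroup.relIndex_eq_two_iff]
      refine ⟨a, haY, fun b hb => ?_⟩
      by_cases hbX : b ∈ X
      · refine Or.inr ⟨hbX, fun hba => haX ?_⟩
        have := X.mul_mem (X.inv_mem hbX) hba
        rwa [inv_mul_cancel_left] at this
      · exact Or.inl ⟨h b hb a haY hbX haX, hbX⟩
    rw [this]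

/-- the constant -/
noncomputable def cP (p n m : ℕ) : ℕ :=
  max (max (H259.Cyc.cycB p n) (max (max (H799.BN.bnB n) (H799.BZ.bdL p (H799.CB.lvM p) n))
    (H799.BZ.bdL p m n))) (max (max (H799.BG.bnC p n)
    (max (H259.Exp.expB p n) (H259.Iso.isoEB p n)))
    (max (bdA p (max m p) (n * max m p)) (bdF p (max m p) n)))

variable {k : Type u} [Field k] [IsAlgClosed k] {p m n : ℕ} [Fact p.Prime] [CharP k p]
  {G : Type} [Group G] [Finite G] {D L : Subgroup G}

theorem le_cP1 : H259.Cyc.cycB p n ≤ cP p n m := (le_max_left _ _).trans (le_max_left _ _)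
theorem le_cP9 : max (H799.BN.bnB n) (H799.BZ.bdL p (H799.CB.lvM p) n) ≤ cP p n m :=
  (le_max_left _ _).trans ((le_max_right _ _).trans (le_max_left _ _))
theorem le_cP2 : H799.BN.bnB n ≤ cP p n m := (le_max_left _ _).trans le_cP9
theorem le_cP8 : H799.BZ.bdL p m n ≤ cP p n m :=
  (le_max_right _ _).trans ((le_max_right _ _).trans (le_max_left _ _))
theorem le_cP3 : H799.BG.bnC p n ≤ cP p n m :=
  (le_max_left _ _).trans ((le_max_left _ _).trans (le_max_right _ _))
theorem le_cP6 : H259.Exp.expB p n ≤ cP p n m :=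
  (le_max_left _ _).trans ((le_max_right _ _).trans ((le_max_left _ _).trans (le_max_right _ _)))
theorem le_cP7 : H259.Iso.isoEB p n ≤ cP p n m :=
  (le_max_right _ _).trans ((le_max_right _ _).trans ((le_max_left _ _).trans (le_max_right _ _)))
theorem le_cP4 : bdA p (max m p) (n * max m p) ≤ cP p n m :=
  (le_max_left _ _).trans ((le_max_right _ _).trans (le_max_right _ _))
theorem le_cP5 : bdF p (max m p) n ≤ cP p n m :=
  (le_max_right _ _).trans ((le_max_right _ _).trans (le_max_right _ _))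

/-- special linear groups -/
theorem corP_lin (hD : IsPGroup p D) (hDn : Nat.card D ≤ n) {K : Type} [Field K] [Finite K]
    {d : ℕ} (hd0 : 0 < d) (hpK : ¬ p ∣ Nat.card K)
    {π : SpecialLinearGroup K (Fin d → K) →* L} (hπ : Function.Surjective π)
    (hk : π.ker ≤ Subgroup.center _)
    (h : d < p ∨ ((∀ x y : SpecialLinearGroup K (Fin d → K), (∃ i, x ^ (p ^ i) = 1) →
      (∃ i, y ^ (p ^ i) = 1) → ((π x : L) : G) ∈ D → ((π y : L) : G) ∈ D → x * y = y * x) ∧
      (d ≤ m ∨ (p ∣ Nat.card K - 1 ∧ ((∀ x : SpecialLinearGroup K (Fin d → K),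
        (∃ i, x ^ (p ^ i) = 1) → ((π x : L) : G) ∈ D → x ^ (Nat.card K - 1) = 1) ∨ ¬ p ∣ d)))))
    (hin : D ⊓ Subgroup.normalizer (L : Set G) ≤ L ⊔ Subgroup.centralizer (L : Set G))
    (b : MonoidAlgebra k G) : H365.CorP p (cP p n m) b D L := by
  have hfG : Finite (SpecialLinearGroup K (Fin d → K)) := BN.finite_sl
  have hfd : finrank K (Fin d → K) = d := by rw [Module.finrank_fin_fun]
  -- the abelian case in bounded dimension
  have key : (∀ x y : SpecialLinearGroup K (Fin d → K), (∃ i, x ^ (p ^ i) = 1) →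
      (∃ i, y ^ (p ^ i) = 1) → ((π x : L) : G) ∈ D → ((π y : L) : G) ∈ D → x * y = y * x) →
      d ≤ max m p → H365.CorP p (cP p n m) b D L := by
    intro hab hdm
    refine corP_of_one hD hin (fun Q' hQ' => ?_) b
    have hQp : IsPGroup p Q' := (hD.comap_of_injective L.subtype L.subtype_injective).to_le hQ'
    have hQn : Nat.card Q' ≤ n := H799.BN.card_subgroupOf_le hDn hQ'
    refine oneBd_le (H799.BN.oneBd_central hπ hk hQp (C := bdA p (max m p) (n * max m p))
      fun Q hQ hQQ => ?_) le_cP4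
    have hcard : Nat.card Q ≤ n * max m p := by
      have h1 : Nat.card (Q ⊓ π.ker : Subgroup _) * Nat.card (Q.map π) = Nat.card Q := by
        have h2 := (π.subgroupMap Q).ker.card_mul_index
        rw [Subgroup.index_ker, MonoidHom.range_eq_top.mpr (π.subgroupMap_surjective Q),
          Nat.card_congr Subgroup.topEquiv.toEquiv] at h2
        rw [← h2]
        congr 1
        refine Nat.card_congr
          { toFun := fun x => ⟨⟨x.1, x.2.1⟩, ?_⟩
            invFun := fun x => ⟨x.1.1, ⟨x.1.2, ?_⟩⟩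
            left_inv := fun x => rfl
            right_inv := fun x => rfl }
        · exact Subtype.ext (MonoidHom.mem_ker.mp x.2.2)
        · exact congrArg Subtype.val (MonoidHom.mem_ker.mp x.2)
      have h2 : Nat.card (Q ⊓ π.ker : Subgroup _) ≤ d := by
        refine (card_center_le (by rw [hfd]; exact hd0) (inf_le_right.trans hk)).trans ?_
        rw [hfd]
      rw [← h1, hQQ, mul_comm]
      exact Nat.mul_le_mul hQn (h2.trans hdm)
    have hmem : ∀ x ∈ Q, ((π x : L) : G) ∈ D := fun x hx => hQ' (by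
      rw [← hQQ]; exact ⟨x, hx, rfl⟩)
    have hpow : ∀ x ∈ Q, ∃ i : ℕ, x ^ (p ^ i) = 1 := by
      intro x hx
      obtain ⟨j, hj⟩ := hQ ⟨x, hx⟩
      exact ⟨j, congrArg Subtype.val hj⟩
    refine oneBd_le (oneBd_slA (m := max m p) hpK (hfd.le.trans hdm) hQ hcard fun x hx y hy =>
      hab x y (hpow x hx) (hpow y hy) (hmem x hx) (hmem y hy)) ?_
    exact Nat.le_mul_of_pos_left _ Nat.card_pos
  rcases h with hlt | ⟨hab, hdm | ⟨hp1, he | hpd⟩⟩
  · by_cases hp1 : p ∣ Nat.card K - 1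
    · exact (H799.BG.corP_sl2 hD hDn ⟨K, inferInstance, inferInstance, d, π, hπ, hk, hp1,
        Or.inl hlt⟩ hin b).mono le_cP3
    · refine key ?_ (hlt.le.trans (le_max_right _ _))
      intro x y hx hy hxD hyD
      have hDL : IsPGroup p (D.subgroupOf L) :=
        hD.comap_of_injective L.subtype L.subtype_injective
      -- a `p`-subgroup containing both
      have hkp : ¬ p ∣ Nat.card π.ker := not_dvd_center' hp1 hk
      obtain ⟨Q, hQ, hQD⟩ := BN.exists_lift (p := p) π hπ hDL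
      have key2 : ∀ x : SpecialLinearGroup K (Fin d → K), (∃ i, x ^ (p ^ i) = 1) →
          ((π x : L) : G) ∈ D → x ∈ Q := by
        rintro x ⟨i, hi⟩ hxD
        have h1 : (π x : L) ∈ Q.map π := by rw [hQD]; exact hxD
        obtain ⟨x', hx', hxe⟩ := h1
        obtain ⟨i', hi'⟩ := hQ ⟨x', hx'⟩
        have hi' : x' ^ (p ^ i') = 1 := congrArg Subtype.val hi'
        have h2 : x'⁻¹ * x ∈ π.ker := by
          rw [MonoidHom.mem_ker, map_mul, map_inv, hxe, inv_mul_cancel]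
        have h3 : Commute x' (x'⁻¹ * x) := (Subgroup.mem_center_iff.mp (hk h2) x')
        have h4 : (x'⁻¹ * x) ^ (p ^ (i + i')) = 1 := by
          have h5 : x = x' * (x'⁻¹ * x) := by group
          have h6 : x ^ (p ^ (i + i')) = 1 := by rw [pow_add, pow_mul, hi, one_pow]
          rw [h5, h3.mul_pow, show x' ^ (p ^ (i + i')) = 1 by
            rw [add_comm, pow_add, pow_mul, hi', one_pow], one_mul] at h6
          exact h6
        have h5 : x'⁻¹ * x = 1 := by
          have h6 : orderOf (x'⁻¹ * x) ∣ Nat.card π.ker := by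
            have h7 := orderOf_dvd_natCard (⟨_, h2⟩ : π.ker)
            rwa [show orderOf (⟨_, h2⟩ : π.ker) = orderOf (x'⁻¹ * x) from
              (orderOf_injective π.ker.subtype π.ker.subtype_injective _).symm] at h7
          obtain ⟨j, -, hj⟩ := (Nat.dvd_prime_pow (Fact.out : p.Prime)).mp
            (orderOf_dvd_of_pow_eq_one h4)
          rw [hj] at h6
          rcases Nat.eq_zero_or_pos j with h0 | h0
          · rw [h0, pow_zero] at hj
            exact orderOf_eq_one_iff.mp hj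
          · exact absurd ((dvd_pow_self p h0.ne').trans h6) hkp
        rw [inv_mul_eq_one] at h5
        rwa [← h5]
      exact comm_of_lt hpK hlt hQ x (key2 x hx hxD) y (key2 y hy hyD)
  · exact key hab (hdm.trans (le_max_left _ _))
  · refine (H799.BG.corP_sl2 hD hDn ⟨K, inferInstance, inferInstance, d, π, hπ, hk, hp1,
      Or.inr ?_⟩ hin b).mono le_cP3
    intro x y hx hy hxD hyD
    exact ⟨hab x y hx hy hxD hyD, he x hx hxD⟩
  · refine (H799.BV.corP_slE (H799.BV.slBd (k := k) p n) hD hDn hp1 hpd hπ hk ?_ hin b).mono le_cP6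
    intro x hxD hxL y hyD hyL
    obtain ⟨i, hi⟩ := hD ⟨x, hxD⟩
    obtain ⟨j, hj⟩ := hD ⟨y, hyD⟩
    have hi : x ^ (p ^ i) = 1 := congrArg Subtype.val hi
    have hj : y ^ (p ^ j) = 1 := congrArg Subtype.val hj
    obtain ⟨x₀, hx₀, hxe⟩ := exists_lift_elt (p := p) hπ (a := (⟨x, hxL⟩ : L))
      ⟨i, Subtype.ext hi⟩
    obtain ⟨y₀, hy₀, hye⟩ := exists_lift_elt (p := p) hπ (a := (⟨y, hyL⟩ : L))
      ⟨j, Subtype.ext hj⟩
    have h1 := hab x₀ y₀ hx₀ hy₀ (by rw [hxe]; exact hxD) (by rw [hye]; exact hyD)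
    have h2 := congrArg π h1
    rw [map_mul, map_mul, hxe, hye] at h2
    exact congrArg Subtype.val h2

/-- **The corner property of classical groups.** -/
theorem corP_classical (hD : IsPGroup p D) (hDn : Nat.card D ≤ n)
    (h : ClassicalPair p m L (D.subgroupOf L))
    (hin : D ⊓ Subgroup.normalizer (L : Set G) ≤ L ⊔ Subgroup.centralizer (L : Set G))
    (b : MonoidAlgebra k G) : H365.CorP p (cP p n m) b D L := by
  obtain ⟨K, iK, fK, d, hd0, hpK, θ, X, π, hX, hπ, hc, hd⟩ := h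
  have hfG : Finite (SpecialLinearGroup K (Fin d → K)) := BN.finite_sl
  have hkc : ∀ x : X, π x = 1 → (x : SpecialLinearGroup K (Fin d → K)) ∈ Subgroup.center _ := by
    intro x hx
    apply hc
    rw [hx]
    exact Subgroup.one_mem _
  have hζ1 : (∃ ζ : K, ζ ^ p = 1 ∧ ζ ≠ 1 ∧ θ ζ = ζ) → p ∣ Nat.card K - 1 := by
    rintro ⟨ζ, h1, h2, -⟩
    classical
    have _ := Fintype.ofFinite K
    have h0 : ζ ≠ 0 := by
      rintro rfl
      rw [zero_pow (Fact.out : p.Prime).ne_zero] at h1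
      exact zero_ne_one h1
    have h3 : orderOf ζ = p := orderOf_eq_prime h1 h2
    have h4 := FiniteField.pow_card_sub_one_eq_one ζ h0
    rw [← h3, Nat.card_eq_fintype_card]
    exact orderOf_dvd_of_pow_eq_one h4
  have hTop : X = ⊤ → (d < p ∨ ((∀ x y : X, (∃ i, x ^ (p ^ i) = 1) → (∃ i, y ^ (p ^ i) = 1) →
      π x ∈ D.subgroupOf L → π y ∈ D.subgroupOf L → x * y = y * x) ∧
      (d ≤ m ∨ ((∃ ζ : K, ζ ^ p = 1 ∧ ζ ≠ 1 ∧ θ ζ = ζ) ∧ (¬ p ∣ d ∨
        ∀ x : X, (∃ i, x ^ (p ^ i) = 1) → π x ∈ D.subgroupOf L → x ^ (Nat.card K - 1) = 1))))) →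
      H365.CorP p (cP p n m) b D L := by
    rintro rfl hd
    let ι : SpecialLinearGroup K (Fin d → K) →* (⊤ : Subgroup (SpecialLinearGroup K (Fin d → K))) :=
      Subgroup.topEquiv.symm.toMonoidHom
    have hιs : Function.Surjective ι := Subgroup.topEquiv.symm.surjective
    have hιv : ∀ x, ((ι x : _) : SpecialLinearGroup K (Fin d → K)) = x := fun x => rfl
    have hpw : ∀ x, (∃ i, x ^ (p ^ i) = 1) → ∃ i, ι x ^ (p ^ i) = 1 := by
      rintro x ⟨i, hi⟩
      exact ⟨i, by rw [← map_pow, hi, map_one]⟩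
    refine corP_lin (π := π.comp ι) hD hDn hd0 hpK (hπ.comp hιs) ?_ ?_ hin b
    · intro x hx
      have h1 := hkc (ι x) (MonoidHom.mem_ker.mp hx)
      rwa [hιv] at h1
    · refine hd.imp_right fun h => ⟨?_, h.2.imp_right fun h' => ⟨hζ1 h'.1,
        (h'.2.imp_right fun h'' => ?_).symm⟩⟩
      · intro x y hx hy hxD hyD
        exact congrArg Subtype.val (h.1 (ι x) (ι y) (hpw x hx) (hpw y hy) hxD hyD)
      · intro x hx hxD
        have h1 := h'' (ι x) (hpw x hx) hxD
        exact congrArg Subtype.val h1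
  have hForm : ClassicalForm p K (Fin d → K) θ X →
      (d < p ∨ ((∀ x y : X, (∃ i, x ^ (p ^ i) = 1) → (∃ i, y ^ (p ^ i) = 1) →
      π x ∈ D.subgroupOf L → π y ∈ D.subgroupOf L → x * y = y * x) ∧
      (d ≤ m ∨ (∃ ζ : K, ζ ^ p = 1 ∧ ζ ≠ 1 ∧ θ ζ = ζ)))) → H365.CorP p (cP p n m) b D L := by
    rintro ⟨B, ε, ⟨f1, f2, f3, f4, f5, f6⟩, hXI, hX2, hgood, hlin⟩ hd
    let Φ : H854.HForm K (Fin d → K) :=
      { B := B, θ := θ, ε := ε, add_left := f1, smul_left := f2, θθ := f3, εε := f4, symm := f5,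
        nondeg := f6 }
    have hXI' : X ≤ Φ.Iso := hXI
    have hX2' : X.relIndex Φ.Iso ∣ 2 :=
      relIndex_of_two fun g hg g' hg' hgX hgX' => hX2 g g' hgX hgX' hg hg'
    have hgood' : Φ.GoodX X := by
      rcases hgood with h | ⟨h1, h2⟩
      · exact Or.inl h
      · exact Or.inr ⟨le_antisymm hXI' h1, h2⟩
    have hk : π.ker.map X.subtype ≤ Subgroup.center _ := by
      rintro _ ⟨x, hx, rfl⟩
      exact hkc x (MonoidHom.mem_ker.mp hx)
    have hab : (∀ x y : X, (∃ i, x ^ (p ^ i) = 1) → (∃ i, y ^ (p ^ i) = 1) →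
        π x ∈ D.subgroupOf L → π y ∈ D.subgroupOf L → x * y = y * x) →
        ∀ x ∈ D, x ∈ L → ∀ y ∈ D, y ∈ L → x * y = y * x := by
      intro hab x hxD hxL y hyD hyL
      obtain ⟨i, hi⟩ := hD ⟨x, hxD⟩
      obtain ⟨j, hj⟩ := hD ⟨y, hyD⟩
      have hi : x ^ (p ^ i) = 1 := congrArg Subtype.val hi
      have hj : y ^ (p ^ j) = 1 := congrArg Subtype.val hj
      obtain ⟨x₀, hx₀, hxe⟩ := exists_lift_elt (p := p) hπ (a := (⟨x, hxL⟩ : L))
        ⟨i, Subtype.ext hi⟩
      obtain ⟨y₀, hy₀, hye⟩ := exists_lift_elt (p := p) hπ (a := (⟨y, hyL⟩ : L))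
        ⟨j, Subtype.ext hj⟩
      have h1 := hab x₀ y₀ hx₀ hy₀ (by rw [hxe]; exact hxD) (by rw [hye]; exact hyD)
      have h2 := congrArg π h1
      rw [map_mul, map_mul, hxe, hye] at h2
      exact congrArg Subtype.val h2
    have hLI : (d ≤ max m p ∧ (d < p ∨ ∀ x ∈ D, x ∈ L → ∀ y ∈ D, y ∈ L → x * y = y * x)) →
        H365.CorP p (cP p n m) b D L := by
      rintro ⟨h1, h2⟩
      exact (H854.TD.corP_linIsoA (m := max m p) hD hDn ⟨K, iK, fK, d, Φ, X, π, hgood', hXI',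
        hX2', hπ, hk, h1, hpK, hlin, h2⟩ hin b).mono le_cP5
    rcases hd with hlt | ⟨hcm, hdm | hζ⟩
    · exact hLI ⟨hlt.le.trans (le_max_right _ _), Or.inl hlt⟩
    · exact hLI ⟨hdm.trans (le_max_left _ _), Or.inr (hab hcm)⟩
    · have hp2 : Odd p := H954.Hc.odd_of_lin (Fact.out : p.Prime) hpK θ hlin
      exact (H471.Co.corP_isoE hD hDn (Φ := Φ) hgood' hXI' hX2' hπ hk hpK hp2 hζ (hab hcm) hin
        b).mono le_cP7
  rcases hX with ⟨-, hXt⟩ | hF
  · rcases hd with hlt | ⟨hcm, hdm | ⟨hζ, hpd | hF | he⟩⟩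
    · exact hTop hXt (Or.inl hlt)
    · exact hTop hXt (Or.inr ⟨hcm, Or.inl hdm⟩)
    · exact hTop hXt (Or.inr ⟨hcm, Or.inr ⟨hζ, Or.inl hpd⟩⟩)
    · exact hForm hF (Or.inr ⟨hcm, Or.inr hζ⟩)
    · exact hTop hXt (Or.inr ⟨hcm, Or.inr ⟨hζ, Or.inr he⟩⟩)
  · exact hForm hF (hd.imp_right fun h => ⟨h.1, h.2.imp_right fun h' => h'.1⟩)

/-- **The corner property of tame pairs.** -/
theorem corP_tamePair (hD : IsPGroup p D) (hDn : Nat.card D ≤ n)
    (h : TamePair p m L (D.subgroupOf L))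
    (hin : D ⊓ Subgroup.normalizer (L : Set G) ≤ L ⊔ Subgroup.centralizer (L : Set G))
    (b : MonoidAlgebra k G) : H365.CorP p (cP p n m) b D L := by
  rcases h with h | (h | h | h) | h
  · have e : D.subgroupOf L ≃* (D ⊓ L : Subgroup G) :=
      (MulEquiv.subgroupCongr (Subgroup.inf_subgroupOf_right D L).symm).trans
        (Subgroup.subgroupOfEquivOfLe inf_le_right)
    have h3 : IsCyclic (D ⊓ L : Subgroup G) :=
      isCyclic_of_injective e.symm.toMonoidHom e.symm.injective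
    exact (corP_cyc (n := n) hD hDn h3 hin b).mono le_cP1
  · exact (H259.Par.corP_parq hD hDn h hin b).mono le_cP2
  · exact (H799.BZ.corP_lev hD hDn h hin b).mono le_cP8
  · exact (H799.CG.corP_cover2 hD hDn h hin b).mono le_cP9
  · exact corP_classical hD hDn h hin b

end Cor

end Vale.Agent.P180.R2.H47.PairP
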