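import Vale.Agent.P180.R2.H47.Bm8
import Vale.Agent.P180.R2.H365.SpB
import Vale.Agent.P180.R2.H365.Act
import Vale.Agent.P180.R2.H365.InnB
import Vale.Agent.P180.R2.H471.El5

/-!
P180: the corner property of classical groups for components which intersect the defect
group in a group of order less than `p ^ p`.
-/

set_option linter.all false

namespace Vale.Agent.P180.R2.H47.Bm

open Vale.Agent.P180 Vale.Agent.P180.H768.Gd Vale.Agent.P180.R2.H799 Vale.Agent.P180.R2.H954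
open Vale.Agent.P180.R2.H365 Vale.Agent.P180.R2.H854 Module
open Vale.Agent.P180.R2.H471.Au (abP)
open Vale.Agent.P180.R2.H799.BS

universe u

section

variable {p : ℕ} [hp : Fact p.Prime] {G : Type} [Group G] [Finite G] {D L : Subgroup G}

/-- the data of `IsoSim` -/
theorem isoSim_data {K : Type} [Field K] [Finite K] {d : ℕ} {θ : K →+* K}
    {B : (Fin d → K) → (Fin d → K) → K} {X : Subgroup (SpecialLinearGroup K (Fin d → K))}
    {π : X →* L} (hF : IsoForm B θ X) (hsim : SimMap B X (Gam D L) π) :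
    ∃ Φ : HForm K (Fin d → K), Φ.θ = θ ∧ Φ.GoodX X ∧ X ≤ Φ.Iso ∧ X.relIndex Φ.Iso ∣ 2 ∧
      Function.Surjective π ∧
      (∀ x : X, π x ∈ Subgroup.center L →
        (x : SpecialLinearGroup K (Fin d → K)) ∈ Subgroup.center _) ∧
      ∀ r ∈ D, r ∈ Subgroup.normalizer (L : Set G) →
        ∃ (σ : K ≃+* K) (g : (Fin d → K) → (Fin d → K)), ActX Φ π r σ g := by
  obtain ⟨⟨ε, f1, f2, f3, f4, f5, f6⟩, ⟨i1, i2, i3⟩, hgood⟩ := hF
  obtain ⟨hπ, hc, hact⟩ := hsim
  let Φ : HForm K (Fin d → K) :=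
    { B := B, θ := θ, ε := ε, add_left := f1, smul_left := f2, θθ := f3, εε := f4, symm := f5,
      nondeg := f6 }
  have hXI : X ≤ Φ.Iso := i1
  have hX2 : X.relIndex Φ.Iso ∣ 2 :=
    relIndex_two fun g hg g' hg' hgX hgX' => i2 g g' hgX hgX' hg hg'
  have hG : Φ.GoodX X := by
    rcases i3 with h | h1
    · exact Or.inl h
    · rcases hgood with h2 | h2
      · exact Or.inl h2
      · exact Or.inr ⟨le_antisymm hXI h1, h2⟩
  refine ⟨Φ, rfl, hG, hXI, hX2, hπ, hc, fun r hr hrN => ?_⟩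
  obtain ⟨σ, c, g, g1, g2, g3, g4, g5⟩ := hact (L.normalizerMonoidHom ⟨r, hrN⟩)
    ⟨⟨r, hrN⟩, hr, rfl⟩
  refine ⟨σ, g, ⟨g1, g2, g3⟩, ⟨c, g4⟩, fun x => ?_⟩
  obtain ⟨y, hy, hy'⟩ := g5 x
  exact ⟨y, hy, congrArg Subtype.val hy'⟩

theorem mem_norm {r : G} (hn : ∀ s ∈ L, r * s * r⁻¹ ∈ L) :
    r ∈ Subgroup.normalizer (L : Set G) := by
  have h1 : ∀ j : ℕ, ∀ s ∈ L, r ^ j * s * (r ^ j)⁻¹ ∈ L := by
    intro j
    induction j with
    | zero => intro s hs; simpa using hs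
    | succ j ih =>
      intro s hs
      have h2 := hn _ (ih s hs)
      have e : r * (r ^ j * s * (r ^ j)⁻¹) * r⁻¹ = r ^ (j + 1) * s * (r ^ (j + 1))⁻¹ := by
        rw [pow_succ']; group
      rwa [e] at h2
  rw [Subgroup.mem_normalizer_iff]
  intro s
  constructor
  · exact fun hs => hn s hs
  · intro hs
    have h3 := h1 (orderOf r - 1) _ hs
    have e : r ^ (orderOf r - 1) = r⁻¹ := by
      rw [eq_inv_iff_mul_eq_one, ← pow_succ, Nat.sub_add_cancel (orderOf_pos r),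
        pow_orderOf_eq_one]
    rw [e] at h3
    have e2 : r⁻¹ * (r * s * r⁻¹) * (r⁻¹)⁻¹ = s := by group
    rwa [e2] at h3

theorem gam_mono {R : Subgroup G} (h : R ≤ D) : Gam R L ≤ Gam D L := by
  rintro α ⟨x, hx, rfl⟩
  exact ⟨x, h hx, rfl⟩

/-- central `p`-elements of the images of groups without such elements -/
theorem eq_one_of_center {X : Type} [Group X] [Finite X] {M : Type} [Group M] {π : X →* M}
    (hπ : Function.Surjective π)
    (h : ∀ z : X, π z ∈ Subgroup.center M → z ^ p = 1 → z = 1) {x : M}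
    (hx : x ∈ Subgroup.center M) {i : ℕ} (hi : x ^ p ^ i = 1) : x = 1 := by
  obtain ⟨z, rfl⟩ := hπ x
  have hp' : ¬ p ∣ Nat.card ((Subgroup.center M).comap π) := by
    intro hd
    obtain ⟨w, hw⟩ := exists_prime_orderOf_dvd_card' p hd
    have h1 : w.1 = 1 := h w.1 w.2 (by
      have h2 := pow_orderOf_eq_one w
      rw [hw] at h2
      exact congrArg Subtype.val h2)
    have h3 : w = 1 := Subtype.ext h1
    rw [h3, orderOf_one] at hw
    exact hp.out.one_lt.ne hw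
  have h1 : orderOf (π z) ∣ orderOf z := orderOf_map_dvd π z
  have h2 : orderOf z ∣ Nat.card ((Subgroup.center M).comap π) := by
    have h3 := orderOf_dvd_natCard (⟨z, hx⟩ : (Subgroup.center M).comap π)
    rw [← Subgroup.orderOf_coe] at h3
    exact h3
  have h3 : orderOf (π z) ∣ p ^ i := orderOf_dvd_of_pow_eq_one hi
  have h5 : Nat.Coprime (p ^ i) (Nat.card ((Subgroup.center M).comap π)) :=
    Nat.Coprime.pow_left _ ((Nat.Prime.coprime_iff_not_dvd hp.out).mpr hp')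
  exact orderOf_eq_one_iff.mp (Nat.eq_one_of_dvd_coprimes h5 h3 (h1.trans h2))

/-- the order of `L ∩ D` if `L` has no central `p`-elements -/
theorem card_of_smallOn (hD : IsPGroup p D)
    (h : ∀ (x : L) (i : ℕ), x ∈ Subgroup.center L → x ^ p ^ i = 1 → x = 1)
    (hs : SmallOn p L (D.subgroupOf L)) : Nat.card (L ⊓ D : Subgroup G) < p ^ p := by
  refine lt_of_le_of_lt (Nat.card_le_card_of_injective (fun x : (L ⊓ D : Subgroup G) =>
    (⟨QuotientGroup.mk' (Subgroup.center L) ⟨x.1, x.2.1⟩, ⟨x.1, x.2.1⟩, x.2.2, rfl⟩ :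
      (D.subgroupOf L).map (QuotientGroup.mk' (Subgroup.center L)))) ?_) hs
  intro x y hxy
  have h1 : QuotientGroup.mk' (Subgroup.center L) ⟨x.1, x.2.1⟩ =
      QuotientGroup.mk' (Subgroup.center L) ⟨y.1, y.2.1⟩ := congrArg Subtype.val hxy
  have h2 : (⟨x.1, x.2.1⟩⁻¹ * ⟨y.1, y.2.1⟩ : L) ∈ Subgroup.center L := QuotientGroup.eq.mp h1
  obtain ⟨i, hi⟩ := hD ⟨x.1⁻¹ * y.1, D.mul_mem (D.inv_mem x.2.2) y.2.2⟩
  have hi : (x.1⁻¹ * y.1) ^ p ^ i = 1 := congrArg Subtype.val hi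
  have h3 := h _ i h2 (Subtype.ext hi)
  have h4 : x.1⁻¹ * y.1 = 1 := congrArg Subtype.val h3
  exact Subtype.ext (inv_mul_eq_one.mp h4)

/-- **Small defect groups**, semilinear similitudes. -/
theorem corP_small_sim {k : Type u} [Field k] [IsAlgClosed k] {n m : ℕ} [CharP k p]
    (hD : IsPGroup p D) (hDn : Nat.card D ≤ n) (hs : SmallOn p L (D.subgroupOf L))
    {K : Type} [Field K] [Finite K] {d : ℕ} {θ : K →+* K}
    {B : (Fin d → K) → (Fin d → K) → K} {X : Subgroup (SpecialLinearGroup K (Fin d → K))}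
    {π : X →* L} (hF : IsoForm B θ X) (hsim : SimMap B X (Gam D L) π) (hd3 : 3 ≤ d)
    (hd4 : 4 ≤ d ∨ ∃ a, θ a ≠ a) (hpK : ¬ p ∣ Nat.card K) (hlin : LinPr p θ)
    (ht : ∀ A : Subgroup L, (∀ x ∈ A, ∀ y ∈ A, x * y * x⁻¹ * y⁻¹ ∈ Subgroup.center L) →
      TamePair p m L A)
    (h : ¬ p ∣ Nat.card (K ≃+* K) ∨ ExpOn p L (D.subgroupOf L)) (b : MonoidAlgebra k G) :
    CorP p (abP p n m) b D L := by
  obtain ⟨ε, hB⟩ := hF.1
  haveI : Finite (SpecialLinearGroup K (Fin d → K)) := BN.finite_sl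
  have hs' : Nat.card (L ⊓ D : Subgroup G) < p ^ p := by
    refine card_of_smallOn hD (fun x i hx hi => eq_one_of_center hsim.1 (fun z hz hzp => ?_) hx hi)
      hs
    exact Subtype.ext (S.scalar_one hpK hlin hB (by omega) (hF.2.1.1 z.1 z.2) (hsim.2.1 z hz)
      (i := 1) (by rw [pow_one]; exact congrArg Subtype.val hzp))
  refine corP_small_form hD hs' hpK hlin hB hF.2.1 hsim.1 hsim.2.1 fun R hRD hcomm => ?_
  have hR : IsPGroup p R := hD.to_le hRD
  have hRn : Nat.card R ≤ n :=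
    (Nat.card_le_card_of_injective _ (Subgroup.inclusion_injective hRD)).trans hDn
  have htame : TamePair p m L (R.subgroupOf L) := by
    refine ht _ fun x hx y hy => ?_
    have h1 : x * y = y * x := Subtype.ext (hcomm x (Subgroup.mem_subgroupOf.mp hx) x.2 y
      (Subgroup.mem_subgroupOf.mp hy) y.2)
    rw [h1, mul_inv_cancel_right, mul_inv_cancel]
    exact Subgroup.one_mem _
  obtain ⟨Φ, rfl, hG, hXI, hX2, hπ, hc, hact⟩ := isoSim_data hF
    (⟨hsim.1, hsim.2.1, fun α hα => hsim.2.2 α (gam_mono hRD hα)⟩ : SimMap B X (Gam R L) π)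
  have hd4' : 4 ≤ d ∨ (3 ≤ d ∧ ∃ a, Φ.θ a ≠ a) := hd4.imp_right fun h => ⟨hd3, h⟩
  rcases h with hno | he
  · refine (PairP.corP_tamePair hR hRn htame ?_ b).mono (le_max_left _ _)
    rintro r ⟨hrR, hrN⟩
    obtain ⟨i, hi⟩ := hR ⟨r, hrR⟩
    have hi : r ^ p ^ i = 1 := congrArg Subtype.val hi
    obtain ⟨σ, g, hg⟩ := hact r hrR hrN
    have hfd : finrank K (Fin d → K) = d := by rw [Module.finrank_fin_fun]
    have hL : Lines Φ := by
      refine lines_of_form Φ (Φ.trT hG.or3) (by rw [hfd]; exact hd3) ?_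
        (exists_isotropic Φ (by rw [hfd]; exact hd3))
      rw [hfd]
      exact hd4
    have hV : ∀ F, Φ.SD F → VF F ⊓ Φ.Iso ≤ X := fun F _ => hG.hV hX2 F
    have hk : π.ker.map X.subtype ≤ Subgroup.center (SpecialLinearGroup K (Fin d → K)) := by
      rintro _ ⟨x, hx, rfl⟩
      apply hc
      rw [MonoidHom.mem_ker.mp hx]
      exact Subgroup.one_mem _
    have h1 : σ ^ p ^ i = 1 := H471.Is.act_pow hg hk hV hL (by rw [hfd]; omega) hi
    have h2 : σ = 1 := by
      have h3 : orderOf σ ∣ p ^ i := orderOf_dvd_of_pow_eq_one h1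
      have h4 : orderOf σ ∣ Nat.card (K ≃+* K) := orderOf_dvd_natCard σ
      have h5 : Nat.Coprime (p ^ i) (Nat.card (K ≃+* K)) :=
        Nat.Coprime.pow_left _ ((Nat.Prime.coprime_iff_not_dvd hp.out).mpr hno)
      exact orderOf_eq_one_iff.mp (Nat.eq_one_of_dvd_coprimes h5 h3 h4)
    subst h2
    obtain ⟨s, hs, c, hc', rfl⟩ := H471.Is.linear hpK hlin (by rw [hfd]; omega) hX2 hV hL hk hπ
      hg hi
    exact Subgroup.mul_mem _ (Subgroup.mem_sup_left hs) (Subgroup.mem_sup_right hc')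
  · refine H471.El.corP_iso hR hRn ⟨K, inferInstance, inferInstance, d, Φ, X, π, hG, hpK, hlin,
      hXI, hX2, hπ, hc, hd4', fun r hr hn => ?_⟩ (Or.inr ⟨?_, ?_⟩) htame b
    · exact hact r hr (mem_norm hn)
    · intro x hx hxL y hy hyL l hl
      rw [hcomm x hx hxL y hy hyL, mul_inv_cancel_right, mul_inv_cancel, one_mul, mul_one]
    · intro y hy hyL l hl
      exact Y.pow_of_exp he y (hRD hy) hyL l hl

/-- **Small defect groups**, special linear groups. -/
theorem corP_small_lin {k : Type u} [Field k] [IsAlgClosed k] {n m : ℕ} [CharP k p]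
    (hD : IsPGroup p D) (hDn : Nat.card D ≤ n) (hs' : Nat.card (L ⊓ D : Subgroup G) < p ^ p)
    {K : Type} [Field K] [Finite K] {d : ℕ} {π : SpecialLinearGroup K (Fin d → K) →* L}
    (hd3 : 3 ≤ d) (hpK : ¬ p ∣ Nat.card K) (hld : LinDeg p d (Nat.card K))
    (hπ : Function.Surjective π) (hk : π.ker ≤ Subgroup.center _)
    (hr : ∃ x ∈ D, x ∈ L ∧ ¬ ∀ y ∈ L, x * y = y * x)
    (ht : ∀ A : Subgroup L, (∀ x ∈ A, ∀ y ∈ A, x * y * x⁻¹ * y⁻¹ ∈ Subgroup.center L) →
      TamePair p m L A)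
    (h : ¬ p ∣ Nat.card (K ≃+* K) ∨ ExpOn p L (D.subgroupOf L)) {b : MonoidAlgebra k G}
    (hbF : b ∈ Fix (cj k G) ⊤) (hb : br D b ≠ 0) : CorP p (abP p n m) b D L := by
  have hg := hld.1
  by_cases hp2 : p = 2
  · subst hp2
    obtain ⟨x, hx, hxL, hne⟩ := hr
    have h2 : Nat.card (L ⊓ D : Subgroup G) = 2 := by
      obtain ⟨j, hj⟩ := IsPGroup.iff_card.mp (hD.to_le (inf_le_right : L ⊓ D ≤ D))
      rw [hj] at hs' ⊢
      rcases j with _ | _ | j
      · exfalso
        rw [pow_zero] at hj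
        have hsub := (Nat.card_eq_one_iff_unique.mp hj).1
        have h1 : x = 1 := congrArg Subtype.val (Subsingleton.elim
          (⟨x, hxL, hx⟩ : (L ⊓ D : Subgroup G)) 1)
        exact hne (by subst h1; intro y _; rw [one_mul, mul_one])
      · rfl
      · exfalso
        have h3 : 2 ^ (j + 1 + 1) = 4 * 2 ^ j := by ring
        have h4 : 0 < 2 ^ j := by positivity
        omega
    have hcomm : ∀ x ∈ D, x ∈ L → ∀ y ∈ D, y ∈ L → x * y = y * x := by
      intro x hx hxL y hy hyL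
      haveI : IsCyclic (L ⊓ D : Subgroup G) := isCyclic_of_prime_card (p := 2) h2
      obtain ⟨g, hg⟩ := IsCyclic.exists_generator (α := (L ⊓ D : Subgroup G))
      obtain ⟨i, hi⟩ := hg ⟨x, hxL, hx⟩
      obtain ⟨j, hj⟩ := hg ⟨y, hyL, hy⟩
      have h3 : (⟨x, hxL, hx⟩ : (L ⊓ D : Subgroup G)) * ⟨y, hyL, hy⟩ = ⟨y, hyL, hy⟩ *
          ⟨x, hxL, hx⟩ := by
        rw [← hi, ← hj]
        exact (Commute.refl g).zpow_zpow i j
      exact congrArg Subtype.val h3
    have hsq : ∀ y ∈ D, y ∈ L → y ^ 2 = 1 := by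
      intro y hy hyL
      have h3 := pow_card_eq_one' (x := (⟨y, hyL, hy⟩ : (L ⊓ D : Subgroup G)))
      rw [h2] at h3
      exact congrArg Subtype.val h3
    refine H471.El.corP_sld hD hDn ⟨K, inferInstance, inferInstance, d, π, hd3, hpK, hg, hld.2,
      hπ, hk⟩ (Or.inr ⟨fun x hx hxL y hy hyL l _ => ?_, fun y hy hyL l _ => ?_⟩) (ht _ ?_)
      ⟨x, hx, hxL, hne⟩ hbF hb
    · rw [hcomm x hx hxL y hy hyL, mul_inv_cancel_right, mul_inv_cancel, one_mul, mul_one]
    · rw [hsq y hy hyL, one_mul, mul_one]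
    · intro x hx y hy
      have h1 : x * y = y * x := Subtype.ext (hcomm x (Subgroup.mem_subgroupOf.mp hx) x.2 y
        (Subgroup.mem_subgroupOf.mp hy) y.2)
      rw [h1, mul_inv_cancel_right, mul_inv_cancel]
      exact Subgroup.one_mem _
  refine corP_small_sl hD hs' hpK hg hπ hk fun R hRD hcomm => ?_
  have hR : IsPGroup p R := hD.to_le hRD
  have hRn : Nat.card R ≤ n :=
    (Nat.card_le_card_of_injective _ (Subgroup.inclusion_injective hRD)).trans hDn
  have htame : TamePair p m L (R.subgroupOf L) := by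
    refine ht _ fun x hx y hy => ?_
    have h1 : x * y = y * x := Subtype.ext (hcomm x (Subgroup.mem_subgroupOf.mp hx) x.2 y
      (Subgroup.mem_subgroupOf.mp hy) y.2)
    rw [h1, mul_inv_cancel_right, mul_inv_cancel]
    exact Subgroup.one_mem _
  rcases h with hno | he
  · refine (PairP.corP_tamePair hR hRn htame ?_ b).mono (le_max_left _ _)
    rintro r ⟨hrR, hrN⟩
    obtain ⟨i, hi⟩ := hR ⟨r, hrR⟩
    have hi : r ^ p ^ i = 1 := congrArg Subtype.val hi
    exact Inn.inn_of_noaut hp2 hd3 (fun h2 => hg ⟨h2.trans (Nat.gcd_dvd_left _ _),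
      h2.trans (Nat.gcd_dvd_right _ _)⟩) hno hπ hk hrN hi
  · refine H471.El.corP_elTame hR hRn hp2 ⟨K, inferInstance, inferInstance, d, π, hd3, hpK, hg,
      hπ, hk⟩ (fun x hx hxL y hy hyL l hl => ?_) (fun y hy hyL l hl => ?_) htame b
    · rw [hcomm x hx hxL y hy hyL, mul_inv_cancel_right, mul_inv_cancel, one_mul, mul_one]
    · exact Y.pow_of_exp he y (hRD hy) hyL l hl

end

end Vale.Agent.P180.R2.H47.Bm
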