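import Vale.Agent.P180.R2.H47.QsR
import Vale.Agent.P180.R2.H365.Def5

set_option linter.all false

/-!
P180: the components of a group satisfying the condition.
-/

namespace Vale.Agent.P180.R2.H47

open Vale.Agent.P180 Vale.Agent.P180.R2.H365
open scoped commutatorElement
open Subgroup (mem_centralizer_iff mem_normalizer_iff centralizer normalizer)

section Conv

variable {G : Type} [Group G]

theorem qs_of_isQuasisimple {L : Subgroup G} (h : IsQuasisimple L) : Qs L := by
  obtain ⟨h1, h2⟩ := h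
  have hperf : ⁅L, L⁆ = L := by
    have h3 : (commutator L).map L.subtype = (⊤ : Subgroup L).map L.subtype := by rw [h1]
    rw [commutator_def, Subgroup.map_commutator, ← MonoidHom.range_eq_map,
      Subgroup.range_subtype] at h3
    exact h3
  refine ⟨hperf, ?_, ?_⟩
  · rintro rfl
    obtain ⟨x, y, hxy⟩ := h2.exists_pair_ne
    apply hxy
    obtain ⟨x, rfl⟩ := QuotientGroup.mk_surjective x
    obtain ⟨y, rfl⟩ := QuotientGroup.mk_surjective y
    congr 1
    have hx := Subgroup.mem_bot.mp x.2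
    have hy := Subgroup.mem_bot.mp y.2
    exact Subtype.ext (hx.trans hy.symm)
  · intro M hM hMn
    have hMn' : (M.subgroupOf L).Normal := by
      constructor
      intro y hy x
      exact hMn x x.2 y hy
    have h3 : ((M.subgroupOf L).map (QuotientGroup.mk' (Subgroup.center L))).Normal :=
      Subgroup.Normal.map hMn' _ (QuotientGroup.mk'_surjective _)
    rcases h2.eq_bot_or_eq_top_of_normal _ h3 with h4 | h4
    · right
      rw [Subgroup.map_eq_bot_iff, QuotientGroup.ker_mk'] at h4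
      intro x hx y hy
      have h5 : (⟨x, hM hx⟩ : L) ∈ Subgroup.center L := h4 hx
      rw [Subgroup.mem_center_iff] at h5
      exact (congrArg Subtype.val (h5 ⟨y, hy⟩)).symm
    · left
      apply le_antisymm hM
      conv_lhs => rw [← hperf]
      rw [Subgroup.commutator_le]
      have h5 : ∀ x ∈ L, ∃ m ∈ M, ∃ z ∈ L, (∀ y ∈ L, z * y = y * z) ∧ x = m * z := by
        intro x hx
        have h6 : QuotientGroup.mk' (Subgroup.center L) (⟨x, hx⟩ : L) ∈
            (M.subgroupOf L).map (QuotientGroup.mk' (Subgroup.center L)) := by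
          rw [h4]; trivial
        obtain ⟨m, hm, hmx⟩ := h6
        have h7 : m⁻¹ * ⟨x, hx⟩ ∈ Subgroup.center L := by
          rw [← QuotientGroup.eq_one_iff]
          change QuotientGroup.mk' (Subgroup.center L) (m⁻¹ * ⟨x, hx⟩) = 1
          rw [map_mul, map_inv, hmx, inv_mul_cancel]
        refine ⟨m, hm, _, (m⁻¹ * ⟨x, hx⟩ : L).2, ?_, ?_⟩
        · intro y hy
          rw [Subgroup.mem_center_iff] at h7
          exact (congrArg Subtype.val (h7 ⟨y, hy⟩)).symm
        · change x = (m : G) * ((m : G)⁻¹ * x)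
          rw [mul_inv_cancel_left]
      intro x hx y hy
      obtain ⟨m, hm, z, hz, hzc, rfl⟩ := h5 x hx
      obtain ⟨m', hm', z', hz', hzc', rfl⟩ := h5 y hy
      have e : ⁅m * z, m' * z'⁆ = ⁅m, m'⁆ := by
        rw [commutatorElement_def, commutatorElement_def]
        have e1 := hzc m' (hM hm')
        have e2 := hzc z' hz'
        have e3 := hzc' m⁻¹ (L.inv_mem (hM hm))
        have e4 := hzc' m'⁻¹ (L.inv_mem (hM hm'))
        calc m * z * (m' * z') * (m * z)⁻¹ * (m' * z')⁻¹
            = m * (z * m') * z' * z⁻¹ * m⁻¹ * z'⁻¹ * m'⁻¹ := by group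
          _ = m * (m' * z) * z' * z⁻¹ * m⁻¹ * z'⁻¹ * m'⁻¹ := by rw [e1]
          _ = m * m' * (z * z') * z⁻¹ * m⁻¹ * z'⁻¹ * m'⁻¹ := by group
          _ = m * m' * (z' * z) * z⁻¹ * m⁻¹ * z'⁻¹ * m'⁻¹ := by rw [e2]
          _ = m * m' * (z' * m⁻¹) * z'⁻¹ * m'⁻¹ := by group
          _ = m * m' * (m⁻¹ * z') * z'⁻¹ * m'⁻¹ := by rw [e3]
          _ = m * m' * m⁻¹ * m'⁻¹ := by group
      rw [e]
      exact M.mul_mem (M.mul_mem (M.mul_mem hm hm') (M.inv_mem hm)) (M.inv_mem hm')

/-- a component in a central product of quasisimple groups -/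
theorem comp_mem {X L : Subgroup G} [X.Normal] (hX : SQ X) (hL : IsComponent L) (hLX : L ≤ X) :
    L ∈ comps X := by
  obtain ⟨hq, E, hE, hLE, hn⟩ := hL
  have hQ := qs_of_isQuasisimple hq
  refine hX.mem_of_sub hQ hLX fun K hK => ?_
  rcases comps_dich (N := E) hK with h | h
  · exact hK.2.2.eq_or_cm hQ (fun x hx y hy => hn x (h hx) y hy)
      (fun x hx y hy => hK.2.1 x (hLX hx) y hy)
  · exact Or.inr (h.mono le_rfl hLE)

end Conv

variable {Q1 : ∀ (S : Type) [Group S], Prop} {ι : Type}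
  {Q : ι → ∀ (S : Type) [Group S], Subgroup S → Prop}
  {𝒟 : ι → ∀ (Γ : Type) [Group Γ], Subgroup Γ → Prop}
  {𝒪 : ∀ (Γ : Type) [Group Γ], Subgroup Γ → Prop} {𝒮 : ∀ (S : Type) [Group S], Prop} {p : ℕ}

/-- a component not contained in `X` -/
theorem sec_comp {G : Type} [Group G] {D L X M : Subgroup G} [hXn : X.Normal] [hMn : M.Normal]
    (hDM : D ≤ M) (hR : RCs p 𝒮 X M) (hL : IsComponent L)
    (hp : p ∣ Nat.card (L ⧸ Subgroup.center L))
    (hr : ∃ x ∈ D, x ∈ L ∧ ¬ ∀ y ∈ L, x * y = y * x) (hLX : ¬ L ≤ X) :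
    𝒮 (L ⧸ Subgroup.center L) := by
  obtain ⟨r, hrD, hrL, hrc⟩ := hr
  have hQ := qs_of_isQuasisimple hL.1
  -- `L ∩ X` is central
  have h1 : Cm (L ⊓ X) L := by
    rcases hQ.dich (L ⊓ X) inf_le_left (fun x hx y hy =>
      ⟨L.mul_mem (L.mul_mem hx hy.1) (L.inv_mem hx), hXn.conj_mem y hy.2 x⟩) with h | h
    · exact absurd (by rw [← h]; exact inf_le_right) hLX
    · exact h
  have h2 : L ≤ M := by
    rcases hQ.dich (L ⊓ M) inf_le_left (fun x hx y hy =>
      ⟨L.mul_mem (L.mul_mem hx hy.1) (L.inv_mem hx), hMn.conj_mem y hy.2 x⟩) with h | h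
    · rw [← h]; exact inf_le_right
    · exact absurd (h r ⟨hrL, hDM hrD⟩) hrc
  have hsim := hL.1.2
  refine hR L (L ⧸ Subgroup.center L) (QuotientGroup.mk' (Subgroup.center L)) h2
    (QuotientGroup.mk'_surjective _) ?_ ?_ hp
  · intro x hx
    refine (QuotientGroup.eq_one_iff _).mpr ?_
    rw [Subgroup.mem_center_iff]
    intro y
    exact Subtype.ext (h1 x ⟨x.2, hx⟩ y y.2).symm
  · intro hcomm
    apply hQ.not_comm
    -- `[L, L] ≤ Z(L)`
    have h3 : Cm L ⁅L, L⁆ := by
      refine Cm.symm ?_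
      rw [cm_iff, Subgroup.commutator_le]
      intro x hx y hy
      rw [mem_centralizer_iff]
      intro z hz
      have h4 : (⟨⁅x, y⁆, Subgroup.commutator_le_self L
          (Subgroup.commutator_mem_commutator hx hy)⟩ : L) ∈ Subgroup.center L := by
        rw [← QuotientGroup.eq_one_iff]
        have e : (⟨⁅x, y⁆, Subgroup.commutator_le_self L
            (Subgroup.commutator_mem_commutator hx hy)⟩ : L) = ⁅(⟨x, hx⟩ : L), ⟨y, hy⟩⁆ := rfl
        rw [e]
        change QuotientGroup.mk' (Subgroup.center L) ⁅(⟨x, hx⟩ : L), ⟨y, hy⟩⁆ = 1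
        rw [map_commutatorElement, commutatorElement_eq_one_iff_mul_comm]
        exact hcomm _ _
      rw [Subgroup.mem_center_iff] at h4
      exact congrArg Subtype.val (h4 ⟨z, hz⟩)
    rw [hQ.perf] at h3
    exact h3

theorem con_comp {G : Type} [Group G] {D L : Subgroup G}
    (hC : Con Q1 Q 𝒟 𝒪 𝒮 p G D) (hL : IsComponent L)
    (hp : p ∣ Nat.card (L ⧸ Subgroup.center L))
    (hr : ∃ x ∈ D, x ∈ L ∧ ¬ ∀ y ∈ L, x * y = y * x) :
    Q1 L ∨ (∃ a : ι, KD (Q a) p D L ∧ OD (𝒟 a) D L ∧
    𝒪 (normalizer (L : Set G)) ((L ⊔ centralizer (L : Set G)).subgroupOf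
      (normalizer (L : Set G)))) ∨ 𝒮 (L ⧸ Subgroup.center L) := by
  obtain ⟨X, M, hXn, hMn, hX, hXM, hDM, hK, hR⟩ := hC
  obtain ⟨r, hrD, hrL, hrc⟩ := hr
  by_cases hLX : L ≤ X
  · rcases hK L (comp_mem hX hL hLX) with h | h | h
    · exact Or.inl h
    · exact Or.inr (Or.inl h)
    · exact absurd (h r (inf_le_Pj D L ⟨hrD, hrL⟩)) hrc
  · right; right
    exact sec_comp hDM hR hL hp ⟨r, hrD, hrL, hrc⟩ hLX

section Center

/-- the quotient by the centre of a perfect group does not change in central quotients -/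
theorem center_quot_of_surj {S S' : Type} [Group S] [Group S'] (f : S →* S')
    (hf : Function.Surjective f) (hker : ∀ x, f x = 1 → ∀ y, x * y = y * x)
    (hS : commutator S = ⊤) :
    Nonempty (S ⧸ Subgroup.center S ≃* S' ⧸ Subgroup.center S') := by
  have hS2 : ⁅(⊤ : Subgroup S), (⊤ : Subgroup S)⁆ = ⊤ := by
    rw [← commutator_def]; exact hS
  have hc : Subgroup.center S = (Subgroup.center S').comap f := by
    ext x
    rw [Subgroup.mem_comap, Subgroup.mem_center_iff, Subgroup.mem_center_iff]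
    constructor
    · intro h y
      obtain ⟨y, rfl⟩ := hf y
      rw [← map_mul, ← map_mul, h]
    · intro h
      have h1 := perf_act hS2 (c := x) (by
        intro y _
        refine ⟨trivial, fun z _ => ?_⟩
        refine hker _ ?_ z
        rw [map_mul, map_mul, map_mul, map_inv, map_inv, ← h (f y)]
        group)
      intro g
      exact (h1 g trivial).symm
  have hk : ((QuotientGroup.mk' (Subgroup.center S')).comp f).ker = Subgroup.center S := by
    rw [hc]
    ext x
    rw [MonoidHom.mem_ker, Subgroup.mem_comap]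
    exact QuotientGroup.eq_one_iff _
  exact ⟨(QuotientGroup.quotientMulEquivOfEq hk.symm).trans
    (QuotientGroup.quotientKerEquivOfSurjective _
      ((QuotientGroup.mk'_surjective _).comp hf))⟩

/-- a class of groups depending only on the quotient by the centre -/
theorem cq_of_center {Q : ∀ (S : Type) [Group S], Prop} (hQ : IsoInv Q) :
    CQ (fun S _ => Q (S ⧸ Subgroup.center S)) := by
  intro S S' _ _ _ _ f hf hker hS h
  exact hQ _ _ (center_quot_of_surj f hf hker hS) h

theorem CQ.or {Q Q' : ∀ (S : Type) [Group S], Prop} (h : CQ Q) (h' : CQ Q') :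
    CQ (fun S _ => Q S ∨ Q' S) := by
  intro S S' _ _ _ _ f hf hker hS h1
  rcases h1 with h1 | h1
  · exact Or.inl (h f hf hker hS h1)
  · exact Or.inr (h' f hf hker hS h1)

theorem cq_false : CQ (fun _ _ => False) := by
  intro S S' _ _ _ _ f hf hker hS h1
  exact h1

end Center

/-- outer automorphism groups: bounded or solvable -/
def OS (m : ℕ) (Γ : Type) [Group Γ] (Δ : Subgroup Γ) : Prop :=
  Δ.index ≤ m ∨ ∃ l : ℕ, derivedSeries Γ l ≤ Δ

theorem outC_OS (m : ℕ) : OutC (OS m) where
  tr := by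
    intro Γ Γ' E _ _ _ _ _ a b Δ Δ' hΔ ha he h
    rcases h with h | ⟨l, hl⟩
    · left
      have h1 : Δ'.index = (Δ'.comap a).index := (Subgroup.index_comap_of_surjective Δ' ha).symm
      rw [h1, he, Subgroup.index_comap]
      exact (Nat.le_of_dvd (Nat.pos_of_ne_zero Subgroup.index_ne_zero_of_finite)
        (Subgroup.relIndex_dvd_index_of_normal Δ b.range)).trans h
    · right
      refine ⟨l, ?_⟩
      rw [← map_derivedSeries_eq ha l, Subgroup.map_le_iff_le_comap, he,
        ← Subgroup.map_le_iff_le_comap]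
      exact (map_derivedSeries_le_derivedSeries b l).trans hl

/-- outer automorphism groups: bounded -/
def OB (m : ℕ) (Γ : Type) [Group Γ] (Δ : Subgroup Γ) : Prop := Δ.index ≤ m

theorem outC_OB (m : ℕ) : OutC (OB m) where
  tr := by
    intro Γ Γ' E _ _ _ _ _ a b Δ Δ' hΔ ha he h
    have h1 : Δ'.index = (Δ'.comap a).index := (Subgroup.index_comap_of_surjective Δ' ha).symm
    unfold OB
    rw [h1, he, Subgroup.index_comap]
    exact (Nat.le_of_dvd (Nat.pos_of_ne_zero Subgroup.index_ne_zero_of_finite)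
      (Subgroup.relIndex_dvd_index_of_normal Δ b.range)).trans h

end Vale.Agent.P180.R2.H47
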