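import Vale.Agent.P180.R2.H365.Def10

/-!
P180: definitions for the theorem on groups whose simple sections are of given types.
-/

namespace Vale.Agent.P180

open Vale.Agent.P180.R2.H365

/-- The group of outer automorphisms of `T` is of order at most `m` or solvable. -/
def SmallOut (m : ℕ) (T : Type) [Group T] : Prop :=
  (MulAut.conj : T →* MulAut T).range.index ≤ m ∨
    ∃ l : ℕ, derivedSeries (MulAut T) l ≤ (MulAut.conj : T →* MulAut T).range

/-- The group `Γ` is a section of the group `P`. -/
def IsSec (P : Type) [Group P] {H : Type} [Group H] (Γ : Subgroup H) : Prop :=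
  ∃ (Q : Subgroup P) (f : Q →* H), f.range = Γ

/-- For all finite perfect groups `L` with `L / Z(L)` isomorphic to `T`, all `p`-subgroups `A` of
`L` of order at most `n`, not contained in `Z(L)`, and all groups `Γ` of automorphisms of `L` which
contain the inner automorphisms by elements of `A` and are sections of `P`, the action is as in
`TameAct`. -/
def TameAll (p n m : ℕ) (P : Type) [Group P] (T : Type) [Group T] : Prop :=
  ∀ (L : Type) [Group L] [Finite L], commutator L = ⊤ →
    Nonempty (L ⧸ Subgroup.center L ≃* T) → ∀ (Γ : Subgroup (MulAut L)) (A : Subgroup L),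
    IsSec P Γ → IsPGroup p A → Nat.card A ≤ n → ¬ A ≤ Subgroup.center L →
    (∀ x ∈ A, MulAut.conj x ∈ Γ) → TameAct p m L Γ A

/-- All the subgroups of `T` which are sections of `P` have exponent `1` or `p`. -/
def ExpS (p : ℕ) (P : Type) [Group P] (T : Type) [Group T] : Prop :=
  ∀ A : Subgroup T, IsSec P A → ∀ x ∈ A, x ^ p = 1

/-- `P` is abelian, or all the subgroups of `T` which are sections of `P` are elementary abelian. -/
def AbS (p : ℕ) (P : Type) [Group P] (T : Type) [Group T] : Prop :=
  (∀ x y : P, x * y = y * x) ∨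
  (ExpS p P T ∧ ∀ A : Subgroup T, IsSec P A → ∀ x ∈ A, ∀ y ∈ A, x * y = y * x)

/-- All the subgroups of `T` which are sections of `P` have order less than `p ^ p`. -/
def SmallS (p : ℕ) (P : Type) [Group P] (T : Type) [Group T] : Prop :=
  ∀ A : Subgroup T, IsSec P A → Nat.card A < p ^ p

/-- The simple group `T` is tame for `P`: `T` is covered as in `Covered`, where `c` says that `P` is
abelian or all the subgroups of `T` which are sections of `P` are elementary abelian, `e` that all
these subgroups have exponent `1` or `p`, and `s` that they have order less than `p ^ p`; or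
`Out(T)` is solvable or of order at most `m`, and the `p`-subgroups of `T` are cyclic and `p` does
not divide `|Out(T)|`, or `TameAll` holds. -/
def TameT (p n m : ℕ) (P : Type) [Group P] (T : Type) [Group T] : Prop :=
  Covered (AbS p P T) (ExpS p P T) (SmallS p P T) p n m T ∨
  (SmallOut m T ∧ (((∀ A : Subgroup T, IsPGroup p A → IsCyclic A) ∧
    ¬ p ∣ (MulAut.conj : T →* MulAut T).range.index) ∨ TameAll p n m P T))

open Subgroup in
/-- The quasisimple subgroup `L` of `G`: (1) `L / Z(L)` is covered as in `Covered`, where `c` says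
that `N_D(L)` acts trivially on `D ∩ L` modulo `Z(L)` or `D ∩ L` is elementary abelian modulo
`Z(L)`, `e` that `D ∩ L` has exponent `1` or `p` modulo `Z(L)`, and `s` that the image of `D ∩ L` in
`L / Z(L)` has order less than `p ^ p`; or (2) the action of `N_D(L)` on
`L` is as in `TameAct` for `A = D ∩ L`, and the group `N_G(L) / L C_G(L)` is of order at most `m` or
solvable; or (3) `D ∩ L` is contained in the centre of `L`. -/
def TameComp (p n m : ℕ) {G : Type} [Group G] (D L : Subgroup G) : Prop :=
  Covered (CenOn p L (Gam D L) (D.subgroupOf L)) (ExpOn p L (D.subgroupOf L))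
      (SmallOn p L (D.subgroupOf L)) p n m (L ⧸ center L) ∨
  (TameAct p m L (Gam D L) (D.subgroupOf L) ∧
    ((L ⊔ centralizer (L : Set G)).relIndex (normalizer (L : Set G)) ≤ m ∨ SolvOut L)) ∨
  ∀ x ∈ D, x ∈ L → ∀ y ∈ L, x * y = y * x

/-- All nonabelian simple sections of `B / A` of order divisible by `p` are in the class `𝒮`. -/
def SecIn (p : ℕ) (𝒮 : ∀ (T : Type) [Group T], Prop) {G : Type} [Group G] (A B : Subgroup G) :
    Prop :=
  ∀ (K : Subgroup G) (T : Type) [Group T] [IsSimpleGroup T] (f : K →* T), K ≤ B →
    Function.Surjective f → (∀ x : K, (x : G) ∈ A → f x = 1) → (¬ ∀ a b : T, a * b = b * a) →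
    p ∣ Nat.card T → 𝒮 T

/-- `G` has normal subgroups `N 0 ≤ N 1 ≤ ⋯ ≤ N l` with `D ≤ N l`, such that

(1) `N 0` is generated by pairwise commuting quasisimple subgroups `L j` (any number, possibly
none), each of which satisfies `TameComp`;

(2) for `i < l`, all the nonabelian simple sections `T` of `N (i + 1) / N i` of order divisible by
`p` satisfy `TameT` for the image `P` of `D` in `G / N i`. -/
def HasTameSections (p n m : ℕ) {G : Type} [Group G] (D : Subgroup G) : Prop :=
  ∃ (l : ℕ) (N : ℕ → Subgroup G) (_ : ∀ i, (N i).Normal),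
    (∃ (r : ℕ) (L : Fin r → Subgroup G),
      (∀ i j, i ≠ j → ∀ x ∈ L i, ∀ y ∈ L j, x * y = y * x) ∧ N 0 = ⨆ j, L j ∧
      ∀ j, IsQuasisimple (L j) ∧ TameComp p n m D (L j)) ∧ D ≤ N l ∧
    ∀ i < l, N i ≤ N (i + 1) ∧
      SecIn p (TameT p n m (D.map (QuotientGroup.mk' (N i)))) (N i) (N (i + 1))

end Vale.Agent.P180
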