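import Vale.Agent.P180.R2.H47.CmpQ
import Vale.Agent.P180.R2.H47.SecDef

set_option linter.all false

/-!
P180: the derived group of the defect group is contained in a normal `p`-solvable subgroup; this
condition is inherited in the reductions.
-/

namespace Vale.Agent.P180.R2.H47

open Vale.Agent.P180 Vale.Agent.P180.H768.Gd Vale.Agent.P180.R2.H365
open Vale.Agent.P180.H768 hiding pull mem_pull exists_factor Lay mk_mem comm_mem
open scoped commutatorElement
open Subgroup (mem_centralizer_iff mem_normalizer_iff centralizer normalizer)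

/-- The derived group of `D` is contained in a normal `p`-solvable subgroup. -/
def Ab (p : ℕ) (G : Type) [Group G] (D : Subgroup G) : Prop :=
  ∃ R : Subgroup G, R.Normal ∧ RCs p (fun _ _ => False) ⊥ R ∧
    ∀ x ∈ D, ∀ y ∈ D, x * y * x⁻¹ * y⁻¹ ∈ R

theorem ab_iff {p : ℕ} {G : Type} [Group G] {D : Subgroup G} : Ab p G D ↔ AbMod p D := by
  constructor
  · rintro ⟨R, hR, hs, h⟩
    refine ⟨R, hR, fun K T _ _ f hK hf hna hp => ?_, h⟩
    refine hs K T f hK hf (fun x hx => ?_) hna hp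
    have h1 : x = 1 := Subtype.ext (Subgroup.mem_bot.mp hx)
    rw [h1, map_one]
  · rintro ⟨R, hR, hs, h⟩
    exact ⟨R, hR, fun K T _ _ f hK hf _ hna hp => hs K T f hK hf hna hp, h⟩

theorem ab_of_comm {p : ℕ} {G : Type} [Group G] {D : Subgroup G}
    (h : ∀ x ∈ D, ∀ y ∈ D, x * y = y * x) : Ab p G D := by
  refine ⟨⊥, inferInstance, RCs.of_solvable inferInstance ⊥, fun x hx y hy => ?_⟩
  rw [Subgroup.mem_bot, h x hx y hy]
  group

theorem ctr_ab {p : ℕ} [Fact p.Prime] : Ctr p (Ab p) where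
  mono := by
    rintro G _ _ D D' hD ⟨R, hR, hs, h⟩
    exact ⟨R, hR, hs, fun x hx y hy => h x (hD hx) y (hD hy)⟩
  fr := by
    rintro G _ _ N T D _ hNT hCT x ⟨R, hR, hs, h⟩
    refine ⟨R.subgroupOf T, inferInstance, ?_, ?_⟩
    · have h1 := hs.subgroupOf T
      rwa [(Subgroup.subgroupOf_eq_bot (H := (⊥ : Subgroup G)) (K := T)).mpr disjoint_bot_left]
        at h1
    · intro y hy y' hy'
      rw [Subgroup.mem_subgroupOf, mem_conjS] at hy hy'
      rw [Subgroup.mem_subgroupOf]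
      have h1 := hR.conj_mem _ (h _ hy _ hy') x
      have e : x * (x⁻¹ * (y : G) * x * (x⁻¹ * (y' : G) * x) * (x⁻¹ * (y : G) * x)⁻¹ *
          (x⁻¹ * (y' : G) * x)⁻¹) * x⁻¹ = y * y' * (y : G)⁻¹ * (y' : G)⁻¹ := by group
      rw [e] at h1
      exact h1
  kp := by
    rintro G H _ _ _ _ N D Y _ π Z hT hY hZ hZπ hcard D' hD' ⟨R, hR, hs, h⟩
    have hRn : ((N ⊔ R).map (QuotientGroup.mk' N)).Normal :=
      Subgroup.Normal.map inferInstance (QuotientGroup.mk' N) (QuotientGroup.mk'_surjective N)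
    refine ⟨pull N π (N ⊔ R), hRn.comap π, ?_, ?_⟩
    · have h1 : RCs p (fun _ _ => False) (⊥ : Subgroup H) π.ker :=
        RCs.of_solvable (solvable_ker hY hZ hZπ hcard) ⊥
      have h2 : RCs p (fun _ _ => False) (N ⊔ ⊥) (N ⊔ R) := RCs_sup hs
      rw [sup_bot_eq] at h2
      have h3 : RCs p (fun _ _ => False) (pull N π N) (pull N π (N ⊔ R)) :=
        RCs.pull le_rfl le_sup_left π h2
      have h4 : pull N π N ≤ π.ker := by
        intro x hx
        obtain ⟨y, hy, hyx⟩ := mem_pull.mp hx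
        rw [MonoidHom.mem_ker, ← hyx]
        exact (QuotientGroup.eq_one_iff _).mpr hy
      exact (RCs.of_ge h4 h1).trans h3
    · intro y hy y' hy'
      obtain ⟨d, hd, hdy⟩ := mem_pull.mp (hD' hy)
      obtain ⟨d', hd', hdy'⟩ := mem_pull.mp (hD' hy')
      refine mem_pull.mpr ⟨_, (le_sup_right (a := N)) (h d hd d' hd'), ?_⟩
      rw [map_mul, map_mul, map_mul, map_inv, map_inv, map_mul, map_mul, map_mul, map_inv,
        map_inv, hdy, hdy']

theorem Ctr.and {p : ℕ} {C C' : ∀ (G : Type) [Group G], Subgroup G → Prop} (h : Ctr p C)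
    (h' : Ctr p C') : Ctr p (fun G _ D => C G D ∧ C' G D) where
  mono := fun hD hC => ⟨h.mono hD hC.1, h'.mono hD hC.2⟩
  fr := fun hN hT x hC => ⟨h.fr hN hT x hC.1, h'.fr hN hT x hC.2⟩
  kp := fun h1 h2 h3 h4 h5 D' hD' hC =>
    ⟨h.kp h1 h2 h3 h4 h5 D' hD' hC.1, h'.kp h1 h2 h3 h4 h5 D' hD' hC.2⟩

theorem Ctr.or {p : ℕ} {C C' : ∀ (G : Type) [Group G], Subgroup G → Prop} (h : Ctr p C)
    (h' : Ctr p C') : Ctr p (fun G _ D => C G D ∨ C' G D) where
  mono := fun hD hC => hC.imp (h.mono hD) (h'.mono hD)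
  fr := fun hN hT x hC => hC.imp (h.fr hN hT x) (h'.fr hN hT x)
  kp := fun h1 h2 h3 h4 h5 D' hD' hC =>
    hC.imp (h.kp h1 h2 h3 h4 h5 D' hD') (h'.kp h1 h2 h3 h4 h5 D' hD')

/-- Normal `p`-solvable subgroups centralise the components of order divisible by `p`. -/
theorem comp_cent {p : ℕ} {G : Type} [Group G] {R L : Subgroup G} (hR : R.Normal)
    (hs : RCs p (fun _ _ => False) ⊥ R) (hL : IsComponent L)
    (hpL : p ∣ Nat.card (L ⧸ Subgroup.center L)) : Cm R L := by
  have hQ := qs_of_isQuasisimple hL.1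
  obtain ⟨⟨hp, hsim⟩, E, hE, hLE, hn⟩ := hL
  -- `R ∩ L` is central in `L`
  have h1 : Cm (L ⊓ R) L := by
    rcases hQ.dich (L ⊓ R) inf_le_left (fun x hx y hy =>
      ⟨L.mul_mem (L.mul_mem hx hy.1) (L.inv_mem hx), hR.conj_mem y hy.2 x⟩) with h | h
    · exfalso
      have hLR : L ≤ R := by rw [← h]; exact inf_le_right
      refine hs L (L ⧸ Subgroup.center L) (QuotientGroup.mk' _) hLR
        (QuotientGroup.mk'_surjective _) (fun x hx => ?_) (fun hcomm => ?_) hpL
      · have h1 : x = 1 := Subtype.ext (Subgroup.mem_bot.mp hx)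
        rw [h1, map_one]
      · have h2 : Group.IsSolvable (L ⧸ Subgroup.center L) :=
          IsSimpleGroup.comm_iff_isSolvable.mp hcomm
        have h6 : Group.IsSolvable (Subgroup.center L) :=
          isSolvable_of_comm fun a b => Subtype.ext (Subgroup.mem_center_iff.mp b.2 a.1)
        have h3 : Group.IsSolvable L := by
          refine solvable_of_ker_le_range (Subgroup.center L).subtype
            (QuotientGroup.mk' (Subgroup.center L)) ?_
          rw [QuotientGroup.ker_mk', Subgroup.range_subtype]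
        have h4 : Nontrivial L := by
          have h5 := hsim.toNontrivial
          exact (QuotientGroup.mk'_surjective (Subgroup.center L)).nontrivial
        exact (Group.IsSolvable.commutator_lt_top_of_nontrivial L).ne hp
    · exact h
  -- `R ∩ E` centralises `L`
  have h2 : Cm (R ⊓ E) L := by
    intro x hx
    refine perf_act hQ.perf fun y hy => ?_
    have h3 : x * y * x⁻¹ * y⁻¹ ∈ L := L.mul_mem (hn x hx.2 y hy) (L.inv_mem hy)
    have h4 : x * y * x⁻¹ * y⁻¹ ∈ R := by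
      have e : x * y * x⁻¹ * y⁻¹ = x * (y * x⁻¹ * y⁻¹) := by group
      rw [e]
      exact R.mul_mem hx.1 (hR.conj_mem _ (R.inv_mem hx.1) y)
    exact ⟨h3, h1 _ ⟨h3, h4⟩⟩
  refine Cm.symm (cm_of_perf hQ.perf ?_)
  refine h2.mono ?_ le_rfl
  rw [Subgroup.commutator_le]
  intro x hx y hy
  rw [commutatorElement_def]
  constructor
  · exact R.mul_mem (hR.conj_mem _ hy x) (R.inv_mem hy)
  · have e : x * y * x⁻¹ * y⁻¹ = x * (y * x⁻¹ * y⁻¹) := by group
    rw [e]
    exact E.mul_mem (hLE hx) (hE.conj_mem _ (E.inv_mem (hLE hx)) y)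

/-- The action of the defect group on a component is abelian. -/
theorem Ab.comp {p : ℕ} {G : Type} [Group G] {D L : Subgroup G} (h : Ab p G D)
    (hL : IsComponent L) (hpL : p ∣ Nat.card (L ⧸ Subgroup.center L)) {x y : G} (hx : x ∈ D)
    (hy : y ∈ D) : x * y * x⁻¹ * y⁻¹ ∈ centralizer (L : Set G) := by
  obtain ⟨R, hR, hs, h1⟩ := h
  exact cm_iff.mp (comp_cent hR hs hL hpL) (h1 x hx y hy)

end Vale.Agent.P180.R2.H47
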