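import Vale.Agent.P180.R2.H47.CmpQ
import Vale.Agent.P180.R2.H47.SecDef
import Vale.Agent.P180.R2.H365.SecN

set_option linter.all false

/-!
P180: conditions on the action of the defect group on quasisimple subgroups, and their transfer.
-/

namespace Vale.Agent.P180.R2.H47

open Vale.Agent.P180 Vale.Agent.P180.H768.Gd Vale.Agent.P180.R2.H365
open Vale.Agent.P180.H768 hiding pull mem_pull exists_factor Lay mk_mem comm_mem
open scoped commutatorElement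
open Subgroup (mem_centralizer_iff mem_normalizer_iff centralizer normalizer)

section Gam

variable {G H : Type} [Group G] [Group H]

theorem mem_Gam {D L : Subgroup G} {α : MulAut L} : α ∈ Gam D L ↔
    ∃ g ∈ D, g ∈ normalizer (L : Set G) ∧ ∀ s : L, ((α s : L) : G) = g * s * g⁻¹ := by
  constructor
  · rintro ⟨g, hg, rfl⟩
    exact ⟨g, hg, g.2, fun s => rfl⟩
  · rintro ⟨g, hg, hgN, h⟩
    refine ⟨⟨g, hgN⟩, hg, ?_⟩
    ext s
    exact (h s).symm

theorem Gam_mono {D D' : Subgroup G} (h : D' ≤ D) (L : Subgroup G) : Gam D' L ≤ Gam D L :=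
  Subgroup.map_mono (Subgroup.comap_mono h)

theorem Gam_transfer {L D : Subgroup G} {L' D' : Subgroup H} {f : L →* L'}
    (hD : ∀ t ∈ D', t ∈ normalizer (L' : Set H) →
      ∃ g ∈ D, g ∈ normalizer (L : Set G) ∧ Rl f t g) :
    ∀ α' ∈ Gam D' L', ∃ α ∈ Gam D L, ∀ s, f (α s) = α' (f s) := by
  rintro _ ⟨t, ht, rfl⟩
  obtain ⟨g, hg, hgN, hr⟩ := hD t ht t.2
  refine ⟨L.normalizerMonoidHom ⟨g, hgN⟩, ⟨⟨g, hgN⟩, hg, rfl⟩, fun s => ?_⟩
  apply Subtype.ext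
  exact hr s _ rfl

/-- an element of `L` acts on `L` as an element of `D` if and only if it is in `Pj D L` -/
theorem conj_mem_Gam {D L : Subgroup G} {x : L} :
    MulAut.conj x ∈ Gam D L ↔ (x : G) ∈ Pj D L := by
  constructor
  · intro h
    obtain ⟨g, hg, hgN, h⟩ := mem_Gam.mp h
    refine ⟨x.2, (x : G)⁻¹ * g, ?_, by rwa [mul_inv_cancel_left]⟩
    rw [mem_centralizer_iff]
    intro y hy
    have h1 : (x : G) * y * (x : G)⁻¹ = g * y * g⁻¹ := h ⟨y, hy⟩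
    calc y * ((x : G)⁻¹ * g) = (x : G)⁻¹ * ((x : G) * y * (x : G)⁻¹) * g := by group
      _ = (x : G)⁻¹ * (g * y * g⁻¹) * g := by rw [h1]
      _ = (x : G)⁻¹ * g * y := by group
  · rintro ⟨-, c, hc, hxc⟩
    have hn : (x : G) * c ∈ normalizer (L : Set G) :=
      Subgroup.mul_mem _ (Subgroup.le_normalizer x.2) (Subgroup.centralizer_le_normalizer _ hc)
    refine mem_Gam.mpr ⟨_, hxc, hn, fun s => ?_⟩
    have h1 := mem_centralizer_iff.mp hc s s.2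
    change (x : G) * s * (x : G)⁻¹ = _
    calc (x : G) * s * (x : G)⁻¹ = x * (s * c) * c⁻¹ * (x : G)⁻¹ := by group
      _ = x * (c * s) * c⁻¹ * (x : G)⁻¹ := by rw [h1]
      _ = x * c * s * (x * c)⁻¹ := by group

theorem isPGroup_Gam {p : ℕ} {D L : Subgroup G} (hD : IsPGroup p D) : IsPGroup p (Gam D L) :=
  (hD.comap_of_injective (normalizer (L : Set G)).subtype
    (normalizer (L : Set G)).subtype_injective).map _

theorem card_Gam_le [Finite G] {D L : Subgroup G} : Nat.card (Gam D L) ≤ Nat.card D := by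
  have h1 : Nat.card (Gam D L) ≤ Nat.card (D.subgroupOf (normalizer (L : Set G))) :=
    Nat.card_le_card_of_surjective _ (L.normalizerMonoidHom.subgroupMap_surjective _)
  refine h1.trans ?_
  exact Nat.card_le_card_of_injective
    (fun x : D.subgroupOf (normalizer (L : Set G)) => (⟨x.1.1, x.2⟩ : D))
    (fun x y h => Subtype.ext (Subtype.ext (congrArg (fun z : D => (z : G)) h)))

end Gam

/-- a class of pairs of a perfect group and a group of automorphisms, inherited by central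
quotients and subgroups -/
def AK (𝒜 : ∀ (S : Type) [Group S], Subgroup (MulAut S) → Prop) : Prop :=
  ∀ {S S' : Type} [Group S] [Finite S] [Group S'] [Finite S'] (f : S →* S'),
    Function.Surjective f → (∀ x, f x = 1 → ∀ y, x * y = y * x) → commutator S = ⊤ →
    ∀ (Γ : Subgroup (MulAut S)) (Γ' : Subgroup (MulAut S')),
    (∀ α' ∈ Γ', ∃ α ∈ Γ, ∀ s, f (α s) = α' (f s)) → 𝒜 S Γ → 𝒜 S' Γ'

variable {𝒬 𝒜 : ∀ (S : Type) [Group S], Subgroup (MulAut S) → Prop}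
  {𝒪 : ∀ (Γ : Type) [Group Γ], Subgroup Γ → Prop} {𝒮 : ∀ (S : Type) [Group S], Prop} {p : ℕ}

theorem AK.mono (h𝒜 : AK 𝒜) {S : Type} [Group S] [Finite S] (hS : commutator S = ⊤)
    {Γ Γ' : Subgroup (MulAut S)} (h : Γ' ≤ Γ) (hΓ : 𝒜 S Γ) : 𝒜 S Γ' :=
  h𝒜 (MonoidHom.id S) Function.surjective_id (fun x hx y => by
    rw [MonoidHom.id_apply] at hx
    rw [hx, one_mul, mul_one]) hS Γ Γ' (fun α hα => ⟨α, h hα, fun _ => rfl⟩) hΓ

theorem perf_comm {G : Type} [Group G] {L : Subgroup G} (hL : ⁅L, L⁆ = L) : commutator L = ⊤ := by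
  apply Subgroup.map_injective L.subtype_injective
  rw [commutator_def, Subgroup.map_commutator, ← MonoidHom.range_eq_map, Subgroup.range_subtype]
  exact hL

/-- The condition on one component. -/
def CdN (𝒬 𝒜 : ∀ (S : Type) [Group S], Subgroup (MulAut S) → Prop)
    (𝒪 : ∀ (Γ : Type) [Group Γ], Subgroup Γ → Prop) {G : Type} [Group G] (D L : Subgroup G) :
    Prop :=
  𝒬 L (Gam D L) ∨
  (𝒜 L (Gam D L) ∧ 𝒪 (normalizer (L : Set G)) ((L ⊔ centralizer (L : Set G)).subgroupOf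
      (normalizer (L : Set G)))) ∨
  Cm (Pj D L) L

theorem CdN.transfer [Fact p.Prime] {G H : Type} [Group G] [Group H] [Finite G] [Finite H]
    {L D : Subgroup G}
    {L' D' : Subgroup H} {f : L →* L'} (hL : ⁅L, L⁆ = L) (hf : Function.Surjective f)
    (hker : ∀ x, f x = 1 → ∀ y, x * y = y * x) (h𝒬 : AK 𝒬) (h𝒜 : AK 𝒜) (h𝒪 : OutC 𝒪)
    (h : ∀ t ∈ normalizer (L' : Set H), ∃ g ∈ normalizer (L : Set G), Rl f t g)
    (hD : ∀ t ∈ D', t ∈ normalizer (L' : Set H) → ∃ g ∈ D, g ∈ normalizer (L : Set G) ∧ Rl f t g)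
    (hC : CdN 𝒬 𝒜 𝒪 D L) : CdN 𝒬 𝒜 𝒪 D' L' := by
  rcases hC with h1 | ⟨h1, h2⟩ | h1
  · exact Or.inl (h𝒬 f hf hker (perf_comm hL) _ _ (Gam_transfer hD) h1)
  · exact Or.inr (Or.inl ⟨h𝒜 f hf hker (perf_comm hL) _ _ (Gam_transfer hD) h1,
      Out_transfer hL hf hker h𝒪 h h2⟩)
  · right; right
    rcases CdQ.transfer (Q1 := fun _ _ => False) (ι := Empty) (Q := fun a => a.elim)
      (𝒟 := fun a => a.elim) (𝒪 := 𝒪) (p := p) hL hf hker cq_false (fun a => a.elim)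
      (fun a => a.elim) h𝒪 h hD (Or.inr (Or.inr h1)) with h2 | ⟨a, -⟩ | h2
    · exact h2.elim
    · exact a.elim
    · exact h2

/-- The condition on all components. -/
def KN (𝒬 𝒜 : ∀ (S : Type) [Group S], Subgroup (MulAut S) → Prop)
    (𝒪 : ∀ (Γ : Type) [Group Γ], Subgroup Γ → Prop) {G : Type} [Group G] (X D : Subgroup G) :
    Prop :=
  ∀ L ∈ comps X, CdN 𝒬 𝒜 𝒪 D L

/-- `G` has normal subgroups `X ≤ R 0 ≤ ⋯ ≤ R l`, `D ≤ R l`, such that `X` is a central product of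
quasisimple groups satisfying the condition, `R 0 / X` is `p`-solvable, the simple sections of
`R (i + 1) / R i` are in the class `𝒮 i`, and there is a relation between the original group `G₀`
and `G` which maps `N₀ i` to `R i`. -/
def ConL (𝒬 𝒜 : ∀ (S : Type) [Group S], Subgroup (MulAut S) → Prop)
    (𝒪 : ∀ (Γ : Type) [Group Γ], Subgroup Γ → Prop)
    (𝒮 : ℕ → ∀ (S : Type) [Group S], Prop) (p l : ℕ) {G₀ : Type} [Group G₀] (D₀ : Subgroup G₀)
    (N₀ : ℕ → Subgroup G₀) (G : Type) [Group G] (D : Subgroup G) : Prop :=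
  ∃ (X : Subgroup G) (R : ℕ → Subgroup G) (Γ : Subgroup (G₀ × G)), X.Normal ∧
    (∀ i, (R i).Normal) ∧ SQ X ∧ X ≤ R 0 ∧ D ≤ R l ∧ KN 𝒬 𝒜 𝒪 X D ∧
    RCs p (fun _ _ => False) X (R 0) ∧ (∀ i < l, R i ≤ R (i + 1) ∧ RCs p (𝒮 i) (R i) (R (i + 1))) ∧
    (∀ y : G, ∃ x, (x, y) ∈ Γ) ∧ (∀ y ∈ D, ∃ x ∈ D₀, (x, y) ∈ Γ) ∧
    ∀ i, ∀ x ∈ N₀ i, ∀ y, (x, y) ∈ Γ → y ∈ R i

variable {𝒮l : ℕ → ∀ (S : Type) [Group S], Prop} {l : ℕ} {G₀ : Type} [Group G₀]
  {D₀ : Subgroup G₀} {N₀ : ℕ → Subgroup G₀}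

theorem ctr_conL [Fact p.Prime] (h𝒬 : AK 𝒬) (h𝒜 : AK 𝒜) (h𝒪 : OutC 𝒪)
    (hN₀ : ∀ i, (N₀ i).Normal) : Ctr p (ConL 𝒬 𝒜 𝒪 𝒮l p l D₀ N₀) where
  mono := by
    rintro G _ _ D D' hD ⟨X, R, Γ, hX, hR, hXQ, hXR, hDR, hK, h1, h2, h3, h4, h5⟩
    refine ⟨X, R, Γ, hX, hR, hXQ, hXR, hD.trans hDR, fun L hL => ?_, h1, h2, h3,
      fun y hy => h4 y (hD hy), h5⟩
    rcases hK L hL with h | h | h
    · exact Or.inl (h𝒬.mono (perf_comm hL.2.2.perf) (Gam_mono hD L) h)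
    · exact Or.inr (Or.inl ⟨h𝒜.mono (perf_comm hL.2.2.perf) (Gam_mono hD L) h.1, h.2⟩)
    · exact Or.inr (Or.inr (h.mono (Pj_mono hD L) le_rfl))
  fr := by
    rintro G _ _ N T D _ hNT hCT x ⟨X, R, Γ, hX, hR, hXQ, hXR, hDR, hK, h1, h2, h3, h4, h5⟩
    have hXT : X ≤ T := by
      refine (hXQ.le_sup (N := N)).trans (sup_le ?_ (inf_le_right.trans hNT))
      exact (cm_iff.mp cenQ_cm).trans hCT
    obtain ⟨a, ha⟩ := h3 x
    let φ : G₀ × T →* G₀ × G := (MulAut.conj a).toMonoidHom.prodMap T.subtype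
    refine ⟨X.subgroupOf T, fun i => (R i).subgroupOf T, Γ.comap φ, inferInstance,
      fun i => inferInstance, hXQ.subgroupOf hXT, Subgroup.comap_mono hXR, ?_, ?_,
      h1.subgroupOf T, fun i hi => ⟨Subgroup.comap_mono (h2 i hi).1, (h2 i hi).2.subgroupOf T⟩,
      ?_, ?_, ?_⟩
    · intro y hy
      rw [Subgroup.mem_subgroupOf, mem_conjS] at hy
      rw [Subgroup.mem_subgroupOf]
      have h1 := (hR l).conj_mem _ (hDR hy) x
      have e : x * (x⁻¹ * (y : G) * x) * x⁻¹ = y := by group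
      rwa [e] at h1
    · intro L' hL'
      obtain ⟨L, hL, f, hf, hker, h1, h2⟩ := fr_rel (D := D) hXT x hL'
      exact (hK L hL).transfer (p := p) hL.2.2.perf hf hker h𝒬 h𝒜 h𝒪 h1 h2
    · intro y
      obtain ⟨b, hb⟩ := h3 (y : G)
      refine ⟨a⁻¹ * b * a, ?_⟩
      change (a * (a⁻¹ * b * a) * a⁻¹, (y : G)) ∈ Γ
      have e : a * (a⁻¹ * b * a) * a⁻¹ = b := by group
      rw [e]
      exact hb
    · intro y hy
      rw [Subgroup.mem_subgroupOf, mem_conjS] at hy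
      obtain ⟨d, hd, hdy⟩ := h4 _ hy
      refine ⟨d, hd, ?_⟩
      change (a * d * a⁻¹, (y : G)) ∈ Γ
      have h := Γ.mul_mem (Γ.mul_mem ha hdy) (Γ.inv_mem ha)
      have e : (a, x) * (d, x⁻¹ * (y : G) * x) * (a, x)⁻¹ = (a * d * a⁻¹, (y : G)) := by
        refine Prod.ext rfl ?_
        change x * (x⁻¹ * (y : G) * x) * x⁻¹ = y
        group
      rwa [e] at h
    · intro i z hz y hy
      have h : (a * z * a⁻¹, (y : G)) ∈ Γ := hy
      exact h5 i _ ((hN₀ i).conj_mem z hz a) _ h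
  kp := by
    rintro G H _ _ _ _ N D Y _ π Z hT hY hZ hZπ hcard D' hD'
      ⟨X, R, Γ, hX, hR, hXQ, hXR, hDR, hK, h1, h2, h3, h4, h5⟩
    obtain ⟨X', h6, h7, h8, h9⟩ := kp_shape' (Y := Y) hT hY hZ hZπ hcard D' hD' hX hXQ
    have hn : ∀ K : Subgroup G, K.Normal → (pull N π (N ⊔ K)).Normal := by
      intro K hK
      have h7 : (N ⊔ K).Normal := inferInstance
      exact (Subgroup.Normal.map h7 (QuotientGroup.mk' N)
        (QuotientGroup.mk'_surjective N)).comap π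
    let Γ' : Subgroup (G₀ × H) :=
      { carrier := {z | ∃ y : G, (z.1, y) ∈ Γ ∧ QuotientGroup.mk' N y = π z.2}
        mul_mem' := by
          rintro ⟨a, h⟩ ⟨a', h'⟩ ⟨y, hy, hyh⟩ ⟨y', hy', hyh'⟩
          refine ⟨y * y', Γ.mul_mem hy hy', ?_⟩
          rw [map_mul, hyh, hyh', ← map_mul]
          rfl
        one_mem' := ⟨1, Γ.one_mem, by rw [map_one]; exact (map_one π).symm⟩
        inv_mem' := by
          rintro ⟨a, h⟩ ⟨y, hy, hyh⟩
          refine ⟨y⁻¹, Γ.inv_mem hy, ?_⟩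
          rw [map_inv, hyh, ← map_inv]
          rfl }
    refine ⟨X', fun i => pull N π (N ⊔ R i), Γ', h6, fun i => hn _ (hR i), h7,
      (h8 (R 0) (hR 0) hXR).1,
      hD'.trans (Subgroup.comap_mono (Subgroup.map_mono (hDR.trans le_sup_right))),
      fun L' hL' => ?_, (h8 (R 0) (hR 0) hXR).2 _ h1, fun i hi => ⟨Subgroup.comap_mono
        (Subgroup.map_mono (sup_le_sup_left (h2 i hi).1 N)), ?_⟩, ?_, ?_, ?_⟩
    · obtain ⟨L, hL, f, hf, hker, h8, h9⟩ := h9 L' hL'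
      exact (hK L hL).transfer (p := p) hL.2.2.perf hf hker h𝒬 h𝒜 h𝒪 h8 h9
    · have hRn := hR i
      exact RCs.pull le_sup_left (sup_le_sup_left (h2 i hi).1 N) π (RCs_sup (h2 i hi).2)
    · intro h
      obtain ⟨y, hy⟩ := QuotientGroup.mk'_surjective N (π h)
      obtain ⟨a, ha⟩ := h3 y
      exact ⟨a, y, ha, hy⟩
    · intro h hh
      obtain ⟨y, hy, hyh⟩ := mem_pull.mp (hD' hh)
      obtain ⟨d, hd, hdy⟩ := h4 y hy
      exact ⟨d, hd, y, hdy, hyh⟩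
    · rintro i x hx h ⟨y, hy, hyh⟩
      exact mem_pull.mpr ⟨y, (le_sup_right (a := N)) (h5 i x hx y hy), hyh⟩

theorem conL_comp {G : Type} [Group G] [Finite G] {D L : Subgroup G} (hN₀ : ∀ i, (N₀ i).Normal)
    (hC : ConL 𝒬 𝒜 𝒪 𝒮l p l D₀ N₀ G D) (hL : IsComponent L)
    (hp : p ∣ Nat.card (L ⧸ Subgroup.center L))
    (hr : ∃ x ∈ D, x ∈ L ∧ ¬ ∀ y ∈ L, x * y = y * x) :
    𝒬 L (Gam D L) ∨ (𝒜 L (Gam D L) ∧ 𝒪 (normalizer (L : Set G)) ((L ⊔ centralizer (L : Set G)).subgroupOf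
      (normalizer (L : Set G)))) ∨
    ∃ i < l, 𝒮l i (L ⧸ Subgroup.center L) ∧
      IsSec (D₀.map (QuotientGroup.mk' (N₀ i))) (Gam D L) := by
  obtain ⟨X, R, Γ, hX, hR, hXQ, hXR, hDR, hK, h1, h2, h3, h4, h5⟩ := hC
  by_cases hLX : L ≤ X
  · obtain ⟨r, hrD, hrL, hrc⟩ := hr
    rcases hK L (comp_mem hXQ hL hLX) with h | h | h
    · exact Or.inl h
    · exact Or.inr (Or.inl h)
    · exact absurd (h r (inf_le_Pj D L ⟨hrD, hrL⟩)) hrc
  right; right
  obtain ⟨r, hrD, hrL, hrc⟩ := hr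
  have hQ := qs_of_isQuasisimple hL.1
  have hLR0 : ¬ L ≤ R 0 := by
    intro h
    have := hR 0
    exact sec_comp (D := L) h h1 hL hp ⟨r, hrL, hrL, hrc⟩ hLX
  have hLRl : L ≤ R l := by
    rcases hQ.dich (L ⊓ R l) inf_le_left (fun x hx y hy =>
      ⟨L.mul_mem (L.mul_mem hx hy.1) (L.inv_mem hx), (hR l).conj_mem y hy.2 x⟩) with h | h
    · rw [← h]; exact inf_le_right
    · exact absurd (h r ⟨hrL, hDR hrD⟩) hrc
  obtain ⟨i, hil, hLi, hLi1⟩ : ∃ i < l, ¬ L ≤ R i ∧ L ≤ R (i + 1) := by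
    by_contra hcon
    push Not at hcon
    have h6 : ∀ i ≤ l, ¬ L ≤ R i := by
      intro i
      induction i with
      | zero => exact fun _ => hLR0
      | succ i ih => exact fun hi => hcon i (by omega) (ih (by omega))
    exact h6 l le_rfl hLRl
  have hRi := hR i
  have hRi1 := hR (i + 1)
  refine ⟨i, hil, sec_comp (D := L) hLi1 (h2 i hil).2 hL hp ⟨r, hrL, hrL, hrc⟩ hLi, ?_⟩
  -- `R i` centralises `L`
  have hcm : R i ≤ centralizer (L : Set G) := by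
    obtain ⟨E, hE, hLE⟩ := comps_of_component hL
    rcases comps_dich (N := R i) hLE with h | h
    · exact absurd h hLi
    · exact cm_iff.mp h.symm
  let K : Subgroup G₀ := D₀ ⊓ (Γ ⊓ (D ⊓ normalizer (L : Set G)).comap (MonoidHom.snd G₀ G)).map
    (MonoidHom.fst G₀ G)
  have hKc : ∀ x : K, ∃ y : normalizer (L : Set G), (y : G) ∈ D ∧ ((x : G₀), (y : G)) ∈ Γ := by
    rintro ⟨_, -, ⟨⟨a, y⟩, ⟨hz, hy⟩, rfl⟩⟩
    exact ⟨⟨y, hy.2⟩, hy.1, hz⟩
  choose c hcD hc using hKc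
  have key : ∀ (x x' : G₀) (y y' : normalizer (L : Set G)), (x, (y : G)) ∈ Γ →
      (x', (y' : G)) ∈ Γ → x⁻¹ * x' ∈ N₀ i →
      L.normalizerMonoidHom y = L.normalizerMonoidHom y' := by
    intro x x' y y' hy hy' hx
    have h4 := Γ.mul_mem (Γ.inv_mem hy) hy'
    have h5 := hcm (h5 i _ hx _ h4)
    have h6 : y⁻¹ * y' ∈ L.normalizerMonoidHom.ker := by
      rw [Subgroup.normalizerMonoidHom_ker, Subgroup.mem_subgroupOf]
      exact h5
    rw [MonoidHom.mem_ker, map_mul, map_inv, inv_mul_eq_one] at h6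
    exact h6
  have h1N : ∀ x : G₀, x⁻¹ * x ∈ N₀ i := fun x => by
    rw [inv_mul_cancel]; exact Subgroup.one_mem _
  let f : K →* MulAut L :=
    { toFun := fun x => L.normalizerMonoidHom (c x)
      map_one' := by
        rw [key 1 1 (c 1) 1 (hc 1) Γ.one_mem (h1N 1), map_one]
      map_mul' := fun x x' => by
        rw [← map_mul]
        exact key _ _ _ _ (hc (x * x')) (Γ.mul_mem (hc x) (hc x')) (h1N _) }
  let q : K →* K.map (QuotientGroup.mk' (N₀ i)) := (QuotientGroup.mk' (N₀ i)).subgroupMap K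
  obtain ⟨g, hg⟩ := exists_factor q ((QuotientGroup.mk' (N₀ i)).subgroupMap_surjective K) f (by
    intro x hx
    have h6 : QuotientGroup.mk' (N₀ i) (x : G₀) = 1 := congrArg Subtype.val hx
    have h7 : (x : G₀) ∈ N₀ i := (QuotientGroup.eq_one_iff _).mp h6
    change L.normalizerMonoidHom (c x) = 1
    rw [key x 1 (c x) 1 (hc x) Γ.one_mem (by
      rw [mul_one]; exact (N₀ i).inv_mem h7), map_one])
  have hKD : K.map (QuotientGroup.mk' (N₀ i)) ≤ D₀.map (QuotientGroup.mk' (N₀ i)) :=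
    Subgroup.map_mono inf_le_left
  let ι : (K.map (QuotientGroup.mk' (N₀ i))).subgroupOf (D₀.map (QuotientGroup.mk' (N₀ i))) →*
      K.map (QuotientGroup.mk' (N₀ i)) :=
    { toFun := fun x => ⟨x.1, x.2⟩
      map_one' := rfl
      map_mul' := fun x y => rfl }
  refine ⟨_, g.comp ι, ?_⟩
  ext φ
  rw [mem_Gam]
  constructor
  · rintro ⟨x, rfl⟩
    obtain ⟨y, hy⟩ := (QuotientGroup.mk' (N₀ i)).subgroupMap_surjective K (ι x)
    have h6 : g (ι x) = f y := by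
      rw [← hg y]
      exact congrArg g hy.symm
    exact ⟨c y, hcD y, (c y).2, fun s => by
      change ((g (ι x) s : L) : G) = _
      rw [h6]; rfl⟩
  · rintro ⟨r, hr, hrN, hφ⟩
    obtain ⟨x, hx, hxr⟩ := h4 r hr
    let x' : K := ⟨x, hx, ⟨(x, r), ⟨hxr, hr, hrN⟩, rfl⟩⟩
    have h6 : ((q x' : K.map (QuotientGroup.mk' (N₀ i))) : G₀ ⧸ N₀ i) ∈
        D₀.map (QuotientGroup.mk' (N₀ i)) := hKD (q x').2
    refine ⟨⟨⟨_, h6⟩, (q x').2⟩, ?_⟩
    change g (q x') = φ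
    rw [hg]
    have h7 : L.normalizerMonoidHom (c x') = L.normalizerMonoidHom ⟨r, hrN⟩ :=
      key x x _ _ (hc x') hxr (h1N x)
    refine Eq.trans h7 (MulEquiv.ext fun y => Subtype.ext ?_)
    exact (hφ y).symm

end Vale.Agent.P180.R2.H47
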