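import Vale.Agent.P180.R2.H365.Def10
import Vale.Agent.P180.R2.H799.CC1

set_option linter.all false

/-!
P180: perfect central extensions of orthogonal groups with semilinear actions: transfer to central
quotients.
-/

namespace Vale.Agent.P180.R2.H47

open Vale.Agent.P180 Vale.Agent.P180.R2.H365

/-- transport of `SimMap` along an isomorphism -/
theorem simMap_iso {K E : Type} [Field K] [AddCommGroup E] [Module K E] {T T' : Type} [Group T]
    [Group T'] (e : T ≃* T') {Γ : Subgroup (MulAut T)} {B : E → E → K}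
    {X : Subgroup (SpecialLinearGroup K E)} {π : X →* T} (h : SimMap B X Γ π) :
    SimMap B X (Γ.map (MulAut.congr e).toMonoidHom) (e.toMonoidHom.comp π) := by
  obtain ⟨hπ, hcen, hact⟩ := h
  refine ⟨e.surjective.comp hπ, fun x hx => hcen x ?_, ?_⟩
  · rw [Subgroup.mem_center_iff] at hx ⊢
    intro t
    apply e.injective
    rw [map_mul, map_mul]
    exact hx (e t)
  · rintro _ ⟨β, hβ, rfl⟩
    obtain ⟨σ, c, g, g1, g2, g3, g4, g5⟩ := hact β hβ
    refine ⟨σ, c, g, g1, g2, g3, g4, fun x => ?_⟩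
    obtain ⟨y, hy, hy'⟩ := g5 x
    refine ⟨y, hy, ?_⟩
    change e (β (e.symm (e (π x)))) = e (π y)
    rw [e.symm_apply_apply, hy']

theorem orthAct_iso {K E : Type} [Field K] [AddCommGroup E] [Module K E] {T T' : Type} [Group T]
    [Group T'] (e : T ≃* T') {Γ : Subgroup (MulAut T)} (h : OrthAct K E T Γ) :
    OrthAct K E T' (Γ.map (MulAut.congr e).toMonoidHom) := by
  rcases h with ⟨h1, B, X, π, hB, hX, h⟩ | ⟨h1, Q, X, π, hX, h⟩
  · exact Or.inl ⟨h1, B, X, _, hB, hX, simMap_iso e h⟩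
  · exact Or.inr ⟨h1, Q, X, _, hX, simMap_iso e h⟩

theorem orthQuot_iso {K E : Type} [Field K] [AddCommGroup E] [Module K E] {T T' : Type} [Group T]
    [Group T'] (e : T ≃* T') (h : OrthAct K E T ⊥) : OrthAct K E T' ⊥ := by
  have h1 := orthAct_iso e h
  rw [Subgroup.map_bot] at h1
  exact h1

theorem orthSmallOn_iso {c c' : Prop} {p : ℕ} {T T' : Type} [Group T] [Group T'] (e : T ≃* T')
    (hc : c → c') {Γ : Subgroup (MulAut T)} (h : OrthSmallOn c p T Γ) :
    OrthSmallOn c' p T' (Γ.map (MulAut.congr e).toMonoidHom) := by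
  obtain ⟨K, iK, fK, d, h1, h2, h3, h4, h5, h6, h7⟩ := h
  refine ⟨K, iK, fK, d, ?_, h2, h3, h4, h5, h6, orthAct_iso e h7⟩
  rcases h1 with rfl | ⟨h1, h⟩
  · exact Or.inl (Subgroup.map_bot _)
  · exact Or.inr ⟨h1, h.imp_right hc⟩

theorem orthSmallOn_mono {c c' : Prop} {p : ℕ} {T : Type} [Group T] (hc : c → c')
    {Γ : Subgroup (MulAut T)} (h : OrthSmallOn c p T Γ) : OrthSmallOn c' p T Γ := by
  obtain ⟨K, iK, fK, d, h1, h⟩ := h
  exact ⟨K, iK, fK, d, h1.imp_right fun h => ⟨h.1, h.2.imp_right hc⟩, h⟩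

theorem coverSim_mono {c c' : Prop} {p : ℕ} {S : Type} [Group S] {Γ : Subgroup (MulAut S)}
    (hc : c → c') (h : CoverSim c p S Γ) : CoverSim c' p S Γ := by
  obtain ⟨hL, Γ', h1, h2⟩ := h
  exact ⟨hL, Γ', h1, orthSmallOn_mono hc h2⟩

theorem coverSim_map {c c' : Prop} {p : ℕ} {S S' : Type} [Group S] [Group S'] (f : S →* S')
    (hf : Function.Surjective f) (hker : ∀ x, f x = 1 → ∀ y, x * y = y * x)
    (hS : commutator S = ⊤) {Γ : Subgroup (MulAut S)} {Γ' : Subgroup (MulAut S')}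
    (hΓ : ∀ α' ∈ Γ', ∃ α ∈ Γ, ∀ s, f (α s) = α' (f s)) (hc : c → c') (h : CoverSim c p S Γ) :
    CoverSim c' p S' Γ' := by
  obtain ⟨-, Γ₀, h1, h2⟩ := h
  have hle : Subgroup.center S ≤ (Subgroup.center S').comap f := by
    intro x hx
    rw [Subgroup.mem_comap, Subgroup.mem_center_iff]
    intro y
    obtain ⟨y, rfl⟩ := hf y
    rw [← map_mul, ← map_mul, Subgroup.mem_center_iff.mp hx y]
  have hbij : Function.Bijective (QuotientGroup.map (Subgroup.center S) (Subgroup.center S') f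
      hle) := by
    constructor
    · rw [injective_iff_map_eq_one]
      intro x hx
      obtain ⟨x, rfl⟩ := QuotientGroup.mk'_surjective (Subgroup.center S) x
      have h1 : (QuotientGroup.mk (f x) : S' ⧸ Subgroup.center S') = 1 := hx
      rw [QuotientGroup.eq_one_iff] at h1
      exact (QuotientGroup.eq_one_iff x).mpr (H799.CC.center_of_map hf hker hS h1)
    · intro y
      obtain ⟨y, rfl⟩ := QuotientGroup.mk'_surjective (Subgroup.center S') y
      obtain ⟨x, rfl⟩ := hf y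
      exact ⟨QuotientGroup.mk' _ x, rfl⟩
  let e : S ⧸ Subgroup.center S ≃* S' ⧸ Subgroup.center S' := MulEquiv.ofBijective _ hbij
  have he : ∀ x : S, e (x : S ⧸ Subgroup.center S) = (f x : S' ⧸ Subgroup.center S') :=
    fun x => rfl
  have hS' : commutator S' = ⊤ := by
    rw [eq_top_iff, ← MonoidHom.range_eq_top.mpr hf, MonoidHom.range_eq_map, ← hS, commutator_def,
      Subgroup.map_commutator, ← MonoidHom.range_eq_map, MonoidHom.range_eq_top.mpr hf,
      ← commutator_def]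
  refine ⟨hS', Γ₀.map (MulAut.congr e).toMonoidHom, fun α' hα' => ?_, orthSmallOn_iso e hc h2⟩
  obtain ⟨α, hα, hαα⟩ := hΓ α' hα'
  obtain ⟨β, hβ, hβα⟩ := h1 α hα
  refine ⟨MulAut.congr e β, ⟨β, hβ, rfl⟩, fun y => ?_⟩
  obtain ⟨x, rfl⟩ := hf y
  change e (β (e.symm (f x : S' ⧸ Subgroup.center S'))) = _
  rw [← he x, e.symm_apply_apply, hβα, he, hαα]

end Vale.Agent.P180.R2.H47
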