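import Vale.Agent.P180.R2.H47.AcT
import Vale.Agent.P180.R2.H47.AcV
import Vale.Agent.P180.R2.H365.TmP
import Vale.Agent.P180.R2.H47.Pair
import Vale.Agent.P180.R2.H799.BY3
import Vale.Agent.P180.R2.H589.Sec

set_option linter.all false

/-!
P180: classes of actions of `p`-groups on quasisimple groups, their transfer to central quotients,
and the corner property.
-/

namespace Vale.Agent.P180.R2.H47

open Vale.Agent.P180 Vale.Agent.P180.H768.Gd Vale.Agent.P180.R2.H365
open Vale.Agent.P180.H768 hiding pull mem_pull exists_factor Lay mk_mem comm_mem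
open Subgroup (mem_centralizer_iff mem_normalizer_iff centralizer normalizer)
open scoped commutatorElement

/-- A class of triples `(S, Γ, A)` inherited by central quotients and by subgroups of `A`. -/
structure AW (p : ℕ) (W : ∀ (S : Type) [Group S], Subgroup (MulAut S) → Subgroup S → Prop) :
    Prop where
  map : ∀ {S S' : Type} [Group S] [Finite S] [Group S'] [Finite S'] (f : S →* S'),
    Function.Surjective f → (∀ x, f x = 1 → ∀ y, x * y = y * x) → commutator S = ⊤ →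
    ∀ (Γ : Subgroup (MulAut S)) (Γ' : Subgroup (MulAut S')) (A : Subgroup S), IsPGroup p A →
    (∀ α' ∈ Γ', ∃ α ∈ Γ, ∀ s, f (α s) = α' (f s)) → W S Γ A → W S' Γ' (A.map f)
  sub : ∀ {S : Type} [Group S] [Finite S] {Γ : Subgroup (MulAut S)} {A A' : Subgroup S}, A' ≤ A → W S Γ A →
    W S Γ A'

section Aut

variable {S S' : Type} [Group S] [Group S'] {f : S →* S'}

/-- automorphisms of a perfect group which agree modulo central elements are equal -/
theorem aut_eq (hker : ∀ x, f x = 1 → ∀ y, x * y = y * x) (hS : commutator S = ⊤)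
    {α β : MulAut S} (h : ∀ s, f (α s) = f (β s)) : α = β := by
  apply H589.autQ_injective hS
  ext x
  obtain ⟨x, rfl⟩ := QuotientGroup.mk_surjective x
  rw [H589.autQ_mk, H589.autQ_mk, QuotientGroup.eq, Subgroup.mem_center_iff]
  intro g
  refine (hker _ ?_ g).symm
  rw [map_mul, map_inv, h, inv_mul_cancel]

/-- lifts of inner automorphisms -/
theorem conj_lift (hker : ∀ x, f x = 1 → ∀ y, x * y = y * x) (hS : commutator S = ⊤)
    {Γ : Subgroup (MulAut S)} {Γ' : Subgroup (MulAut S')}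
    (hΓ : ∀ α' ∈ Γ', ∃ α ∈ Γ, ∀ s, f (α s) = α' (f s)) {x : S} (h : MulAut.conj (f x) ∈ Γ') :
    MulAut.conj x ∈ Γ := by
  obtain ⟨α, hα, h1⟩ := hΓ _ h
  have e : MulAut.conj x = α := by
    refine aut_eq hker hS fun s => ?_
    rw [h1, MulAut.conj_apply, MulAut.conj_apply, map_mul, map_mul, map_inv]
  rw [e]
  exact hα

end Aut

/-- the class of actions given by a class of triples -/
def AP (p : ℕ) (W : ∀ (S : Type) [Group S], Subgroup (MulAut S) → Subgroup S → Prop) (S : Type)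
    [Group S] (Γ : Subgroup (MulAut S)) : Prop :=
  ∀ A : Subgroup S, IsPGroup p A → (∀ x ∈ A, MulAut.conj x ∈ Γ) → W S Γ A

theorem AW.ak {p : ℕ} [Fact p.Prime]
    {W : ∀ (S : Type) [Group S], Subgroup (MulAut S) → Subgroup S → Prop} (hW : AW p W) :
    AK (AP p W) := by
  intro S S' _ _ _ _ f hf hker hS Γ Γ' hΓ h A' hA' hA'Γ
  obtain ⟨Q, hQ, hQA⟩ := H799.BN.exists_lift (p := p) f hf hA'
  rw [← hQA]
  refine hW.map f hf hker hS Γ Γ' Q hQ hΓ (h Q hQ fun x hx => ?_)
  refine conj_lift hker hS hΓ (hA'Γ _ ?_)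
  rw [← hQA]
  exact ⟨x, hx, rfl⟩

theorem CQ.ak {Q : ∀ (S : Type) [Group S], Prop} (h : CQ Q) : AK (fun S _ _ => Q S) :=
  fun f hf hker hS _ _ _ h1 => h f hf hker hS h1

theorem AK.and {𝒜 𝒜' : ∀ (S : Type) [Group S], Subgroup (MulAut S) → Prop} (h : AK 𝒜)
    (h' : AK 𝒜') : AK (fun S _ Γ => 𝒜 S Γ ∧ 𝒜' S Γ) :=
  fun f hf hker hS Γ Γ' hΓ h1 => ⟨h f hf hker hS Γ Γ' hΓ h1.1, h' f hf hker hS Γ Γ' hΓ h1.2⟩

theorem AK.or {𝒜 𝒜' : ∀ (S : Type) [Group S], Subgroup (MulAut S) → Prop} (h : AK 𝒜)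
    (h' : AK 𝒜') : AK (fun S _ Γ => 𝒜 S Γ ∨ 𝒜' S Γ) :=
  fun f hf hker hS Γ Γ' hΓ h1 =>
    h1.imp (h f hf hker hS Γ Γ' hΓ) (h' f hf hker hS Γ Γ' hΓ)

theorem aw_exp {p : ℕ} : AW p (fun S _ _ A => ExpOn p S A) where
  map := by
    rintro S S' _ _ _ _ f hf hker hS Γ Γ' A hA hΓ h _ ⟨y, hy, rfl⟩
    rw [← map_pow, Subgroup.mem_center_iff]
    intro g
    obtain ⟨g, rfl⟩ := hf g
    rw [← map_mul, ← map_mul, Subgroup.mem_center_iff.mp (h y hy) g]
  sub := fun hA h y hy => h y (hA hy)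

theorem aw_small {p : ℕ} : AW p (fun S _ _ A => SmallOn p S A) where
  map := by
    intro S S' _ _ _ _ f hf hker hS Γ Γ' A hA hΓ h
    have hle : Subgroup.center S ≤ (Subgroup.center S').comap f := by
      intro x hx
      rw [Subgroup.mem_comap, Subgroup.mem_center_iff]
      intro y
      obtain ⟨y, rfl⟩ := hf y
      rw [← map_mul, ← map_mul, Subgroup.mem_center_iff.mp hx y]
    refine lt_of_le_of_lt (Nat.card_le_card_of_surjective (fun x : A.map (QuotientGroup.mk'
      (Subgroup.center S)) => (⟨QuotientGroup.map _ (Subgroup.center S') f hle x.1, ?_⟩ :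
        (A.map f).map (QuotientGroup.mk' (Subgroup.center S')))) ?_) h
    · obtain ⟨_, y, hy, rfl⟩ := x
      exact ⟨f y, ⟨y, hy, rfl⟩, rfl⟩
    · rintro ⟨_, _, ⟨y, hy, rfl⟩, rfl⟩
      exact ⟨⟨_, y, hy, rfl⟩, rfl⟩
  sub := by
    intro S _ _ Γ A A' hA h
    exact lt_of_le_of_lt (Nat.card_le_card_of_injective _
      (Subgroup.inclusion_injective (Subgroup.map_mono hA))) h

theorem aw_cen {p : ℕ} : AW p (CenOn p) where
  map := by
    rintro S S' _ _ _ _ f hf hker hS Γ Γ' A hA hΓ (h | ⟨h, h'⟩)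
    · left
      rintro α' hα' _ ⟨y, hy, rfl⟩
      obtain ⟨α, hα, h1⟩ := hΓ _ hα'
      rw [← h1, ← map_inv, ← map_mul, Subgroup.mem_center_iff]
      intro g
      obtain ⟨g, rfl⟩ := hf g
      rw [← map_mul, ← map_mul, Subgroup.mem_center_iff.mp (h α hα y hy) g]
    · right
      refine ⟨aw_exp.map f hf hker hS Γ Γ' A hA hΓ h, ?_⟩
      rintro _ ⟨x, hx, rfl⟩ _ ⟨y, hy, rfl⟩
      rw [← map_inv, ← map_inv, ← map_mul, ← map_mul, ← map_mul, Subgroup.mem_center_iff]
      intro g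
      obtain ⟨g, rfl⟩ := hf g
      rw [← map_mul, ← map_mul, Subgroup.mem_center_iff.mp (h' x hx y hy) g]
  sub := fun hA h => h.imp (fun h α hα y hy => h α hα y (hA hy))
    fun h => ⟨fun y hy => h.1 y (hA hy), fun x hx y hy => h.2 x (hA hx) y (hA hy)⟩

theorem comm_mul_aux {X : Type} [Group X] {x y z : X}
    (h : y * (x * z * x⁻¹ * z⁻¹) = (x * z * x⁻¹ * z⁻¹) * y) :
    x * (y * z) * x⁻¹ * (y * z)⁻¹ = x * y * x⁻¹ * y⁻¹ * (x * z * x⁻¹ * z⁻¹) := by
  obtain ⟨w, hw⟩ : ∃ w, w = x * z * x⁻¹ * z⁻¹ := ⟨_, rfl⟩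
  rw [← hw] at h ⊢
  have e : x * (y * z) * x⁻¹ * (y * z)⁻¹ = x * y * x⁻¹ * w * y⁻¹ := by
    rw [hw]; group
  have h' : w * y⁻¹ = y⁻¹ * w := by
    calc w * y⁻¹ = y⁻¹ * (y * w) * y⁻¹ := by group
      _ = y⁻¹ * (w * y) * y⁻¹ := by rw [h]
      _ = y⁻¹ * w := by group
  rw [e, mul_assoc _ w, h', ← mul_assoc]

/-- the preimage of the centre of a perfect central quotient -/
theorem center_of_quot {X S : Type} [Group X] [Group S] (π : X →* S) (hπ : Function.Surjective π)
    (hk : π.ker ≤ Subgroup.center X) (hS : commutator S = ⊤) {x : X}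
    (hx : π x ∈ Subgroup.center S) : x ∈ Subgroup.center X := by
  have h1 : ∀ y, x * y * x⁻¹ * y⁻¹ ∈ Subgroup.center X := by
    intro y
    apply hk
    rw [MonoidHom.mem_ker, map_mul, map_mul, map_mul, map_inv, map_inv,
      ← Subgroup.mem_center_iff.mp hx (π y), mul_inv_cancel_right, mul_inv_cancel]
  obtain ⟨χ, hχ⟩ : ∃ χ : X →* Subgroup.center X, ∀ y, ((χ y : Subgroup.center X) : X) =
      x * y * x⁻¹ * y⁻¹ :=
    ⟨MonoidHom.mk' (fun y => ⟨x * y * x⁻¹ * y⁻¹, h1 y⟩) (fun y z =>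
      Subtype.ext (comm_mul_aux (Subgroup.mem_center_iff.mp (h1 z) y))), fun y => rfl⟩
  have h3 : commutator X ≤ χ.ker := by
    rw [commutator_def, Subgroup.commutator_le]
    intro a _ b _
    rw [MonoidHom.mem_ker, map_commutatorElement, commutatorElement_eq_one_iff_mul_comm]
    exact Subtype.ext (Subgroup.mem_center_iff.mp (χ b).2 (χ a))
  have h4 : ∀ y, χ y = 1 := by
    intro y
    have h5 : π y ∈ (commutator X).map π := by
      rw [commutator_def, Subgroup.map_commutator, Subgroup.map_top_of_surjective _ hπ,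
        ← commutator_def, hS]
      trivial
    obtain ⟨c, hc, hcy⟩ := h5
    have h6 : c⁻¹ * y ∈ Subgroup.center X := by
      apply hk
      rw [MonoidHom.mem_ker, map_mul, map_inv, hcy, inv_mul_cancel]
    have h7 : χ (c⁻¹ * y) = 1 := by
      apply Subtype.ext
      rw [hχ, Subgroup.mem_center_iff.mp h6 x, mul_inv_cancel_right, mul_inv_cancel]
      rfl
    have h8 : χ y = χ c * χ (c⁻¹ * y) := by rw [← map_mul, mul_inv_cancel_left]
    rw [h8, h7, mul_one]
    exact h3 hc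
  rw [Subgroup.mem_center_iff]
  intro y
  have h5 : x * y * x⁻¹ * y⁻¹ = 1 := by rw [← hχ, h4]; rfl
  have h6 : x * y = y * x := by
    rw [mul_inv_eq_one, mul_inv_eq_iff_eq_mul] at h5
    exact h5
  exact h6.symm

theorem slc_map {p : ℕ} {S S' : Type} [Group S] [Group S'] (f : S →* S')
    (hf : Function.Surjective f) (hker : ∀ x, f x = 1 → ∀ y, x * y = y * x)
    (hS : commutator S = ⊤) (h : LinQuot p S) : LinQuot p S' := by
  obtain ⟨K, iK, fK, d, hd, hpK, hg, π, hπ, hk⟩ := h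
  refine ⟨K, iK, fK, d, hd, hpK, hg, f.comp π, hf.comp hπ, ?_⟩
  intro x hx
  refine center_of_quot π hπ hk hS ?_
  rw [Subgroup.mem_center_iff]
  exact fun y => (hker (π x) hx y).symm

theorem sim_map {c c' : Prop} {p : ℕ} {S S' : Type} [Group S] [Group S'] (f : S →* S')
    (hf : Function.Surjective f) (hker : ∀ x, f x = 1 → ∀ y, x * y = y * x)
    (hS : commutator S = ⊤) {Γ : Subgroup (MulAut S)} {Γ' : Subgroup (MulAut S')}
    (hΓ : ∀ α' ∈ Γ', ∃ α ∈ Γ, ∀ s, f (α s) = α' (f s)) (hc : c → c') (h : SimOn c p S Γ) :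
    SimOn c' p S' Γ' := by
  obtain ⟨K, iK, fK, d, hd, B, θ, X, π, h1, ⟨h2, h3, h5⟩, h6, h7⟩ := h
  refine ⟨K, iK, fK, d, hd, B, θ, X, f.comp π, h1, ⟨hf.comp h2, ?_, ?_⟩, h6,
    h7.imp_right fun h => ⟨hc h.1, h.2⟩⟩
  · exact fun x hx => h3 x (PairP.center_of_map f hker hS hx)
  · intro α' hα'
    obtain ⟨α, hα, h7⟩ := hΓ α' hα'
    obtain ⟨σ, c, g, g1, g2, g3, g4, g5⟩ := h5 α hα
    refine ⟨σ, c, g, g1, g2, g3, g4, fun x => ?_⟩
    obtain ⟨y, hy, hy'⟩ := g5 x
    refine ⟨y, hy, ?_⟩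
    change α' (f (π x)) = f (π y)
    rw [← h7, hy']

theorem sim_mono {c c' : Prop} {p : ℕ} {S : Type} [Group S] {Γ : Subgroup (MulAut S)}
    (hc : c → c') (h : SimOn c p S Γ) : SimOn c' p S Γ := by
  obtain ⟨K, iK, fK, d, hd, B, θ, X, π, h1, h2, h6, h7⟩ := h
  exact ⟨K, iK, fK, d, hd, B, θ, X, π, h1, h2, h6, h7.imp_right fun h => ⟨hc h.1, h.2⟩⟩

theorem aw_tac {p m : ℕ} [Fact p.Prime] : AW p (TameAct p m) where
  map := by
    intro S S' _ _ _ _ f hf hker hS Γ Γ' A hA hΓ h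
    rcases h with ⟨h1, h2⟩ | ⟨h1, h2⟩ | h1 | h1 | h1
    · left
      constructor
      · choose g hgΓ hg using hΓ
        let φ : Γ' →* Γ :=
          { toFun := fun α => ⟨g α α.2, hgΓ α α.2⟩
            map_one' := by
              apply Subtype.ext
              refine aut_eq (f := f) hker hS fun s => ?_
              rw [hg]
              rfl
            map_mul' := by
              intro α β
              apply Subtype.ext
              refine aut_eq (f := f) hker hS fun s => ?_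
              change f (g _ _ s) = f (g α α.2 (g β β.2 s))
              rw [hg, hg, hg]
              rfl }
        refine isCyclic_of_injective φ ?_
        intro α β h
        have h3 : g α α.2 = g β β.2 := congrArg Subtype.val h
        apply Subtype.ext
        ext s'
        obtain ⟨s, rfl⟩ := hf s'
        rw [← hg α α.2, ← hg β β.2, h3]
      · intro h3
        apply h2
        have h4 : (Subgroup.center S).map f = Subgroup.center S' := by
          apply le_antisymm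
          · rintro _ ⟨x, hx, rfl⟩
            rw [Subgroup.mem_center_iff]
            intro g
            obtain ⟨g, rfl⟩ := hf g
            rw [← map_mul, ← map_mul, Subgroup.mem_center_iff.mp hx g]
          · intro x hx
            obtain ⟨x, rfl⟩ := hf x
            exact ⟨x, PairP.center_of_map f hker hS hx, rfl⟩
        rw [← h4] at h3
        exact h3.trans ((Subgroup.center S).card_map_dvd f)
    · refine Or.inr (Or.inl ⟨Y.tameP_iff.mpr (PairP.ck_tame.map f hf hker hS A hA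
        (Y.tameP_iff.mp h1)), ?_⟩)
      rcases h2 with h2 | ⟨h3, h4⟩
      · left
        intro α' hα'
        obtain ⟨α, hα, h5⟩ := hΓ α' hα'
        obtain ⟨x, rfl⟩ := h2 hα
        refine ⟨f x, ?_⟩
        ext s'
        obtain ⟨s, rfl⟩ := hf s'
        rw [← h5, MulAut.conj_apply, MulAut.conj_apply, map_mul, map_mul, map_inv]
      · exact Or.inr ⟨slc_map f hf hker hS h3, aw_cen.map f hf hker hS Γ Γ' A hA hΓ h4⟩
    · exact Or.inr (Or.inr (Or.inl (sim_map f hf hker hS hΓ (fun h => ⟨Y.tameP_iff.mpr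
        (PairP.ck_tame.map f hf hker hS A hA (Y.tameP_iff.mp h.1)),
        aw_cen.map f hf hker hS Γ Γ' A hA hΓ h.2⟩) h1)))
    · exact Or.inr (Or.inr (Or.inr (Or.inl (H799.BY.parOut_map hf hker hS hΓ h1))))
    · exact Or.inr (Or.inr (Or.inr (Or.inr (coverSim_map f hf hker hS hΓ
        (aw_cen.map f hf hker hS Γ Γ' A hA hΓ) h1))))
  sub := by
    intro S _ _ Γ A A' hA h
    rcases h with h | ⟨h1, h2⟩ | h | h | h
    · exact Or.inl h
    · exact Or.inr (Or.inl ⟨Y.tameP_iff.mpr (PairP.ck_tame.sub hA (Y.tameP_iff.mp h1)),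
        h2.imp_right fun h => ⟨h.1, (aw_cen (p := p)).sub hA h.2⟩⟩)
    · exact Or.inr (Or.inr (Or.inl (sim_mono (fun h => ⟨Y.tameP_iff.mpr (PairP.ck_tame.sub hA
        (Y.tameP_iff.mp h.1)), (aw_cen (p := p)).sub hA h.2⟩) h)))
    · exact Or.inr (Or.inr (Or.inr (Or.inl h)))
    · exact Or.inr (Or.inr (Or.inr (Or.inr (coverSim_mono ((aw_cen (p := p)).sub hA) h))))

end Vale.Agent.P180.R2.H47
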