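import Vale.Agent.P180.R2.H47.Ob
import Vale.Agent.P180.R2.H47.Cnt

set_option linter.all false

/-!
P180: conditions on the simple factors relative to the defect group, and their transfer in the
reductions.
-/

namespace Vale.Agent.P180.R2.H47

open Vale.Agent.P180 Vale.Agent.P180.H768.Gd
open Vale.Agent.P180.H768 hiding pull mem_pull exists_factor Lay mk_mem comm_mem

open Subgroup

/-- A condition on a normal direct product `X` of simple groups and a subgroup `D` which is
inherited in the reductions. -/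
structure Adm (K : ∀ (G : Type) [Group G], Subgroup G → Subgroup G → Prop) : Prop where
  mono : ∀ {G : Type} [Group G] [Finite G] {X D D' : Subgroup G} [X.Normal], SSP QT X →
    D' ≤ D → K G X D → K G X D'
  fr : ∀ {G : Type} [Group G] [Finite G] {X D T : Subgroup G} [X.Normal], SSP QT X → X ≤ T →
    ∀ x : G, K G X D → K T (X.subgroupOf T) ((conjS x D).subgroupOf T)
  kp : ∀ {G H : Type} [Group G] [Finite G] [Group H] [Finite H] {X N D : Subgroup G}
    [X.Normal] [N.Normal], SSP QT X → ∀ {π : H →* G ⧸ N} (θ : cenP X N →* H),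
    Function.Injective θ → (∀ c, π (θ c) = ((c : G) : G ⧸ N)) →
    (∀ (h : H) (g : G) (c c' : cenP X N), π h = (g : G ⧸ N) → (c' : G) = g * c * g⁻¹ →
      h * θ c * h⁻¹ = θ c') →
    ∀ D' : Subgroup H, D' ≤ pull N π D → K G X D → K H θ.range D'

/-- The condition on one simple factor. -/
def Cd (Q : ∀ (S : Type) [Group S], Prop) (p M : ℕ) {G : Type} [Group G] (D S : Subgroup G) :
    Prop :=
  Q S ∨ (IsCyclic (Pj D S) ∧ outI S ≤ M ∧ ¬ p ∣ outI S) ∨ Pj D S = ⊥

/-- The condition on all simple factors. -/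
def KK (Q : ∀ (S : Type) [Group S], Prop) (p M : ℕ) (G : Type) [Group G] (X D : Subgroup G) :
    Prop := ∀ S ∈ simps QT X, Cd Q p M D S

variable {Q : ∀ (S : Type) [Group S], Prop} {p M : ℕ}

section Transfer

variable {G H : Type} [Group G] [Group H]

theorem outI_pos [Finite G] (S : Subgroup G) : 0 < outI S :=
  Nat.pos_of_ne_zero Subgroup.index_ne_zero_of_finite

theorem Cd.transfer [Finite G] (hQ : IsoInv Q) {D S : Subgroup G} {D' S' : Subgroup H}
    (ψ : S ≃* S')
    (h : ∀ t ∈ normalizer (S' : Set H), ∃ g ∈ normalizer (S : Set G), ∀ s s' : S,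
      (s' : G) = g * s * g⁻¹ → ((ψ s' : S') : H) = t * (ψ s : S') * t⁻¹)
    (hP : ∀ s : S, ((ψ s : S') : H) ∈ Pj D' S' → (s : G) ∈ Pj D S) (hC : Cd Q p M D S) :
    Cd Q p M D' S' := by
  have hd : outI S' ∣ outI S := outI_dvd ψ h
  rcases hC with h1 | ⟨h1, h2, h3⟩ | h1
  · exact Or.inl (hQ _ _ ⟨ψ⟩ h1)
  · right; left
    refine ⟨?_, (Nat.le_of_dvd (outI_pos S) hd).trans h2, fun h4 => h3 (h4.trans hd)⟩
    let f : Pj D' S' →* Pj D S :=
      { toFun := fun x => ⟨ψ.symm ⟨x, x.2.1⟩, hP _ (by rw [ψ.apply_symm_apply]; exact x.2)⟩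
        map_one' := by
          apply Subtype.ext
          change ((ψ.symm 1 : S) : G) = 1
          rw [map_one]; rfl
        map_mul' := by
          intro x y
          apply Subtype.ext
          change ((ψ.symm (⟨x, x.2.1⟩ * ⟨y, y.2.1⟩) : S) : G) = _
          rw [map_mul]
          rfl }
    refine isCyclic_of_injective f ?_
    intro x y hxy
    have h4 : ((ψ.symm ⟨x, x.2.1⟩ : S) : G) = (ψ.symm ⟨y, y.2.1⟩ : S) :=
      congrArg (fun z : Pj D S => (z : G)) hxy
    have h5 := ψ.symm.injective (Subtype.ext h4)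
    exact Subtype.ext (congrArg (fun s : S' => (s : H)) h5)
  · right; right
    rw [eq_bot_iff]
    intro x hx
    have h4 := hP (ψ.symm ⟨x, hx.1⟩) (by rw [ψ.apply_symm_apply]; exact hx)
    rw [h1, mem_bot] at h4
    have h5 : ψ.symm ⟨x, hx.1⟩ = 1 := Subtype.ext h4
    rw [map_eq_one_iff ψ.symm ψ.symm.injective] at h5
    rw [mem_bot]
    exact congrArg Subtype.val h5

end Transfer

section Conj

variable {G : Type} [Group G]

theorem mem_map_conj' {S : Subgroup G} {g x : G} :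
    x ∈ S.map (MulAut.conj g).toMonoidHom ↔ g⁻¹ * x * g ∈ S := by
  constructor
  · rintro ⟨y, hy, rfl⟩
    change g⁻¹ * (g * y * g⁻¹) * g ∈ S
    have : g⁻¹ * (g * y * g⁻¹) * g = y := by group
    rw [this]; exact hy
  · intro h
    refine ⟨_, h, ?_⟩
    change g * (g⁻¹ * x * g) * g⁻¹ = x
    group

theorem Cd.conj [Finite G] (hQ : IsoInv Q) {D S : Subgroup G} (x : G)
    (hC : Cd Q p M D (S.map (MulAut.conj x⁻¹).toMonoidHom)) : Cd Q p M (conjS x D) S := by
  have hm : ∀ {y : G}, y ∈ S.map (MulAut.conj x⁻¹).toMonoidHom ↔ x * y * x⁻¹ ∈ S := by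
    intro y
    rw [mem_map_conj', inv_inv]
  let ψ : (S.map (MulAut.conj x⁻¹).toMonoidHom) ≃* S :=
    (S.equivMapOfInjective _ (MulAut.conj x⁻¹).injective).symm
  have hψ : ∀ s, ((ψ s : S) : G) = x * s * x⁻¹ := by
    intro s
    obtain ⟨t, rfl⟩ := (S.equivMapOfInjective _ (MulAut.conj x⁻¹).injective).surjective s
    change (((S.equivMapOfInjective _ (MulAut.conj x⁻¹).injective).symm _ : S) : G) = _
    rw [MulEquiv.symm_apply_apply]
    change (t : G) = x * (x⁻¹ * t * x⁻¹⁻¹) * x⁻¹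
    group
  refine hC.transfer hQ ψ ?_ ?_
  · intro t ht
    rw [mem_normalizer_iff] at ht
    refine ⟨x⁻¹ * t * x, ?_, ?_⟩
    · rw [mem_normalizer_iff]
      intro y
      rw [hm, hm, ht]
      have e : x * (x⁻¹ * t * x * y * (x⁻¹ * t * x)⁻¹) * x⁻¹ = t * (x * y * x⁻¹) * t⁻¹ := by group
      rw [e]
    · intro s s' hs
      rw [hψ, hψ, hs]
      group
  · intro s hs
    rw [hψ] at hs
    obtain ⟨h1, c, hc, hsc⟩ := hs
    refine ⟨s.2, x⁻¹ * c * x, ?_, ?_⟩
    · rw [mem_centralizer_iff]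
      intro y hy
      have h2 := mem_centralizer_iff.mp hc (x * y * x⁻¹) (hm.mp hy)
      calc y * (x⁻¹ * c * x) = x⁻¹ * (x * y * x⁻¹ * c) * x := by group
        _ = x⁻¹ * (c * (x * y * x⁻¹)) * x := by rw [h2]
        _ = x⁻¹ * c * x * y := by group
    · rw [mem_conjS] at hsc
      have e : (s : G) * (x⁻¹ * c * x) = x⁻¹ * (x * s * x⁻¹ * c) * x := by group
      rw [e]
      exact hsc

theorem Cd.sub [Finite G] (hQ : IsoInv Q) {D T : Subgroup G} {S : Subgroup T}
    (hC : Cd Q p M D (S.map T.subtype)) : Cd Q p M (D.subgroupOf T) S := by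
  let ψ : (S.map T.subtype) ≃* S := (S.equivMapOfInjective _ T.subtype_injective).symm
  have hψ : ∀ s, (((ψ s : S) : T) : G) = s := by
    intro s
    obtain ⟨t, rfl⟩ := (S.equivMapOfInjective _ T.subtype_injective).surjective s
    change ((((S.equivMapOfInjective _ T.subtype_injective).symm _ : S) : T) : G) = _
    rw [MulEquiv.symm_apply_apply]
    rfl
  have hm : ∀ {y : T}, (y : G) ∈ S.map T.subtype ↔ y ∈ S := by
    intro y
    constructor
    · rintro ⟨z, hz, hzy⟩
      rwa [← Subtype.ext (a1 := z) (a2 := y) hzy]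
    · intro hy
      exact ⟨y, hy, rfl⟩
  refine hC.transfer hQ ψ ?_ ?_
  · intro t ht
    rw [mem_normalizer_iff] at ht
    refine ⟨t, ?_, ?_⟩
    · rw [mem_normalizer_iff]
      intro y
      constructor
      · rintro ⟨z, hz, rfl⟩
        exact ⟨t * z * t⁻¹, (ht z).mp hz, rfl⟩
      · rintro ⟨z, hz, hzy⟩
        refine ⟨t⁻¹ * z * t, ?_, ?_⟩
        · have e : t * (t⁻¹ * z * t) * t⁻¹ = z := by group
          exact (ht _).mpr (by rw [e]; exact hz)
        · change (t : G)⁻¹ * z * t = y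
          have h1 : (z : G) = t * y * (t : G)⁻¹ := hzy
          rw [h1]
          group
    · intro s s' hs
      apply Subtype.ext
      rw [hψ, hs]
      change _ = (t : G) * ((ψ s : S) : T) * (t : G)⁻¹
      rw [hψ]
  · intro s hs
    obtain ⟨h1, c, hc, hsc⟩ := hs
    refine ⟨s.2, c, ?_, ?_⟩
    · rw [mem_centralizer_iff]
      rintro _ ⟨y, hy, rfl⟩
      exact congrArg Subtype.val (mem_centralizer_iff.mp hc y hy)
    · rw [mem_subgroupOf] at hsc
      change (((ψ s : S) : T) : G) * c ∈ D at hsc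
      rwa [hψ] at hsc

end Conj

section Simps

variable {G H : Type} [Group G] [Finite G] [Group H] [Finite H]

theorem simps_cenP {X N : Subgroup G} [X.Normal] [N.Normal] (hX : SSP QT X) {S : Subgroup G}
    (hS : S ∈ simps QT (cenP X N)) : S ∈ simps QT X := by
  obtain ⟨h1, h2, h3, h4, h5⟩ := hS
  refine ⟨h1.trans inf_le_left, ?_, h3, h4, h5⟩
  intro x hx s hs
  obtain ⟨n, hn, c, hc, rfl⟩ := mem_sup_of_normal_right.mp (hX.le_sup N hx)
  have h6 := h2 c hc s hs
  have h7 := (mem_cenP.mp (h1 h6)).2 n hn.2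
  have e : n * c * s * (n * c)⁻¹ = c * s * c⁻¹ := by
    calc n * c * s * (n * c)⁻¹ = n * (c * s * c⁻¹) * n⁻¹ := by group
      _ = c * s * c⁻¹ * n * n⁻¹ := by rw [h7]
      _ = c * s * c⁻¹ := by group
  rw [e]
  exact h6

theorem simps_sub {X T : Subgroup G} (hXT : X ≤ T) {S : Subgroup T}
    (hS : S ∈ simps QT (X.subgroupOf T)) : S.map T.subtype ∈ simps QT X := by
  have h1 := simps_map (Q := QT) (fun _ _ _ _ _ _ => ⟨1⟩) T.subtype (X.subgroupOf T)
    (fun x _ hx => T.subtype_injective (by rw [map_one]; exact hx)) hS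
  rwa [map_subgroupOf_eq_of_le hXT] at h1

theorem simps_range {T : Subgroup G} (θ : T →* H) (hθ : Function.Injective θ) {S' : Subgroup H}
    (hS : S' ∈ simps QT θ.range) : (S'.comap θ).map T.subtype ∈ simps QT T := by
  obtain ⟨h1, h2, h3, h4, h5⟩ := hS
  have e : (S'.comap θ) ≃* S' := by
    refine MulEquiv.ofBijective (θ.subgroupComap S') ⟨?_, ?_⟩
    · intro x y hxy
      exact Subtype.ext (hθ (congrArg Subtype.val hxy))
    · rintro ⟨y, hy⟩
      obtain ⟨x, rfl⟩ := h1 hy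
      exact ⟨⟨x, hy⟩, rfl⟩
  have h6 : (S'.comap θ) ∈ simps QT (⊤ : Subgroup T) := by
    refine ⟨le_top, ?_, simple_of_equiv e.symm h3, ?_, ⟨1⟩⟩
    · intro x _ s hs
      rw [mem_comap, map_mul, map_mul, map_inv]
      exact h2 _ ⟨x, rfl⟩ _ hs
    · intro h
      apply h4
      intro x hx y hy
      obtain ⟨x, rfl⟩ := h1 hx
      obtain ⟨y, rfl⟩ := h1 hy
      rw [← map_mul, ← map_mul, h x hx y hy]
  have h7 := simps_map (Q := QT) (fun _ _ _ _ _ _ => ⟨1⟩) T.subtype ⊤
    (fun x _ hx => T.subtype_injective (by rw [map_one]; exact hx)) h6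
  rwa [← MonoidHom.range_eq_map, range_subtype] at h7

end Simps

theorem adm_KK (hQ : IsoInv Q) (p M : ℕ) : Adm (KK Q p M) where
  mono := by
    intro G _ _ X D D' _ hX hD hK S hS
    rcases hK S hS with h | ⟨h1, h2⟩ | h
    · exact Or.inl h
    · right; left
      refine ⟨?_, h2⟩
      exact isCyclic_of_injective (inclusion (Pj_mono hD S)) (inclusion_injective _)
    · right; right
      rw [eq_bot_iff, ← h]
      exact Pj_mono hD S
  fr := by
    intro G _ _ X D T _ hX hXT x hK S hS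
    apply Cd.sub hQ
    apply Cd.conj hQ
    exact hK _ (simps_conj (Q := QT) (fun _ _ _ _ _ _ => ⟨1⟩) (simps_sub hXT hS) x⁻¹)
  kp := by
    intro G H _ _ _ _ X N D _ _ hX π θ hθ h1 h2 D' hD' hK S' hS'
    have hS := simps_range θ hθ hS'
    obtain ⟨S, hSdef⟩ : ∃ S, S = (S'.comap θ).map (cenP X N).subtype := ⟨_, rfl⟩
    rw [← hSdef] at hS
    have hSX := simps_cenP hX hS
    have hmem : ∀ c : cenP X N, (c : G) ∈ S ↔ θ c ∈ S' := by
      intro c
      rw [hSdef]
      constructor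
      · rintro ⟨y, hy, hyc⟩
        rwa [← Subtype.ext (a1 := y) (a2 := c) hyc]
      · intro hc
        exact ⟨c, hc, rfl⟩
    have hle : S ≤ cenP X N := hS.1
    let f : S →* S' :=
      { toFun := fun s => ⟨θ ⟨s, hle s.2⟩, (hmem _).mp s.2⟩
        map_one' := Subtype.ext (map_one θ)
        map_mul' := fun x y => Subtype.ext (map_mul θ ⟨x, hle x.2⟩ ⟨y, hle y.2⟩) }
    have hf : Function.Bijective f := by
      constructor
      · intro x y hxy
        have h3 : θ ⟨x, hle x.2⟩ = θ ⟨y, hle y.2⟩ := congrArg Subtype.val hxy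
        have h4 : ((⟨x, hle x.2⟩ : cenP X N) : G) = (⟨y, hle y.2⟩ : cenP X N) :=
          congrArg Subtype.val (hθ h3)
        exact Subtype.ext h4
      · rintro ⟨y, hy⟩
        obtain ⟨c, rfl⟩ := hS'.1 hy
        exact ⟨⟨c, (hmem c).mpr hy⟩, rfl⟩
    let ψ : S ≃* S' := MulEquiv.ofBijective f hf
    have hψ : ∀ (c : cenP X N) (hc : (c : G) ∈ S), ((ψ ⟨c, hc⟩ : S') : H) = θ c := fun c hc => rfl
    have hNc : N ≤ centralizer (S : Set G) := by
      intro n hn
      rw [mem_centralizer_iff]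
      intro s hs
      exact (mem_cenP.mp (hle hs)).2 n hn
    have hcn : (cenP X N).Normal := inferInstance
    refine (hK S hSX).transfer hQ ψ ?_ ?_
    · intro t ht
      rw [mem_normalizer_iff] at ht
      obtain ⟨g, hg⟩ := QuotientGroup.mk'_surjective N (π t)
      have hgt : π t = (g : G ⧸ N) := hg.symm
      have hkey : ∀ s : G, ∀ hs : s ∈ cenP X N,
          θ ⟨g * s * g⁻¹, hcn.conj_mem _ hs g⟩ = t * θ ⟨s, hs⟩ * t⁻¹ :=
        fun s hs => (h2 t g ⟨s, hs⟩ ⟨g * s * g⁻¹, hcn.conj_mem _ hs g⟩ hgt rfl).symm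
      refine ⟨g, ?_, ?_⟩
      · rw [mem_normalizer_iff]
        intro s
        constructor
        · intro hs
          have h3 := (hmem ⟨s, hle hs⟩).mp hs
          have h4 := (ht _).mp h3
          rw [← hkey s (hle hs)] at h4
          exact (hmem _).mpr h4
        · intro hs
          have hs' : s ∈ cenP X N := by
            have := hcn.conj_mem _ (hle hs) g⁻¹
            have e : g⁻¹ * (g * s * g⁻¹) * g⁻¹⁻¹ = s := by group
            rwa [e] at this
          have h3 := (hmem ⟨g * s * g⁻¹, hcn.conj_mem _ hs' g⟩).mp hs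
          rw [hkey s hs', ← ht] at h3
          exact (hmem ⟨s, hs'⟩).mpr h3
      · intro s s' hs
        have h3 : (⟨s', hle s'.2⟩ : cenP X N) = ⟨g * s * g⁻¹, hcn.conj_mem _ (hle s.2) g⟩ :=
          Subtype.ext hs
        change θ ⟨s', hle s'.2⟩ = t * θ ⟨s, hle s.2⟩ * t⁻¹
        rw [h3, hkey]
    · intro s hs
      obtain ⟨h3, c', hc', hsc⟩ := hs
      change θ ⟨s, hle s.2⟩ * c' ∈ D' at hsc
      obtain ⟨d, hd, hdc⟩ := mem_pull.mp (hD' hsc)
      rw [map_mul, h1] at hdc
      -- `π c' = mk (s⁻¹ d)`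
      have h4 : π c' = (((s : G)⁻¹ * d : G) : G ⧸ N) := by
        have h5 : ((s : G) : G ⧸ N) * π c' = (d : G ⧸ N) := hdc.symm
        rw [QuotientGroup.mk_mul, QuotientGroup.mk_inv, ← h5, inv_mul_cancel_left]
      refine ⟨s.2, (s : G)⁻¹ * d, ?_, by rw [mul_inv_cancel_left]; exact hd⟩
      rw [mem_centralizer_iff]
      intro y hy
      have hy' : y ∈ cenP X N := hle hy
      have h6 := h2 c' _ ⟨y, hy'⟩ ⟨(s : G)⁻¹ * d * y * ((s : G)⁻¹ * d)⁻¹, hcn.conj_mem _ hy' _⟩ h4 rfl
      have h7 := mem_centralizer_iff.mp hc' (θ ⟨y, hy'⟩) ((hmem ⟨y, hy'⟩).mp hy)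
      rw [← h7, mul_inv_cancel_right] at h6
      have h8 := congrArg Subtype.val (hθ h6)
      change y = (s : G)⁻¹ * d * y * ((s : G)⁻¹ * d)⁻¹ at h8
      calc y * ((s : G)⁻¹ * d) = ((s : G)⁻¹ * d * y * ((s : G)⁻¹ * d)⁻¹) * ((s : G)⁻¹ * d) := by
            rw [← h8]
        _ = (s : G)⁻¹ * d * y := by group

end Vale.Agent.P180.R2.H47
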