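import Vale.Agent.P180.H768.Statement
import Mathlib.GroupTheory.SpecificGroups.Alternating

/-!
P180: the condition of the theorem on groups with a normal direct product of alternating groups.
-/

namespace Vale.Agent.P180

/-- `G` has normal subgroups `N 0 ≤ N 1 ≤ ⋯ ≤ N l = G` (`l` arbitrary) such that `N 0` is
isomorphic to a direct product of alternating groups of degrees at least `5` (any number of
factors, any degrees) and, for every `i < l`,
(a) the image of `D ∩ N (i + 1)` in `N (i + 1) / N i` is central in `N (i + 1) / N i`, or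
(b) `N (i + 1) / N i` satisfies `GoodSections p n m`, or
(c) `p = 2` and the centralisers of the involutions of `N (i + 1) / N i` are `2`-groups. -/
def HasAltSeries (p n m : ℕ) {G : Type} [Group G] (D : Subgroup G) : Prop :=
  ∃ (l : ℕ) (N : ℕ → Subgroup G) (_ : ∀ i, (N i).Normal),
    (∃ (r : ℕ) (d : Fin r → ℕ), (∀ j, 5 ≤ d j) ∧
      Nonempty (N 0 ≃* ∀ j, alternatingGroup (Fin (d j)))) ∧ N l = ⊤ ∧
    ∀ i < l, N i ≤ N (i + 1) ∧
      ((∀ x ∈ D, x ∈ N (i + 1) → ∀ y ∈ N (i + 1), x * y * x⁻¹ * y⁻¹ ∈ N i) ∨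
        GoodSections p n m ((N (i + 1)).map (QuotientGroup.mk' (N i))) ∨
        (p = 2 ∧ ∀ x y : (N (i + 1)).map (QuotientGroup.mk' (N i)),
          x ≠ 1 → x * x = 1 → x * y = y * x → ∃ a : ℕ, y ^ 2 ^ a = 1))

end Vale.Agent.P180
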