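import Mathlib.RingTheory.SimpleModule.WedderburnArtin
import Mathlib.RepresentationTheory.Maschke
import Mathlib.RingTheory.LittleWedderburn
import Mathlib.LinearAlgebra.Matrix.GeneralLinearGroup.Card
import Mathlib.GroupTheory.Sylow
import Mathlib.Data.Matrix.Basis
import Mathlib.LinearAlgebra.SpecialLinearGroup

/-!
P180: large `p`-subgroups of the unit groups of semisimple algebras generated by nonabelian
`p`-groups.
-/

set_option linter.all false

namespace Vale.Agent.P180.R2.H47.Bm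

open Matrix Finset

section Card

variable {p : ℕ} [hp : Fact p.Prime] {q a : ℕ}

theorem pow_dvd_sub {j : ℕ} (ha : p ^ a ∣ q - 1) : p ^ a ∣ q ^ j - 1 := by
  refine ha.trans ?_
  exact Nat.sub_one_dvd_pow_sub_one q j

theorem pow_dvd_prod (m : ℕ) (ha : p ^ a ∣ q - 1) :
    p ^ (a * m) ∣ ∏ j ∈ range m, (q ^ (j + 1) - 1) := by
  induction m with
  | zero => simp
  | succ m ih =>
    rw [prod_range_succ, Nat.mul_succ, pow_add]
    exact Nat.mul_dvd_mul ih (pow_dvd_sub ha)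

theorem succ_dvd (hq : 1 ≤ q) (h1 : p ∣ q - 1) (ha : p ^ a ∣ q - 1) : p ^ (a + 1) ∣ q ^ p - 1 := by
  rw [← geom_sum_mul_of_one_le hq p, pow_succ, mul_comm]
  refine Nat.mul_dvd_mul ?_ ha
  have h3 : (q : ZMod p) = 1 := by
    obtain ⟨c, hc⟩ := h1
    have h4 : q = p * c + 1 := by omega
    rw [h4, Nat.cast_add, Nat.cast_mul, CharP.cast_eq_zero, zero_mul, zero_add, Nat.cast_one]
  rw [← CharP.cast_eq_zero_iff (ZMod p) p, Nat.cast_sum]
  simp only [Nat.cast_pow, h3, one_pow]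
  rw [sum_const, card_range, nsmul_eq_mul, mul_one, CharP.cast_eq_zero]

theorem prod_dvd {n : ℕ} (hn : p ≤ n) (hq : 1 ≤ q) (h1 : p ∣ q - 1) (ha : p ^ a ∣ q - 1) :
    p ^ (a * p + 1) ∣ ∏ i : Fin n, (q ^ n - q ^ (i : ℕ)) := by
  have hp0 : 0 < p := hp.out.pos
  obtain ⟨r, hr⟩ : ∃ r, p = r + 1 := ⟨p - 1, by omega⟩
  have e1 : ∏ i : Fin n, (q ^ n - q ^ (i : ℕ)) = ∏ i ∈ range n, (q ^ n - q ^ i) :=
    Fin.prod_univ_eq_prod_range (fun i => q ^ n - q ^ i) n
  have e2 : ∏ j ∈ range n, (q ^ n - q ^ (n - 1 - j)) = ∏ i ∈ range n, (q ^ n - q ^ i) :=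
    prod_range_reflect (fun i => q ^ n - q ^ i) n
  rw [e1, ← e2]
  have h2 : ∏ j ∈ range n, (q ^ (j + 1) - 1) ∣ ∏ j ∈ range n, (q ^ n - q ^ (n - 1 - j)) := by
    refine prod_dvd_prod_of_dvd _ _ fun j hj => ?_
    have hj' := mem_range.mp hj
    have h3 : q ^ n - q ^ (n - 1 - j) = q ^ (n - 1 - j) * (q ^ (j + 1) - 1) := by
      rw [Nat.mul_sub, mul_one, ← pow_add]
      congr 2
      omega
    rw [h3]
    exact Dvd.intro_left _ rfl
  refine Dvd.dvd.trans ?_ h2
  have h3 : ∏ j ∈ range p, (q ^ (j + 1) - 1) ∣ ∏ j ∈ range n, (q ^ (j + 1) - 1) :=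
    prod_dvd_prod_of_subset _ _ _ (range_subset_range.mpr hn)
  refine Dvd.dvd.trans ?_ h3
  have h4 : ∏ j ∈ range p, (q ^ (j + 1) - 1) =
      (∏ j ∈ range r, (q ^ (j + 1) - 1)) * (q ^ p - 1) := by
    rw [hr, prod_range_succ]
  rw [h4]
  have h5 : p ^ (a * p + 1) = p ^ (a * r) * p ^ (a + 1) := by
    rw [← pow_add]
    congr 1
    conv_lhs => rw [hr]
    ring
  rw [h5]
  exact Nat.mul_dvd_mul (pow_dvd_prod r ha) (succ_dvd hq h1 ha)

theorem card_GL_dvd {F : Type*} [Field F] [Finite F] {n : ℕ} (hn : p ≤ n)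
    (h1 : p ∣ Nat.card F - 1) (ha : p ^ a ∣ Nat.card F - 1) :
    p ^ (a * p + 1) ∣ Nat.card (GL (Fin n) F) := by
  classical
  haveI := Fintype.ofFinite F
  have e := Matrix.card_GL_field (𝔽 := F) n
  rw [e]
  rw [Nat.card_eq_fintype_card] at h1 ha
  exact prod_dvd hn Fintype.card_pos h1 ha

end Card

/-- **Components.** -/
theorem exists_comp {K : Type} [Field K] [Finite K] {A : Type} [Ring A] [Algebra K A]
    [Module.Finite K A] [IsSemisimpleRing A] {p : ℕ} [hp : Fact p.Prime] {x y z : A} (hx : IsUnit x)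
    (hy : IsUnit y) (hxy : x * y = z * (y * x)) (hz : ∀ a, z * a = a * z) (hzp : z ^ p = 1)
    (hz1 : z ≠ 1) :
    ∃ (n : ℕ) (D : Type) (_ : Field D) (_ : Finite D) (_ : Algebra K D)
      (φ : A →+* Matrix (Fin n) (Fin n) D) (ι : Matrix (Fin n) (Fin n) D → A) (ζ : D),
      p ≤ n ∧ (∀ c : K, φ (algebraMap K A c) = Matrix.scalar (Fin n) (algebraMap K D c)) ∧
      (∀ M, φ (ι M) = M) ∧ (∀ M N, ι (M * N) = ι M * ι N) ∧ (∀ M N, ι (M + N) = ι M + ι N) ∧
      (∀ a, a * ι 1 = ι 1 * a) ∧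
      (∀ a, ι (φ a) = ι 1 * a) ∧ φ z = Matrix.scalar (Fin n) ζ ∧ ζ ^ p = 1 ∧ ζ ≠ 1 := by
  classical
  obtain ⟨r, D, d, i1, i2, i3, hd, ⟨e⟩⟩ :=
    IsSemisimpleRing.exists_algEquiv_pi_matrix_divisionRing_finite K A
  obtain ⟨i, hi⟩ : ∃ i, e z i ≠ 1 := by
    by_contra h
    push Not at h
    exact hz1 (e.injective (by rw [map_one]; exact funext h))
  haveI : ∀ i, Finite (D i) := fun i => Module.finite_of_finite K
  letI f : Field (D i) := littleWedderburn (D i)
  let φ : A →+* Matrix (Fin (d i)) (Fin (d i)) (D i) :=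
    (Pi.evalRingHom (fun i => Matrix (Fin (d i)) (Fin (d i)) (D i)) i).comp
      (e : A →+* ((i : Fin r) → Matrix (Fin (d i)) (Fin (d i)) (D i)))
  let ι : Matrix (Fin (d i)) (Fin (d i)) (D i) → A := fun M => e.symm (Pi.single i M)
  have hφ : ∀ a, φ a = e a i := fun _ => rfl
  have hφι : ∀ M, φ (ι M) = M := fun M => by
    rw [hφ]
    change e (e.symm _) i = M
    rw [e.apply_symm_apply, Pi.single_eq_same]
  have hι : ∀ a b, a = b ↔ e a = e b := fun a b => e.injective.eq_iff.symm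
  have hζ : φ z ∈ Set.range (Matrix.scalar (Fin (d i))) := by
    rw [Matrix.mem_range_scalar_iff_commute_single']
    intro j k
    have h1 := congrArg φ (hz (ι (Matrix.single j k 1)))
    rw [map_mul, map_mul, hφι] at h1
    exact h1.symm
  obtain ⟨ζ, hζ⟩ := hζ
  have hd0 : d i ≠ 0 := (hd i).out
  haveI : Nonempty (Fin (d i)) := ⟨⟨0, Nat.pos_of_ne_zero hd0⟩⟩
  have hζp : ζ ^ p = 1 := by
    have h1 := congrArg φ hzp
    rw [map_pow, map_one, ← hζ, ← map_pow, ← map_one (Matrix.scalar (Fin (d i)))] at h1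
    exact Matrix.scalar_inj.mp h1
  have hζ1 : ζ ≠ 1 := by
    rintro rfl
    rw [map_one] at hζ
    exact hi hζ.symm
  refine ⟨d i, D i, f, inferInstance, i2 i, φ, ι, ζ, ?_, ?_, hφι, ?_, ?_, ?_, ?_, hζ.symm, hζp, hζ1⟩
  · -- determinants
    have h1 := congrArg φ hxy
    rw [map_mul, map_mul, map_mul, ← hζ] at h1
    have h2 := congrArg Matrix.det h1
    rw [Matrix.det_mul, Matrix.det_mul, Matrix.det_mul] at h2
    have hux : IsUnit (φ x).det := (Matrix.isUnit_iff_isUnit_det _).mp (hx.map φ)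
    have huy : IsUnit (φ y).det := (Matrix.isUnit_iff_isUnit_det _).mp (hy.map φ)
    have h3 : (Matrix.scalar (Fin (d i)) ζ).det = ζ ^ d i := by
      rw [Matrix.scalar_apply, Matrix.det_diagonal, Finset.prod_const, Finset.card_univ,
        Fintype.card_fin]
    rw [h3] at h2
    have h4 : ζ ^ d i = 1 := by
      have h5 : (ζ ^ d i) * ((φ x).det * (φ y).det) = 1 * ((φ x).det * (φ y).det) := by
        rw [one_mul]
        conv_rhs => rw [h2]
        ring
      exact (hux.mul huy).mul_right_cancel h5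
    have h5 : orderOf ζ = p := orderOf_eq_prime hζp hζ1
    have h6 : p ∣ d i := by
      rw [← h5]
      exact orderOf_dvd_of_pow_eq_one h4
    exact Nat.le_of_dvd (Nat.pos_of_ne_zero hd0) h6
  · intro c
    rw [hφ, AlgEquiv.commutes]
    ext j k
    rw [Pi.algebraMap_apply]
    rw [Matrix.algebraMap_matrix_apply, Matrix.scalar_apply, Matrix.diagonal_apply]
  · intro M N
    rw [hι]
    change e (e.symm _) = e (e.symm _ * e.symm _)
    rw [map_mul, e.apply_symm_apply, e.apply_symm_apply, e.apply_symm_apply, Pi.single_mul]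
  · intro M N
    rw [hι]
    change e (e.symm _) = e (e.symm _ + e.symm _)
    rw [map_add, e.apply_symm_apply, e.apply_symm_apply, e.apply_symm_apply, Pi.single_add]
  · intro a
    rw [hι]
    change e (a * e.symm _) = e (e.symm _ * a)
    rw [map_mul, map_mul, e.apply_symm_apply]
    funext j
    rw [Pi.mul_apply, Pi.mul_apply]
    by_cases hj : j = i
    · subst hj
      rw [Pi.single_eq_same, mul_one, one_mul]
    · rw [Pi.single_eq_of_ne hj, mul_zero, zero_mul]
  · intro a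
    rw [hι]
    change e (e.symm _) = e (e.symm _ * a)
    rw [map_mul, e.apply_symm_apply, e.apply_symm_apply]
    funext j
    rw [Pi.mul_apply]
    by_cases hj : j = i
    · subst hj
      rw [Pi.single_eq_same, Pi.single_eq_same, one_mul]
      rfl
    · rw [Pi.single_eq_of_ne hj, Pi.single_eq_of_ne hj, zero_mul]

end Vale.Agent.P180.R2.H47.Bm
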