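import Vale.Agent.P180.R2.H47.Bm8

/-!
P180: perfect central extensions of groups of isometries: if the component intersects the defect
group in a group of order less than `p ^ p` then this intersection may be assumed to be abelian.
-/

set_option linter.all false

namespace Vale.Agent.P180.R2.H47.Bm

open Vale.Agent.P180 Vale.Agent.P180.H768.Gd Vale.Agent.P180.R2.H799 Vale.Agent.P180.R2.H954
open Vale.Agent.P180.R2.H365 Vale.Agent.P180.R2.H854 Module
open Vale.Agent.P180.R2.H954.Hc (odd_of_lin)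
open Vale.Agent.P180.R2.H854.TD (ker_coprime_lin)

universe u

section Pull

variable {p : ℕ} [hp : Fact p.Prime]

/-- elements which commute modulo a central `p'`-subgroup -/
theorem comm_of_ker {Y X : Type} [Group Y] [Finite Y] [Group X] {g : Y →* X}
    (hk : ∀ y, g y = 1 → ∀ w, y * w = w * y) (hkp : ¬ p ∣ Nat.card g.ker) {a b : Y} {i : ℕ}
    (ha : a ^ p ^ i = 1) (h : g b * g a = g a * g b) : b * a = a * b := by
  have h2 : g (b * a * b⁻¹ * a⁻¹) = 1 := by
    rw [map_mul, map_mul, map_mul, map_inv, map_inv, h]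
    group
  obtain ⟨t, ht⟩ : ∃ t, t = b * a * b⁻¹ * a⁻¹ := ⟨_, rfl⟩
  rw [← ht] at h2
  have h5 : b * a * b⁻¹ = t * a := by rw [ht]; group
  have h6 : t ^ p ^ i = 1 := by
    have h7 : (t * a) ^ p ^ i = 1 := by
      rw [← h5, conj_pow, ha, mul_one, mul_inv_cancel]
    have h8 : Commute t a := hk t h2 a
    rw [h8.mul_pow, ha, mul_one] at h7
    exact h7
  have h7 := eq_one_of_ker hkp h2 h6
  rw [h7, one_mul] at h5
  calc b * a = b * a * b⁻¹ * b := by group
    _ = a * b := by rw [h5]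

variable {X L : Type} [Group X] [Group L] (π : X →* L ⧸ Subgroup.center L)

/-- the pullback of `X → L / Z(L)` and `L → L / Z(L)` -/
def Pb : Subgroup (X × L) :=
  (π.comp (MonoidHom.fst X L)).eqLocus
    ((QuotientGroup.mk' (Subgroup.center L)).comp (MonoidHom.snd X L))

def pbX : Pb π →* X := (MonoidHom.fst X L).comp (Pb π).subtype

def pbL : Pb π →* L := (MonoidHom.snd X L).comp (Pb π).subtype

variable {π}

theorem pb_eq (y : Pb π) : π (pbX π y) = QuotientGroup.mk' (Subgroup.center L) (pbL π y) := y.2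

theorem pbX_surj : Function.Surjective (pbX π) := by
  intro x
  obtain ⟨l, hl⟩ := QuotientGroup.mk'_surjective (Subgroup.center L) (π x)
  exact ⟨⟨(x, l), hl.symm⟩, rfl⟩

theorem pbL_surj (hπ : Function.Surjective π) : Function.Surjective (pbL π) := by
  intro l
  obtain ⟨x, hx⟩ := hπ (QuotientGroup.mk' (Subgroup.center L) l)
  exact ⟨⟨(x, l), hx⟩, rfl⟩

theorem pb_ext {y w : Pb π} (h1 : pbX π y = pbX π w) (h2 : pbL π y = pbL π w) : y = w :=
  Subtype.ext (Prod.ext h1 h2)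

theorem pbX_ker {y : Pb π} (hy : pbX π y = 1) : pbL π y ∈ Subgroup.center L := by
  have h1 := pb_eq y
  rw [hy, map_one] at h1
  exact (QuotientGroup.eq_one_iff _).mp h1.symm

theorem pbL_ker {y : Pb π} (hy : pbL π y = 1) : π (pbX π y) = 1 := by
  rw [pb_eq y, hy, map_one]

theorem pbX_cen (y : Pb π) (hy : pbX π y = 1) (w : Pb π) : y * w = w * y := by
  refine pb_ext ?_ ?_
  · rw [map_mul, map_mul, hy, one_mul, mul_one]
  · rw [map_mul, map_mul]
    exact (Subgroup.mem_center_iff.mp (pbX_ker hy) _).symm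

theorem pbL_cen (hk : ∀ x, π x = 1 → ∀ y, x * y = y * x) (y : Pb π) (hy : pbL π y = 1)
    (w : Pb π) : y * w = w * y := by
  refine pb_ext ?_ ?_
  · rw [map_mul, map_mul]
    exact hk _ (pbL_ker hy) _
  · rw [map_mul, map_mul, hy, one_mul, mul_one]

theorem pbX_kp [Finite L] (hZ : ¬ p ∣ Nat.card (Subgroup.center L)) :
    ¬ p ∣ Nat.card (pbX π).ker := by
  intro h
  apply hZ
  let φ : (pbX π).ker →* Subgroup.center L :=
    { toFun := fun y => ⟨pbL π y.1, pbX_ker (MonoidHom.mem_ker.mp y.2)⟩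
      map_one' := Subtype.ext (map_one _)
      map_mul' := fun a b => Subtype.ext (map_mul _ _ _) }
  refine h.trans (Subgroup.card_dvd_of_injective φ fun a b hab => Subtype.ext (pb_ext ?_ ?_))
  · rw [MonoidHom.mem_ker.mp a.2, MonoidHom.mem_ker.mp b.2]
  · exact congrArg Subtype.val hab

theorem pbL_kp [Finite X] (hkp : ¬ p ∣ Nat.card π.ker) : ¬ p ∣ Nat.card (pbL π).ker := by
  intro h
  apply hkp
  let φ : (pbL π).ker →* π.ker :=
    { toFun := fun y => ⟨pbX π y.1, MonoidHom.mem_ker.mpr (pbL_ker (MonoidHom.mem_ker.mp y.2))⟩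
      map_one' := Subtype.ext (map_one _)
      map_mul' := fun a b => Subtype.ext (map_mul _ _ _) }
  refine h.trans (Subgroup.card_dvd_of_injective φ fun a b hab => Subtype.ext (pb_ext ?_ ?_))
  · exact congrArg Subtype.val hab
  · rw [MonoidHom.mem_ker.mp a.2, MonoidHom.mem_ker.mp b.2]

end Pull

/-- **Small intersections with the defect group**, perfect central extensions of groups of
isometries. -/
theorem corP_small_cover {k : Type u} [Field k] {p C : ℕ} [hp : Fact p.Prime] [CharP k p]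
    {G : Type} [Group G] [Finite G] {b : MonoidAlgebra k G} {D L : Subgroup G} (hD : IsPGroup p D)
    (hDs : Nat.card (L ⊓ D : Subgroup G) < p ^ p) (hZ : ¬ p ∣ Nat.card (Subgroup.center L))
    {K : Type} [Field K] [Finite K] {d : ℕ}
    {Φ : HForm K (Fin d → K)} {X : Subgroup (SpecialLinearGroup K (Fin d → K))}
    {π : X →* L ⧸ Subgroup.center L} (hpK : ¬ p ∣ Nat.card K)
    (hlin : ∀ j : ℕ, (∀ c : K, Φ.θ c = c ^ (ringChar K ^ j)) → ¬ p ∣ ringChar K ^ j + 1)
    (hXI : X ≤ Φ.Iso) (hX2 : X.relIndex Φ.Iso ∣ 2) (hπ : Function.Surjective π)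
    (hk : π.ker.map X.subtype ≤ Subgroup.center (SpecialLinearGroup K (Fin d → K)))
    (h : ∀ R ≤ D, (∀ x ∈ R, x ∈ L → ∀ y ∈ R, y ∈ L → x * y = y * x) → CorP p C b R L) :
    CorP p C b D L := by
  have hp2 : Odd p := odd_of_lin hp.out hpK Φ.θ hlin
  refine corP_of_data fun R hRD hn => ?_
  rintro ⟨e, heL, hbr, z, hzF, hez⟩
  refine h R hRD ?_
  haveI : Finite (SpecialLinearGroup K (Fin d → K)) := BN.finite_sl
  have hR : IsPGroup p R := hD.to_le hRD
  have hkc : ∀ x, π x = 1 → ∀ y, x * y = y * x := by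
    intro x hx y
    have h1 : (x : SpecialLinearGroup K (Fin d → K)) ∈ Subgroup.center _ :=
      hk ⟨x, MonoidHom.mem_ker.mpr hx, rfl⟩
    exact Subtype.ext (Subgroup.mem_center_iff.mp h1 y.1).symm
  have hkp : ¬ p ∣ Nat.card π.ker := ker_coprime_lin hpK hlin hXI hk
  obtain ⟨Q, hQp, hQR⟩ : ∃ Q : Subgroup (Pb π), IsPGroup p Q ∧
      Q.map (pbL π) = R.subgroupOf L := BN.exists_lift (p := p) (pbL π) (pbL_surj hπ)
    (hR.comap_of_injective L.subtype L.subtype_injective : IsPGroup p (R.subgroupOf L))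
  apply comm_of_lift hQR
  by_contra hne
  obtain ⟨S, hS, hSI, hSc, hSQ⟩ := exists_big_iso (Φ := Φ) (cast_ne_zero hp.out hpK) hlin
    (Q := (Q.map (pbX π)).map X.subtype) ((hQp.map _).map _) (by
      rintro _ ⟨x, -, rfl⟩
      exact hXI x.2) (by
      intro h1
      apply hne
      intro x hx y hy
      obtain ⟨i, hi⟩ := hQp ⟨y, hy⟩
      refine comm_of_ker pbX_cen (pbX_kp hZ) (i := i) (congrArg Subtype.val hi) ?_
      exact Subtype.ext (h1 _ ⟨_, ⟨x, hx, rfl⟩, rfl⟩ _ ⟨_, ⟨y, hy, rfl⟩, rfl⟩))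
  have hSX : S ≤ X := by
    intro s hs
    obtain ⟨j, hj⟩ := hS ⟨s, hs⟩
    exact mem_of_odd hXI hX2 (hSI hs) (hp2.pow) (congrArg Subtype.val hj)
  obtain ⟨S', hS', hSS⟩ : ∃ S' : Subgroup (Pb π), IsPGroup p S' ∧
      S'.map (pbX π) = S.subgroupOf X := BN.exists_lift (p := p) (pbX π) pbX_surj
    (hS.comap_of_injective X.subtype X.subtype_injective : IsPGroup p (S.subgroupOf X))
  have h1 := card_le_big (pbL_surj hπ) (pbL_cen hkc) (pbL_kp hkp) heL hbr hzF hez hQp hQR hS' (by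
    intro s hs g hg
    obtain ⟨i, hi⟩ := hS' ⟨s, hs⟩
    refine comm_of_ker pbX_cen (pbX_kp hZ) (i := i) (congrArg Subtype.val hi) ?_
    have h2 : pbX π s ∈ S.subgroupOf X := hSS ▸ ⟨s, hs, rfl⟩
    refine Subtype.ext (hSQ _ (Subgroup.mem_subgroupOf.mp h2) _ ?_)
    rintro _ ⟨_, ⟨q, hq, rfl⟩, rfl⟩
    exact congrArg (fun y : Pb π => ((pbX π y : X) : SpecialLinearGroup K (Fin d → K))) (hg q hq))
  have h2 : Nat.card (L ⊓ R : Subgroup G) ≤ Nat.card (L ⊓ D : Subgroup G) :=
    Nat.card_le_card_of_injective _ (Subgroup.inclusion_injective (inf_le_inf_left L hRD))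
  have h3 : Nat.card (S.subgroupOf X) = Nat.card S :=
    Nat.card_congr (Subgroup.subgroupOfEquivOfLe hSX).toEquiv
  have h4 : Nat.card (S'.map (pbX π)) ≤ Nat.card S' := by
    refine Nat.card_le_card_of_surjective (fun s : S' => (⟨pbX π s.1, s.1, s.2, rfl⟩ :
      S'.map (pbX π))) ?_
    rintro ⟨_, s, hs, rfl⟩
    exact ⟨⟨s, hs⟩, rfl⟩
  rw [hSS] at h4
  omega

end Vale.Agent.P180.R2.H47.Bm
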