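import Vale.Agent.P180.R2.H47.Bm4
import Vale.Agent.P180.R2.H259.Oq.B0

/-!
P180: nonabelian `p`-subgroups `Q` of orthogonal groups in characteristic two, `p` a linear prime:
the double centraliser of `Q` contains `p`-groups of isometries of order `p ^ p`.
-/

set_option linter.all false

namespace Vale.Agent.P180.R2.H47.Bm

open Matrix Module Vale.Agent.P180.R2.H854
open Vale.Agent.P180.R2.H954.Hc (exists_frob ringChar_prime)
open Vale.Agent.P180.R2.H259.Loc (QF IsoQ)

section Iso

variable {K V : Type} [Field K] [AddCommGroup V] [Module K V] [FiniteDimensional K V] [Finite K]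
variable {Φ : HForm K V} {Q : Subgroup (SpecialLinearGroup K V)}

variable {p : ℕ} [hp : Fact p.Prime]

/-- **The case of orthogonal groups in characteristic two.** -/
theorem exists_big_isoQ {Qf : V → K} (hq : QF Φ Qf) (hpK : (p : K) ≠ 0)
    (hlin : ∀ j : ℕ, (∀ c : K, Φ.θ c = c ^ (ringChar K ^ j)) → ¬ p ∣ ringChar K ^ j + 1)
    (hQ : IsPGroup p Q) (hQQ : Q ≤ IsoQ Qf)
    (hne : ¬ ∀ x ∈ Q, ∀ y ∈ Q, x * y = y * x) :
    ∃ S : Subgroup (SpecialLinearGroup K V), IsPGroup p S ∧ S ≤ IsoQ Qf ∧ Nat.card S = p ^ p ∧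
      ∀ s ∈ S, ∀ h : SpecialLinearGroup K V, (∀ q ∈ Q, h * q = q * h) → h * s = s * h := by
  classical
  have hQI : Q ≤ Φ.Iso := fun g hg => hq.le (hQQ hg)
  obtain ⟨n, D, i1, i2, i3, φ, ι, ζ, z, hz, h1, h2, h3, h4, h5, h6, h7, h8, h9, h10, h11⟩ :=
    exists_comp_Al hpK hQ hne
  have hn : 0 < n := lt_of_lt_of_le hp.out.pos h1
  haveI : Nonempty (Fin n) := ⟨⟨0, hn⟩⟩
  have hsc : Function.Injective (Matrix.scalar (Fin n) : D →+* Matrix (Fin n) (Fin n) D) :=
    fun a b h => Matrix.scalar_inj.mp h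
  have e1 : ∀ M, ι M * ι 1 = ι M := fun M => by rw [← h4, mul_one]
  have e2 : ∀ M, ι 1 * ι M = ι M := fun M => by rw [← h4, one_mul]
  have e0 : ι 0 = 0 := by
    have h := h5 0 0
    rw [add_zero] at h
    exact left_eq_add.mp h
  obtain ⟨ε, hε⟩ : ∃ ε, ε = ι 1 := ⟨_, rfl⟩
  obtain ⟨η, hη⟩ : ∃ η, η = st hQI ε := ⟨_, rfl⟩
  have hεε : ε * ε = ε := by rw [hε, e1]
  have hεc : ∀ a, a * ε = ε * a := by rw [hε]; exact h6
  have hηc : ∀ a, a * η = η * a := by
    intro a
    have h := congrArg (st hQI) (hεc (st hQI a))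
    rw [st_mul, st_mul, st_st, ← hη] at h
    exact h.symm
  have hηη : η * η = η := by rw [hη, ← st_mul, hεε]
  have hφε : φ ε = 1 := by rw [hε, h3]
  -- elements of the algebra which commute with the image of `ι`
  have hcs : ∀ a : Al Q, (∀ M, a * ι M = ι M * a) → ∃ c : D, φ a = Matrix.scalar (Fin n) c := by
    intro a ha
    have h12 : φ a ∈ Set.range (Matrix.scalar (Fin n)) := by
      rw [Matrix.mem_range_scalar_iff_commute_single']
      intro j k
      have h13 := congrArg φ (ha (Matrix.single j k 1))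
      rw [map_mul, map_mul, h3] at h13
      exact h13.symm
    obtain ⟨c, hc⟩ := h12
    exact ⟨c, hc.symm⟩
  obtain ⟨δ, hδ⟩ := hcs η fun M => (hηc _).symm
  have hδδ : δ * δ = δ := by
    apply hsc
    rw [map_mul, ← hδ, ← map_mul, hηη]
  rcases IsIdempotentElem.iff_eq_zero_or_one.mp (show IsIdempotentElem δ from hδδ) with
    hδ0 | hδ1
  · -- the adjoint component is different
    rw [hδ0, map_zero] at hδ
    have hεη : ε * η = 0 := by rw [hε, ← h7, hδ, e0]
    have hηε : η * ε = 0 := by rw [← hηc, hεη]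
    have e3 : ∀ M, st hQI (ι M) = η * st hQI (ι M) := fun M => by
      conv_lhs => rw [← e1 M, st_mul, ← hε, ← hη]
    have e4 : ∀ M, st hQI (ι M) = st hQI (ι M) * η := fun M => by
      conv_lhs => rw [← e2 M, st_mul, ← hε, ← hη]
    have e5 : ∀ M N, ι M * st hQI (ι N) = 0 := fun M N => by
      rw [← e1 M, ← hε, e3 N, mul_assoc, ← mul_assoc ε, hεη, zero_mul, mul_zero]
    have e6 : ∀ M N, st hQI (ι N) * ι M = 0 := fun M N => by
      rw [← e2 M, ← hε, e4 N, mul_assoc, ← mul_assoc η, hηε, zero_mul, mul_zero]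
    obtain ⟨ω, hω⟩ : ∃ ω, ω = 1 - ε - η := ⟨_, rfl⟩
    have e7 : ∀ M, ι M * ω = 0 := fun M => by
      rw [hω, mul_sub, mul_sub, mul_one, hε, e1, sub_self, zero_sub, neg_eq_zero, ← e1 M, ← hε,
        mul_assoc, hεη, mul_zero]
    have e8 : ∀ M, ω * ι M = 0 := fun M => by
      rw [hω, sub_mul, sub_mul, one_mul, hε, e2, sub_self, zero_sub, neg_eq_zero, ← e2 M, ← hε,
        ← mul_assoc, hηε, zero_mul]
    have hωs : st hQI ω = ω := by
      rw [hω, st_sub, st_sub, st_one, ← hη, hη, st_st]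
      abel
    have e9 : ∀ M, st hQI (ι M) * ω = 0 := fun M => by
      have h := congrArg (st hQI) (e8 M)
      rw [st_mul, hωs] at h
      rw [h]
      exact Subtype.ext Φ.adj_zero
    have e10 : ∀ M, ω * st hQI (ι M) = 0 := fun M => by
      have h := congrArg (st hQI) (e7 M)
      rw [st_mul, hωs] at h
      rw [h]
      exact Subtype.ext Φ.adj_zero
    have hωω : ω * ω = ω := by
      have h12 : ω * ε = 0 := by rw [hε, e8]
      have h13 : ω * η = 0 := by rw [hη, hε, e10]
      have h14 : ω * (1 - ε - η) = ω := by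
        rw [mul_sub, mul_sub, mul_one, h12, h13, sub_zero, sub_zero]
      rwa [← hω] at h14
    let Λ₀ : GL (Fin n) D → Al Q := fun u => ι u.1 + st hQI (ι (u⁻¹).1) + ω
    have hΛ₀ : ∀ u w, Λ₀ (u * w) = Λ₀ u * Λ₀ w := by
      intro u w
      have h12 : ι ((u * w)⁻¹).1 = ι (w⁻¹).1 * ι (u⁻¹).1 := by
        rw [_root_.mul_inv_rev, Units.val_mul, h4]
      change ι (u * w).1 + st hQI (ι ((u * w)⁻¹).1) + ω =
        (ι u.1 + st hQI (ι (u⁻¹).1) + ω) * (ι w.1 + st hQI (ι (w⁻¹).1) + ω)
      rw [h12, st_mul, Units.val_mul, h4, mul_add, mul_add, add_mul, add_mul, add_mul, add_mul,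
        add_mul, add_mul, e5, e6, e7, e8, e9, e10, hωω]
      simp only [add_zero, zero_add]
    have hΛ₁ : Λ₀ 1 = 1 := by
      change ι (1 : GL (Fin n) D).1 + st hQI (ι ((1 : GL (Fin n) D)⁻¹).1) + ω = 1
      rw [inv_one, Units.val_one, ← hε, ← hη, hω]
      abel
    have hΛs : ∀ u, st hQI (Λ₀ u) = Λ₀ u⁻¹ := by
      intro u
      change st hQI (ι u.1 + st hQI (ι (u⁻¹).1) + ω) = ι (u⁻¹).1 + st hQI (ι ((u⁻¹)⁻¹).1) + ω
      rw [st_add, st_add, st_st, hωs, inv_inv]
      abel
    let Λ : GL (Fin n) D →* Module.End K V :=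
      { toFun := fun u => (Λ₀ u : Module.End K V)
        map_one' := by rw [hΛ₁]; rfl
        map_mul' := fun u w => by rw [hΛ₀]; rfl }
    have hΛ : Function.Injective Λ := by
      intro u w h
      have h12 : Λ₀ u = Λ₀ w := Subtype.ext h
      have key : ∀ u, φ (Λ₀ u) = u.1 := by
        intro u
        change φ (ι u.1 + st hQI (ι (u⁻¹).1) + ω) = u.1
        rw [map_add, map_add, h3, e3, map_mul, hδ, zero_mul, hω, map_sub, map_sub, map_one, hφε,
          hδ, sub_self, sub_zero, add_zero, add_zero]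
      have h13 := congrArg φ h12
      rw [key, key] at h13
      exact Units.ext h13
    obtain ⟨S, hS, hc, hSΛ⟩ := exists_S h1 (dvd_card_sub_one h9 h10) Λ hΛ
    refine ⟨S, hS, fun s hs => ?_, hc, fun s hs h hh => ?_⟩
    · obtain ⟨u, hu⟩ := hSΛ s hs
      have hsI : s ∈ Φ.Iso := by
        rw [Φ.mem_Iso_iff]
        change Φ.adj (s.1 : V →ₗ[K] V) * (s.1 : V →ₗ[K] V) = 1
        rw [hu]
        have h12 : st hQI (Λ₀ u) * Λ₀ u = 1 := by rw [hΛs, ← hΛ₀, inv_mul_cancel, hΛ₁]
        exact congrArg Subtype.val h12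
      have hadj : ∀ (a : Al Q) (v w : V), Φ.B (a.1 v) w = Φ.B v ((st hQI a).1 w) := by
        intro a v w
        have h := Φ.adj_left (Φ.adj a.1) v w
        rw [Φ.adj_adj] at h
        exact h
      -- the form vanishes on the components
      have hB1 : ∀ v w, Φ.B (ε.1 v) (ε.1 w) = 0 := by
        intro v w
        rw [hadj, ← hη]
        have h12 : η.1 (ε.1 w) = (η * ε).1 w := rfl
        rw [h12, hηε]
        exact Φ.zero_right _
      have hB2 : ∀ v w, Φ.B (η.1 v) (η.1 w) = 0 := by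
        intro v w
        rw [hadj, hη, st_st, ← hη]
        have h12 : ε.1 (η.1 w) = (ε * η).1 w := rfl
        rw [h12, hεη]
        exact Φ.zero_right _
      have hBω : ∀ v w, Φ.B (ε.1 v) (ω.1 w) = 0 := by
        intro v w
        rw [hadj, ← hη]
        have h12 : η.1 (ω.1 w) = (η * ω).1 w := rfl
        have h13 : η * ω = 0 := by rw [hη, hε, e9]
        rw [h12, h13]
        exact Φ.zero_right _
      have hBω' : ∀ v w, Φ.B (η.1 v) (ω.1 w) = 0 := by
        intro v w
        rw [hadj, hη, st_st]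
        have h12 : ε.1 (ω.1 w) = (ε * ω).1 w := rfl
        have h13 : ε * ω = 0 := by rw [hε, e7]
        rw [h12, h13]
        exact Φ.zero_right _
      have hz' : ∀ v, Qf (z v) = Qf v := fun v => hQQ hz v
      obtain ⟨c, hc1⟩ : ∃ c : D, ζ * c = c + 1 := ⟨(ζ - 1)⁻¹, by
        have h12 : ζ - 1 ≠ 0 := sub_ne_zero.mpr h10
        have h13 := mul_inv_cancel₀ h12
        rw [sub_mul, one_mul, sub_eq_iff_eq_add] at h13
        rw [h13, add_comm]⟩
      have hζ0 : ζ ≠ 0 := fun h => by rw [h, zero_pow hp.out.ne_zero] at h9; exact zero_ne_one h9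
      obtain ⟨c', hc1'⟩ : ∃ c' : D, c' * ζ⁻¹ = c' + 1 := ⟨(ζ⁻¹ - 1)⁻¹, by
        have h12 : ζ⁻¹ - 1 ≠ 0 := sub_ne_zero.mpr fun h => h10 (inv_eq_one.mp h)
        have h13 := inv_mul_cancel₀ h12
        rw [mul_sub, mul_one, sub_eq_iff_eq_add] at h13
        rw [h13, add_comm]⟩
      obtain ⟨zt, hzt⟩ : ∃ zt : Al Q, zt = ⟨lm z, lm_mem hz⟩ := ⟨_, rfl⟩
      obtain ⟨zi, hzi⟩ : ∃ zi : Al Q, zi = ⟨lm z⁻¹, lm_mem (Q.inv_mem hz)⟩ := ⟨_, rfl⟩
      have hzz : zi * zt = 1 := by
        rw [hzt, hzi]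
        apply Subtype.ext
        change lm z⁻¹ * lm z = 1
        rw [← lm_mul, inv_mul_cancel, lm_one]
      rw [← hzt] at h8
      have h8' : φ zi = Matrix.scalar (Fin n) ζ⁻¹ := by
        have h12 := congrArg φ hzz
        rw [map_mul, h8, map_one] at h12
        calc φ zi = φ zi * (Matrix.scalar (Fin n) ζ * Matrix.scalar (Fin n) ζ⁻¹) := by
              rw [← map_mul, mul_inv_cancel₀ hζ0, map_one, mul_one]
          _ = Matrix.scalar (Fin n) ζ⁻¹ := by rw [← mul_assoc, h12, one_mul]
      have hstz : st hQI zi = zt := by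
        rw [hzt, hzi]
        apply Subtype.ext
        change Φ.adj (lm z⁻¹) = lm z
        rw [adj_lm (hQI (Q.inv_mem hz)), inv_inv]
      have hA : zt * ι (Matrix.scalar (Fin n) c) = ι (Matrix.scalar (Fin n) c) + ε := by
        have h12 : zt * ι (Matrix.scalar (Fin n) c) = ι (φ zt) * ι (Matrix.scalar (Fin n) c) := by
          rw [h7, ← h6, mul_assoc, e2]
        rw [h12, h8, ← h4, ← map_mul, hc1, map_add, map_one, h5, ← hε]
      have hA' : ι (Matrix.scalar (Fin n) c') * zi = ι (Matrix.scalar (Fin n) c') + ε := by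
        have h12 : ι (Matrix.scalar (Fin n) c') * zi = ι (Matrix.scalar (Fin n) c') * ι (φ zi) := by
          rw [h7, ← mul_assoc, e1]
        rw [h12, h8', ← h4, ← map_mul, hc1', map_add, map_one, h5, ← hε]
      have hA'' : zt * st hQI (ι (Matrix.scalar (Fin n) c')) =
          st hQI (ι (Matrix.scalar (Fin n) c')) + η := by
        have h12 := congrArg (st hQI) hA'
        rw [st_mul, st_add, hstz, ← hη] at h12
        exact h12
      have hztv : ∀ v, zt.1 v = z v := fun v => by rw [hzt]; rfl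
      have hQε : ∀ v, Qf (ε.1 v) = 0 := by
        intro v
        have h12 : z ((ι (Matrix.scalar (Fin n) c)).1 v) =
            (ι (Matrix.scalar (Fin n) c)).1 v + ε.1 v := by
          rw [← hztv]
          exact LinearMap.congr_fun (congrArg Subtype.val hA) v
        have h13 := hq.add ((ι (Matrix.scalar (Fin n) c)).1 v) (ε.1 v)
        have h14 : (ι (Matrix.scalar (Fin n) c)).1 v =
            ε.1 ((ι (Matrix.scalar (Fin n) c)).1 v) := by
          have h15 : ε * ι (Matrix.scalar (Fin n) c) = ι (Matrix.scalar (Fin n) c) := by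
            rw [hε, e2]
          exact (LinearMap.congr_fun (congrArg Subtype.val h15) v).symm
        rw [← h12, hz', h14, hB1, add_zero] at h13
        exact (left_eq_add.mp h13)
      have hQη : ∀ v, Qf (η.1 v) = 0 := by
        intro v
        have h12 : z ((st hQI (ι (Matrix.scalar (Fin n) c'))).1 v) =
            (st hQI (ι (Matrix.scalar (Fin n) c'))).1 v + η.1 v := by
          rw [← hztv]
          exact LinearMap.congr_fun (congrArg Subtype.val hA'') v
        have h13 := hq.add ((st hQI (ι (Matrix.scalar (Fin n) c'))).1 v) (η.1 v)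
        have h14 : (st hQI (ι (Matrix.scalar (Fin n) c'))).1 v =
            η.1 ((st hQI (ι (Matrix.scalar (Fin n) c'))).1 v) :=
          LinearMap.congr_fun (congrArg Subtype.val (e3 (Matrix.scalar (Fin n) c'))) v
        rw [← h12, hz', h14, hB2, add_zero] at h13
        exact (left_eq_add.mp h13)
      have hdec : ∀ v, Qf v = Φ.B (ε.1 v) (η.1 v) + Qf (ω.1 v) := by
        intro v
        have h12 : v = (ε.1 v + η.1 v) + ω.1 v := by
          have h13 : ε + η + ω = 1 := by rw [hω]; abel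
          exact (LinearMap.congr_fun (congrArg Subtype.val h13) v).symm
        conv_lhs => rw [h12]
        rw [hq.add, hq.add, hQε, hQη, Φ.add_left, hBω, hBω']
        ring
      have hsv : ∀ v, s v = (Λ₀ u).1 v := fun v => LinearMap.congr_fun hu v
      have hc2 : ∀ (a : Al Q), Λ₀ u * a = a * Λ₀ u → ∀ v, a.1 (s v) = s (a.1 v) := by
        intro a ha v
        rw [hsv, hsv]
        exact (LinearMap.congr_fun (congrArg Subtype.val ha) v).symm
      have hωc : Λ₀ u * ω = ω := by
        change (ι u.1 + st hQI (ι (u⁻¹).1) + ω) * ω = ω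
        rw [add_mul, add_mul, e7, e9, hωω, zero_add, zero_add]
      have hωc' : ω * Λ₀ u = ω := by
        change ω * (ι u.1 + st hQI (ι (u⁻¹).1) + ω) = ω
        rw [mul_add, mul_add, e8, e10, hωω, zero_add, zero_add]
      intro v
      have h12 : ω.1 (s v) = ω.1 v := by
        rw [hsv]
        exact LinearMap.congr_fun (congrArg Subtype.val hωc') v
      rw [hdec (s v), hc2 ε (hεc _) v, hc2 η (hηc _) v, hsI, h12, ← hdec v]
    · obtain ⟨u, hu⟩ := hSΛ s hs
      apply lm_inj
      rw [lm_mul, lm_mul]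
      change lm h * (s.1 : V →ₗ[K] V) = (s.1 : V →ₗ[K] V) * lm h
      rw [hu]
      exact comm_Al (h := lm h) (fun q hq => by rw [← lm_mul, ← lm_mul, hh q hq]) _ (Λ₀ u).2
  · -- the component is selfadjoint
    exfalso
    rw [hδ1, map_one] at hδ
    have hεη : ε * η = ε := by rw [hε, ← h7, hδ]
    have hηε : η = ε := by
      have h := congrArg (st hQI) hεη
      rw [st_mul, ← hη, hη, st_st, ← hη] at h
      rw [← h, hεη]
    have hι : ∀ c a, ι (Matrix.scalar (Fin n) c) * a = a * ι (Matrix.scalar (Fin n) c) := by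
      intro c a
      have h12 : ι (Matrix.scalar (Fin n) c) * a = ι (Matrix.scalar (Fin n) c) * ι (φ a) := by
        rw [h7, ← mul_assoc, e1]
      have h13 : a * ι (Matrix.scalar (Fin n) c) = ι (φ a) * ι (Matrix.scalar (Fin n) c) := by
        rw [h7, ← h6, mul_assoc, e2]
      rw [h12, h13, ← h4, ← h4, (Matrix.scalar_commute c (fun r => Commute.all c r) (φ a)).eq]
    have hex : ∀ c : D, ∃ c' : D, φ (st hQI (ι (Matrix.scalar (Fin n) c))) =
        Matrix.scalar (Fin n) c' := by
      intro c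
      refine hcs _ fun M => ?_
      have h := congrArg (st hQI) (hι c (st hQI (ι M)))
      rw [st_mul, st_mul, st_st] at h
      exact h.symm
    choose τ₀ hτ₀ using hex
    let τ : D →+* D :=
      { toFun := τ₀
        map_one' := by
          apply hsc
          rw [← hτ₀, map_one (Matrix.scalar (Fin n)), ← hε, ← hη, hδ]
        map_mul' := by
          intro a b
          apply hsc
          rw [← hτ₀, map_mul, h4, st_mul, map_mul, hτ₀, hτ₀, map_mul, ← map_mul, mul_comm, map_mul]
        map_zero' := by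
          apply hsc
          rw [← hτ₀, map_zero, e0]
          have h : st hQI (0 : Al Q) = 0 := Subtype.ext Φ.adj_zero
          rw [h, map_zero]
        map_add' := by
          intro a b
          apply hsc
          rw [← hτ₀, map_add, h5, st_add, map_add, hτ₀, hτ₀, map_add] }
    have hτ : ∀ c, φ (st hQI (ι (Matrix.scalar (Fin n) c))) = Matrix.scalar (Fin n) (τ c) := hτ₀
    have hτK : ∀ c : K, τ (algebraMap K D c) = algebraMap K D (Φ.θ c) := by
      intro c
      apply hsc
      rw [← hτ, ← h2, h7, st_mul, st_alg, map_mul, h2, ← hε, ← hη, hδ, mul_one]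
    have hτζ : τ ζ * ζ = 1 := by
      apply hsc
      rw [map_mul, ← hτ, ← h8, h7, st_mul, map_mul, ← hε, ← hη, hδ, mul_one, ← map_mul, map_one]
      have h12 : st hQI (⟨lm z, lm_mem hz⟩ : Al Q) * ⟨lm z, lm_mem hz⟩ = 1 := by
        apply Subtype.ext
        change Φ.adj (lm z) * lm z = 1
        rw [adj_lm (hQI hz), ← lm_mul, inv_mul_cancel, lm_one]
      rw [h12, map_one]
    have hchar : CharP K (ringChar K) := ringChar.charP K
    haveI : Fact (ringChar K).Prime := ⟨ringChar_prime⟩
    haveI : CharP D (ringChar K) := charP_of_injective_algebraMap (algebraMap K D).injective _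
    obtain ⟨j, hj⟩ := exists_frob (r := ringChar K) τ
    refine hlin j (fun c => ?_) ?_
    · apply (algebraMap K D).injective
      rw [← hτK, hj, map_pow]
    · have h12 : ζ ^ (ringChar K ^ j + 1) = 1 := by rw [pow_succ, ← hj, hτζ]
      rw [← orderOf_eq_prime h9 h10]
      exact orderOf_dvd_of_pow_eq_one h12

end Iso

end Vale.Agent.P180.R2.H47.Bm
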