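import Vale.Agent.P180.R2.H47.Bm10
import Vale.Agent.P180.R2.H47.Bm11

/-!
P180: perfect central extensions of orthogonal groups in characteristic two: if the component
intersects the defect group in a group of order less than `p ^ p` then this intersection may be
assumed to be abelian.
-/

set_option linter.all false

namespace Vale.Agent.P180.R2.H47.Bm

open Vale.Agent.P180 Vale.Agent.P180.H768.Gd Vale.Agent.P180.R2.H799 Vale.Agent.P180.R2.H954
open Vale.Agent.P180.R2.H365 Vale.Agent.P180.R2.H854 Module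
open Vale.Agent.P180.R2.H954.Hc (odd_of_lin)
open Vale.Agent.P180.R2.H854.TD (ker_coprime_lin)
open Vale.Agent.P180.R2.H259.Loc (QF IsoQ)
open Vale.Agent.P180.R2.H259.Oq (OmX odd_mem)

universe u

/-- **Small intersections with the defect group**, perfect central extensions of orthogonal groups
in characteristic two. -/
theorem corP_small_coverQ {k : Type u} [Field k] {p C : ℕ} [hp : Fact p.Prime] [CharP k p]
    {G : Type} [Group G] [Finite G] {b : MonoidAlgebra k G} {D L : Subgroup G} (hD : IsPGroup p D)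
    (hDs : Nat.card (L ⊓ D : Subgroup G) < p ^ p) (hZ : ¬ p ∣ Nat.card (Subgroup.center L))
    {K : Type} [Field K] [Finite K] {d : ℕ}
    {Φ : HForm K (Fin d → K)} {X : Subgroup (SpecialLinearGroup K (Fin d → K))}
    {Qf : (Fin d → K) → K} (hq : QF Φ Qf) (hX : OmX Qf X)
    {π : X →* L ⧸ Subgroup.center L} (hpK : ¬ p ∣ Nat.card K)
    (hlin : ∀ j : ℕ, (∀ c : K, Φ.θ c = c ^ (ringChar K ^ j)) → ¬ p ∣ ringChar K ^ j + 1)
    (hπ : Function.Surjective π)
    (hk : π.ker.map X.subtype ≤ Subgroup.center (SpecialLinearGroup K (Fin d → K)))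
    (h : ∀ R ≤ D, (∀ x ∈ R, x ∈ L → ∀ y ∈ R, y ∈ L → x * y = y * x) → CorP p C b R L) :
    CorP p C b D L := by
  have hp2 : Odd p := odd_of_lin hp.out hpK Φ.θ hlin
  have hXQ : X ≤ IsoQ Qf := fun g hg => ((hX g).mp hg).1
  have hXI : X ≤ Φ.Iso := fun g hg => hq.le (hXQ hg)
  refine corP_of_data fun R hRD hn => ?_
  rintro ⟨e, heL, hbr, z, hzF, hez⟩
  refine h R hRD ?_
  haveI : Finite (SpecialLinearGroup K (Fin d → K)) := BN.finite_sl
  have hR : IsPGroup p R := hD.to_le hRD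
  have hkc : ∀ x, π x = 1 → ∀ y, x * y = y * x := by
    intro x hx y
    have h1 : (x : SpecialLinearGroup K (Fin d → K)) ∈ Subgroup.center _ :=
      hk ⟨x, MonoidHom.mem_ker.mpr hx, rfl⟩
    exact Subtype.ext (Subgroup.mem_center_iff.mp h1 y.1).symm
  have hkp : ¬ p ∣ Nat.card π.ker := ker_coprime_lin hpK hlin hXI hk
  obtain ⟨Q, hQp, hQR⟩ : ∃ Q : Subgroup (Pb π), IsPGroup p Q ∧
      Q.map (pbL π) = R.subgroupOf L := BN.exists_lift (p := p) (pbL π) (pbL_surj hπ)
    (hR.comap_of_injective L.subtype L.subtype_injective : IsPGroup p (R.subgroupOf L))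
  apply comm_of_lift hQR
  by_contra hne
  obtain ⟨S, hS, hSI, hSc, hSQ⟩ := exists_big_isoQ (Φ := Φ) hq (cast_ne_zero hp.out hpK) hlin
    (Q := (Q.map (pbX π)).map X.subtype) ((hQp.map _).map _) (by
      rintro _ ⟨x, -, rfl⟩
      exact hXQ x.2) (by
      intro h1
      apply hne
      intro x hx y hy
      obtain ⟨i, hi⟩ := hQp ⟨y, hy⟩
      refine comm_of_ker pbX_cen (pbX_kp hZ) (i := i) (congrArg Subtype.val hi) ?_
      exact Subtype.ext (h1 _ ⟨_, ⟨x, hx, rfl⟩, rfl⟩ _ ⟨_, ⟨y, hy, rfl⟩, rfl⟩))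
  have hSX : S ≤ X := by
    intro s hs
    obtain ⟨j, hj⟩ := hS ⟨s, hs⟩
    exact odd_mem hq hX (hSI hs) (hp2.pow (n := j)) (congrArg Subtype.val hj)
  obtain ⟨S', hS', hSS⟩ : ∃ S' : Subgroup (Pb π), IsPGroup p S' ∧
      S'.map (pbX π) = S.subgroupOf X := BN.exists_lift (p := p) (pbX π) pbX_surj
    (hS.comap_of_injective X.subtype X.subtype_injective : IsPGroup p (S.subgroupOf X))
  have h1 := card_le_big (pbL_surj hπ) (pbL_cen hkc) (pbL_kp hkp) heL hbr hzF hez hQp hQR hS' (by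
    intro s hs g hg
    obtain ⟨i, hi⟩ := hS' ⟨s, hs⟩
    refine comm_of_ker pbX_cen (pbX_kp hZ) (i := i) (congrArg Subtype.val hi) ?_
    have h2 : pbX π s ∈ S.subgroupOf X := hSS ▸ ⟨s, hs, rfl⟩
    refine Subtype.ext (hSQ _ (Subgroup.mem_subgroupOf.mp h2) _ ?_)
    rintro _ ⟨_, ⟨q, hq, rfl⟩, rfl⟩
    exact congrArg (fun y : Pb π => ((pbX π y : X) : SpecialLinearGroup K (Fin d → K))) (hg q hq))
  have h2 : Nat.card (L ⊓ R : Subgroup G) ≤ Nat.card (L ⊓ D : Subgroup G) :=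
    Nat.card_le_card_of_injective _ (Subgroup.inclusion_injective (inf_le_inf_left L hRD))
  have h3 : Nat.card (S.subgroupOf X) = Nat.card S :=
    Nat.card_congr (Subgroup.subgroupOfEquivOfLe hSX).toEquiv
  have h4 : Nat.card (S'.map (pbX π)) ≤ Nat.card S' := by
    refine Nat.card_le_card_of_surjective (fun s : S' => (⟨pbX π s.1, s.1, s.2, rfl⟩ :
      S'.map (pbX π))) ?_
    rintro ⟨_, s, hs, rfl⟩
    exact ⟨⟨s, hs⟩, rfl⟩
  rw [hSS] at h4
  omega

end Vale.Agent.P180.R2.H47.Bm
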