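import Vale.Agent.P180.R2.H47.Bm1
import Mathlib.FieldTheory.Finiteness
import Mathlib.GroupTheory.Nilpotent

/-!
P180: nonabelian `p`-subgroups `Q` of special linear groups: the double centraliser of `Q` has
`p`-subgroups of order `p ^ p`.
-/

set_option linter.all false

namespace Vale.Agent.P180.R2.H47.Bm

open Matrix Module

section Grp

variable {p : ℕ} [hp : Fact p.Prime] {Q : Type*} [Group Q] [Finite Q]

theorem comm_pow {x y z : Q} (hz : ∀ a, z * a = a * z) (h : x * y = z * (y * x)) (i : ℕ) :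
    x ^ i * y = z ^ i * (y * x ^ i) := by
  induction i with
  | zero => rw [pow_zero, pow_zero, one_mul, one_mul, mul_one]
  | succ i ih =>
    have hz' : ∀ a, z ^ i * a = a * z ^ i := fun a =>
      ((show Commute z a from hz a).pow_left i)
    calc x ^ (i + 1) * y = x ^ i * (x * y) := by rw [pow_succ, mul_assoc]
      _ = x ^ i * (z * (y * x)) := by rw [h]
      _ = z * (x ^ i * y * x) := by rw [← mul_assoc, ← hz, mul_assoc, mul_assoc]
      _ = z * (z ^ i * (y * x ^ i) * x) := by rw [ih]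
      _ = z ^ (i + 1) * (y * x ^ (i + 1)) := by
        rw [pow_succ' z, pow_succ x, mul_assoc, mul_assoc, mul_assoc]

/-- two elements of a nonabelian `p`-group whose commutator is central of order `p` -/
theorem exists_xyz (hQ : IsPGroup p Q) (hne : ¬ ∀ x y : Q, x * y = y * x) :
    ∃ x y z : Q, x * y = z * (y * x) ∧ (∀ a, z * a = a * z) ∧ z ^ p = 1 ∧ z ≠ 1 := by
  obtain ⟨Z, hZ⟩ : ∃ Z, Z = Subgroup.center Q := ⟨_, rfl⟩
  have hnt : Nontrivial (Q ⧸ Subgroup.center Q) := by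
    by_contra h
    rw [not_nontrivial_iff_subsingleton] at h
    apply hne
    intro x y
    have h1 : (x : Q ⧸ Subgroup.center Q) = 1 := Subsingleton.elim _ _
    rw [QuotientGroup.eq_one_iff] at h1
    exact (Subgroup.mem_center_iff.mp h1 y).symm
  have hQ' : IsPGroup p (Q ⧸ Subgroup.center Q) := hQ.to_quotient _
  have h1 := hQ'.center_nontrivial
  obtain ⟨⟨x', hx'⟩, hx1⟩ := exists_ne (1 : Subgroup.center (Q ⧸ Subgroup.center Q))
  obtain ⟨x, rfl⟩ := QuotientGroup.mk_surjective x'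
  have hx : x ∉ Subgroup.center Q := by
    intro h
    apply hx1
    apply Subtype.ext
    exact (QuotientGroup.eq_one_iff x).mpr h
  obtain ⟨y, hy⟩ : ∃ y, y * x ≠ x * y := by
    by_contra h
    push Not at h
    exact hx (Subgroup.mem_center_iff.mpr h)
  obtain ⟨z, hz⟩ : ∃ z, z = x * y * (y * x)⁻¹ := ⟨_, rfl⟩
  have hxy : x * y = z * (y * x) := by rw [hz]; group
  have hzc : ∀ a, z * a = a * z := by
    have h2 : (z : Q ⧸ Subgroup.center Q) = 1 := by
      rw [hz]
      have h3 := Subgroup.mem_center_iff.mp hx' (y : Q ⧸ Subgroup.center Q)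
      rw [QuotientGroup.mk_mul, QuotientGroup.mk_inv, QuotientGroup.mk_mul, QuotientGroup.mk_mul,
        h3, mul_inv_cancel]
    rw [QuotientGroup.eq_one_iff] at h2
    exact fun a => (Subgroup.mem_center_iff.mp h2 a).symm
  have hz1 : z ≠ 1 := by
    rintro rfl
    rw [one_mul] at hxy
    exact hy hxy.symm
  obtain ⟨j, hj⟩ : ∃ j, orderOf z = p ^ (j + 1) := by
    obtain ⟨k, hk⟩ := hQ z
    obtain ⟨j, -, hj⟩ := (Nat.dvd_prime_pow hp.out).mp (orderOf_dvd_of_pow_eq_one hk)
    rcases j with _ | j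
    · rw [pow_zero, orderOf_eq_one_iff] at hj
      exact absurd hj hz1
    · exact ⟨j, hj⟩
  refine ⟨x ^ p ^ j, y, z ^ p ^ j, comm_pow hzc hxy _, fun a =>
    ((show Commute z a from hzc a).pow_left _), ?_, ?_⟩
  · rw [← pow_mul, ← pow_succ, ← hj, pow_orderOf_eq_one]
  · intro h
    have h2 := orderOf_dvd_of_pow_eq_one h
    rw [hj] at h2
    have h3 := Nat.le_of_dvd (pow_pos hp.out.pos _) h2
    exact absurd h3 (not_le.mpr (Nat.pow_lt_pow_right hp.out.one_lt (Nat.lt_succ_self j)))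

end Grp

section Lin

variable {K V : Type} [Field K] [Finite K] [AddCommGroup V] [Module K V] [FiniteDimensional K V]
  {p : ℕ} [hp : Fact p.Prime]

/-- `p`-subgroups of the group of elements of determinant one -/
theorem exists_S {n : ℕ} {D : Type} [Field D] [Finite D] [Algebra K D] (hn : p ≤ n)
    (hD : p ∣ Nat.card D - 1) (Λ : GL (Fin n) D →* Module.End K V) (hΛ : Function.Injective Λ) :
    ∃ S : Subgroup (SpecialLinearGroup K V), IsPGroup p S ∧ Nat.card S = p ^ p ∧
      ∀ s ∈ S, ∃ u, ((s.1 : V ≃ₗ[K] V) : Module.End K V) = Λ u := by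
  classical
  have hp0 : 0 < p := hp.out.pos
  let Λ' : GL (Fin n) D →* (V ≃ₗ[K] V) :=
    (LinearMap.GeneralLinearGroup.generalLinearEquiv K V).toMonoidHom.comp Λ.toHomUnits
  have hΛ' : ∀ u, ((Λ' u : V ≃ₗ[K] V) : Module.End K V) = Λ u := fun u => rfl
  let χ : GL (Fin n) D →* Kˣ := LinearEquiv.det.comp Λ'
  have hcard : Nat.card χ.ker * Nat.card χ.range = Nat.card (GL (Fin n) D) := by
    rw [← Subgroup.index_ker, mul_comm, Subgroup.index_mul_card]
  have hrange : Nat.card χ.range ∣ Nat.card K - 1 := by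
    rw [← Nat.card_units]
    exact Subgroup.card_subgroup_dvd_card _
  have hK1 : 1 < Nat.card K := Finite.one_lt_card
  obtain ⟨a, m, hm, hKm⟩ := Nat.exists_eq_pow_mul_and_not_dvd (n := Nat.card K - 1) (by omega) p
    hp.out.ne_one
  have hKD : Nat.card K - 1 ∣ Nat.card D - 1 := by
    haveI : Module.Finite K D := Module.Finite.of_finite
    rw [Module.natCard_eq_pow_finrank (K := K) (V := D)]
    exact Nat.sub_one_dvd_pow_sub_one _ _
  obtain ⟨b, hb, hab, hb1⟩ : ∃ b, p ^ b ∣ Nat.card D - 1 ∧ a ≤ b ∧ 1 ≤ b := by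
    rcases Nat.eq_zero_or_pos a with h | h
    · exact ⟨1, by rwa [pow_one], by omega, le_rfl⟩
    · exact ⟨a, (Dvd.intro _ hKm.symm).trans hKD, le_rfl, h⟩
  have h1 : p ^ (b * p + 1) ∣ Nat.card (GL (Fin n) D) := card_GL_dvd hn hD hb
  have h2 : p ^ (b * p + 1) ∣ Nat.card χ.ker * p ^ a * m := by
    refine h1.trans ?_
    rw [← hcard, mul_assoc, ← hKm]
    exact Nat.mul_dvd_mul_left _ hrange
  have h3 : p ^ (b * p + 1) ∣ Nat.card χ.ker * p ^ a := by
    refine Nat.Coprime.dvd_of_dvd_mul_right ?_ h2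
    exact Nat.Coprime.pow_left _ ((Nat.Prime.coprime_iff_not_dvd hp.out).mpr hm)
  have h4 : p ≤ b * p + 1 - a := by
    have h5 : b * p + 1 - a ≥ b * p + 1 - b := by omega
    have h6 : b * p + 1 - b ≥ p := by
      obtain ⟨r, hr⟩ : ∃ r, p = r + 1 := ⟨p - 1, by omega⟩
      obtain ⟨c, hc⟩ : ∃ c, b = c + 1 := ⟨b - 1, by omega⟩
      have h7 : b * p = c * r + c + r + 1 := by rw [hr, hc]; ring
      omega
    omega
  have h5 : p ^ p ∣ Nat.card χ.ker := by
    have h6 : p ^ (b * p + 1) = p ^ (b * p + 1 - a) * p ^ a := by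
      rw [← pow_add]
      congr 1
      have : b ≤ b * p := Nat.le_mul_of_pos_right b hp0
      omega
    rw [h6] at h3
    exact (pow_dvd_pow p h4).trans (Nat.dvd_of_mul_dvd_mul_right (pow_pos hp0 a) h3)
  obtain ⟨S₀, hS₀⟩ := Sylow.exists_subgroup_card_pow_prime p h5
  let Θ : χ.ker →* SpecialLinearGroup K V :=
    MonoidHom.mk' (fun u => ⟨Λ' u.1, u.2⟩) fun u w => Subtype.ext (map_mul Λ' u.1 w.1)
  have hΘ : Function.Injective Θ := by
    intro u w h
    have h6 : Λ' u.1 = Λ' w.1 := congrArg Subtype.val h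
    apply Subtype.ext
    apply hΛ
    rw [← hΛ', ← hΛ', h6]
  refine ⟨S₀.map Θ, (IsPGroup.of_card hS₀).map Θ, ?_, ?_⟩
  · rw [← hS₀]
    exact (Nat.card_congr (S₀.equivMapOfInjective Θ hΘ).toEquiv).symm
  · rintro _ ⟨u, -, rfl⟩
    exact ⟨u.1, rfl⟩

end Lin

end Vale.Agent.P180.R2.H47.Bm
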