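import Vale.Agent.P180.R2.H47.Bm2

/-!
P180: nonabelian `p`-subgroups `Q` of special linear groups: the double centraliser of `Q` has
`p`-subgroups of order `p ^ p`; the algebra generated by `Q`.
-/

set_option linter.all false

namespace Vale.Agent.P180.R2.H47.Bm

open Matrix Module

section Lin

variable {K V : Type} [Field K] [AddCommGroup V] [Module K V] [FiniteDimensional K V]

/-- the endomorphism -/
abbrev lm (u : SpecialLinearGroup K V) : Module.End K V := (u.1 : V →ₗ[K] V)

theorem lm_mul (u w : SpecialLinearGroup K V) : lm (u * w) = lm u * lm w := rfl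

theorem lm_one : lm (1 : SpecialLinearGroup K V) = 1 := rfl

theorem lm_inj {u w : SpecialLinearGroup K V} (h : lm u = lm w) : u = w :=
  Subtype.ext (LinearEquiv.ext fun v => LinearMap.congr_fun h v)

/-- the homomorphism -/
def lmHom : SpecialLinearGroup K V →* Module.End K V where
  toFun := lm
  map_one' := rfl
  map_mul' _ _ := rfl

variable (Q : Subgroup (SpecialLinearGroup K V))

/-- the representation of the group algebra of `Q` -/
noncomputable def rho : MonoidAlgebra K Q →ₐ[K] Module.End K V :=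
  MonoidAlgebra.lift K (Module.End K V) Q (lmHom.comp Q.subtype)

theorem rho_of (q : Q) : rho Q (MonoidAlgebra.of K Q q) = lm q.1 := by
  rw [rho, MonoidAlgebra.of_apply, MonoidAlgebra.lift_single, one_smul]
  rfl

/-- the algebra generated by `Q` -/
noncomputable abbrev Al : Subalgebra K (Module.End K V) := (rho Q).range

variable {Q}

theorem lm_mem {q : SpecialLinearGroup K V} (hq : q ∈ Q) : lm q ∈ Al Q :=
  ⟨MonoidAlgebra.of K Q ⟨q, hq⟩, rho_of Q ⟨q, hq⟩⟩

/-- induction for the elements of the algebra -/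
theorem Al_ind {P : Module.End K V → Prop} (h1 : ∀ q ∈ Q, P (lm q))
    (h2 : ∀ a b, P a → P b → P (a + b)) (h3 : ∀ (c : K) a, P a → P (c • a)) :
    ∀ a ∈ Al Q, P a := by
  rintro _ ⟨a, rfl⟩
  change P (rho Q a)
  induction a using MonoidAlgebra.induction_on with
  | of q => rw [rho_of]; exact h1 q q.2
  | add a b ha hb => rw [map_add]; exact h2 _ _ ha hb
  | smul c a ha => rw [map_smul]; exact h3 _ _ ha

theorem comm_Al {h : Module.End K V} (hc : ∀ q ∈ Q, h * lm q = lm q * h) :
    ∀ a ∈ Al Q, h * a = a * h := by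
  refine Al_ind hc (fun a b ha hb => ?_) fun c a ha => ?_
  · rw [mul_add, add_mul, ha, hb]
  · rw [mul_smul_comm, smul_mul_assoc, ha]

variable [Finite K] {p : ℕ} [hp : Fact p.Prime]

instance finite_Al : Module.Finite K (Al Q) :=
  FiniteDimensional.finiteDimensional_submodule (Subalgebra.toSubmodule (Al Q))

theorem semisimple_Al (hpK : (p : K) ≠ 0) (hQ : IsPGroup p Q) : IsSemisimpleRing (Al Q) := by
  haveI : Finite (V ≃ₗ[K] V) := by
    haveI : Finite V := Module.finite_of_finite K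
    exact Finite.of_injective (fun e : V ≃ₗ[K] V => (e : V → V)) DFunLike.coe_injective
  haveI : Finite (SpecialLinearGroup K V) := inferInstance
  haveI : NeZero (Nat.card Q : K) := by
    obtain ⟨k, hk⟩ := IsPGroup.iff_card.mp hQ
    rw [hk]
    exact ⟨by rw [Nat.cast_pow]; exact pow_ne_zero _ hpK⟩
  exact RingHom.isSemisimpleRing_of_surjective ((rho Q).rangeRestrict : MonoidAlgebra K Q →+* Al Q)
    (rho Q).rangeRestrict_surjective

/-- **Components of the algebra generated by `Q`.** -/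
theorem exists_comp_Al (hpK : (p : K) ≠ 0) (hQ : IsPGroup p Q)
    (hne : ¬ ∀ x ∈ Q, ∀ y ∈ Q, x * y = y * x) :
    ∃ (n : ℕ) (D : Type) (_ : Field D) (_ : Finite D) (_ : Algebra K D)
      (φ : Al Q →+* Matrix (Fin n) (Fin n) D) (ι : Matrix (Fin n) (Fin n) D → Al Q) (ζ : D)
      (z : SpecialLinearGroup K V) (hz : z ∈ Q),
      p ≤ n ∧ (∀ c : K, φ (algebraMap K (Al Q) c) = Matrix.scalar (Fin n) (algebraMap K D c)) ∧
      (∀ M, φ (ι M) = M) ∧ (∀ M N, ι (M * N) = ι M * ι N) ∧ (∀ M N, ι (M + N) = ι M + ι N) ∧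
      (∀ a, a * ι 1 = ι 1 * a) ∧ (∀ a, ι (φ a) = ι 1 * a) ∧
      φ ⟨lm z, lm_mem hz⟩ = Matrix.scalar (Fin n) ζ ∧ ζ ^ p = 1 ∧ ζ ≠ 1 ∧
      ∀ q ∈ Q, z * q = q * z := by
  haveI : Finite (V ≃ₗ[K] V) := by
    haveI : Finite V := Module.finite_of_finite K
    exact Finite.of_injective (fun e : V ≃ₗ[K] V => (e : V → V)) DFunLike.coe_injective
  haveI : Finite (SpecialLinearGroup K V) := inferInstance
  haveI := semisimple_Al hpK hQ
  obtain ⟨x, y, z, hxy, hz, hzp, hz1⟩ := exists_xyz (p := p) hQ (by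
    intro h
    apply hne
    intro x hx y hy
    exact congrArg Subtype.val (h ⟨x, hx⟩ ⟨y, hy⟩))
  let j : Q →* Al Q :=
    { toFun := fun q => ⟨lm q.1, lm_mem q.2⟩
      map_one' := rfl
      map_mul' := fun a b => rfl }
  have hj : Function.Injective j := by
    intro a b h
    exact Subtype.ext (lm_inj (congrArg Subtype.val h))
  have hjz : ∀ a : Al Q, j z * a = a * j z := by
    rintro ⟨a, ha⟩
    apply Subtype.ext
    exact comm_Al (h := lm z.1) (fun q hq => congrArg (fun t : Q => lm t.1) (hz ⟨q, hq⟩)) a ha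
  obtain ⟨n, D, i1, i2, i3, φ, ι, ζ, h1, h2, h3, h4, h5, h6, h7, h8, h9, h10⟩ :=
    exists_comp (K := K) (A := Al Q) (p := p) (x := j x) (y := j y) (z := j z)
      ((Group.isUnit x).map j) ((Group.isUnit y).map j)
      (by rw [← map_mul, hxy, map_mul, map_mul]) hjz (by rw [← map_pow, hzp, map_one])
      (fun h => hz1 (hj (by rw [h, map_one])))
  exact ⟨n, D, i1, i2, i3, φ, ι, ζ, z.1, z.2, h1, h2, h3, h4, h5, h6, h7, h8, h9, h10,
    fun q hq => congrArg Subtype.val (hz ⟨q, hq⟩)⟩

theorem dvd_card_sub_one {D : Type} [Field D] [Finite D] {ζ : D} (h : ζ ^ p = 1) (h1 : ζ ≠ 1) :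
    p ∣ Nat.card D - 1 := by
  have h0 : ζ ≠ 0 := by
    rintro rfl
    rw [zero_pow hp.out.ne_zero] at h
    exact zero_ne_one h
  have h2 : orderOf (Units.mk0 ζ h0) = p := by
    apply orderOf_eq_prime
    · ext
      simpa using h
    · intro h3
      exact h1 (by simpa using congrArg Units.val h3)
  rw [← Nat.card_units, ← h2]
  exact orderOf_dvd_natCard _

/-- **The case of the special linear group.** -/
theorem exists_big (hpK : (p : K) ≠ 0) (hQ : IsPGroup p Q)
    (hne : ¬ ∀ x ∈ Q, ∀ y ∈ Q, x * y = y * x) :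
    ∃ S : Subgroup (SpecialLinearGroup K V), IsPGroup p S ∧ Nat.card S = p ^ p ∧
      ∀ s ∈ S, ∀ h : SpecialLinearGroup K V, (∀ q ∈ Q, h * q = q * h) → h * s = s * h := by
  obtain ⟨n, D, i1, i2, i3, φ, ι, ζ, z, hz, h1, h2, h3, h4, h5, h6, h7, h8, h9, h10, h11⟩ :=
    exists_comp_Al hpK hQ hne
  have e1 : ∀ M, ι M * ι 1 = ι M := fun M => by rw [← h4, mul_one]
  have e2 : ∀ M, ι 1 * ι M = ι M := fun M => by rw [← h4, one_mul]
  let Λ : GL (Fin n) D →* Module.End K V :=
    { toFun := fun u => ((ι u.1 + (1 - ι 1) : Al Q) : Module.End K V)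
      map_one' := by
        rw [Units.val_one, add_sub_cancel]
        rfl
      map_mul' := by
        intro u w
        rw [← Subalgebra.coe_mul]
        congr 1
        rw [Units.val_mul, h4, add_mul, mul_add, mul_add, mul_sub, mul_one, e1, sub_self,
          sub_mul, one_mul, e2, sub_self, mul_sub, mul_one, sub_mul, one_mul, e1, sub_self,
          sub_zero, add_zero, zero_add] }
  have hΛ : Function.Injective Λ := by
    intro u w h
    have h12 : (ι u.1 + (1 - ι 1) : Al Q) = ι w.1 + (1 - ι 1) := Subtype.ext h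
    have h13 := congrArg φ (add_right_cancel h12)
    rw [h3, h3] at h13
    exact Units.ext h13
  obtain ⟨S, hS, hc, hSΛ⟩ := exists_S h1 (dvd_card_sub_one h9 h10) Λ hΛ
  refine ⟨S, hS, hc, fun s hs h hh => ?_⟩
  obtain ⟨u, hu⟩ := hSΛ s hs
  apply lm_inj
  rw [lm_mul, lm_mul]
  change lm h * (s.1 : V →ₗ[K] V) = (s.1 : V →ₗ[K] V) * lm h
  rw [hu]
  exact comm_Al (h := lm h) (fun q hq => by rw [← lm_mul, ← lm_mul, hh q hq]) _
    (ι u.1 + (1 - ι 1) : Al Q).2

end Lin

end Vale.Agent.P180.R2.H47.Bm
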