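import Vale.Agent.P180.R2.H47.Bm3
import Vale.Agent.P180.R2.H954.G1
import Vale.Agent.P180.R2.H799.Jb

/-!
P180: the defect group of a block of a central quotient of a special linear group is abelian if its
order is less than `p ^ p`.
-/

set_option linter.all false

namespace Vale.Agent.P180.R2.H47.Bm

open Vale.Agent.P180 Vale.Agent.P180.H768.Gd Vale.Agent.P180.R2.H799 Vale.Agent.P180.R2.H954

section Gen

variable {k : Type*} [Field k] {p : ℕ} [hp : Fact p.Prime] [CharP k p] {G : Type} [Group G]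
  [Finite G] {L R : Subgroup G} {X : Type} [Group X] [Finite X] {π : X →* L}

omit [Finite X] in
/-- an element of `p`-power order in a central subgroup of order prime to `p` -/
theorem eq_one_of_ker {X' : Type} [Group X'] [Finite X] {π : X →* X'} (hkp : ¬ p ∣ Nat.card π.ker)
    {t : X} (ht : π t = 1) {j : ℕ} (hj : t ^ p ^ j = 1) : t = 1 := by
  by_contra hne
  obtain ⟨i, -, hi⟩ := (Nat.dvd_prime_pow hp.out).mp (orderOf_dvd_of_pow_eq_one hj)
  rcases i with _ | i
  · rw [pow_zero, orderOf_eq_one_iff] at hi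
    exact hne hi
  · apply hkp
    have h1 : orderOf (⟨t, MonoidHom.mem_ker.mpr ht⟩ : π.ker) ∣ Nat.card π.ker :=
      orderOf_dvd_natCard _
    rw [Subgroup.orderOf_mk, hi] at h1
    exact (Dvd.intro_left (p ^ i) (by rw [← pow_succ])).trans h1

/-- `p`-subgroups of the double centraliser of the lift of `L ∩ R` -/
theorem card_le_big (hπ : Function.Surjective π) (hk : ∀ x, π x = 1 → ∀ y, x * y = y * x)
    (hkp : ¬ p ∣ Nat.card π.ker) {e z : MonoidAlgebra k G} (heL : e ∈ SubAlg k L)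
    (hbr : br R e ≠ 0) (hzF : z ∈ Fix (cj k G) (L ⊓ R)) (hez : e = tr (cj k G) (L ⊓ R) L z)
    {Q : Subgroup X} (hQp : IsPGroup p Q) (hQR : Q.map π = R.subgroupOf L) {S : Subgroup X}
    (hS : IsPGroup p S) (hSc : ∀ s ∈ S, ∀ h, (∀ q ∈ Q, h * q = q * h) → h * s = s * h) :
    Nat.card S ≤ Nat.card (L ⊓ R : Subgroup G) := by
  obtain ⟨c, hc, hec⟩ := exists_coeff_of_br hbr
  have hcL : c ∈ L := by
    by_contra h
    exact h (heL c hec)
  obtain ⟨g, hg⟩ := hπ ⟨c, hcL⟩
  have hgQ : ∀ q ∈ Q, g * q = q * g := by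
    intro q hq
    have hqR : (π q : G) ∈ R := by
      have h1 : π q ∈ R.subgroupOf L := hQR ▸ ⟨q, hq, rfl⟩
      exact h1
    have h2 : π (g * q * g⁻¹ * q⁻¹) = 1 := by
      rw [map_mul, map_mul, map_mul, map_inv, map_inv, hg]
      apply Subtype.ext
      change c * (π q : G) * c⁻¹ * (π q : G)⁻¹ = 1
      have h3 := hc _ hqR
      have h4 : (π q : G) * c = c * (π q : G) := by
        rw [mul_inv_eq_iff_eq_mul] at h3
        exact h3
      rw [← h4]
      group
    obtain ⟨t, ht⟩ : ∃ t, t = g * q * g⁻¹ * q⁻¹ := ⟨_, rfl⟩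
    rw [← ht] at h2
    have h5 : g * q * g⁻¹ = t * q := by rw [ht]; group
    obtain ⟨j, hj⟩ := hQp ⟨q, hq⟩
    have hj' : q ^ p ^ j = 1 := congrArg Subtype.val hj
    have h6 : t ^ p ^ j = 1 := by
      have h7 : (t * q) ^ p ^ j = 1 := by
        rw [← h5, conj_pow, hj', mul_one, mul_inv_cancel]
      have h8 : Commute t q := hk t h2 q
      rw [h8.mul_pow, hj', mul_one] at h7
      exact h7
    have h7 := eq_one_of_ker hkp h2 h6
    rw [h7, one_mul] at h5
    calc g * q = g * q * g⁻¹ * g := by group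
      _ = q * g := by rw [h5]
  have hcard : Nat.card ((S.map π).map L.subtype) = Nat.card S := by
    rw [Nat.card_congr ((S.map π).equivMapOfInjective _ L.subtype_injective).symm.toEquiv]
    refine (Nat.card_congr (Equiv.ofBijective (fun s : S => (⟨π s.1, s.1, s.2, rfl⟩ : S.map π))
      ⟨fun s s' h => ?_, ?_⟩)).symm
    · have h1 : π s.1 = π s'.1 := congrArg Subtype.val h
      obtain ⟨j, hj⟩ := hS (s * s'⁻¹)
      have h2 : (s * s'⁻¹ : S).1 = 1 := by
        refine eq_one_of_ker hkp (j := j) ?_ (congrArg Subtype.val hj)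
        change π (s.1 * s'.1⁻¹) = 1
        rw [map_mul, map_inv, h1, mul_inv_cancel]
      exact Subtype.ext (mul_inv_eq_one.mp h2)
    · rintro ⟨_, s, hs, rfl⟩
      exact ⟨⟨s, hs⟩, rfl⟩
  rw [← hcard]
  refine card_le_of_coeff inf_le_left (Subgroup.map_subtype_le _) ((hS.map π).map _) hzF hez
    (c := c) ?_ hec
  rintro _ ⟨_, ⟨s, hs, rfl⟩, rfl⟩
  have h1 := hSc s hs g hgQ
  have h2 : c * (π s : G) = (π s : G) * c := by
    have h3 := congrArg (fun x : X => ((π x : L) : G)) h1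
    simp only [map_mul, hg] at h3
    exact h3
  change (π s : G) * c * (π s : G)⁻¹ = c
  rw [← h2, mul_inv_cancel_right]

/-- commutativity of `L ∩ R` from the commutativity of its lift -/
theorem comm_of_lift {Q : Subgroup X} (hQR : Q.map π = R.subgroupOf L)
    (h : ∀ x ∈ Q, ∀ y ∈ Q, x * y = y * x) :
    ∀ x ∈ R, x ∈ L → ∀ y ∈ R, y ∈ L → x * y = y * x := by
  intro x hx hxL y hy hyL
  obtain ⟨a, ha, hax⟩ : (⟨x, hxL⟩ : L) ∈ Q.map π := hQR ▸ hx
  obtain ⟨b, hb, hby⟩ : (⟨y, hyL⟩ : L) ∈ Q.map π := hQR ▸ hy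
  have h1 := congrArg (fun t : X => ((π t : L) : G)) (h a ha b hb)
  simp only [map_mul, hax, hby] at h1
  exact h1

end Gen

end Vale.Agent.P180.R2.H47.Bm
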