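import Vale.Agent.P180.R2.H47.Bm5
import Vale.Agent.P180.R2.H471.Au14

/-!
P180: the corner property of central quotients of special linear groups for defect groups of order
less than `p ^ p`: reduction to the case that the intersection with the component is abelian.
-/

set_option linter.all false

namespace Vale.Agent.P180.R2.H47.Bm

open Vale.Agent.P180 Vale.Agent.P180.H768.Gd Vale.Agent.P180.R2.H799 Vale.Agent.P180.R2.H954
open Vale.Agent.P180.R2.H365 Module
open Vale.Agent.P180.R2.H471.Au (not_dvd_ker)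

universe u

/-- `p` is not zero in `K` -/
theorem cast_ne_zero {K : Type} [Field K] [Finite K] {p : ℕ} (hp : p.Prime)
    (hpK : ¬ p ∣ Nat.card K) : (p : K) ≠ 0 := by
  intro h0
  apply hpK
  haveI : CharP K p := (CharP.charP_iff_prime_eq_zero hp).mpr h0
  haveI := Fintype.ofFinite K
  obtain ⟨n, -, hn⟩ := FiniteField.card K p
  rw [Nat.card_eq_fintype_card, hn]
  exact dvd_pow_self p n.ne_zero

/-- the data of `CorP` -/
theorem corP_of_data {k : Type u} [Field k] {p C : ℕ} {G : Type} [Group G] [Finite G]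
    {b : MonoidAlgebra k G} {D L : Subgroup G}
    (h : ∀ R ≤ D, (∀ x ∈ R, ∀ s ∈ L, x * s * x⁻¹ ∈ L) → (∃ e : MonoidAlgebra k G, e ∈ SubAlg k L ∧
      br R e ≠ 0 ∧ ∃ z, z ∈ Fix (cj k G) (L ⊓ R) ∧ e = tr (cj k G) (L ⊓ R) L z) →
      CorP p C b R L) : CorP p C b D L := by
  rintro R hRD hn e he heR hbr ⟨z, hz, hzF, hez⟩ h2
  exact h R hRD hn ⟨e, he.block.mem.1, hbr, z, hzF, hez⟩ R le_rfl hn e he heR hbr
    ⟨z, hz, hzF, hez⟩ h2

/-- **Small defect groups**, special linear groups. -/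
theorem corP_small_sl {k : Type u} [Field k] {p C : ℕ} [hp : Fact p.Prime] [CharP k p]
    {G : Type} [Group G] [Finite G] {b : MonoidAlgebra k G} {D L : Subgroup G} (hD : IsPGroup p D)
    (hDs : Nat.card (L ⊓ D : Subgroup G) < p ^ p) {K : Type} [Field K] [Finite K] {d : ℕ}
    {π : SpecialLinearGroup K (Fin d → K) →* L} (hpK : ¬ p ∣ Nat.card K)
    (hcop : ¬ (p ∣ d ∧ p ∣ Nat.card K - 1)) (hπ : Function.Surjective π)
    (hk : π.ker ≤ Subgroup.center _)
    (h : ∀ R ≤ D, (∀ x ∈ R, x ∈ L → ∀ y ∈ R, y ∈ L → x * y = y * x) → CorP p C b R L) :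
    CorP p C b D L := by
  refine corP_of_data fun R hRD hn => ?_
  rintro ⟨e, heL, hbr, z, hzF, hez⟩
  refine h R hRD ?_
  haveI : Finite (SpecialLinearGroup K (Fin d → K)) := BN.finite_sl
  have hR : IsPGroup p R := hD.to_le hRD
  obtain ⟨Q, hQp, hQR⟩ : ∃ Q : Subgroup (SpecialLinearGroup K (Fin d → K)), IsPGroup p Q ∧
      Q.map π = R.subgroupOf L := BN.exists_lift (p := p) π hπ
    (hR.comap_of_injective L.subtype L.subtype_injective : IsPGroup p (R.subgroupOf L))
  apply comm_of_lift hQR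
  by_contra hne
  obtain ⟨S, hS, hSc, hSQ⟩ := exists_big (cast_ne_zero hp.out hpK) hQp hne
  have h1 := card_le_big hπ (fun x hx y =>
    (Subgroup.mem_center_iff.mp (hk (MonoidHom.mem_ker.mpr hx)) y).symm)
    (not_dvd_ker hcop hk) heL hbr hzF hez hQp hQR hS hSQ
  have h2 : Nat.card (L ⊓ R : Subgroup G) ≤ Nat.card (L ⊓ D : Subgroup G) :=
    Nat.card_le_card_of_injective _ (Subgroup.inclusion_injective (inf_le_inf_left L hRD))
  omega

end Vale.Agent.P180.R2.H47.Bm
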