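import Vale.Agent.P180.R2.H47.Bm6
import Vale.Agent.P180.R2.H47.Bm4
import Vale.Agent.P180.R2.H854.TD4
import Vale.Agent.P180.R2.H954.Hf8

/-!
P180: the corner property of quotients of isometry groups for defect groups of order less than
`p ^ p`: reduction to the case that the intersection with the component is abelian.
-/

set_option linter.all false

namespace Vale.Agent.P180.R2.H47.Bm

open Vale.Agent.P180 Vale.Agent.P180.H768.Gd Vale.Agent.P180.R2.H799 Vale.Agent.P180.R2.H954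
open Vale.Agent.P180.R2.H365 Vale.Agent.P180.R2.H854 Module
open Vale.Agent.P180.R2.H954.Hc (odd_of_lin)
open Vale.Agent.P180.R2.H854.TD (ker_coprime_lin)

universe u

/-- elements of odd order in a subgroup of index at most two -/
theorem mem_of_odd {M : Type*} [Group M] {X I : Subgroup M} (hXI : X ≤ I)
    (hX2 : X.relIndex I ∣ 2) {s : M} (hs : s ∈ I) {m : ℕ} (hm : Odd m) (h : s ^ m = 1) : s ∈ X := by
  have h2 : s * s ∈ X := by
    rcases (Nat.dvd_prime Nat.prime_two).mp hX2 with h1 | h1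
    · have h3 : s ∈ X := Subgroup.relIndex_eq_one.mp h1 hs
      exact X.mul_mem h3 h3
    · have h3 : (X.subgroupOf I).index = 2 := h1
      have h4 := Subgroup.mul_self_mem_of_index_two h3 ⟨s, hs⟩
      exact h4
  obtain ⟨j, hj⟩ := hm
  have h3 : s = ((s * s) ^ j)⁻¹ := by
    rw [eq_inv_iff_mul_eq_one, ← pow_two, ← pow_mul, ← pow_succ', ← hj, h]
  rw [h3]
  exact X.inv_mem (X.pow_mem h2 j)

/-- **Small defect groups**, isometry groups. -/
theorem corP_small_iso {k : Type u} [Field k] {p C : ℕ} [hp : Fact p.Prime] [CharP k p]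
    {G : Type} [Group G] [Finite G] {b : MonoidAlgebra k G} {D L : Subgroup G} (hD : IsPGroup p D)
    (hDs : Nat.card (L ⊓ D : Subgroup G) < p ^ p) {K : Type} [Field K] [Finite K] {d : ℕ}
    {Φ : HForm K (Fin d → K)} {X : Subgroup (SpecialLinearGroup K (Fin d → K))}
    {π : X →* L} (hpK : ¬ p ∣ Nat.card K)
    (hlin : ∀ j : ℕ, (∀ c : K, Φ.θ c = c ^ (ringChar K ^ j)) → ¬ p ∣ ringChar K ^ j + 1)
    (hXI : X ≤ Φ.Iso) (hX2 : X.relIndex Φ.Iso ∣ 2) (hπ : Function.Surjective π)
    (hk : π.ker.map X.subtype ≤ Subgroup.center (SpecialLinearGroup K (Fin d → K)))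
    (h : ∀ R ≤ D, (∀ x ∈ R, x ∈ L → ∀ y ∈ R, y ∈ L → x * y = y * x) → CorP p C b R L) :
    CorP p C b D L := by
  have hp2 : Odd p := odd_of_lin hp.out hpK Φ.θ hlin
  refine corP_of_data fun R hRD hn => ?_
  rintro ⟨e, heL, hbr, z, hzF, hez⟩
  refine h R hRD ?_
  haveI : Finite (SpecialLinearGroup K (Fin d → K)) := BN.finite_sl
  have hR : IsPGroup p R := hD.to_le hRD
  obtain ⟨Q, hQp, hQR⟩ : ∃ Q : Subgroup X, IsPGroup p Q ∧
      Q.map π = R.subgroupOf L := BN.exists_lift (p := p) π hπ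
    (hR.comap_of_injective L.subtype L.subtype_injective : IsPGroup p (R.subgroupOf L))
  apply comm_of_lift hQR
  by_contra hne
  have hkc : ∀ x, π x = 1 → ∀ y, x * y = y * x := by
    intro x hx y
    have h1 : (x : SpecialLinearGroup K (Fin d → K)) ∈ Subgroup.center _ :=
      hk ⟨x, MonoidHom.mem_ker.mpr hx, rfl⟩
    exact Subtype.ext (Subgroup.mem_center_iff.mp h1 y.1).symm
  have hkp : ¬ p ∣ Nat.card π.ker := ker_coprime_lin hpK hlin hXI hk
  obtain ⟨S, hS, hSI, hSc, hSQ⟩ := exists_big_iso (cast_ne_zero hp.out hpK) hlin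
    (Q := Q.map X.subtype) (hQp.map _) (by
      rintro _ ⟨x, -, rfl⟩
      exact hXI x.2) (by
      intro h1
      apply hne
      intro x hx y hy
      exact Subtype.ext (h1 x.1 ⟨x, hx, rfl⟩ y.1 ⟨y, hy, rfl⟩))
  have hSX : S ≤ X := by
    intro s hs
    obtain ⟨j, hj⟩ := hS ⟨s, hs⟩
    exact mem_of_odd hXI hX2 (hSI hs) (hp2.pow) (congrArg Subtype.val hj)
  have hS' : IsPGroup p (S.subgroupOf X) := hS.comap_of_injective X.subtype X.subtype_injective
  have h1 := card_le_big hπ hkc hkp heL hbr hzF hez hQp hQR hS' (by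
    intro s hs g hg
    refine Subtype.ext (hSQ s.1 (Subgroup.mem_subgroupOf.mp hs) g.1 ?_)
    rintro _ ⟨q, hq, rfl⟩
    exact congrArg Subtype.val (hg q hq))
  have h2 : Nat.card (L ⊓ R : Subgroup G) ≤ Nat.card (L ⊓ D : Subgroup G) :=
    Nat.card_le_card_of_injective _ (Subgroup.inclusion_injective (inf_le_inf_left L hRD))
  have h3 : Nat.card (S.subgroupOf X) = Nat.card S :=
    Nat.card_congr (Subgroup.subgroupOfEquivOfLe hSX).toEquiv
  omega

end Vale.Agent.P180.R2.H47.Bm
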