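import Vale.Agent.P180.R2.H47.Bm7
import Vale.Agent.P180.R2.H365.Def0

/-!
P180: the corner property of quotients of isometry groups for defect groups of order less than
`p ^ p`, forms as in `FormOn`.
-/

set_option linter.all false

namespace Vale.Agent.P180.R2.H47.Bm

open Vale.Agent.P180 Vale.Agent.P180.H768.Gd Vale.Agent.P180.R2.H799 Vale.Agent.P180.R2.H954
open Vale.Agent.P180.R2.H365 Vale.Agent.P180.R2.H854 Module

universe u

/-- a subgroup of index at most two -/
theorem relIndex_two {H : Type} [Group H] {X Y : Subgroup H}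
    (h : ∀ g ∈ Y, ∀ g' ∈ Y, g ∉ X → g' ∉ X → g * g' ∈ X) : X.relIndex Y ∣ 2 := by
  by_cases hY : Y ≤ X
  · rw [Subgroup.relIndex_eq_one.mpr hY]
    exact one_dvd 2
  · obtain ⟨a, haY, haX⟩ := SetLike.not_le_iff_exists.mp hY
    have : X.relIndex Y = 2 := by
      rw [Subgroup.relIndex_eq_two_iff]
      refine ⟨a, haY, fun b hb => ?_⟩
      by_cases hbX : b ∈ X
      · refine Or.inr ⟨hbX, fun hba => haX ?_⟩
        have h1 := X.mul_mem (X.inv_mem hbX) hba
        rwa [inv_mul_cancel_left] at h1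
      · exact Or.inl ⟨h b hb a haY hbX haX, hbX⟩
    rw [this]

/-- **Small defect groups**, isometry groups of forms as in `FormOn`. -/
theorem corP_small_form {k : Type u} [Field k] {p C : ℕ} [hp : Fact p.Prime] [CharP k p]
    {G : Type} [Group G] [Finite G] {b : MonoidAlgebra k G} {D L : Subgroup G} (hD : IsPGroup p D)
    (hDs : Nat.card (L ⊓ D : Subgroup G) < p ^ p) {K : Type} [Field K] [Finite K] {d : ℕ} {θ : K →+* K} {ε : K}
    {B : (Fin d → K) → (Fin d → K) → K} {X : Subgroup (SpecialLinearGroup K (Fin d → K))}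
    {π : X →* L} (hpK : ¬ p ∣ Nat.card K) (hlin : LinPr p θ) (hB : FormOn B θ ε) (hX : IsoOn B X)
    (hπ : Function.Surjective π)
    (hcen : ∀ x : X, π x ∈ Subgroup.center L → x.1 ∈ Subgroup.center _)
    (h : ∀ R ≤ D, (∀ x ∈ R, x ∈ L → ∀ y ∈ R, y ∈ L → x * y = y * x) → CorP p C b R L) :
    CorP p C b D L := by
  obtain ⟨f1, f2, f3, f4, f5, f6⟩ := hB
  let Φ : HForm K (Fin d → K) :=
    { B := B, θ := θ, ε := ε, add_left := f1, smul_left := f2, θθ := f3, εε := f4, symm := f5,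
      nondeg := f6 }
  have hXI : X ≤ Φ.Iso := hX.1
  have hX2 : X.relIndex Φ.Iso ∣ 2 :=
    relIndex_two fun g hg g' hg' hgX hgX' => hX.2.1 g g' hgX hgX' hg hg'
  refine corP_small_iso (Φ := Φ) (π := π) hD hDs hpK hlin hXI hX2 hπ ?_ h
  rintro _ ⟨x, hx, rfl⟩
  exact hcen x (by
    rw [MonoidHom.mem_ker.mp hx]
    exact Subgroup.one_mem _)

end Vale.Agent.P180.R2.H47.Bm
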