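import Vale.Agent.P180.R2.H47.PjEq
import Vale.Agent.P180.R2.H954.CycCor
import Vale.Agent.P180.R2.H259.Cyc.Final

set_option linter.all false

/-!
P180: the corner property of the factors with cyclic intersection with the defect group.
-/

namespace Vale.Agent.P180.R2.H47

open Vale.Agent.P180 Vale.Agent.P180.H768.Gd
open Vale.Agent.P180.R2.H954 (Below Cor)
open Vale.Agent.P180.H768 hiding pull mem_pull exists_factor Lay mk_mem comm_mem
open Subgroup (mem_centralizer_iff mem_sup_left mem_sup_right mul_mem_sup centralizer normalizer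
  mem_normalizer_iff)

universe u

variable {k : Type u} [Field k] [IsAlgClosed k] {p : ℕ} [Fact p.Prime] [CharP k p]

theorem corCyc (n : ℕ) : CorCyc k p n (H259.Cyc.cycB p n) := by
  intro G _ _ S D R b e hD hDn hcyc hout hcen hRD hRS hbel heF hbr hz1 hz2
  have hR : IsPGroup p R := hD.to_le hRD
  obtain ⟨z, hz, hzF, hez⟩ := hz1
  refine H954.cor_of_corner hR ?_ hbel.block hbr hz hzF hez ?_
  · intro r hr
    have hrN : r ∈ normalizer (S : Set G) := by
      rw [mem_normalizer_iff]
      intro s
      constructor
      · exact hRS r hr s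
      · intro hs
        have h1 := hRS r⁻¹ (R.inv_mem hr) _ hs
        have e1 : r⁻¹ * (r * s * r⁻¹) * r⁻¹⁻¹ = s := by group
        rwa [e1] at h1
    obtain ⟨l, hl⟩ := hR ⟨r, hr⟩
    have h1 := mem_sup_cent hout hrN (l := l) (congrArg Subtype.val hl)
    obtain ⟨s, hs, c, hc, h⟩ := Vale.Agent.P180.mem_sup_of_commute
      (fun s hs c hc => mem_centralizer_iff.mp hc s hs) h1
    exact ⟨s, hs, c, hc, h.symm⟩
  · intro e' a' i he' ha' hea' hi hei hbri
    have hQ : IsPGroup p (R.subgroupOf S) := hR.comap_of_injective S.subtype S.subtype_injective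
    have hle : ∀ x : R.subgroupOf S, ((x : S) : G) ∈ Pj D S := fun x =>
      inf_le_Pj D S ⟨hRD x.2, (x : S).2⟩
    have hQc : IsCyclic (R.subgroupOf S) := by
      let f : R.subgroupOf S →* Pj D S :=
        { toFun := fun x => ⟨((x : S) : G), hle x⟩
          map_one' := rfl
          map_mul' := fun x y => rfl }
      refine isCyclic_of_injective f ?_
      intro x y hxy
      have h1 : ((x : S) : G) = ((y : S) : G) := congrArg (fun z : Pj D S => (z : G)) hxy
      exact Subtype.ext (Subtype.ext h1)
    refine (H259.Cyc.cyclic_corner hQ hQc he' ha' hea' hi hei hbri).trans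
      (H259.Cyc.cycB_mono ?_)
    refine le_trans ?_ hDn
    refine Nat.card_le_card_of_injective (fun x : R.subgroupOf S => (⟨((x : S) : G), hRD x.2⟩ : D)) ?_
    intro x y hxy
    exact Subtype.ext (Subtype.ext (congrArg (fun z : D => (z : G)) hxy))

open Vale.Agent.P180.R2.H471 (QA)

/-- **The local theorem** for alternating factors and factors with cyclic intersection. -/
theorem locK (n β M : ℕ) :
    LocK (KK QA p M) k p n β (LK n β (H259.Cyc.cycB p n)) := locK_KK (corCyc n)

end Vale.Agent.P180.R2.H47
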