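import Vale.Agent.P180.R2.H47.RedC
import Vale.Agent.P180.R2.H365.Fin6
import Vale.Agent.P180.R2.H954.G1

set_option linter.all false

/-!
P180: the final assembly for groups satisfying a condition inherited in the reductions, none of
whose components are exceptional.
-/

namespace Vale.Agent.P180.R2.H47

open IsLocalRing
open Vale.Agent.P180 Vale.Agent.P180.H768.Gd Vale.Agent.P180.R2.H259 Vale.Agent.P180.R2.H365
open Vale.Agent.P180.I (EO rd Lf isBlock_rd isBlockR_of_lf exists_trace_rd isBlockR_iff exists_lf)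
open Vale.Agent.P180.H768 hiding pull mem_pull exists_factor Lay mk_mem comm_mem

open scoped Nat

universe u

variable {Exc : ∀ (k : Type u) [Field k] (G : Type) [Group G] [Finite G],
    MonoidAlgebra k G → Subgroup G → Subgroup G → Prop}
  {Λ : ∀ (k : Type u) [Field k] (G : Type) [Group G] [Finite G], MonoidAlgebra k G → Prop}
  {𝒞 : ∀ (G : Type) [Group G], Subgroup G → Prop}
  {p n : ℕ} [Fact p.Prime]

theorem finalC (hU : Uni.{u} p Λ)
    (hloc : ∀ (k : Type u) [Field k] [IsAlgClosed k] [CharP k p], LocL Exc Λ k p n)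
    (hC : Ctr p 𝒞)
    (hno : ∀ (k : Type u) [Field k] [IsAlgClosed k] [CharP k p] (G : Type) [Group G] [Finite G]
      (b : MonoidAlgebra k G) (D L : Subgroup G), IsPGroup p D → Nat.card D ≤ n → 𝒞 G D →
      IsComponent L →
      p ∣ Nat.card (L ⧸ Subgroup.center L) →
      (∃ x ∈ D, x ∈ L ∧ ¬ ∀ y ∈ L, x * y = y * x) → ¬ Exc k G b D L) :
    ∃ (r : ℕ) (H : Fin r → Type) (_ : ∀ i, Group (H i)) (_ : ∀ i, Finite (H i)),
      (∀ (k : Type u) [Field k] [IsAlgClosed k] [CharP k p],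
        ∃ (c : ∀ i, MonoidAlgebra k (H i)) (hc : ∀ i, IsBlockR (c i)),
          ∀ (G : Type) [Group G] [Finite G] (b : MonoidAlgebra k G) (hb : IsBlockR b)
            (D : Subgroup G), IsDefectGroupR b D → Nat.card D ≤ n →
            (∀ (P : Subgroup G) (a : MonoidAlgebra k G), P ≤ D → IsPGroup p P →
              a ∈ Fix (cj k G) P → b = tr (cj k G) P ⊤ a → br P b ≠ 0 → 𝒞 G P) →
            ∃ i, IsMoritaEquivalent k hb.Alg (hc i).Alg) ∧
      (∀ (O : Type u) [CommRing O] [IsDomain O] [IsDiscreteValuationRing O]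
        [IsAdicComplete (maximalIdeal O) O] [IsAlgClosed (ResidueField O)]
        [CharP (ResidueField O) p],
        ∃ (C : ∀ i, MonoidAlgebra O (H i)) (hC : ∀ i, IsBlockR (C i)),
          ∀ (G : Type) [Group G] [Finite G] (B : MonoidAlgebra O G) (hB : IsBlockR B)
            (D : Subgroup G),
            (IsDefectGroupR B D ∨
              IsDefectGroupR (MonoidAlgebra.mapRingHom G (residue O) B) D) → Nat.card D ≤ n →
            (∀ (P : Subgroup G) (a : MonoidAlgebra (ResidueField O) G), P ≤ D → IsPGroup p P →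
              a ∈ Fix (cj (ResidueField O) G) P → (rd B) = tr (cj (ResidueField O) G) P ⊤ a →
              br P (rd B) ≠ 0 → 𝒞 G P) →
            ∃ i, IsMoritaEquivalent O hB.Alg (hC i).Alg) := by
  obtain ⟨r, H, iG, iF, h1, h2⟩ := hU
  have hkey : ∀ (k : Type u) [Field k] [IsAlgClosed k] [CharP k p] (G : Type) [Group G] [Finite G]
      (Z D : Subgroup G) (a b : MonoidAlgebra k G), Rs p n Z D a b → 𝒞 G D → STab b →
      NRed p Z ⊤ b → Λ k G b := by
    intro k _ _ _ G _ _ Z D a b hs hCD hST hNR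
    obtain ⟨D', hD', hDD'⟩ := exists_defect hs.hb hs.ha hs.hba
    obtain ⟨a', ha', hba'⟩ := exists_trace hs.hb (hs.hb.isSummand hDD'.prop)
    have hs' : Rs p n Z D' a' b :=
      { Dp := hs.Dp.to_le hD'
        Zc := hs.Zc
        Zp := hs.Zp
        hb := hs.hb
        ha := ha'
        hba := hba'
        Dn := (Nat.card_le_card_of_injective _ (Subgroup.inclusion_injective hD')).trans hs.Dn }
    rcases hloc k G Z D' a' b hs' hST hNR hDD' with ⟨L, hL, hp, hr, hE⟩ | hΛ
    · exact absurd hE (hno k G b D' L hs'.Dp hs'.Dn (hC.mono hD' hCD) hL hp hr)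
    · exact hΛ
  refine ⟨r, H, iG, iF, ?_, ?_⟩
  · intro k _ _ _
    obtain ⟨c, hc, h⟩ := h1 k
    refine ⟨c, hc, ?_⟩
    intro G _ _ b hb D hD hn hCX
    have hb' : IsBlock b := isBlockR_iff.mp hb
    obtain ⟨a, ha, hba⟩ := exists_trace hb' (hb'.isSummand hD.prop)
    obtain ⟨P₁, hP₁D, hP₁, a₁, ha₁, hba₁⟩ := exists_sylow_trace (p := p) ha hba
    obtain ⟨P, hPP₁, a', ha', hba', c₀, hc₀, hbc₀⟩ :=
      H768.Gd.exists_min_defect (isBlock_iff.mp hb') ha₁ hba₁
    have hPD : P ≤ D := hPP₁.trans hP₁D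
    have hP : IsPGroup p P := hP₁.to_le hPP₁
    have hCP := hCX P a' hPD hP ha' hba' (H954.br_ne_zero_of_coeff hc₀ hbc₀)
    have hPn : Nat.card P ≤ n :=
      (Nat.card_le_card_of_injective _ (Subgroup.inclusion_injective hPD)).trans hn
    have hclo := clo_field k p H c (fun j => isBlockR_iff.mp (hc j))
    refine reduce_ctr (n := n) hC hclo ?_ G P hP hPn a' b hb' ha' hba' hCP hb'
    intro G _ _ Z D a b hs hCD hST hNR hb0
    exact h G b (isBlockR_iff.mpr hb0) (hkey k G Z D a b hs hCD hST hNR)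
  · intro O _ _ _ _ _ _
    obtain ⟨c, hc, h⟩ := h2 O
    refine ⟨c, hc, ?_⟩
    intro G _ _ B hB D hD hn hCX
    obtain ⟨hb', hlf⟩ := isBlock_rd hB
    obtain ⟨a, ha, hba⟩ : ∃ a ∈ Fix (cj (ResidueField O) G) D,
        rd B = tr (cj (ResidueField O) G) D ⊤ a := by
      rcases hD with h | h
      · exact exists_trace_rd hB h.prop
      · exact exists_trace hb' (hb'.isSummand h.prop)
    obtain ⟨P₁, hP₁D, hP₁, a₁, ha₁, hba₁⟩ := exists_sylow_trace (p := p) ha hba
    obtain ⟨P, hPP₁, a', ha', hba', c₀, hc₀, hbc₀⟩ :=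
      H768.Gd.exists_min_defect (isBlock_iff.mp hb') ha₁ hba₁
    have hPD : P ≤ D := hPP₁.trans hP₁D
    have hP : IsPGroup p P := hP₁.to_le hPP₁
    have hCP := hCX P a' hPD hP ha' hba' (H954.br_ne_zero_of_coeff hc₀ hbc₀)
    have hPn : Nat.card P ≤ n :=
      (Nat.card_le_card_of_injective _ (Subgroup.inclusion_injective hPD)).trans hn
    have hclo := clo_integral O p H (fun j => rd (c j))
    obtain ⟨j, B', C', hB', hC', hM⟩ := reduce_ctr (n := n) hC hclo (by
      intro G _ _ Z D a b hs hCD hST hNR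
      have hbB := isBlock_iff.mp hs.hb
      obtain ⟨B₁, hB₁⟩ := exists_lf (O := O) (b := b)
        (fun x => commute_of_mem (SubAlg_top x) hbB.mem.2) hs.hb.idem
      have hB₁R : IsBlockR B₁ := isBlockR_of_lf hs.hb hB₁
      have hrd : rd B₁ = b := hB₁.rd_eq
      obtain ⟨t, ht'⟩ := h G B₁ hB₁R (by
        have h4 : MonoidAlgebra.mapRingHom G (residue O) B₁ = b := hrd
        rw [h4]
        exact hkey (ResidueField O) G Z D a b hs hCD hST hNR)
      exact ⟨t, B₁, c t, hB₁, (isBlock_rd (hc t)).2, ht'⟩) G P hP hPn a' (rd B) hb' ha' hba' hCP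
    obtain rfl := hB'.unique hlf
    obtain rfl := hC'.unique (isBlock_rd (hc j)).2
    exact ⟨j, hM⟩

end Vale.Agent.P180.R2.H47
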