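import Vale.Agent.P180.R2.H47.CycK

set_option linter.all false

/-!
P180: the final assembly with a condition on the simple factors.
-/

namespace Vale.Agent.P180.R2.H47

open IsLocalRing
open Vale.Agent.P180 Vale.Agent.P180.H768.Gd Vale.Agent.P180.R2.H259
open Vale.Agent.P180.I (EO rd Lf isBlock_rd isBlockR_of_lf exists_trace_rd isBlockR_iff exists_lf)
open Vale.Agent.P180.H768 hiding pull mem_pull exists_factor Lay mk_mem comm_mem

open scoped Nat

universe u

variable {K : ∀ (G : Type) [Group G], Subgroup G → Subgroup G → Prop}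
  {p n m : ℕ} [Fact p.Prime]

theorem finalK (hK : Adm K) {γ C : ℕ} (hγ : IndK K n γ) (hpm : p ≤ m)
    (hloc : ∀ (k : Type u) [Field k] [IsAlgClosed k] [CharP k p],
      LocK K k p n (bI n γ m) C) :
    ∃ (r : ℕ) (H : Fin r → Type) (_ : ∀ i, Group (H i)) (_ : ∀ i, Finite (H i)),
      (∀ (k : Type u) [Field k] [IsAlgClosed k] [CharP k p],
        ∃ (c : ∀ i, MonoidAlgebra k (H i)) (hc : ∀ i, IsBlockR (c i)),
          ∀ (G : Type) [Group G] [Finite G] (b : MonoidAlgebra k G) (hb : IsBlockR b)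
            (D : Subgroup G), IsDefectGroupR b D → Nat.card D ≤ n →
            ∀ (X : Subgroup G) [X.Normal], SSP QT X →
            (∀ (P : Subgroup G) (a : MonoidAlgebra k G), P ≤ D → IsPGroup p P →
              a ∈ Fix (cj k G) P → b = tr (cj k G) P ⊤ a → br P b ≠ 0 → K G X P) →
            ∀ (l : ℕ) (N : ℕ → Subgroup G)
            [∀ i, (N i).Normal], X ≤ N 0 → RC p n m X (N 0) → N l = ⊤ →
            (∀ i < l, N i ≤ N (i + 1)) →
            (∀ i < l, RC p n m (N i) (N (i + 1)) ∨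
              ∀ x ∈ D, x ∈ N (i + 1) → ∀ y ∈ N (i + 1), x * y * x⁻¹ * y⁻¹ ∈ N i) →
            ∃ i, IsMoritaEquivalent k hb.Alg (hc i).Alg) ∧
      (∀ (O : Type u) [CommRing O] [IsDomain O] [IsDiscreteValuationRing O]
        [IsAdicComplete (maximalIdeal O) O] [IsAlgClosed (ResidueField O)]
        [CharP (ResidueField O) p],
        ∃ (C : ∀ i, MonoidAlgebra O (H i)) (hC : ∀ i, IsBlockR (C i)),
          ∀ (G : Type) [Group G] [Finite G] (B : MonoidAlgebra O G) (hB : IsBlockR B)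
            (D : Subgroup G),
            (IsDefectGroupR B D ∨
              IsDefectGroupR (MonoidAlgebra.mapRingHom G (residue O) B) D) → Nat.card D ≤ n →
            ∀ (X : Subgroup G) [X.Normal], SSP QT X →
            (∀ (P : Subgroup G) (a : MonoidAlgebra (ResidueField O) G), P ≤ D → IsPGroup p P →
              a ∈ Fix (cj (ResidueField O) G) P → (rd B) = tr (cj (ResidueField O) G) P ⊤ a → br P (rd B) ≠ 0 → K G X P) →
            ∀ (l : ℕ) (N : ℕ → Subgroup G)
            [∀ i, (N i).Normal], X ≤ N 0 → RC p n m X (N 0) → N l = ⊤ →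
            (∀ i < l, N i ≤ N (i + 1)) →
            (∀ i < l, RC p n m (N i) (N (i + 1)) ∨
              ∀ x ∈ D, x ∈ N (i + 1) → ∀ y ∈ N (i + 1), x * y * x⁻¹ * y⁻¹ ∈ N i) →
            ∃ i, IsMoritaEquivalent O hB.Alg (hC i).Alg) := by
  obtain ⟨r, H, iG, iF, h1, h2⟩ := unif.{u} p (max n C)
  refine ⟨r, H, iG, iF, ?_, ?_⟩
  · intro k _ _ _
    obtain ⟨c, hc, h⟩ := h1 k
    refine ⟨c, hc, ?_⟩
    intro G _ _ b hb D hD hn X _ hX hKX l N _ h0 hRX hl hle hlay
    have hb' : IsBlock b := isBlockR_iff.mp hb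
    obtain ⟨a, ha, hba⟩ := exists_trace hb' (hb'.isSummand hD.prop)
    obtain ⟨P₁, hP₁D, hP₁, a₁, ha₁, hba₁⟩ := exists_sylow_trace (p := p) ha hba
    obtain ⟨P, hPP₁, a', ha', hba', c₀, hc₀, hbc₀⟩ :=
      H768.Gd.exists_min_defect (isBlock_iff.mp hb') ha₁ hba₁
    have hPD : P ≤ D := hPP₁.trans hP₁D
    have hP : IsPGroup p P := hP₁.to_le hPP₁
    have hKP := hKX P a' hPD hP ha' hba' (H954.br_ne_zero_of_coeff hc₀ hbc₀)
    have hPn : Nat.card P ≤ n :=
      (Nat.card_le_card_of_injective _ (Subgroup.inclusion_injective hPD)).trans hn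
    have hst : St QT p n m (2 * n + 2) (⊥ : Subgroup G) X X P a' b := by
      refine st_init hpm hb' hP ha' hba' hPn hX l N h0 hRX hl hle ?_
      intro i hi
      rcases hlay i hi with h | h
      · exact Or.inl h
      · right
        exact fun x hx => h x (hPD hx)
    have hclo := clo_field k p H c (fun j => isBlockR_iff.mp (hc j))
    refine mainK hK hclo hγ (2 * n + 2) m hpm ?_ G ⊥ X X P a' b hst hKP hb'
    intro G _ _ Z X D a b ht hKD hne hb0
    obtain ⟨R, i, hi, hR, hiR, hbi, hw, hfr⟩ := hloc k G Z X D a b ht hKD hne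
    obtain ⟨t, ht⟩ := h G b (isBlockR_iff.mpr hb0) R i hi (hR.trans (le_max_left _ _))
      (comm_of_fix hiR) hbi hw (hfr.trans (le_max_right _ _))
    exact ⟨t, ht⟩
  · intro O _ _ _ _ _ _
    obtain ⟨c, hc, h⟩ := h2 O
    refine ⟨c, hc, ?_⟩
    intro G _ _ B hB D hD hn X _ hX hKX l N _ h0 hRX hl hle hlay
    obtain ⟨hb', hlf⟩ := isBlock_rd hB
    obtain ⟨a, ha, hba⟩ : ∃ a ∈ Fix (cj (ResidueField O) G) D,
        rd B = tr (cj (ResidueField O) G) D ⊤ a := by
      rcases hD with h | h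
      · exact exists_trace_rd hB h.prop
      · exact exists_trace hb' (hb'.isSummand h.prop)
    obtain ⟨P₁, hP₁D, hP₁, a₁, ha₁, hba₁⟩ := exists_sylow_trace (p := p) ha hba
    obtain ⟨P, hPP₁, a', ha', hba', c₀, hc₀, hbc₀⟩ :=
      H768.Gd.exists_min_defect (isBlock_iff.mp hb') ha₁ hba₁
    have hPD : P ≤ D := hPP₁.trans hP₁D
    have hP : IsPGroup p P := hP₁.to_le hPP₁
    have hKP := hKX P a' hPD hP ha' hba' (H954.br_ne_zero_of_coeff hc₀ hbc₀)
    have hPn : Nat.card P ≤ n :=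
      (Nat.card_le_card_of_injective _ (Subgroup.inclusion_injective hPD)).trans hn
    have hst : St QT p n m (2 * n + 2) (⊥ : Subgroup G) X X P a' (rd B) := by
      refine st_init hpm hb' hP ha' hba' hPn hX l N h0 hRX hl hle ?_
      intro i hi
      rcases hlay i hi with h | h
      · exact Or.inl h
      · right
        exact fun x hx => h x (hPD hx)
    have hclo := clo_integral O p H (fun j => rd (c j))
    obtain ⟨j, B', C', hB', hC', hM⟩ := mainK hK hclo hγ (2 * n + 2) m hpm (by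
      intro G _ _ Z X D a b ht hKD hne
      have hbB := isBlock_iff.mp ht.hb
      obtain ⟨R, i, hi, hR, hiR, hbi, hw, hfr⟩ := hloc (ResidueField O) G Z X D a b ht hKD hne
      obtain ⟨B₁, hB₁⟩ := exists_lf (O := O) (b := b)
        (fun x => commute_of_mem (SubAlg_top x) hbB.mem.2) ht.hb.idem
      have hB₁R : IsBlockR B₁ := isBlockR_of_lf ht.hb hB₁
      have hrd : rd B₁ = b := hB₁.rd_eq
      obtain ⟨t, ht'⟩ := h G B₁ hB₁R R i hi (hR.trans (le_max_left _ _))
        (comm_of_fix hiR) (by rw [hrd]; exact hbi) (by rw [hrd]; exact hw)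
        (hfr.trans (le_max_right _ _))
      exact ⟨t, B₁, c t, hB₁, (isBlock_rd (hc t)).2, ht'⟩) G ⊥ X X P a' (rd B) hst hKP
    obtain rfl := hB'.unique hlf
    obtain rfl := hC'.unique (isBlock_rd (hc j)).2
    exact ⟨j, hM⟩

end Vale.Agent.P180.R2.H47
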