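import Vale.Agent.P180.R2.H365.Def6

/-!
P180: definitions, groups involved in a subgroup.
-/

namespace Vale.Agent.P180

universe u

/-- `T` is a section of the group `M`, that is, a quotient of a subgroup of `M`. -/
def Involved (T : Type) [Group T] {G : Type} [Group G] (M : Subgroup G) : Prop :=
  ∃ (K : Subgroup G) (f : K →* T), K ≤ M ∧ Function.Surjective f

/-- The component `L` is exceptional and `L / Z(L)` is a section of `M` (a subgroup of another
group). -/
def ExcI (Exc : ∀ (k : Type u) [Field k] (G : Type) [Group G] [Finite G],
      MonoidAlgebra k G → Subgroup G → Subgroup G → Prop) {G₀ : Type} [Group G₀] (M : Subgroup G₀)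
    (k : Type u) [Field k] (G : Type) [Group G] [Finite G]
    (b : MonoidAlgebra k G) (D L : Subgroup G) : Prop :=
  Exc k G b D L ∧ Involved (L ⧸ Subgroup.center L) M

end Vale.Agent.P180
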