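import Vale.Agent.P180.R2.H47.RedC
import Vale.Agent.P180.R2.H47.CmpQ
import Vale.Agent.P180.R2.H365.Fin6
import Vale.Agent.P180.R2.H47.InvDef

set_option linter.all false

/-!
P180: the final assembly for arbitrary finite groups; the critical component is involved in the
normal closure of the defect group.
-/

namespace Vale.Agent.P180.R2.H47

open IsLocalRing
open Vale.Agent.P180 Vale.Agent.P180.H768.Gd Vale.Agent.P180.R2.H259 Vale.Agent.P180.R2.H365
open Vale.Agent.P180.I (EO rd Lf isBlock_rd isBlockR_of_lf exists_trace_rd isBlockR_iff exists_lf)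
open Vale.Agent.P180.H768 hiding pull mem_pull exists_factor Lay mk_mem comm_mem

open scoped Nat

universe u

section Cond

variable {p : ℕ} [Fact p.Prime]

/-- the condition on the simple sections -/
abbrev ConS (p : ℕ) (𝒮 : ∀ (S : Type) [Group S], Prop) (G : Type) [Group G] (D : Subgroup G) :
    Prop :=
  Con (ι := Unit) (fun _ _ => False) (fun _ _ _ _ => False) (fun _ => DI) (OS 0) 𝒮 p G D

theorem ctr_conS (𝒮 : ∀ (S : Type) [Group S], Prop) : Ctr p (ConS p 𝒮) :=
  ctr_con (fun _ _ _ _ h => h)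
    (fun _ =>
      { map := fun _ _ _ _ _ _ h => h
        sub := fun _ h => h }) (fun _ => outC_DI) (outC_OS 0)

theorem conS_comp {𝒮 : ∀ (S : Type) [Group S], Prop} {G : Type} [Group G] {D L : Subgroup G}
    (hC : ConS p 𝒮 G D) (hL : IsComponent L) (hp : p ∣ Nat.card (L ⧸ Subgroup.center L))
    (hr : ∃ x ∈ D, x ∈ L ∧ ¬ ∀ y ∈ L, x * y = y * x) : 𝒮 (L ⧸ Subgroup.center L) := by
  have hbot : (⊥ : Subgroup L).map L.subtype ≤ Pj D L := by
    rw [Subgroup.map_bot]; exact bot_le
  rcases con_comp hC hL hp hr with h | ⟨_, h, -⟩ | h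
  · exact absurd h id
  · exact absurd (h ⊥ hbot IsPGroup.of_bot) id
  · exact h

theorem conS_of {G : Type} [Group G] {M D P : Subgroup G} (hM : M.Normal) (hP : P ≤ M) :
    ConS p (fun T _ => Involved T M) G P := by
  refine ⟨⊥, M, inferInstance, hM, bot_le, bot_le, hP, ?_, ?_⟩
  · intro L hL
    exact absurd (le_bot_iff.mp hL.1) hL.2.2.ne
  · intro K S _ _ f hK hf _ _ _
    exact ⟨K, f, hK, hf⟩

end Cond

variable {Exc : ∀ (k : Type u) [Field k] (G : Type) [Group G] [Finite G],
    MonoidAlgebra k G → Subgroup G → Subgroup G → Prop}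
  {Λ : ∀ (k : Type u) [Field k] (G : Type) [Group G] [Finite G], MonoidAlgebra k G → Prop}
  {p n : ℕ} [Fact p.Prime]

theorem finalS (hU : Uni.{u} p Λ)
    (hloc : ∀ (k : Type u) [Field k] [IsAlgClosed k] [CharP k p], LocL Exc Λ k p n) :
    ∃ (r : ℕ) (H : Fin r → Type) (_ : ∀ i, Group (H i)) (_ : ∀ i, Finite (H i)),
      (∀ (k : Type u) [Field k] [IsAlgClosed k] [CharP k p],
        ∃ (c : ∀ i, MonoidAlgebra k (H i)) (hc : ∀ i, IsBlockR (c i)),
          ∀ (G : Type) [Group G] [Finite G] (b : MonoidAlgebra k G) (hb : IsBlockR b)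
            (D : Subgroup G), IsDefectGroupR b D → Nat.card D ≤ n →
            (∃ i, IsMoritaEquivalent k hb.Alg (hc i).Alg) ∨
            ∃ (G' : Type) (_ : Group G') (_ : Finite G') (b' : MonoidAlgebra k G')
              (hb' : IsBlockR b'), IsMoritaEquivalent k hb.Alg hb'.Alg ∧
              IsCriticalR (ExcI Exc (Subgroup.normalClosure (D : Set G))) p (Nat.card D) b') ∧
      (∀ (O : Type u) [CommRing O] [IsDomain O] [IsDiscreteValuationRing O]
        [IsAdicComplete (maximalIdeal O) O] [IsAlgClosed (ResidueField O)]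
        [CharP (ResidueField O) p],
        ∃ (C : ∀ i, MonoidAlgebra O (H i)) (hC : ∀ i, IsBlockR (C i)),
          ∀ (G : Type) [Group G] [Finite G] (B : MonoidAlgebra O G) (hB : IsBlockR B)
            (D : Subgroup G),
            (IsDefectGroupR B D ∨
              IsDefectGroupR (MonoidAlgebra.mapRingHom G (residue O) B) D) → Nat.card D ≤ n →
            (∃ i, IsMoritaEquivalent O hB.Alg (hC i).Alg) ∨
            ∃ (G' : Type) (_ : Group G') (_ : Finite G') (B' : MonoidAlgebra O G')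
              (hB' : IsBlockR B'), IsMoritaEquivalent O hB.Alg hB'.Alg ∧
              IsCriticalR (ExcI Exc (Subgroup.normalClosure (D : Set G))) p (Nat.card D)
                (MonoidAlgebra.mapRingHom G' (residue O) B')) := by
  obtain ⟨r, H, iG, iF, h1, h2⟩ := hU
  refine ⟨r, H, iG, iF, ?_, ?_⟩
  · intro k _ _ _
    obtain ⟨c, hc, h⟩ := h1 k
    refine ⟨c, hc, ?_⟩
    intro G _ _ b hb D hD hn
    have hb0 : IsBlock b := isBlockR_iff.mp hb
    obtain ⟨a, ha, hba⟩ := exists_trace hb0 (hb0.isSummand hD.prop)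
    obtain ⟨P, hPD, hP, a', ha', hba'⟩ := exists_sylow_trace (p := p) ha hba
    have hPn : Nat.card P ≤ Nat.card D :=
      Nat.card_le_card_of_injective _ (Subgroup.inclusion_injective hPD)
    obtain ⟨M, hM⟩ : ∃ M, M = Subgroup.normalClosure (D : Set G) := ⟨_, rfl⟩
    have hDM : D ≤ M := by rw [hM]; exact Subgroup.le_normalClosure
    have hMn : M.Normal := by rw [hM]; exact Subgroup.normalClosure_normal
    rw [← hM]
    obtain ⟨n', hn'⟩ : ∃ n', n' = Nat.card D := ⟨_, rfl⟩
    rw [← hn'] at hPn hn ⊢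
    let Φ : ∀ (G : Type) [Group G] [Finite G], MonoidAlgebra k G → Prop := fun G _ _ b =>
      (∀ hb : IsBlockR b, ∃ i, IsMoritaEquivalent k hb.Alg (hc i).Alg) ∨
        IsCriticalR (ExcI Exc M) p n' b
    have hP5 := reduce_ctr (n := n') (ctr_conS (fun T _ => Involved T M)) (clo_field' k p Φ) (by
      intro G _ _ Z D a b hs hCD hST hNR hb
      refine ⟨G, inferInstance, inferInstance, b, hb, ?_, IsMoritaEquivalent.refl k _⟩
      obtain ⟨D', hD', hDD'⟩ := exists_defect hb hs.ha hs.hba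
      obtain ⟨a', ha', hba'⟩ := exists_trace hb (hb.isSummand hDD'.prop)
      have hD'n : Nat.card D' ≤ n' := (Nat.card_le_card_of_injective _
        (Subgroup.inclusion_injective hD')).trans hs.Dn
      have hs' : Rs p n Z D' a' b :=
        { Dp := hs.Dp.to_le hD'
          Zc := hs.Zc
          Zp := hs.Zp
          hb := hb
          ha := ha'
          hba := hba'
          Dn := hD'n.trans hn }
      rcases hloc k G Z D' a' b hs' hST hNR hDD' with ⟨L, hL, hp, hr, hE⟩ | hΛ
      · right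
        exact ⟨isReduced_of hs.Zc hs.Zp hST hNR, D', hDD', hs'.Dp, hD'n, L, hL, hp, hr, hE,
          conS_comp ((ctr_conS _).mono hD' hCD) hL hp hr⟩
      · left
        intro hbR
        exact h G b hbR hΛ) G P hP hPn a' b hb0 ha' hba' (conS_of (D := D) hMn (hPD.trans hDM))
    obtain ⟨G', iG', fG', b', hb', hΦ, hMo⟩ := hP5 hb0
    rcases hΦ with h3 | h3
    · left
      obtain ⟨i, hi⟩ := h3 (isBlockR_iff.mpr hb')
      exact ⟨i, IsMoritaEquivalent.trans k hMo hi⟩
    · right
      exact ⟨G', iG', fG', b', isBlockR_iff.mpr hb', hMo, h3⟩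
  · intro O _ _ _ _ _ _
    obtain ⟨c, hc, h⟩ := h2 O
    refine ⟨c, hc, ?_⟩
    intro G _ _ B hB D hD hn
    obtain ⟨hb0, hlf⟩ := isBlock_rd hB
    obtain ⟨a, ha, hba⟩ : ∃ a ∈ Fix (cj (ResidueField O) G) D,
        rd B = tr (cj (ResidueField O) G) D ⊤ a := by
      rcases hD with h | h
      · exact exists_trace_rd hB h.prop
      · exact exists_trace hb0 (hb0.isSummand h.prop)
    obtain ⟨P, hPD, hP, a', ha', hba'⟩ := exists_sylow_trace (p := p) ha hba
    have hPn : Nat.card P ≤ Nat.card D :=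
      Nat.card_le_card_of_injective _ (Subgroup.inclusion_injective hPD)
    obtain ⟨M, hM⟩ : ∃ M, M = Subgroup.normalClosure (D : Set G) := ⟨_, rfl⟩
    have hDM : D ≤ M := by rw [hM]; exact Subgroup.le_normalClosure
    have hMn : M.Normal := by rw [hM]; exact Subgroup.normalClosure_normal
    rw [← hM]
    obtain ⟨n', hn'⟩ : ∃ n', n' = Nat.card D := ⟨_, rfl⟩
    rw [← hn'] at hPn hn ⊢
    let Φ : ∀ (G : Type) [Group G] [Finite G], MonoidAlgebra (ResidueField O) G → Prop :=
      fun G _ _ b => IsBlock b ∧ ((∃ i, EO O b (rd (c i))) ∨ IsCriticalR (ExcI Exc M) p n' b)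
    have hP5 := reduce_ctr (n := n') (ctr_conS (fun T _ => Involved T M)) (clo_integral' O p Φ) (by
      intro G _ _ Z D a b hs hCD hST hNR
      have hb := hs.hb
      obtain ⟨B₁, hB₁⟩ := exists_lf (O := O) (b := b)
        (fun x => (Subalgebra.mem_center_iff.mp hb.central) x) hb.idem
      have hB₁R : IsBlockR B₁ := isBlockR_of_lf hb hB₁
      have hrd : rd B₁ = b := hB₁.rd_eq
      refine ⟨G, inferInstance, inferInstance, b, ⟨hb, ?_⟩,
        ⟨B₁, B₁, hB₁, hB₁, IsMoritaEquivalent.refl O _⟩⟩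
      obtain ⟨D', hD', hDD'⟩ := exists_defect hb hs.ha hs.hba
      obtain ⟨a', ha', hba'⟩ := exists_trace hb (hb.isSummand hDD'.prop)
      have hD'n : Nat.card D' ≤ n' := (Nat.card_le_card_of_injective _
        (Subgroup.inclusion_injective hD')).trans hs.Dn
      have hs' : Rs p n Z D' a' b :=
        { Dp := hs.Dp.to_le hD'
          Zc := hs.Zc
          Zp := hs.Zp
          hb := hb
          ha := ha'
          hba := hba'
          Dn := hD'n.trans hn }
      rcases hloc (ResidueField O) G Z D' a' b hs' hST hNR hDD' with ⟨L, hL, hp, hr, hE⟩ | hΛ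
      · right
        exact ⟨isReduced_of hs.Zc hs.Zp hST hNR, D', hDD', hs'.Dp, hD'n, L, hL, hp, hr, hE,
          conS_comp ((ctr_conS _).mono hD' hCD) hL hp hr⟩
      · left
        obtain ⟨t, ht'⟩ := h G B₁ hB₁R (by
          have h4 : MonoidAlgebra.mapRingHom G (residue O) B₁ = b := hrd
          rw [h4]
          exact hΛ)
        exact ⟨t, B₁, c t, hB₁, (isBlock_rd (hc t)).2, ht'⟩) G P hP hPn a' (rd B) hb0 ha' hba'
          (conS_of (D := D) hMn (hPD.trans hDM))
    obtain ⟨G', iG', fG', b', ⟨hb', hΦ⟩, B₂, C₂, hB₂, hC₂, hMo⟩ := hP5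
    obtain rfl := hB₂.unique hlf
    rcases hΦ with ⟨i, B₃, C₃, hB₃, hC₃, hM₃⟩ | h3
    · left
      obtain rfl := hB₃.unique hC₂
      obtain rfl := hC₃.unique (isBlock_rd (hc i)).2
      exact ⟨i, IsMoritaEquivalent.trans O hMo hM₃⟩
    · right
      refine ⟨G', iG', fG', C₂, isBlockR_of_lf hb' hC₂, hMo, ?_⟩
      have h4 : MonoidAlgebra.mapRingHom G' (residue O) C₂ = b' := hC₂.rd_eq
      rw [h4]
      exact h3

end Vale.Agent.P180.R2.H47
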