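import Vale.Agent.P180.R2.H47.Cnt
import Vale.Agent.P180.R2.H471.AltSS
import Mathlib.GroupTheory.SpecificGroups.Alternating.Simple

set_option linter.all false

/-!
P180: a normal direct product of alternating groups, the factors of small degree.
-/

namespace Vale.Agent.P180.R2.H47

open Vale.Agent.P180 Vale.Agent.P180.H768.Gd
open Vale.Agent.P180.H768 hiding pull mem_pull exists_factor Lay mk_mem comm_mem
open Vale.Agent.P180.R2.H471 (QA)

open scoped Nat

section Map

variable {P G : Type} [Group P] [Group G] {p q m : ℕ}

theorem RC_map {f : P →* G} (hf : Function.Injective f) {A B : Subgroup P}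
    (h : RC p q m A B) : RC p q m (A.map f) (B.map f) := by
  intro K S _ _ g hK hg hx hp
  have hKr : ∀ x ∈ K, x ∈ f.range := by
    intro x hx
    obtain ⟨y, -, rfl⟩ := hK hx
    exact ⟨y, rfl⟩
  let ff : (K.comap f) →* K :=
    { toFun := fun x => ⟨f x, x.2⟩
      map_one' := Subtype.ext (map_one f)
      map_mul' := fun x y => Subtype.ext (map_mul f _ _) }
  have hff : Function.Surjective ff := by
    rintro ⟨x, hx⟩
    obtain ⟨y, rfl⟩ := hKr x hx
    exact ⟨⟨y, hx⟩, rfl⟩
  refine h (K.comap f) S (g.comp ff) ?_ (hg.comp hff) ?_ hp
  · intro x hxK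
    obtain ⟨y, hy, hyx⟩ := hK (show f x ∈ K from hxK)
    rwa [← hf hyx]
  · intro x hxA
    exact hx (ff x) ⟨x, hxA, rfl⟩

end Map

section Pi

variable {r : ℕ} (d : Fin r → ℕ)

/-- the product of the alternating groups -/
abbrev PiA : Type := ∀ i, alternatingGroup (Fin (d i))

/-- the elements supported on `s` -/
def supp (s : Finset (Fin r)) : Subgroup (PiA d) where
  carrier := {x | ∀ i, i ∉ s → x i = 1}
  mul_mem' := by
    intro a b ha hb i hi
    rw [Pi.mul_apply, ha i hi, hb i hi, one_mul]
  one_mem' := fun i _ => rfl
  inv_mem' := by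
    intro a ha i hi
    rw [Pi.inv_apply, ha i hi, inv_one]

instance supp_normal (s : Finset (Fin r)) : (supp d s).Normal := by
  constructor
  intro a ha g i hi
  change g i * a i * (g i)⁻¹ = 1
  rw [ha i hi, mul_one, mul_inv_cancel]

variable {p q : ℕ}

theorem RC_supp_insert {s : Finset (Fin r)} {i : Fin r} (hi : d i ≤ 6) :
    RC p q 720 (supp d s) (supp d (insert i s)) := by
  intro K S _ _ f hK hf hx hp
  left
  let g : K →* alternatingGroup (Fin (d i)) :=
    (Pi.evalMonoidHom (fun i => alternatingGroup (Fin (d i))) i).comp K.subtype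
  obtain ⟨f', hf'⟩ := exists_factor g.rangeRestrict g.rangeRestrict_surjective f (by
    intro x h1
    apply hx
    intro j hj
    by_cases hji : j = i
    · rw [hji]
      exact congrArg Subtype.val h1
    · exact hK x.2 j (by
        rw [Finset.mem_insert]
        exact fun h => h.elim hji hj))
  have hs : Function.Surjective f' := by
    intro s
    obtain ⟨x, rfl⟩ := hf s
    exact ⟨_, hf' x⟩
  calc Nat.card S ≤ Nat.card g.range := Nat.card_le_card_of_surjective f' hs
    _ ≤ Nat.card (alternatingGroup (Fin (d i))) :=
        Nat.card_le_card_of_injective _ Subtype.val_injective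
    _ ≤ Nat.card (Equiv.Perm (Fin (d i))) := Nat.card_le_card_of_injective _ Subtype.val_injective
    _ = (d i)! := by rw [Nat.card_perm, Nat.card_fin]
    _ ≤ 6 ! := Nat.factorial_le hi
    _ = 720 := rfl

theorem RC_supp (s t : Finset (Fin r)) (ht : ∀ i ∈ t, d i ≤ 6) :
    RC p q 720 (supp d s) (supp d (t ∪ s)) := by
  classical
  induction t using Finset.induction_on with
  | empty =>
    rw [Finset.empty_union]
    exact RC.self p q 720 _
  | insert i t hi ih =>
    rw [Finset.insert_union]
    exact (ih fun j hj => ht j (Finset.mem_insert_of_mem hj)).trans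
      (RC_supp_insert d (ht i (Finset.mem_insert_self i t)))

end Pi

section Main

variable {G : Type} [Group G] [Finite G] {X : Subgroup G} [hXn : X.Normal] {p q : ℕ}

theorem factor_mem {r : ℕ} {d : Fin r → ℕ} (ff : PiA d ≃* X) {i : Fin r} (hi : 7 ≤ d i) :
    ((MonoidHom.mulSingle (fun i => alternatingGroup (Fin (d i))) i).range.map
      (X.subtype.comp ff.toMonoidHom)) ∈ simps QA X := by
  set ψ : PiA d →* G := X.subtype.comp ff.toMonoidHom with hψ
  have hψi : Function.Injective ψ := X.subtype_injective.comp ff.injective
  set μ := MonoidHom.mulSingle (fun i => alternatingGroup (Fin (d i))) i with hμ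
  have hμi : Function.Injective μ := by
    intro a b hab
    have h1 := congrFun hab i
    have h2 : ∀ a, μ a i = a := fun a => Pi.mulSingle_eq_same
      (M := fun i => alternatingGroup (Fin (d i))) i a
    rwa [h2, h2] at h1
  have hsimple : IsSimpleGroup (alternatingGroup (Fin (d i))) :=
    alternatingGroup.isSimpleGroup (by rw [Nat.card_fin]; omega)
  let e : alternatingGroup (Fin (d i)) ≃* (μ.range.map ψ) :=
    (μ.ofInjective hμi).trans (μ.range.equivMapOfInjective ψ hψi)
  refine ⟨?_, ?_, simple_of_equiv e hsimple, ?_, ⟨d i, hi, ⟨e.symm⟩⟩⟩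
  · rintro _ ⟨x, -, rfl⟩
    exact (ff x).2
  · rintro x hx _ ⟨_, ⟨y, rfl⟩, rfl⟩
    obtain ⟨z, hz⟩ := ff.surjective ⟨x, hx⟩
    have hzx : ψ z = x := congrArg Subtype.val hz
    refine ⟨z * μ y * z⁻¹, ⟨z i * y * (z i)⁻¹, ?_⟩, ?_⟩
    · funext j
      by_cases hj : j = i
      · subst hj
        simp [hμ]
      · simp [hμ, Pi.mulSingle_eq_of_ne hj]
    · rw [map_mul, map_mul, map_inv, hzx]
  · intro hab
    have h1 : ∀ a b : alternatingGroup (Fin (d i)), a * b = b * a := by
      intro a b
      apply e.injective
      rw [map_mul, map_mul]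
      exact Subtype.ext (hab _ (e a).2 _ (e b).2)
    -- an alternating group of degree at least `4` is not commutative
    have h4 : 3 ≤ d i := by omega
    have hc : Subgroup.center (alternatingGroup (Fin (d i))) = ⊤ := by
      rw [eq_top_iff]
      intro a _
      rw [Subgroup.mem_center_iff]
      intro b
      exact h1 b a
    have h5 : Subgroup.center (alternatingGroup (Fin (d i))) = ⊥ :=
      alternatingGroup.center_eq_bot (by rw [Nat.card_fin]; omega)
    rw [hc] at h5
    exact top_ne_bot h5

/-- The part of large degree. -/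
theorem exists_large {r : ℕ} {d : Fin r → ℕ} (ff : PiA d ≃* X) :
    ∃ X' : Subgroup G, X'.Normal ∧ SSP QA X' ∧ X' ≤ X ∧ RC p q 720 X' X := by
  classical
  refine ⟨sSup (simps QA X), ?_, ?_, ?_, ?_⟩
  · constructor
    intro x hx g
    have h6 : sSup (simps QA X) ≤ (sSup (simps QA X)).comap (MulAut.conj g).toMonoidHom := by
      refine sSup_le fun S hS => ?_
      rw [← Subgroup.map_le_iff_le_comap]
      exact le_sSup (simps_conj H471.QA_isoInv hS g)
    exact h6 hx
  · refine sSup_le fun S hS => le_sSup ?_
    refine ⟨le_sSup hS, ?_, hS.2.2.1, hS.2.2.2.1, hS.2.2.2.2⟩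
    intro x hx s hs
    exact hS.2.1 x ((sSup_le fun T hT => hT.1 : sSup (simps QA X) ≤ X) hx) s hs
  · exact sSup_le fun S hS => hS.1
  · set ψ : PiA d →* G := X.subtype.comp ff.toMonoidHom with hψ
    have hψi : Function.Injective ψ := X.subtype_injective.comp ff.injective
    let s : Finset (Fin r) := Finset.univ.filter fun i => 7 ≤ d i
    let t : Finset (Fin r) := Finset.univ.filter fun i => d i ≤ 6
    have hts : t ∪ s = Finset.univ := by
      ext i
      simp only [t, s, Finset.mem_union, Finset.mem_filter, Finset.mem_univ, true_and, iff_true]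
      omega
    have h1 : RC p q 720 (supp d s) (supp d (t ∪ s)) :=
      RC_supp d s t fun i hi => (Finset.mem_filter.mp hi).2
    rw [hts] at h1
    have h2 := RC_map (f := ψ) hψi h1
    have h3 : X ≤ (supp d Finset.univ).map ψ := by
      intro x hx
      obtain ⟨z, hz⟩ := ff.surjective ⟨x, hx⟩
      exact ⟨z, fun i hi => absurd (Finset.mem_univ i) hi, congrArg Subtype.val hz⟩
    have h4 : (supp d s).map ψ ≤ sSup (simps QA X) := by
      rintro _ ⟨x, hx, rfl⟩
      have h5 : x ∈ ⨆ i ∈ s, (MonoidHom.mulSingle
          (fun i => alternatingGroup (Fin (d i))) i).range := by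
        have h6 : ∀ u : Finset (Fin r), ∀ y : PiA d, (∀ i, i ∉ u → y i = 1) →
            y ∈ ⨆ i ∈ u, (MonoidHom.mulSingle
              (fun i => alternatingGroup (Fin (d i))) i).range := by
          intro u
          induction u using Finset.induction_on with
          | empty =>
            intro y hy
            have : y = 1 := funext fun i => hy i (by simp)
            rw [this]
            exact Subgroup.one_mem _
          | insert i u hi ih =>
            intro y hy
            rw [Finset.iSup_insert]
            have h7 : y = Pi.mulSingle i (y i) * (Function.update y i 1) := by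
              funext j
              by_cases hj : j = i
              · subst hj
                simp
              · rw [Pi.mul_apply, Pi.mulSingle_eq_of_ne hj, one_mul,
                  Function.update_of_ne hj]
            rw [h7]
            refine Subgroup.mul_mem_sup ⟨y i, rfl⟩ (ih _ ?_)
            intro j hj
            by_cases hji : j = i
            · subst hji
              simp
            · rw [Function.update_of_ne hji]
              exact hy j (by
                rw [Finset.mem_insert]
                exact fun h => h.elim hji hj)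
        exact h6 s x hx
      have h8 : (⨆ i ∈ s, (MonoidHom.mulSingle
          (fun i => alternatingGroup (Fin (d i))) i).range) ≤
            (sSup (simps QA X)).comap ψ := by
        refine iSup_le fun i => iSup_le fun hi => ?_
        rw [← Subgroup.map_le_iff_le_comap]
        exact le_sSup (factor_mem ff (Finset.mem_filter.mp hi).2)
      exact h8 h5
    exact RC.of_ge h3 (RC.of_le h4 h2)

end Main

end Vale.Agent.P180.R2.H47
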