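import Vale.Agent.P180.R2.H47.Fin3
import Vale.Agent.P180.R2.H47.Small
import Vale.Agent.P180.R2.H47.AltDef
import Vale.Agent.P180.R2.H365.LocF

set_option linter.all false

/-!
P180: the final theorem for a normal direct product of alternating groups.
-/

namespace Vale.Agent.P180.R2.H47

open IsLocalRing
open Vale.Agent.P180 Vale.Agent.P180.H768.Gd Vale.Agent.P180.R2.H259
open Vale.Agent.P180.I (EO rd Lf isBlock_rd isBlockR_of_lf exists_trace_rd isBlockR_iff exists_lf)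
open Vale.Agent.P180.H768 hiding pull mem_pull exists_factor Lay mk_mem comm_mem

open scoped Nat

universe u

theorem locT_QA (p : ℕ) [Fact p.Prime] (n β : ℕ) (k : Type u) [Field k] [IsAlgClosed k]
    [CharP k p] : LocT H471.QA k p n β (H365.LC n β) := by
  intro G _ _ Z X D a b ht
  have hXn := ht.Xn
  obtain ⟨𝒜, hr, h7, -, hrange, hker, -⟩ := H471.exists_alt (X := X) ht.Xss
  obtain ⟨P, hPD, i, hi, hiP, hbi, ⟨m, u, v, hu, hv, hbw⟩, hdim⟩ :=
    H365.loc.{u} p n β k G 𝒜 Z D a b (hr.trans_le ht.cnt) h7 (by rw [hrange]; exact hker) ht.Zc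
      ht.Zp (by rw [hrange]; exact ht.idx) ht.hb ht.Dp ht.Dn ht.ha ht.hba ht.st
  exact ⟨P, i, hi, (Nat.card_le_card_of_injective _
    (Subgroup.inclusion_injective hPD)).trans ht.Dn, hiP, hbi, gen_of_tr hiP u v hu hv hbw, hdim⟩

theorem indB_QA (n : ℕ) : IndB H471.QA n (n ! * 2 ^ n) := by
  intro G _ _ X _ hX hn
  obtain ⟨𝒜, hr, -, -, -, -, hidx⟩ := H471.exists_alt (X := X) hX
  refine hidx.trans ?_
  rw [hr]
  exact Nat.mul_le_mul (Nat.factorial_le hn) (Nat.pow_le_pow_right (by norm_num) hn)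

/-- The bound for the sections. -/
def mA (p n m : ℕ) : ℕ := max (mm p n m) 720

theorem alt_spec {p n m : ℕ} [Fact p.Prime] {G : Type} [Group G] [Finite G] {D : Subgroup G}
    (h : HasAltSeries p n m D) :
    ∃ (X : Subgroup G) (_ : X.Normal) (l : ℕ) (N : ℕ → Subgroup G) (_ : ∀ i, (N i).Normal),
      SSP H471.QA X ∧ X ≤ N 0 ∧ RC p n (mA p n m) X (N 0) ∧ N l = ⊤ ∧
      (∀ i < l, N i ≤ N (i + 1)) ∧ ∀ i < l, RC p n (mA p n m) (N i) (N (i + 1)) ∨
        ∀ x ∈ D, x ∈ N (i + 1) → ∀ y ∈ N (i + 1), x * y * x⁻¹ * y⁻¹ ∈ N i := by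
  obtain ⟨l, N, hN, ⟨r, d, -, ⟨ff⟩⟩, hl, hlay⟩ := h
  obtain ⟨X, hXn, hX, hXN, hR⟩ := exists_large (p := p) (q := n) ff.symm
  refine ⟨X, hXn, l, N, hN, hX, hXN, hR.mono (le_max_right _ _), hl, fun i hi => (hlay i hi).1,
    ?_⟩
  intro i hi
  rcases (hlay i hi).2 with h | h | ⟨h2, h⟩
  · exact Or.inr h
  · exact Or.inl ((RC.of_hom (isGood_of h)).mono (le_max_left _ _))
  · subst h2
    exact Or.inl ((RC.of_hom (isGood_of (goodSections_of_cit h))).mono (le_max_left _ _))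

theorem alt_of_good {p n m : ℕ} {G : Type} [Group G] {D : Subgroup G}
    (h : HasGoodSeries p n m D) : HasAltSeries p n m D := by
  obtain ⟨l, N, hN, h0, hl, hlay⟩ := h
  refine ⟨l, N, hN, ⟨0, fun _ => 5, fun j => j.elim0, ?_⟩, hl, hlay⟩
  rw [h0]
  have : Unique (⊥ : Subgroup G) := inferInstance
  exact ⟨MulEquiv.ofUnique⟩

end Vale.Agent.P180.R2.H47
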