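import Vale.Agent.P180.R2.H47.RedK
import Vale.Agent.P180.R2.H47.Lyr

set_option linter.all false

/-!
P180: the induction on the layers above a normal direct product of simple groups, with a condition
on the simple factors.
-/

namespace Vale.Agent.P180.R2.H47

open Vale.Agent.P180 Vale.Agent.P180.H768.Gd
open Vale.Agent.P180.H768 hiding pull mem_pull exists_factor Lay mk_mem comm_mem

open scoped Nat commutatorElement

universe u

variable {k : Type u} [Field k] {p n : ℕ} [Fact p.Prime] [CharP k p]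

theorem count_r {G : Type} [Group G] [Finite G]
    {A : Subgroup G} [A.Normal] {Z : Subgroup G} (hZA : Z ≤ A)
    (hZ : ∀ z ∈ Z, ∀ g, z * g = g * z) (hpZ : ¬ p ∣ Nat.card Z)
    {D : Subgroup G} {a b : MonoidAlgebra k G} (hb : IsBlock b)
    (ha : a ∈ Fix (cj k G) D)
    (hba : b = tr (cj k G) D ⊤ a) (hDn : Nat.card D ≤ n)
    (hST : STab b) (hNR : NRed p Z A b)
    (𝒮 : Set (Subgroup G))
    (h1 : ∀ S ∈ 𝒮, Z ≤ S ∧ S ≤ A ∧ S ≠ Z ∧ (∀ x ∈ S, (∀ y ∈ S, x * y = y * x) → x ∈ Z))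
    (h2 : ∀ S ∈ 𝒮, ∀ S' ∈ 𝒮, S ≠ S' → ∀ x ∈ S, ∀ y ∈ S', x * y = y * x)
    (h3 : ∀ S ∈ 𝒮, ∀ g : G, S.map (MulAut.conj g).toMonoidHom ∈ 𝒮) :
    ∃ x : G, ∀ S ∈ 𝒮, ∃ r ∈ conjS x D, r ∈ S ∧ r ∉ Z := by
  classical
  have hb1 := isBlock_iff.mp hb
  have hbF : b ∈ Fix (cj k G) ⊤ := hb1.mem.2
  have hbc : ∀ x, x * b = b * x := fun x => commute_of_mem (SubAlg_top x) hbF
  have hWn : Z.Normal := by
    constructor
    intro z hz g
    rw [← hZ z hz g, mul_inv_cancel_right]
    exact hz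
  -- the subgroup `E`
  set E := Z ⊔ sSup 𝒮 with hE
  have hSE : ∀ S ∈ 𝒮, S ≤ E := fun S hS => (le_sSup hS).trans le_sup_right
  have hsupn : ∀ 𝒯 : Set (Subgroup G),
      (∀ S ∈ 𝒯, ∀ g : G, S.map (MulAut.conj g).toMonoidHom ∈ 𝒯) → (Z ⊔ sSup 𝒯).Normal := by
    intro 𝒯 h𝒯
    have h5 : (sSup 𝒯).Normal := by
      constructor
      intro x hx g
      have h6 : sSup 𝒯 ≤ (sSup 𝒯).comap (MulAut.conj g).toMonoidHom := by
        refine sSup_le fun S hS => ?_
        rw [← Subgroup.map_le_iff_le_comap]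
        exact le_sSup (h𝒯 S hS g)
      exact h6 hx
    infer_instance
  have hEn : E.Normal := hsupn 𝒮 h3
  obtain ⟨e, he, hbe⟩ := exists_isPrimIn (ZAlg k E) (by exact ZAlg_comm) hb.ne_zero
  have hest := hST E hEn e he hbe
  have hbee : b * e = b := mul_stable_eq hb1 he hest hbe
  obtain ⟨x, a', ha'E, ha'F, hea'⟩ := covering he hb.idem (by rwa [hbc e]) ha hba
  set R := E ⊓ conjS x D with hR
  have hRcard : Nat.card R ≤ n := by
    refine le_trans ?_ hDn
    have h5 : Nat.card (conjS x D) = Nat.card D :=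
      Nat.card_congr (D.equivMapOfInjective _ (MulAut.conj x).injective).symm.toEquiv
    rw [← h5]
    exact Nat.card_le_card_of_injective _ (Subgroup.inclusion_injective inf_le_right)
  -- blocks of `S` are fixed by `E`
  have hfix : ∀ S ∈ 𝒮, ∀ f : MonoidAlgebra k G, IsBlockOf S f → f ∈ Fix (cj k G) E := by
    intro S hS f hf
    have h5 : E ≤ stabE f := by
      refine sup_le ?_ (sSup_le ?_)
      · exact (h1 S hS).1.trans (le_stabE hf)
      · intro S' hS'
        by_cases hSS : S = S'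
        · rw [← hSS]; exact le_stabE hf
        · intro y hy
          rw [mem_stabE]
          exact cj_eq_self_of_commute hf.mem.1 fun s hs => (h2 S hS S' hS' hSS s hs y hy).symm
    exact fun g hg => h5 hg
  -- normality of `S` in `E`
  have hSinv : ∀ S ∈ 𝒮, ∀ y ∈ E, ∀ s ∈ S, y * s * y⁻¹ ∈ S := by
    intro S hS
    have h5 : E ≤ Subgroup.normalizer (S : Set G) := by
      refine sup_le ?_ (sSup_le ?_)
      · exact (h1 S hS).1.trans Subgroup.le_normalizer
      · intro S' hS'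
        by_cases hSS : S = S'
        · rw [← hSS]; exact Subgroup.le_normalizer
        · intro y hy
          rw [Subgroup.mem_normalizer_iff]
          intro s
          have h6 := h2 S hS S' hS' hSS
          constructor
          · intro hs
            rw [← h6 s hs y hy, mul_inv_cancel_right]
            exact hs
          · intro hs
            have h7 := h6 _ hs y hy
            have h8 : y * s * y⁻¹ = s := by
              calc y * s * y⁻¹ = y⁻¹ * (y * (y * s * y⁻¹)) := by group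
                _ = y⁻¹ * (y * s * y⁻¹ * y) := by rw [h7]
                _ = s := by group
            rwa [h8] at hs
    intro y hy s hs
    exact (Subgroup.mem_normalizer_iff.mp (h5 hy) s).mp hs
  -- the set `J`
  let J : Set (Subgroup G) := {S | S ∈ 𝒮 ∧ ∃ z ∈ SubAlg k S, z ∈ Fix (cj k G) Z ∧
    tr (cj k G) Z S z * e = e}
  have hconjZ : ∀ g : G, conjS g Z = Z := by
    intro g
    ext y
    rw [mem_conjS]
    constructor
    · intro hy
      have := hWn.conj_mem _ hy g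
      simpa [mul_assoc] using this
    · intro hy
      have := hWn.conj_mem _ hy g⁻¹
      simpa [mul_assoc] using this
  have hJ : ∀ S, S ∉ J := by
    intro S0 hS0
    have hJconj : ∀ S ∈ J, ∀ g : G, S.map (MulAut.conj g).toMonoidHom ∈ J := by
      rintro S ⟨hS, z, hz, hzZ, hze⟩ g
      refine ⟨h3 S hS g, cj k G g z, ?_, ?_, ?_⟩
      · exact SuppIn.conj hz g fun s hs => mem_conjS.mpr (by simpa [mul_assoc] using hs)
      · have := conj_mem_Fix hzZ g (H' := Z) fun h hh => by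
          simpa using hWn.conj_mem h hh g⁻¹
        exact this
      · have h5 := cj_tr g (K := S) hzZ
        rw [hconjZ] at h5
        change tr (cj k G) Z (conjS g S) (cj k G g z) * e = e
        rw [← h5]
        conv_lhs => rhs; rw [← hest g]
        rw [← map_mul, hze, hest]
    have hJfin : J.Finite := Set.toFinite J
    let s : Finset (Subgroup G) := hJfin.toFinset
    have hmem : ∀ {S}, S ∈ s ↔ S ∈ J := hJfin.mem_toFinset
    have hsup : s.sup id = sSup J := by
      rw [Finset.sup_id_eq_sSup, hJfin.coe_toFinset]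
    choose! z hz using fun (S : Subgroup G) (hS : S ∈ J) => hS.2
    obtain ⟨z', hz', hz'Z, hz'e⟩ := exists_prod_tr (k := k) (id : Subgroup G → Subgroup G)
      (W := Z) e z s
      (fun S hS => (h1 S (hmem.mp hS).1).1)
      (fun S hS => (h1 S (hmem.mp hS).1).2.2.2)
      (fun S hS S' hS' hne => h2 S (hmem.mp hS).1 S' (hmem.mp hS').1 hne)
      (fun S hS w hw x _ => hZ w hw x)
      (fun S hS => (hz S (hmem.mp hS)).1)
      (fun S hS => (hz S (hmem.mp hS)).2.1)
      (fun S hS => (hz S (hmem.mp hS)).2.2)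
    rw [hsup] at hz' hz'e
    set N := Z ⊔ sSup J with hN
    have hNn : N.Normal := hsupn J hJconj
    have hZN : Z ≤ N := le_sup_left
    obtain ⟨f, hf, hbf⟩ := exists_isPrimIn (ZAlg k N) (by exact ZAlg_comm) hb.ne_zero
    have hz'b : tr (cj k G) Z N z' * b = b := by
      conv_lhs => rw [← hbee, ← hbc, ← mul_assoc, hz'e]
      rw [hbc, hbee]
    obtain ⟨z2, hz2, hz2Z, hfz2⟩ := block_tr hZN hf (by rwa [hbc]) hz' hz'Z hz'b
    have hrelZ : (⊥ : Subgroup G).relIndex Z = Nat.card Z := Subgroup.relIndex_bot_left Z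
    have hnd : ¬ p ∣ (⊥ : Subgroup G).relIndex Z := by rw [hrelZ]; exact hpZ
    have h5 := eq_tr_of_not_dvd p hnd hz2Z
    have hcard := hNR N ⊥ hNn inferInstance hZN
      (sup_le hZA (sSup_le fun S hS => (h1 S hS.1).2.1)) bot_le IsPGroup.of_bot
      (fun y hy x _ => by
        rw [Subgroup.mem_bot] at hy
        rw [hy, one_mul, mul_one]) f hf hbf
      ⟨_, Subalgebra.smul_mem _ hz2 _, Subalgebra.smul_mem _ (Fix_mono _ bot_le hz2Z) _, by
        rw [hfz2]
        conv_lhs => rw [h5]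
        rw [tr_tr (Subalgebra.smul_mem _ (Fix_mono _ bot_le hz2Z) _) bot_le hZN]⟩
    rw [Subgroup.card_bot, mul_one] at hcard
    have hNZ : Z = N := Subgroup.eq_of_le_of_card_ge hZN hcard.le
    apply (h1 S0 hS0.1).2.2.1
    refine le_antisymm ?_ (h1 S0 hS0.1).1
    rw [hNZ]
    exact (le_sSup hS0).trans le_sup_right
  -- the elements `r_S`
  have hr : ∀ S ∈ 𝒮, ∃ r ∈ R, r ∈ S ∧ r ∉ Z := by
    intro S hS
    obtain ⟨f, hf, hef⟩ := exists_isPrimIn (ZAlg k S) (by exact ZAlg_comm) he.ne_zero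
    have hfE := hfix S hS f hf
    have hfe : f * e = e := mul_block_eq (hSE S hS) hf hfE he hef
    obtain ⟨y, hy, z, hz, hzF, hfz⟩ := covering_rel (hSE S hS) inf_le_left (hSinv S hS) hf
      he.idem (by rw [hfe]; exact he.ne_zero) ha'E ha'F hea'
    by_contra hcon
    push Not at hcon
    have hle : S ⊓ conjS y R ≤ Z := by
      intro r hr
      obtain ⟨hr1, hr2⟩ := Subgroup.mem_inf.mp hr
      rw [mem_conjS] at hr2
      have h5 : y⁻¹ * r * y ∈ S := by
        have := hSinv S hS y⁻¹ (E.inv_mem hy) r hr1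
        rwa [inv_inv] at this
      have h6 := hcon _ hr2 h5
      have := hWn.conj_mem _ h6 y
      simpa [mul_assoc] using this
    apply hJ S
    refine ⟨hS, tr (cj k G) (S ⊓ conjS y R) Z z, tr_mem_SubAlg (h1 S hS).1 hz, tr_mem_Fix hzF, ?_⟩
    rw [tr_tr hzF hle (h1 S hS).1, ← hfz, hfe]
  refine ⟨x, fun S hS => ?_⟩
  obtain ⟨r, hr1, hr2, hr3⟩ := hr S hS
  exact ⟨r, hr1.2, hr2, hr3⟩

theorem inf_aux {j m : ℕ} {G : Type} [Group G] [Finite G]
    {Z X A D : Subgroup G} {a b : MonoidAlgebra k G} (hs : St QT p n m j Z X A D a b) (g : G)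
    (hg : ∀ S ∈ (fun S => Z ⊔ S) '' simps QT X, ∃ r ∈ conjS g D, r ∈ S ∧ r ∉ Z) :
    ∀ S ∈ simps QT X, D ⊓ S ≠ ⊥ := by
  have hXn := hs.Xn
  have hmem : ∀ {S T : Subgroup G} {x : G}, x ∈ Z ⊔ S → ∃ z ∈ Z, ∃ s ∈ S, z * s = x := by
    intro S T x hx
    exact mem_sup_of_commute (fun z hz s _ => hs.Zc z hz s) hx
  intro S hS h
  have hSg := simps_conj (Q := QT) (fun _ _ _ _ _ _ => ⟨1⟩) hS g
  obtain ⟨r, hr1, hr2, hr3⟩ := hg _ ⟨_, hSg, rfl⟩
  obtain ⟨z, hz, s, hs', hzs⟩ := hmem (T := X) hr2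
  rw [mem_map_conj'] at hs'
  rw [mem_conjS] at hr1
  -- `g⁻¹ r g = z (g⁻¹ s g)`
  have h1 : g⁻¹ * r * g = z * (g⁻¹ * s * g) := by
    rw [← hzs]
    calc g⁻¹ * (z * s) * g = (g⁻¹ * z) * s * g := by group
      _ = (z * g⁻¹) * s * g := by rw [← hs.Zc z hz g⁻¹]
      _ = _ := by group
  -- the `p`-part and the `p'`-part: `z` has order prime to `p`
  obtain ⟨l, hl⟩ := hs.Dp ⟨_, hr1⟩
  have h2 : (g⁻¹ * r * g) ^ (p ^ l) = 1 := congrArg Subtype.val hl
  have h3 : z ^ (p ^ l) * (g⁻¹ * s * g) ^ (p ^ l) = 1 := by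
    rw [← h2, h1]
    exact ((show Commute z (g⁻¹ * s * g) from hs.Zc z hz _).mul_pow _).symm
  have h4 : z ^ (p ^ l) = 1 := by
    have h5 : z ^ (p ^ l) ∈ S := by
      rw [mul_eq_one_iff_eq_inv] at h3
      rw [h3]
      exact S.inv_mem (S.pow_mem hs' _)
    exact simps_center hS h5 fun y _ => hs.Zc _ (Z.pow_mem hz _) y
  have h5 : z = 1 := by
    have h6 : orderOf z ∣ p ^ l := orderOf_dvd_of_pow_eq_one h4
    have h7 : orderOf (⟨z, hz⟩ : Z) ∣ Nat.card Z := orderOf_dvd_natCard _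
    rw [Subgroup.orderOf_mk] at h7
    rw [← orderOf_eq_one_iff]
    have h8 : (orderOf z).Coprime (p ^ l) := by
      refine Nat.Coprime.pow_right l ?_
      rw [Nat.coprime_comm]
      rw [(Fact.out : p.Prime).coprime_iff_not_dvd]
      exact fun h => hs.Zp (h.trans h7)
    exact Nat.eq_one_of_dvd_coprimes h8 dvd_rfl h6
  have h6 : g⁻¹ * r * g = 1 := by
    have h7 : g⁻¹ * r * g ∈ D ⊓ S := by
      refine ⟨hr1, ?_⟩
      rw [h1, h5, one_mul]
      exact hs'
    rwa [h, Subgroup.mem_bot] at h7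
  apply hr3
  have h7 : r = 1 := by
    calc r = g * (g⁻¹ * r * g) * g⁻¹ := by group
      _ = 1 := by rw [h6]; group
  rw [h7]
  exact Z.one_mem

theorem inf_simps_ne {j m : ℕ} {G : Type} [Group G] [Finite G]
    {Z X A D : Subgroup G} {a b : MonoidAlgebra k G} (hs : St QT p n m j Z X A D a b)
    (hST : STab b) (hNR : NRed p Z A b) : ∀ S ∈ simps QT X, D ⊓ S ≠ ⊥ := by
  have hAn := hs.An
  have hXn := hs.Xn
  have hmem : ∀ {S T : Subgroup G} {x : G}, x ∈ Z ⊔ S → ∃ z ∈ Z, ∃ s ∈ S, z * s = x := by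
    intro S T x hx
    exact mem_sup_of_commute (fun z hz s _ => hs.Zc z hz s) hx
  have hcr := count_r hs.ZA hs.Zc hs.Zp hs.hb hs.ha hs.hba hs.Dn hST hNR
    ((fun S => Z ⊔ S) '' simps QT X)
  suffices hsuff : ∃ g : G, ∀ S ∈ (fun S => Z ⊔ S) '' simps QT X, ∃ r ∈ conjS g D, r ∈ S ∧ r ∉ Z by
    clear hcr
    obtain ⟨g, hg⟩ := hsuff
    exact inf_aux hs g hg
  refine hcr ?_ ?_ ?_
  · rintro _ ⟨S, hS, rfl⟩
    refine ⟨le_sup_left, sup_le hs.ZA (hS.1.trans hs.XA), ?_, ?_⟩
    · intro h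
      apply hS.2.2.2.1
      intro x hx y _
      have h1 : x ∈ Z := by
        rw [← show Z ⊔ S = Z from h]
        exact (le_sup_right (a := Z)) hx
      exact hs.Zc x h1 y
    · intro x hx hc
      obtain ⟨z, hz, s, hs', rfl⟩ := hmem (T := X) hx
      have h1 : s = 1 := by
        apply simps_center hS hs'
        intro y hy
        have h2 := hc y ((le_sup_right (a := Z)) hy)
        have h3 : z * (s * y) = z * (y * s) := by
          calc z * (s * y) = z * s * y := by group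
            _ = y * (z * s) := h2
            _ = (y * z) * s := by group
            _ = (z * y) * s := by rw [hs.Zc z hz y]
            _ = z * (y * s) := by group
        exact mul_left_cancel h3
      rw [h1, mul_one]
      exact hz
  · rintro _ ⟨S, hS, rfl⟩ _ ⟨S', hS', rfl⟩ hne x hx y hy
    have hne' : S ≠ S' := fun h => hne (by rw [h])
    obtain ⟨z, hz, s, hs1, rfl⟩ := hmem (T := X) hx
    obtain ⟨z', hz', s', hs2, rfl⟩ := hmem (T := X) hy
    have h2 : s * s' = s' * s := simps_comm hS hS' hne' hs1 hs2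
    calc z * s * (z' * s') = z * (s * z') * s' := by group
      _ = z * (z' * s) * s' := by rw [hs.Zc z' hz' s]
      _ = (z * z') * (s * s') := by group
      _ = (z' * z) * (s' * s) := by rw [h2, hs.Zc z hz z']
      _ = z' * (z * s') * s := by group
      _ = z' * (s' * z) * s := by rw [hs.Zc z hz s']
      _ = z' * s' * (z * s) := by group
  · rintro _ ⟨S, hS, rfl⟩ g
    refine ⟨_, simps_conj (fun _ _ _ _ _ _ => ⟨1⟩) hS g, ?_⟩
    change Z ⊔ S.map (MulAut.conj g).toMonoidHom = (Z ⊔ S).map (MulAut.conj g).toMonoidHom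
    rw [Subgroup.map_sup]
    congr 1
    ext z
    constructor
    · intro hz
      refine ⟨z, hz, ?_⟩
      change g * z * g⁻¹ = z
      rw [← hs.Zc z hz g, mul_inv_cancel_right]
    · rintro ⟨z', hz', rfl⟩
      change g * z' * g⁻¹ ∈ Z
      rw [← hs.Zc z' hz' g, mul_inv_cancel_right]
      exact hz'

variable {K : ∀ (G : Type) [Group G], Subgroup G → Subgroup G → Prop}

/-- One layer. -/
theorem layerK (hK : Adm K) {P : ∀ (G : Type) [Group G], MonoidAlgebra k G → Prop}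
    (hP : Clo k p P) {j m γ : ℕ} (hpm : p ≤ m) {G : Type} [Group G] [Finite G]
    {Z X A D : Subgroup G} {a b : MonoidAlgebra k G}
    (hs : St QT p n m (j + 1) Z X A D a b) (hKD : K G X D) (hST : STab b) (hNR : NRed p Z A b)
    (hγ : (X ⊔ Subgroup.centralizer (X : Set G)).index ≤ γ)
    (hrec : ∀ (H : Type) [Group H] [Finite H] (Z' X' A' D' : Subgroup H) (a' c : MonoidAlgebra k H),
      St QT p n (max m (max ((bd n m) !) γ)) j Z' X' A' D' a' c → K H X' D' →
        P H c) : P G b := by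
  have hAn := hs.An
  have hXn := hs.Xn
  have hZn : Z.Normal := by
    constructor
    intro z hz g
    rw [← hs.Zc z hz g, mul_inv_cancel_right]
    exact hz
  have hbB := isBlock_iff.mp hs.hb
  obtain ⟨C, B, hCn, hBn, hAC, hCB, hcen, hRB, hrest⟩ := hs.lay
  have hXC : X ≤ C := hs.XA.trans hAC
  have hβ := centralizer_bound hs hST hNR
  have hRN := RC_X (A := A) hpm hXC hs.Zc hβ hγ hRB
  obtain ⟨A₀, hA₀⟩ : ∃ A₀, A₀ = A ⊓ Subgroup.centralizer (X : Set G) := ⟨_, rfl⟩
  obtain ⟨C₁, hC₁⟩ : ∃ C₁, C₁ = C ⊓ Subgroup.centralizer (X : Set G) := ⟨_, rfl⟩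
  have hA₀n : A₀.Normal := by rw [hA₀]; infer_instance
  have hC₁n : C₁.Normal := by rw [hC₁]; infer_instance
  rw [← hA₀, ← hC₁] at hRN
  obtain ⟨N, hNdef⟩ : ∃ N, N = NN A₀ C₁ := ⟨_, rfl⟩
  rw [← hNdef] at hRN
  have hNn : N.Normal := by rw [hNdef]; infer_instance
  have hNB : N ≤ B := by
    rw [hNdef]
    refine (((NN_le_XX A₀ C₁).trans inf_le_left).trans ?_).trans hCB
    rw [hC₁]
    exact inf_le_left
  have hND : ∀ x ∈ D, x ∈ N → ∀ y ∈ N, x * y = y * x := by
    rw [hNdef]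
    refine central_NN ?_
    intro x hx hxC y hyC
    rw [hC₁] at hxC hyC
    rw [hA₀]
    obtain ⟨hx1, hx2⟩ := Subgroup.mem_inf.mp hxC
    obtain ⟨hy1, hy2⟩ := Subgroup.mem_inf.mp hyC
    refine Subgroup.mem_inf.mpr ⟨hcen x hx hx1 y hy1, ?_⟩
    exact Subgroup.mul_mem _ (Subgroup.mul_mem _ (Subgroup.mul_mem _ hx2 hy2)
      (Subgroup.inv_mem _ hx2)) (Subgroup.inv_mem _ hy2)
  obtain ⟨e, he, hbe⟩ := exists_isPrimIn (ZAlg k N) (by exact ZAlg_comm) hs.hb.ne_zero
  have hcomm : e * b = b * e := commute_of_mem (SubAlg_top e) hbB.mem.2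
  obtain ⟨x, z, hz, hzF, hez⟩ := covering he hs.hb.idem (by rwa [hcomm]) hs.ha hs.hba
  have hYn : (pZ p N).Normal := pZ_normal p hNn
  have hRY : N ⊓ conjS x D ≤ pZ p N := by
    intro w hw
    obtain ⟨hwN, hwD⟩ := Subgroup.mem_inf.mp hw
    rw [mem_conjS] at hwD
    refine ⟨hwN, fun n hn => ?_, ?_⟩
    · have h1 : x⁻¹ * n * x ∈ N := by
        have := hNn.conj_mem n hn x⁻¹
        simpa using this
      have h1' : x⁻¹ * w * x ∈ N := by
        have := hNn.conj_mem w hwN x⁻¹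
        simpa using this
      have h2 := hND _ hwD h1' _ h1
      calc w * n = x * ((x⁻¹ * w * x) * (x⁻¹ * n * x)) * x⁻¹ := by group
        _ = x * ((x⁻¹ * n * x) * (x⁻¹ * w * x)) * x⁻¹ := by rw [h2]
        _ = n * w := by group
    · obtain ⟨m, hm⟩ := hs.Dp ⟨_, hwD⟩
      refine ⟨m, ?_⟩
      have h3 : (x⁻¹ * w * x) ^ (p ^ m) = 1 := congrArg Subtype.val hm
      have h4 : (x⁻¹ * w * (x⁻¹)⁻¹) ^ (p ^ m) = 1 := by rwa [inv_inv]
      rw [conj_pow] at h4
      calc w ^ (p ^ m) = x * (x⁻¹ * w ^ (p ^ m) * (x⁻¹)⁻¹) * x⁻¹ := by group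
        _ = 1 := by rw [h4, mul_one, mul_inv_cancel]
  have hYN : pZ p N ≤ N := fun w hw => hw.1
  have hYc : ∀ y ∈ pZ p N, ∀ x ∈ N, y * x = x * y := fun y hy => hy.2.1
  have hYp : IsPGroup p (pZ p N) := by
    rintro ⟨w, hw⟩
    obtain ⟨m, hm⟩ := hw.2.2
    exact ⟨m, Subtype.ext hm⟩
  have hYD : pZ p N ≤ D := op_le p hYp hs.hb.idem hs.hb.ne_zero hs.ha hs.hba
  obtain ⟨H, iH, fH, Z', π, c, hc, hZ', hpZ', hZπ, -, hπ, hker, hMo, hTh, D', a', hD',
    ha', hca', hD'M⟩ := hP.kp hYp hYN hYc he (hST N hNn e he hbe) hs.hb hbe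
      ⟨tr (cj k G) (N ⊓ conjS x D) (pZ p N) z, KP.tr_mem_SubAlg hz, tr_mem_Fix hzF, by
        rw [tr_tr hzF hRY hYN]
        exact hez⟩ hs.ha hs.hba hYD
  apply hMo
  obtain ⟨P', hPD, hP', a'', ha'', hca''⟩ := exists_sylow_trace (p := p) ha' hca'
  have hpm' : p ≤ max m (max ((bd n m) !) γ) := hpm.trans (le_max_left _ _)
  obtain ⟨X', hX'n, hX's, hX'A, hX'R, hX'K⟩ := kp_stateK (p := p) (q := n)
    (m := max m (max ((bd n m) !) γ)) hpm' hK
    (X := X) (N := N) hs.Xss hTh hNB (hXC.trans hCB) hRN hYp hZ' hZπ hker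
  have hBn' : (B.map (QuotientGroup.mk' N)).Normal :=
    Subgroup.Normal.map hBn _ (QuotientGroup.mk'_surjective N)
  refine hrec H Z' X' (pull N π B) P' a'' c ?_ (hX'K D P' (hPD.trans hD'M) hKD)
  exact
    { An := inferInstance
      Xn := hX'n
      Xss := hX's
      XA := hX'A
      Dp := hP'
      rc := hX'R
      lay := ((hrest.pull π hD'M hNB).mono (le_max_left _ _)).mono_D hPD
      ZA := by
        refine hZπ.trans ?_
        intro h hh
        exact mem_pull.mpr ⟨1, B.one_mem, (map_one _).trans (MonoidHom.mem_ker.mp hh).symm⟩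
      Zc := hZ'
      Zp := hpZ'
      hb := hc
      ha := ha''
      hba := hca''
      Dn := ((Nat.card_le_card_of_injective _ (Subgroup.inclusion_injective hPD)).trans
        hD').trans hs.Dn }

/-- The index of `X C_G(X)` is bounded. -/
def IndK (K : ∀ (G : Type) [Group G], Subgroup G → Subgroup G → Prop) (n γ : ℕ) : Prop :=
  ∀ (G : Type) [Group G] [Finite G] (X D : Subgroup G) [X.Normal], SSP QT X → K G X D →
    Nat.card (simps QT X) ≤ n → (∀ S ∈ simps QT X, D ⊓ S ≠ ⊥) →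
    (X ⊔ Subgroup.centralizer (X : Set G)).index ≤ γ

theorem mainK (hK : Adm K) {P : ∀ (G : Type) [Group G], MonoidAlgebra k G → Prop}
    (hP : Clo k p P) {γ : ℕ}
    (hγ : IndK K n γ) (j : ℕ) :
    ∀ (m : ℕ), p ≤ m →
    (∀ (G : Type) [Group G] [Finite G] (Z X D : Subgroup G) (a b : MonoidAlgebra k G),
      Term QT p n (bd n (MF n γ j m) * γ) Z X D a b → K G X D →
      (∀ S ∈ simps QT X, D ⊓ S ≠ ⊥) → P G b) →
    ∀ (G : Type) [Group G] [Finite G] (Z X A D : Subgroup G) (a b : MonoidAlgebra k G),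
      St QT p n m j Z X A D a b → K G X D → P G b := by
  induction j with
  | zero =>
    intro m hpm hend G _ _ Z X A D a b hs hKD
    refine reduceK hK hP hpm ?_ Z.index G Z X A D a b hs hKD le_rfl
    intro G _ _ Z X A D a b hs hKD hST hNR
    have hXn := hs.Xn
    have hAtop : A = ⊤ := hs.lay
    have hZn : Z.Normal := by
      constructor
      intro z hz g
      rw [← hs.Zc z hz g, mul_inv_cancel_right]
      exact hz
    have hcnt := card_simps_le (Q := QT) (fun _ _ _ _ _ _ => ⟨1⟩) hs hST hNR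
    have hne := inf_simps_ne hs hST hNR
    have hβ := centralizer_bound hs hST hNR
    rw [hAtop, top_inf_eq] at hβ
    refine hend G Z X D a b ?_ hKD hne
    exact
      { Xn := hXn
        Xss := hs.Xss
        Dp := hs.Dp
        Zc := hs.Zc
        Zp := hs.Zp
        hb := hs.hb
        ha := hs.ha
        hba := hs.hba
        Dn := hs.Dn
        st := hST
        idx := index_le_of hβ (hγ G X D hs.Xss hKD hcnt hne) hs.Zc
        cnt := hcnt }
  | succ j ih =>
    intro m hpm hend G _ _ Z X A D a b hs hKD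
    refine reduceK hK hP hpm ?_ Z.index G Z X A D a b hs hKD le_rfl
    intro G _ _ Z X A D a b hs hKD hST hNR
    have hXn := hs.Xn
    have hcnt := card_simps_le (Q := QT) (fun _ _ _ _ _ _ => ⟨1⟩) hs hST hNR
    have hne := inf_simps_ne hs hST hNR
    exact layerK hK hP hpm hs hKD hST hNR (hγ G X D hs.Xss hKD hcnt hne)
      (ih (max m (max ((bd n m) !) γ)) (hpm.trans (le_max_left _ _)) hend)


end Vale.Agent.P180.R2.H47
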