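import Vale.Agent.P180.H768.Statement
import Mathlib.GroupTheory.SpecificGroups.Alternating

/-!
P180: the condition of the theorem on groups with a normal direct product of simple groups.
-/

namespace Vale.Agent.P180

open Subgroup in
/-- `G` has normal subgroups `N 0 ≤ N 1 ≤ ⋯ ≤ N l = G` (`l` arbitrary) such that `N 0` is
generated by pairwise commuting nonabelian simple subgroups `S j` (so `N 0` is their direct
product; any number of factors), for each of which
(1) `S j` is isomorphic to an alternating group, or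
(2) `D ∩ S j` is cyclic and the order of `N_G(S j) / S j C_G(S j)` is at most `m` and prime to
`p`, or
(3) `D ∩ S j = 1`, or
(4) `S j` satisfies `GoodSections p n m`;
and, for every `i < l`,
(a) the image of `D ∩ N (i + 1)` in `N (i + 1) / N i` is central in `N (i + 1) / N i`, or
(b) `N (i + 1) / N i` satisfies `GoodSections p n m`, or
(c) `p = 2` and the centralisers of the involutions of `N (i + 1) / N i` are `2`-groups. -/
def HasMixedSeries (p n m : ℕ) {G : Type} [Group G] (D : Subgroup G) : Prop :=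
  ∃ (l : ℕ) (N : ℕ → Subgroup G) (_ : ∀ i, (N i).Normal),
    (∃ (r : ℕ) (S : Fin r → Subgroup G),
      (∀ i j, i ≠ j → ∀ x ∈ S i, ∀ y ∈ S j, x * y = y * x) ∧ N 0 = ⨆ j, S j ∧
      ∀ j, IsSimpleGroup (S j) ∧ (¬ ∀ x ∈ S j, ∀ y ∈ S j, x * y = y * x) ∧
        ((∃ d : ℕ, Nonempty (S j ≃* alternatingGroup (Fin d))) ∨
          (IsCyclic (D ⊓ S j : Subgroup G) ∧
            (S j ⊔ centralizer (S j : Set G)).relIndex (normalizer (S j : Set G)) ≤ m ∧
            ¬ p ∣ (S j ⊔ centralizer (S j : Set G)).relIndex (normalizer (S j : Set G))) ∨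
          D ⊓ S j = ⊥ ∨ GoodSections p n m (S j))) ∧ N l = ⊤ ∧
    ∀ i < l, N i ≤ N (i + 1) ∧
      ((∀ x ∈ D, x ∈ N (i + 1) → ∀ y ∈ N (i + 1), x * y * x⁻¹ * y⁻¹ ∈ N i) ∨
        GoodSections p n m ((N (i + 1)).map (QuotientGroup.mk' (N i))) ∨
        (p = 2 ∧ ∀ x y : (N (i + 1)).map (QuotientGroup.mk' (N i)),
          x ≠ 1 → x * x = 1 → x * y = y * x → ∃ a : ℕ, y ^ 2 ^ a = 1))

end Vale.Agent.P180
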