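import Vale.Agent.P180.R2.H47.SS

set_option linter.all false

/-!
P180: the outer automorphisms of a subgroup `S` induced by `G`, and the projection of a subgroup
`D` to `S`.
-/

namespace Vale.Agent.P180.R2.H47

open Subgroup

section Out

variable {G : Type} [Group G]

/-- the order of the group of outer automorphisms of `S` induced by `N_G(S)` -/
noncomputable def outI (S : Subgroup G) : ℕ :=
  (S ⊔ centralizer (S : Set G)).relIndex (normalizer (S : Set G))

theorem inn_normal (S : Type) [Group S] : (MulAut.conj : S →* MulAut S).range.Normal := by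
  constructor
  rintro _ ⟨s, rfl⟩ a
  refine ⟨a s, ?_⟩
  ext x
  simp [MulAut.conj_apply]

theorem nmh_apply (S : Subgroup G) (g : normalizer (S : Set G)) (s : S) :
    ((S.normalizerMonoidHom g s : S) : G) = g * s * (g : G)⁻¹ := rfl

theorem sup_cent_subgroupOf (S : Subgroup G) :
    (S ⊔ centralizer (S : Set G)).subgroupOf (normalizer (S : Set G)) =
      (MulAut.conj : S →* MulAut S).range.comap S.normalizerMonoidHom := by
  ext g
  rw [mem_subgroupOf, mem_comap, MonoidHom.mem_range]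
  have hcent : (S : Subgroup G) ≤ normalizer (S : Set G) := le_normalizer
  constructor
  · intro hg
    have h2 : ∃ s ∈ S, ∃ c ∈ centralizer (S : Set G), s * c = (g : G) := by
      obtain ⟨a, ha, b, hb, hab⟩ := Vale.Agent.P180.mem_sup_of_commute (fun a ha b hb =>
        (mem_centralizer_iff.mp hb a ha)) hg
      exact ⟨a, ha, b, hb, hab⟩
    obtain ⟨s, hs, c, hc, hsc⟩ := h2
    refine ⟨⟨s, hs⟩, ?_⟩
    ext x
    rw [nmh_apply, MulAut.conj_apply]
    change s * x * s⁻¹ = _
    rw [← hsc]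
    have h3 := mem_centralizer_iff.mp hc x x.2
    calc s * x * s⁻¹ = s * (x * c * c⁻¹) * s⁻¹ := by group
      _ = s * (c * x * c⁻¹) * s⁻¹ := by rw [h3]
      _ = s * c * x * (s * c)⁻¹ := by group
  · rintro ⟨s, hs⟩
    have h2 : (s : G)⁻¹ * g ∈ centralizer (S : Set G) := by
      rw [mem_centralizer_iff]
      intro x hx
      have h3 := congrArg Subtype.val (DFunLike.congr_fun hs ⟨x, hx⟩)
      rw [nmh_apply, MulAut.conj_apply] at h3
      change (s : G) * x * (s : G)⁻¹ = g * x * (g : G)⁻¹ at h3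
      calc x * ((s : G)⁻¹ * g) = (s : G)⁻¹ * ((s : G) * x * (s : G)⁻¹) * g := by group
        _ = (s : G)⁻¹ * (g * x * (g : G)⁻¹) * g := by rw [h3]
        _ = (s : G)⁻¹ * g * x := by group
    have h4 : (g : G) = s * ((s : G)⁻¹ * g) := by group
    rw [h4]
    exact mul_mem_sup s.2 h2

theorem outI_eq (S : Subgroup G) :
    outI S = (MulAut.conj : S →* MulAut S).range.relIndex S.normalizerMonoidHom.range := by
  rw [outI, relIndex, sup_cent_subgroupOf, index_comap]

/-- a `p`-element normalising `S` acts on `S` as an inner automorphism if the order of the group of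
outer automorphisms is prime to `p` -/
theorem mem_sup_cent {S : Subgroup G} {p : ℕ} [Fact p.Prime] (h : ¬ p ∣ outI S) {r : G}
    (hr : r ∈ normalizer (S : Set G)) {l : ℕ} (hl : r ^ p ^ l = 1) :
    r ∈ S ⊔ centralizer (S : Set G) := by
  have hn : ((S ⊔ centralizer (S : Set G)).subgroupOf (normalizer (S : Set G))).Normal := by
    rw [sup_cent_subgroupOf]
    exact (inn_normal S).comap _
  obtain ⟨M, hM⟩ : ∃ M : Subgroup (normalizer (S : Set G)), M =
    (S ⊔ centralizer (S : Set G)).subgroupOf (normalizer (S : Set G)) := ⟨_, rfl⟩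
  rw [← hM] at hn
  obtain ⟨q, hq⟩ : ∃ q : normalizer (S : Set G) ⧸ M, q = QuotientGroup.mk' M ⟨r, hr⟩ := ⟨_, rfl⟩
  have h1 : q ^ p ^ l = 1 := by
    have h2 : (⟨r, hr⟩ : normalizer (S : Set G)) ^ p ^ l = 1 := Subtype.ext hl
    rw [hq, ← map_pow, h2, map_one]
  have h2 : orderOf q ∣ p ^ l := orderOf_dvd_of_pow_eq_one h1
  have h3 : orderOf q ∣ outI S := by
    have h6 : M.index = outI S := by rw [hM]; rfl
    rw [← h6]
    exact orderOf_dvd_natCard q
  have h4 : q = 1 := by
    rw [← orderOf_eq_one_iff]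
    refine Nat.eq_one_of_dvd_coprimes (a := p ^ l) (b := outI S) ?_ h2 h3
    exact Nat.Coprime.pow_left _ ((Nat.Prime.coprime_iff_not_dvd Fact.out).mpr h)
  rw [hq] at h4
  have h5 : (⟨r, hr⟩ : normalizer (S : Set G)) ∈ M := (QuotientGroup.eq_one_iff _).mp h4
  rw [hM] at h5
  exact h5

variable {H : Type} [Group H]

/-- Transfer of the outer automorphisms. -/
theorem outI_dvd {S : Subgroup G} {S' : Subgroup H} (ψ : S ≃* S')
    (h : ∀ t ∈ normalizer (S' : Set H), ∃ g ∈ normalizer (S : Set G), ∀ s s' : S,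
      (s' : G) = g * s * g⁻¹ → ((ψ s' : S') : H) = t * (ψ s : S') * t⁻¹) :
    outI S' ∣ outI S := by
  rw [outI_eq, outI_eq]
  have hn := inn_normal S'
  have h1 : (MulAut.conj : S' →* MulAut S').range =
      (MulAut.conj : S →* MulAut S).range.map (MulAut.congr ψ).toMonoidHom := by
    ext f
    constructor
    · rintro ⟨s, rfl⟩
      refine ⟨_, ⟨ψ.symm s, rfl⟩, ?_⟩
      ext x
      change ((ψ (ψ.symm s * ψ.symm x * (ψ.symm s)⁻¹) : S') : H) = _
      rw [map_mul, map_mul, map_inv, ψ.apply_symm_apply, ψ.apply_symm_apply]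
      rfl
    · rintro ⟨_, ⟨s, rfl⟩, rfl⟩
      refine ⟨ψ s, ?_⟩
      ext x
      change _ = ((ψ (s * ψ.symm x * s⁻¹) : S') : H)
      rw [map_mul, map_mul, map_inv, ψ.apply_symm_apply]
      rfl
  have h2 : S'.normalizerMonoidHom.range ≤
      S.normalizerMonoidHom.range.map (MulAut.congr ψ).toMonoidHom := by
    rintro _ ⟨⟨t, ht⟩, rfl⟩
    obtain ⟨g, hg, hgt⟩ := h t ht
    refine ⟨_, ⟨⟨g, hg⟩, rfl⟩, ?_⟩
    ext x
    change ((ψ (S.normalizerMonoidHom ⟨g, hg⟩ (ψ.symm x)) : S') : H) = t * x * t⁻¹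
    rw [hgt (ψ.symm x) _ (nmh_apply S ⟨g, hg⟩ (ψ.symm x)), ψ.apply_symm_apply]
  have h3 : (MulAut.conj : S →* MulAut S).range.relIndex S.normalizerMonoidHom.range =
      (MulAut.conj : S' →* MulAut S').range.relIndex
        (S.normalizerMonoidHom.range.map (MulAut.congr ψ).toMonoidHom) := by
    rw [h1]
    exact (relIndex_map_map_of_injective _ _ (MulAut.congr ψ).injective).symm
  rw [h3]
  -- monotonicity
  have h4 : ∀ {K L N : Subgroup (MulAut S')} [N.Normal], K ≤ L → N.relIndex K ∣ N.relIndex L := by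
    intro K L N _ hKL
    have h5 := relIndex_subgroupOf (H := N) hKL
    rw [← h5]
    exact relIndex_dvd_index_of_normal _ _
  exact h4 h2

end Out

section Pj

variable {G : Type} [Group G]

/-- the projection to `S` of `D ∩ S C_G(S)` -/
def Pj (D S : Subgroup G) : Subgroup G where
  carrier := {s | s ∈ S ∧ ∃ c ∈ centralizer (S : Set G), s * c ∈ D}
  mul_mem' := by
    rintro s t ⟨hs, c, hc, hsc⟩ ⟨ht, d, hd, htd⟩
    refine ⟨S.mul_mem hs ht, c * d, mul_mem hc hd, ?_⟩
    have h1 := mem_centralizer_iff.mp hc t ht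
    have e : s * t * (c * d) = s * c * (t * d) := by
      calc s * t * (c * d) = s * (t * c) * d := by group
        _ = s * (c * t) * d := by rw [h1]
        _ = _ := by group
    rw [e]
    exact mul_mem hsc htd
  one_mem' := ⟨S.one_mem, 1, one_mem _, by rw [mul_one]; exact D.one_mem⟩
  inv_mem' := by
    rintro s ⟨hs, c, hc, hsc⟩
    refine ⟨S.inv_mem hs, c⁻¹, inv_mem hc, ?_⟩
    have h1 := mem_centralizer_iff.mp hc s hs
    have e : s⁻¹ * c⁻¹ = (s * c)⁻¹ := by rw [h1]; group
    rw [e]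
    exact inv_mem hsc

theorem mem_Pj {D S : Subgroup G} {s : G} :
    s ∈ Pj D S ↔ s ∈ S ∧ ∃ c ∈ centralizer (S : Set G), s * c ∈ D := Iff.rfl

theorem inf_le_Pj (D S : Subgroup G) : D ⊓ S ≤ Pj D S := by
  intro s hs
  exact ⟨hs.2, 1, one_mem _, by rw [mul_one]; exact hs.1⟩

theorem Pj_le (D S : Subgroup G) : Pj D S ≤ S := fun _ h => h.1

theorem Pj_mono {D D' : Subgroup G} (h : D' ≤ D) (S : Subgroup G) : Pj D' S ≤ Pj D S := by
  rintro s ⟨hs, c, hc, hsc⟩
  exact ⟨hs, c, hc, h hsc⟩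

end Pj

end Vale.Agent.P180.R2.H47
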