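import Vale.Agent.P180.R2.H47.TermK

set_option linter.all false

/-!
P180: for a defect group `D`, the projection of `D ∩ S C_G(S)` to a simple factor `S` is `D ∩ S`.
-/

namespace Vale.Agent.P180.R2.H47

open Vale.Agent.P180 Vale.Agent.P180.H768.Gd
open Vale.Agent.P180.R2.H954 (Below)
open Vale.Agent.P180.H768 hiding pull mem_pull exists_factor Lay mk_mem comm_mem
open Subgroup (mem_centralizer_iff mem_sup_left mem_sup_right mul_mem_sup centralizer)

open scoped Nat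

universe u

variable {k : Type u} [Field k] {p : ℕ} [Fact p.Prime] [CharP k p]

section Stable

variable {G : Type} [Group G] [Finite G] {X D S : Subgroup G} [hXn : X.Normal]

theorem le_sup_cent (hX : SSP QT X) (hS : S ∈ simps QT X) :
    X ≤ S ⊔ centralizer (S : Set G) := by
  refine hX.trans (sSup_le fun T hT => ?_)
  by_cases hTS : T = S
  · rw [hTS]; exact le_sup_left
  · intro t ht
    refine mem_sup_right ?_
    rw [mem_centralizer_iff]
    intro s hs
    exact simps_comm hS hT (Ne.symm hTS) hs ht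

theorem Pj_isPGroup (hD : IsPGroup p D)
    (hcen : ∀ x ∈ S, (∀ y ∈ S, x * y = y * x) → x = 1) : IsPGroup p (Pj D S) := by
  rintro ⟨s, hs, c, hc, hsc⟩
  obtain ⟨l, hl⟩ := hD ⟨_, hsc⟩
  refine ⟨l, Subtype.ext ?_⟩
  change s ^ p ^ l = 1
  have h1 : (s * c) ^ p ^ l = 1 := congrArg Subtype.val hl
  have h2 : Commute s c := mem_centralizer_iff.mp hc s hs
  rw [h2.mul_pow] at h1
  have h3 : s ^ p ^ l = (c ^ p ^ l)⁻¹ := mul_eq_one_iff_eq_inv.mp h1
  apply hcen _ (S.pow_mem hs _)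
  intro y hy
  have h4 : (c ^ p ^ l)⁻¹ ∈ centralizer (S : Set G) :=
    Subgroup.inv_mem _ (Subgroup.pow_mem _ hc _)
  rw [h3]
  exact (mem_centralizer_iff.mp h4 y hy).symm

theorem Pj_le_stable (hX : SSP QT X) (hS : S ∈ simps QT X) (hD : IsPGroup p D)
    {b a e : MonoidAlgebra k G} (hb : IsBlockOf (⊤ : Subgroup G) b)
    (ha : a ∈ Fix (cj k G) D) (hba : b = tr (cj k G) D ⊤ a) (hbr : br D b ≠ 0)
    (he : IsBlockOf X e) (heF : e ∈ Fix (cj k G) ⊤) (heb : e * b = b) : Pj D S ≤ D := by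
  have hXS : ∀ x ∈ X, ∃ s ∈ S, ∃ c ∈ centralizer (S : Set G), x = s * c := by
    intro x hx
    obtain ⟨s, hs, c, hc, h⟩ := Vale.Agent.P180.mem_sup_of_commute
      (fun s hs c hc => mem_centralizer_iff.mp hc s hs) (le_sup_cent hX hS hx)
    exact ⟨s, hs, c, hc, h.symm⟩
  have hcen : ∀ x ∈ S, (∀ y ∈ S, x * y = y * x) → x = 1 := fun x hx h => simps_center hS hx h
  obtain ⟨f, hf, -, -⟩ := H954.exists_below hS.1 hXS he heb
  obtain ⟨R, hR⟩ : ∃ R, R = D ⊓ (S ⊔ centralizer (S : Set G)) := ⟨_, rfl⟩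
  obtain ⟨-, hbrf, -, -⟩ := hf.exists_tr hS.1 hXS hD hb ha hba hbr he heF heb (R := R)
    (by rw [hR]; exact inf_le_left) (by
      rw [hR]
      exact fun x hx => ⟨hx.2, mem_sup_left hx.1⟩) (by
      intro r hr s hs
      rw [hR] at hr
      obtain ⟨t, ht, c, hc, rfl⟩ := Vale.Agent.P180.mem_sup_of_commute
        (fun s hs c hc => mem_centralizer_iff.mp hc s hs) hr.2
      have h1 := mem_centralizer_iff.mp hc s hs
      have e : t * c * s * (t * c)⁻¹ = t * s * t⁻¹ := by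
        calc t * c * s * (t * c)⁻¹ = t * (c * s) * c⁻¹ * t⁻¹ := by group
          _ = t * (s * c) * c⁻¹ * t⁻¹ := by rw [h1]
          _ = t * s * t⁻¹ := by group
      rw [e]
      exact S.mul_mem (S.mul_mem ht hs) (S.inv_mem ht))
  obtain ⟨-, -, ⟨z, hz, hzF, hfz⟩, -⟩ := hf.exists_tr hS.1 hXS hD hb ha hba hbr he heF heb
    (R := S ⊓ D) inf_le_right le_rfl (by
      intro r hr s hs
      exact S.mul_mem (S.mul_mem hr.1 hs) (S.inv_mem hr.1))
  have hSS : S ⊓ (S ⊓ D) = S ⊓ D := by rw [← inf_assoc, inf_idem]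
  rw [hSS] at hzF hfz
  obtain ⟨x, hx, hfx⟩ := H954.exists_coeff_of_br hbrf
  have hxS : x ∈ S := hf.block.mem.1 x hfx
  have hcomm : ∀ h ∈ Pj D S, h * x * h⁻¹ = x := by
    rintro s ⟨hs, c, hc, hsc⟩
    have h1 : s * c ∈ R := by
      rw [hR]
      exact ⟨hsc, mul_mem_sup hs hc⟩
    have h2 := hx _ h1
    have h3 := mem_centralizer_iff.mp hc x hxS
    calc s * x * s⁻¹ = s * (x * c) * c⁻¹ * s⁻¹ := by group
      _ = s * (c * x) * c⁻¹ * s⁻¹ := by rw [h3]
      _ = s * c * x * (s * c)⁻¹ := by group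
      _ = x := h2
  have hcard := H799.card_le_of_coeff (N := S) (P := S ⊓ D) (Q := Pj D S) inf_le_left (Pj_le D S)
    (Pj_isPGroup hD hcen) hzF hfz hcomm hfx
  have hle : D ⊓ S ≤ Pj D S := inf_le_Pj D S
  rw [inf_comm] at hcard
  have heq : D ⊓ S = Pj D S := Subgroup.eq_of_le_of_card_ge hle hcard
  rw [← heq]
  exact inf_le_left

end Stable

theorem Pj_le_of_defect {G : Type} [Group G] [Finite G] {X D S : Subgroup G} [hXn : X.Normal]
    (hX : SSP QT X) (hS : S ∈ simps QT X) (hD : IsPGroup p D)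
    {b a : MonoidAlgebra k G} (hb : IsBlock b)
    (ha : a ∈ Fix (cj k G) D) (hba : b = tr (cj k G) D ⊤ a) (hbr : br D b ≠ 0) :
    Pj D S ≤ D := by
  have hb1 := isBlock_iff.mp hb
  obtain ⟨e, he, hbe⟩ := exists_isPrimIn (ZAlg k X) (by exact ZAlg_comm) hb1.ne_zero
  obtain ⟨b', hb', hbb', -, x, a', ha', hb'a'⟩ := fong_reynolds he hb hbe ha hba
  have hb1' := isBlock_iff.mp hb'
  have hXT : X ≤ stabE e := le_stabE he
  -- the stabiliser and the defect group of `b'`
  obtain ⟨P, hPD, a'', ha'', hb'a'', c, hc, hcc⟩ := H768.Gd.exists_min_defect hb1' ha' hb'a'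
  obtain ⟨c₀, hc₀, hbc₀⟩ := H954.exists_coeff_of_br hbr
  have hbT : b = tr (cj k G) (P.map (stabE e).subtype) ⊤ (incl k (stabE e) a'') := by
    have h1 := tr_e_mul he hb1 hbe
    rw [← hbb', hb'a'', incl_tr _ _ ha''] at h1
    rw [← h1, tr_tr ((incl_mem_Fix_iff _ _ _).mpr ha'') (Subgroup.map_subtype_le P) le_top]
  have hcard : Nat.card D ≤ Nat.card P := by
    have h1 := H799.card_le_of_coeff (N := ⊤) (P := P.map (stabE e).subtype) (Q := D) le_top le_top
      hD ((incl_mem_Fix_iff _ _ _).mpr ha'') hbT hc₀ hbc₀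
    have h2 : Nat.card (P.map (stabE e).subtype) = Nat.card P :=
      Nat.card_congr (P.equivMapOfInjective _ (stabE e).subtype_injective).symm.toEquiv
    rwa [h2] at h1
  have hcD : Nat.card ((conjS x D).subgroupOf (stabE e)) ≤ Nat.card D :=
    card_subgroupOf_conjS_le _ x D
  have hPeq : P = (conjS x D).subgroupOf (stabE e) :=
    Subgroup.eq_of_le_of_card_ge hPD (hcD.trans hcard)
  subst hPeq
  have hcc2 : Nat.card (conjS x D) = Nat.card D :=
    Nat.card_congr (D.equivMapOfInjective _ (MulAut.conj x).injective).symm.toEquiv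
  have hDT : conjS x D ≤ stabE e := by
    have h1 : (conjS x D) ⊓ stabE e = conjS x D := by
      refine Subgroup.eq_of_le_of_card_ge inf_le_left ?_
      rw [hcc2]
      refine hcard.trans ?_
      rw [← Subgroup.subgroupOf_map_subtype]
      exact (Nat.card_congr (((conjS x D).subgroupOf (stabE e)).equivMapOfInjective _
        (stabE e).subtype_injective).toEquiv).le
    rw [← h1]
    exact inf_le_right
  -- the data in `T = stabE e`
  have hXn' : (X.subgroupOf (stabE e)).Normal := inferInstance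
  have hX' : SSP QT (X.subgroupOf (stabE e)) :=
    SSP.of_map (fun _ _ _ _ _ _ => ⟨1⟩) (stabE e).subtype (fun x _ hx => Subtype.ext hx) (by
      rw [Subgroup.map_subgroupOf_eq_of_le hXT]
      exact hX)
  have hSx := simps_conj (Q := QT) (fun _ _ _ _ _ _ => ⟨1⟩) hS x
  obtain ⟨S', hS'def⟩ : ∃ S', S' = (S.map (MulAut.conj x).toMonoidHom).subgroupOf (stabE e) :=
    ⟨_, rfl⟩
  have hSxT : S.map (MulAut.conj x).toMonoidHom ≤ stabE e := hSx.1.trans hXT
  have hmem' : ∀ {y : stabE e}, y ∈ S' ↔ x⁻¹ * y * x ∈ S := by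
    intro y
    rw [hS'def, Subgroup.mem_subgroupOf, mem_map_conj']
  have hS' : S' ∈ simps QT (X.subgroupOf (stabE e)) := by
    obtain ⟨h1, h2, h3, h4, -⟩ := hSx
    have e1 : S' ≃* S.map (MulAut.conj x).toMonoidHom := by
      rw [hS'def]; exact Subgroup.subgroupOfEquivOfLe hSxT
    refine ⟨?_, ?_, simple_of_equiv e1.symm h3, ?_, ⟨1⟩⟩
    · rw [hS'def]; exact Subgroup.comap_mono h1
    · intro y hy s hs
      rw [hS'def, Subgroup.mem_subgroupOf] at hs ⊢
      exact h2 y hy s hs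
    · intro h
      apply h4
      intro y hy z hz
      have := h ⟨y, hSxT hy⟩ (by rw [hS'def]; exact hy) ⟨z, hSxT hz⟩ (by rw [hS'def]; exact hz)
      exact congrArg Subtype.val this
  have hDp : IsPGroup p ((conjS x D).subgroupOf (stabE e)) := by
    have h1 : IsPGroup p (conjS x D) := by
      rintro ⟨w, hw⟩
      rw [mem_conjS] at hw
      obtain ⟨r, hr⟩ := hD ⟨_, hw⟩
      refine ⟨r, Subtype.ext ?_⟩
      have h3 : (x⁻¹ * w * x) ^ (p ^ r) = 1 := congrArg Subtype.val hr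
      have h4 : (x⁻¹ * w * (x⁻¹)⁻¹) ^ (p ^ r) = 1 := by rwa [inv_inv]
      rw [conj_pow] at h4
      change w ^ (p ^ r) = 1
      calc w ^ (p ^ r) = x * (x⁻¹ * w ^ (p ^ r) * (x⁻¹)⁻¹) * x⁻¹ := by group
        _ = 1 := by rw [h4, mul_one, mul_inv_cancel]
    exact h1.comap_of_injective _ (stabE e).subtype_injective
  obtain ⟨e', he'⟩ := exists_incl (stabE e) (SubAlg_mono hXT he.mem.1)
  have he'X : IsBlockOf (X.subgroupOf (stabE e)) e' := by
    rw [isBlockOf_subgroupOf_iff hXT, he']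
    exact he
  have he'F : e' ∈ Fix (cj k (stabE e)) ⊤ := by
    rw [← incl_mem_Fix_iff, he']
    intro g hg
    obtain ⟨t, -, rfl⟩ := hg
    exact mem_stabE.mp t.2
  have he'b : e' * b' = b' := by
    apply incl_injective (k := k) (stabE e)
    rw [map_mul, he', hbb']
    have hbc : ∀ x, x * b = b * x := fun x => commute_of_mem (SubAlg_top x) hb1.mem.2
    rw [← mul_assoc, hbc e, mul_assoc, he.idem.eq]
  have hmain := Pj_le_stable (X := X.subgroupOf (stabE e)) (S := S')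
    (D := (conjS x D).subgroupOf (stabE e)) hX' hS' hDp hb1' ha'' hb'a''
    (H954.br_ne_zero_of_coeff hc hcc) he'X he'F he'b
  rintro s ⟨hs, d, hd, hsd⟩
  have h1 : x * (s * d) * x⁻¹ ∈ stabE e := hDT (mem_conjS.mpr (by
    have e1 : x⁻¹ * (x * (s * d) * x⁻¹) * x = s * d := by group
    rw [e1]; exact hsd))
  have h2 : x * s * x⁻¹ ∈ stabE e := hXT (hXn.conj_mem s (hS.1 hs) x)
  have h3 : x * d * x⁻¹ ∈ stabE e := by
    have e1 : x * d * x⁻¹ = (x * s * x⁻¹)⁻¹ * (x * (s * d) * x⁻¹) := by group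
    rw [e1]
    exact Subgroup.mul_mem _ (Subgroup.inv_mem _ h2) h1
  have h4 : (⟨x * s * x⁻¹, h2⟩ : stabE e) ∈ Pj ((conjS x D).subgroupOf (stabE e)) S' := by
    refine ⟨hmem'.mpr ?_, ⟨x * d * x⁻¹, h3⟩, ?_, ?_⟩
    · have e1 : x⁻¹ * (x * s * x⁻¹) * x = s := by group
      change x⁻¹ * (x * s * x⁻¹) * x ∈ S
      rw [e1]; exact hs
    · rw [mem_centralizer_iff]
      intro y hy
      apply Subtype.ext
      have h5 := mem_centralizer_iff.mp hd _ (hmem'.mp hy)
      change (y : G) * (x * d * x⁻¹) = x * d * x⁻¹ * y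
      calc (y : G) * (x * d * x⁻¹) = x * (x⁻¹ * y * x * d) * x⁻¹ := by group
        _ = x * (d * (x⁻¹ * y * x)) * x⁻¹ := by rw [h5]
        _ = x * d * x⁻¹ * y := by group
    · rw [Subgroup.mem_subgroupOf, mem_conjS]
      have e1 : x⁻¹ * (x * s * x⁻¹ * (x * d * x⁻¹)) * x = s * d := by group
      change x⁻¹ * (x * s * x⁻¹ * (x * d * x⁻¹)) * x ∈ D
      rw [e1]; exact hsd
  have h5 := hmain h4
  rw [Subgroup.mem_subgroupOf, mem_conjS] at h5
  have e1 : x⁻¹ * (x * s * x⁻¹) * x = s := by group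
  change x⁻¹ * (x * s * x⁻¹) * x ∈ D at h5
  rwa [e1] at h5

end Vale.Agent.P180.R2.H47
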