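import Vale.Agent.P180.R2.H954.G1
import Vale.Agent.P180.R2.H47.Ob

set_option linter.all false

/-!
P180: for a defect group `D`, the projection of `D ∩ L C_G(L)` to a component `L` has Sylow
`p`-subgroup `D ∩ L`.
-/

namespace Vale.Agent.P180.R2.H47

open Vale.Agent.P180 Vale.Agent.P180.H768.Gd
open Vale.Agent.P180.R2.H954 (Below)
open Subgroup (mem_centralizer_iff mem_sup_left mem_sup_right mul_mem_sup centralizer)

open scoped Nat

universe u

variable {k : Type u} [Field k] {p : ℕ} [Fact p.Prime] [CharP k p]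

section Stable

variable {G : Type} [Group G] [Finite G] {X D L : Subgroup G} [hXn : X.Normal]

theorem PjQ_stable (hLX : L ≤ X) (hXL : X ≤ L ⊔ centralizer (L : Set G)) (hD : IsPGroup p D)
    {b a e : MonoidAlgebra k G} (hb : IsBlockOf (⊤ : Subgroup G) b)
    (ha : a ∈ Fix (cj k G) D) (hba : b = tr (cj k G) D ⊤ a) (hbr : br D b ≠ 0)
    (he : IsBlockOf X e) (heF : e ∈ Fix (cj k G) ⊤) (heb : e * b = b) {P : Subgroup G}
    (hP : IsPGroup p P) (hPP : P ≤ Pj D L) : Nat.card P ≤ Nat.card (L ⊓ D : Subgroup G) := by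
  have hXS : ∀ x ∈ X, ∃ s ∈ L, ∃ c ∈ centralizer (L : Set G), x = s * c := by
    intro x hx
    obtain ⟨s, hs, c, hc, h⟩ := Vale.Agent.P180.mem_sup_of_commute
      (fun s hs c hc => mem_centralizer_iff.mp hc s hs) (hXL hx)
    exact ⟨s, hs, c, hc, h.symm⟩
  obtain ⟨f, hf, -, -⟩ := H954.exists_below hLX hXS he heb
  obtain ⟨R, hR⟩ : ∃ R, R = D ⊓ (L ⊔ centralizer (L : Set G)) := ⟨_, rfl⟩
  obtain ⟨-, hbrf, -, -⟩ := hf.exists_tr hLX hXS hD hb ha hba hbr he heF heb (R := R)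
    (by rw [hR]; exact inf_le_left) (by
      rw [hR]
      exact fun x hx => ⟨hx.2, mem_sup_left hx.1⟩) (by
      intro r hr s hs
      rw [hR] at hr
      obtain ⟨t, ht, c, hc, rfl⟩ := Vale.Agent.P180.mem_sup_of_commute
        (fun s hs c hc => mem_centralizer_iff.mp hc s hs) hr.2
      have h1 := mem_centralizer_iff.mp hc s hs
      have e : t * c * s * (t * c)⁻¹ = t * s * t⁻¹ := by
        calc t * c * s * (t * c)⁻¹ = t * (c * s) * c⁻¹ * t⁻¹ := by group
          _ = t * (s * c) * c⁻¹ * t⁻¹ := by rw [h1]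
          _ = t * s * t⁻¹ := by group
      rw [e]
      exact L.mul_mem (L.mul_mem ht hs) (L.inv_mem ht))
  obtain ⟨-, -, ⟨z, hz, hzF, hfz⟩, -⟩ := hf.exists_tr hLX hXS hD hb ha hba hbr he heF heb
    (R := L ⊓ D) inf_le_right le_rfl (by
      intro r hr s hs
      exact L.mul_mem (L.mul_mem hr.1 hs) (L.inv_mem hr.1))
  have hSS : L ⊓ (L ⊓ D) = L ⊓ D := by rw [← inf_assoc, inf_idem]
  rw [hSS] at hzF hfz
  obtain ⟨x, hx, hfx⟩ := H954.exists_coeff_of_br hbrf
  have hxS : x ∈ L := hf.block.mem.1 x hfx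
  have hcomm : ∀ h ∈ Pj D L, h * x * h⁻¹ = x := by
    rintro s ⟨hs, c, hc, hsc⟩
    have h1 : s * c ∈ R := by
      rw [hR]
      exact ⟨hsc, mul_mem_sup hs hc⟩
    have h2 := hx _ h1
    have h3 := mem_centralizer_iff.mp hc x hxS
    calc s * x * s⁻¹ = s * (x * c) * c⁻¹ * s⁻¹ := by group
      _ = s * (c * x) * c⁻¹ * s⁻¹ := by rw [h3]
      _ = s * c * x * (s * c)⁻¹ := by group
      _ = x := h2
  exact H799.card_le_of_coeff (N := L) (P := L ⊓ D) (Q := P) inf_le_left (hPP.trans (Pj_le D L))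
    hP hzF hfz (fun h hh => hcomm h (hPP hh)) hfx

end Stable

theorem PjQ_card {G : Type} [Group G] [Finite G] {X D L : Subgroup G} [hXn : X.Normal]
    (hLX : L ≤ X) (hXL : X ≤ L ⊔ centralizer (L : Set G)) (hD : IsPGroup p D)
    {b a : MonoidAlgebra k G} (hb : IsBlock b)
    (ha : a ∈ Fix (cj k G) D) (hba : b = tr (cj k G) D ⊤ a) (hbr : br D b ≠ 0) {Q : Subgroup G}
    (hQ : IsPGroup p Q) (hQP : Q ≤ Pj D L) : Nat.card Q ≤ Nat.card (D ⊓ L : Subgroup G) := by
  have hb1 := isBlock_iff.mp hb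
  obtain ⟨e, he, hbe⟩ := exists_isPrimIn (ZAlg k X) (by exact ZAlg_comm) hb1.ne_zero
  obtain ⟨b', hb', hbb', -, x, a', ha', hb'a'⟩ := fong_reynolds he hb hbe ha hba
  have hb1' := isBlock_iff.mp hb'
  have hXT : X ≤ stabE e := le_stabE he
  -- the stabiliser and the defect group of `b'`
  obtain ⟨P, hPD, a'', ha'', hb'a'', c, hc, hcc⟩ := H768.Gd.exists_min_defect hb1' ha' hb'a'
  obtain ⟨c₀, hc₀, hbc₀⟩ := H954.exists_coeff_of_br hbr
  have hbT : b = tr (cj k G) (P.map (stabE e).subtype) ⊤ (incl k (stabE e) a'') := by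
    have h1 := tr_e_mul he hb1 hbe
    rw [← hbb', hb'a'', incl_tr _ _ ha''] at h1
    rw [← h1, tr_tr ((incl_mem_Fix_iff _ _ _).mpr ha'') (Subgroup.map_subtype_le P) le_top]
  have hcard : Nat.card D ≤ Nat.card P := by
    have h1 := H799.card_le_of_coeff (N := ⊤) (P := P.map (stabE e).subtype) (Q := D) le_top le_top
      hD ((incl_mem_Fix_iff _ _ _).mpr ha'') hbT hc₀ hbc₀
    have h2 : Nat.card (P.map (stabE e).subtype) = Nat.card P :=
      Nat.card_congr (P.equivMapOfInjective _ (stabE e).subtype_injective).symm.toEquiv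
    rwa [h2] at h1
  have hcD : Nat.card ((conjS x D).subgroupOf (stabE e)) ≤ Nat.card D :=
    card_subgroupOf_conjS_le _ x D
  have hPeq : P = (conjS x D).subgroupOf (stabE e) :=
    Subgroup.eq_of_le_of_card_ge hPD (hcD.trans hcard)
  subst hPeq
  have hcc2 : Nat.card (conjS x D) = Nat.card D :=
    Nat.card_congr (D.equivMapOfInjective _ (MulAut.conj x).injective).symm.toEquiv
  have hDT : conjS x D ≤ stabE e := by
    have h1 : (conjS x D) ⊓ stabE e = conjS x D := by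
      refine Subgroup.eq_of_le_of_card_ge inf_le_left ?_
      rw [hcc2]
      refine hcard.trans ?_
      rw [← Subgroup.subgroupOf_map_subtype]
      exact (Nat.card_congr (((conjS x D).subgroupOf (stabE e)).equivMapOfInjective _
        (stabE e).subtype_injective).toEquiv).le
    rw [← h1]
    exact inf_le_right
  -- the data in `T = stabE e`
  have hXn' : (X.subgroupOf (stabE e)).Normal := inferInstance
  obtain ⟨L', hL'def⟩ : ∃ L', L' = (conjS x L).subgroupOf (stabE e) := ⟨_, rfl⟩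
  have hLxX : conjS x L ≤ X := by
    intro y hy
    rw [mem_conjS] at hy
    have h1 := hXn.conj_mem _ (hLX hy) x
    have e1 : x * (x⁻¹ * y * x) * x⁻¹ = y := by group
    rwa [e1] at h1
  have hLxT : conjS x L ≤ stabE e := hLxX.trans hXT
  have hmem' : ∀ {y : stabE e}, y ∈ L' ↔ x⁻¹ * y * x ∈ L := by
    intro y
    rw [hL'def, Subgroup.mem_subgroupOf, mem_conjS]
  have hL'X : L' ≤ X.subgroupOf (stabE e) := by
    rw [hL'def]; exact Subgroup.comap_mono hLxX
  have hXL' : X.subgroupOf (stabE e) ≤ L' ⊔ centralizer (L' : Set (stabE e)) := by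
    intro y hy
    have h1 : x⁻¹ * (y : G) * x ∈ X := by
      have := hXn.conj_mem _ (Subgroup.mem_subgroupOf.mp hy) x⁻¹
      simpa using this
    obtain ⟨s, hs, d, hd, hsd⟩ := Vale.Agent.P180.mem_sup_of_commute
      (fun s hs c hc => mem_centralizer_iff.mp hc s hs) (hXL h1)
    have h2 : x * s * x⁻¹ ∈ stabE e := hXT (hXn.conj_mem s (hLX hs) x)
    have e1 : (y : G) = (x * s * x⁻¹) * (x * d * x⁻¹) := by
      calc (y : G) = x * (x⁻¹ * y * x) * x⁻¹ := by group
        _ = x * (s * d) * x⁻¹ := by rw [hsd]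
        _ = _ := by group
    have h3 : x * d * x⁻¹ ∈ stabE e := by
      have e2 : x * d * x⁻¹ = (x * s * x⁻¹)⁻¹ * y := by rw [e1]; group
      rw [e2]
      exact Subgroup.mul_mem _ (Subgroup.inv_mem _ h2) y.2
    have e2 : y = (⟨x * s * x⁻¹, h2⟩ : stabE e) * ⟨x * d * x⁻¹, h3⟩ := Subtype.ext e1
    rw [e2]
    refine mul_mem_sup (hmem'.mpr ?_) ?_
    · have e3 : x⁻¹ * (x * s * x⁻¹) * x = s := by group
      change x⁻¹ * (x * s * x⁻¹) * x ∈ L
      rw [e3]; exact hs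
    · rw [mem_centralizer_iff]
      intro z hz
      apply Subtype.ext
      have h5 := mem_centralizer_iff.mp hd _ (hmem'.mp hz)
      change (z : G) * (x * d * x⁻¹) = x * d * x⁻¹ * z
      calc (z : G) * (x * d * x⁻¹) = x * (x⁻¹ * z * x * d) * x⁻¹ := by group
        _ = x * (d * (x⁻¹ * z * x)) * x⁻¹ := by rw [h5]
        _ = x * d * x⁻¹ * z := by group
  have hDp : IsPGroup p ((conjS x D).subgroupOf (stabE e)) := by
    have h1 : IsPGroup p (conjS x D) := by
      rintro ⟨w, hw⟩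
      rw [mem_conjS] at hw
      obtain ⟨r, hr⟩ := hD ⟨_, hw⟩
      refine ⟨r, Subtype.ext ?_⟩
      have h3 : (x⁻¹ * w * x) ^ (p ^ r) = 1 := congrArg Subtype.val hr
      have h4 : (x⁻¹ * w * (x⁻¹)⁻¹) ^ (p ^ r) = 1 := by rwa [inv_inv]
      rw [conj_pow] at h4
      change w ^ (p ^ r) = 1
      calc w ^ (p ^ r) = x * (x⁻¹ * w ^ (p ^ r) * (x⁻¹)⁻¹) * x⁻¹ := by group
        _ = 1 := by rw [h4, mul_one, mul_inv_cancel]
    exact h1.comap_of_injective _ (stabE e).subtype_injective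
  obtain ⟨e', he'⟩ := exists_incl (stabE e) (SubAlg_mono hXT he.mem.1)
  have he'X : IsBlockOf (X.subgroupOf (stabE e)) e' := by
    rw [isBlockOf_subgroupOf_iff hXT, he']
    exact he
  have he'F : e' ∈ Fix (cj k (stabE e)) ⊤ := by
    rw [← incl_mem_Fix_iff, he']
    intro g hg
    obtain ⟨t, -, rfl⟩ := hg
    exact mem_stabE.mp t.2
  have he'b : e' * b' = b' := by
    apply incl_injective (k := k) (stabE e)
    rw [map_mul, he', hbb']
    have hbc : ∀ x, x * b = b * x := fun x => commute_of_mem (SubAlg_top x) hb1.mem.2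
    rw [← mul_assoc, hbc e, mul_assoc, he.idem.eq]
  -- the subgroup `Q`
  obtain ⟨Q', hQ'def⟩ : ∃ Q', Q' = (conjS x Q).subgroupOf (stabE e) := ⟨_, rfl⟩
  have hQxT : conjS x Q ≤ stabE e := by
    refine le_trans ?_ hLxT
    intro y hy
    rw [mem_conjS] at hy ⊢
    exact Pj_le D L (hQP hy)
  have hQ'p : IsPGroup p Q' := by
    rw [hQ'def]
    have h1 : IsPGroup p (conjS x Q) := by
      rintro ⟨w, hw⟩
      rw [mem_conjS] at hw
      obtain ⟨r, hr⟩ := hQ ⟨_, hw⟩
      refine ⟨r, Subtype.ext ?_⟩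
      have h3 : (x⁻¹ * w * x) ^ (p ^ r) = 1 := congrArg Subtype.val hr
      have h4 : (x⁻¹ * w * (x⁻¹)⁻¹) ^ (p ^ r) = 1 := by rwa [inv_inv]
      rw [conj_pow] at h4
      change w ^ (p ^ r) = 1
      calc w ^ (p ^ r) = x * (x⁻¹ * w ^ (p ^ r) * (x⁻¹)⁻¹) * x⁻¹ := by group
        _ = 1 := by rw [h4, mul_one, mul_inv_cancel]
    exact h1.comap_of_injective _ (stabE e).subtype_injective
  have hQ'P : Q' ≤ Pj ((conjS x D).subgroupOf (stabE e)) L' := by
    intro y hy
    rw [hQ'def, Subgroup.mem_subgroupOf, mem_conjS] at hy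
    obtain ⟨hs, d, hd, hsd⟩ := hQP hy
    have h1 : x * (x⁻¹ * (y : G) * x * d) * x⁻¹ ∈ stabE e := hDT (mem_conjS.mpr (by
      have e1 : x⁻¹ * (x * (x⁻¹ * (y : G) * x * d) * x⁻¹) * x = x⁻¹ * (y : G) * x * d := by group
      rw [e1]; exact hsd))
    have h3 : x * d * x⁻¹ ∈ stabE e := by
      have e1 : x * d * x⁻¹ = (y : G)⁻¹ * (x * (x⁻¹ * (y : G) * x * d) * x⁻¹) := by group
      rw [e1]
      exact Subgroup.mul_mem _ (Subgroup.inv_mem _ y.2) h1
    refine ⟨hmem'.mpr hs, ⟨x * d * x⁻¹, h3⟩, ?_, ?_⟩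
    · rw [mem_centralizer_iff]
      intro z hz
      apply Subtype.ext
      have h5 := mem_centralizer_iff.mp hd _ (hmem'.mp hz)
      change (z : G) * (x * d * x⁻¹) = x * d * x⁻¹ * z
      calc (z : G) * (x * d * x⁻¹) = x * (x⁻¹ * z * x * d) * x⁻¹ := by group
        _ = x * (d * (x⁻¹ * z * x)) * x⁻¹ := by rw [h5]
        _ = x * d * x⁻¹ * z := by group
    · rw [Subgroup.mem_subgroupOf, mem_conjS]
      have e1 : x⁻¹ * ((y : G) * (x * d * x⁻¹)) * x = x⁻¹ * (y : G) * x * d := by group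
      change x⁻¹ * ((y : G) * (x * d * x⁻¹)) * x ∈ D
      rw [e1]; exact hsd
  have hmain := PjQ_stable (X := X.subgroupOf (stabE e)) (L := L')
    (D := (conjS x D).subgroupOf (stabE e)) hL'X hXL' hDp hb1' ha'' hb'a''
    (H954.br_ne_zero_of_coeff hc hcc) he'X he'F he'b hQ'p hQ'P
  have e1 : Nat.card Q' = Nat.card Q := by
    rw [hQ'def, Nat.card_congr (Subgroup.subgroupOfEquivOfLe hQxT).toEquiv]
    exact Nat.card_congr (Q.equivMapOfInjective _ (MulAut.conj x).injective).symm.toEquiv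
  have e2 : Nat.card (L' ⊓ (conjS x D).subgroupOf (stabE e) : Subgroup (stabE e)) ≤
      Nat.card (D ⊓ L : Subgroup G) := by
    have hmm : ∀ y : (L' ⊓ (conjS x D).subgroupOf (stabE e) : Subgroup (stabE e)),
        x⁻¹ * ((y : stabE e) : G) * x ∈ D ⊓ L := fun y =>
      Subgroup.mem_inf.mpr ⟨mem_conjS.mp (Subgroup.mem_subgroupOf.mp (Subgroup.mem_inf.mp y.2).2),
        hmem'.mp (Subgroup.mem_inf.mp y.2).1⟩
    refine Nat.card_le_card_of_injective
      (fun y => (⟨x⁻¹ * ((y : stabE e) : G) * x, hmm y⟩ : (D ⊓ L : Subgroup G))) ?_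
    intro y z hyz
    have h1 : x⁻¹ * ((y : stabE e) : G) * x = x⁻¹ * ((z : stabE e) : G) * x :=
      congrArg Subtype.val hyz
    exact Subtype.ext (Subtype.ext (mul_left_cancel (mul_right_cancel h1)))
  rw [← e1]
  exact hmain.trans e2

end Vale.Agent.P180.R2.H47
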