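import Vale.Agent.P180.R2.H47.Ob

set_option linter.all false

/-!
P180: central products of quasisimple groups, as normal subgroups.
-/

namespace Vale.Agent.P180.R2.H47

open scoped commutatorElement

open Subgroup

section Perf

variable {G : Type} [Group G]

/-- elementwise commuting -/
def Cm (A B : Subgroup G) : Prop := ∀ x ∈ A, ∀ y ∈ B, x * y = y * x

theorem Cm.symm {A B : Subgroup G} (h : Cm A B) : Cm B A := fun x hx y hy => (h y hy x hx).symm

theorem Cm.mono {A B A' B' : Subgroup G} (h : Cm A B) (h1 : A' ≤ A) (h2 : B' ≤ B) : Cm A' B' :=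
  fun x hx y hy => h x (h1 hx) y (h2 hy)

theorem cm_iff {A B : Subgroup G} : Cm A B ↔ A ≤ centralizer (B : Set G) := by
  constructor
  · intro h x hx
    rw [mem_centralizer_iff]
    intro y hy
    exact (h x hx y hy).symm
  · intro h x hx y hy
    exact (mem_centralizer_iff.mp (h hx) y hy).symm

theorem cm_iff_comm {A B : Subgroup G} : Cm A B ↔ ⁅A, B⁆ = ⊥ := by
  rw [commutator_eq_bot_iff_le_centralizer, cm_iff]

theorem cm_sSup {𝒮 : Set (Subgroup G)} {B : Subgroup G} (h : ∀ S ∈ 𝒮, Cm S B) :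
    Cm (sSup 𝒮) B := by
  rw [cm_iff]
  exact sSup_le fun S hS => cm_iff.mp (h S hS)

/-- three subgroups lemma -/
theorem cm_of_perf {L N : Subgroup G} (hL : ⁅L, L⁆ = L) (h : Cm ⁅L, N⁆ L) : Cm L N := by
  rw [cm_iff_comm] at h ⊢
  have h1 : ⁅⁅L, L⁆, N⁆ = ⊥ :=
    commutator_commutator_eq_bot_of_rotate (H₁ := L) (H₂ := L) (H₃ := N) h (by
      rw [commutator_comm N L]
      exact h)
  rwa [hL] at h1

/-- homomorphisms of perfect groups to abelian groups -/
theorem perf_hom {L : Subgroup G} (hL : ⁅L, L⁆ = L) {A : Type} [Group A] (f : L →* A)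
    (hf : ∀ x y, f x * f y = f y * f x) (x : L) : f x = 1 := by
  have h1 : ⁅L, L⁆ ≤ f.ker.map L.subtype := by
    rw [commutator_le]
    intro x hx y hy
    refine ⟨⁅(⟨x, hx⟩ : L), ⟨y, hy⟩⁆, ?_, rfl⟩
    change f ⁅(⟨x, hx⟩ : L), ⟨y, hy⟩⁆ = 1
    rw [map_commutatorElement, commutatorElement_eq_one_iff_mul_comm]
    exact hf _ _
  rw [hL] at h1
  obtain ⟨y, hy, hyx⟩ := h1 x.2
  have h2 : y = x := Subtype.ext hyx
  rw [← h2]
  exact hy

/-- an element acting on a perfect group trivially modulo central elements acts trivially -/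
theorem perf_act {L : Subgroup G} (hL : ⁅L, L⁆ = L) {c : G}
    (h : ∀ y ∈ L, c * y * c⁻¹ * y⁻¹ ∈ L ∧ ∀ x ∈ L, c * y * c⁻¹ * y⁻¹ * x = x * (c * y * c⁻¹ * y⁻¹)) :
    ∀ y ∈ L, c * y = y * c := by
  let f : L →* G :=
    { toFun := fun y => c * y * c⁻¹ * (y : G)⁻¹
      map_one' := by simp
      map_mul' := by
        intro x y
        have h1 := (h y y.2).2 (x : G)⁻¹ (L.inv_mem x.2)
        change c * ((x : G) * y) * c⁻¹ * ((x : G) * y)⁻¹ =
          c * x * c⁻¹ * (x : G)⁻¹ * (c * y * c⁻¹ * (y : G)⁻¹)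
        calc c * ((x : G) * y) * c⁻¹ * ((x : G) * y)⁻¹
            = c * x * c⁻¹ * ((c * y * c⁻¹ * (y : G)⁻¹) * (x : G)⁻¹) := by group
          _ = c * x * c⁻¹ * ((x : G)⁻¹ * (c * y * c⁻¹ * (y : G)⁻¹)) := by rw [h1]
          _ = _ := by group }
  intro y hy
  have h2 := perf_hom hL f (fun x y => (h x x.2).2 _ (h y y.2).1) ⟨y, hy⟩
  have h3 : c * y * c⁻¹ * y⁻¹ = 1 := h2
  rwa [mul_inv_eq_one, mul_inv_eq_iff_eq_mul] at h3

/-- a quasisimple subgroup, elementwise -/
structure Qs (L : Subgroup G) : Prop where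
  perf : ⁅L, L⁆ = L
  ne : L ≠ ⊥
  dich : ∀ M : Subgroup G, M ≤ L → (∀ x ∈ L, ∀ y ∈ M, x * y * x⁻¹ ∈ M) → M = L ∨ Cm M L

theorem Qs.not_comm {L : Subgroup G} (hL : Qs L) : ¬ Cm L L := by
  intro h
  apply hL.ne
  rw [← hL.perf]
  exact cm_iff_comm.mp h

theorem Qs.eq_or_cm {L K : Subgroup G} (hL : Qs L) (hK : Qs K)
    (h1 : ∀ x ∈ L, ∀ y ∈ K, x * y * x⁻¹ ∈ K) (h2 : ∀ x ∈ K, ∀ y ∈ L, x * y * x⁻¹ ∈ L) :
    L = K ∨ Cm L K := by
  have hn1 : ∀ x ∈ L, ∀ y ∈ L ⊓ K, x * y * x⁻¹ ∈ L ⊓ K := fun x hx y hy =>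
    ⟨L.mul_mem (L.mul_mem hx hy.1) (L.inv_mem hx), h1 x hx y hy.2⟩
  have hn2 : ∀ x ∈ K, ∀ y ∈ L ⊓ K, x * y * x⁻¹ ∈ L ⊓ K := fun x hx y hy =>
    ⟨h2 x hx y hy.1, K.mul_mem (K.mul_mem hx hy.2) (K.inv_mem hx)⟩
  rcases hL.dich _ inf_le_left hn1 with h3 | h3
  · rcases hK.dich _ inf_le_right hn2 with h4 | h4
    · left
      exact h3.symm.trans h4
    · exfalso
      apply hL.not_comm
      rw [h3] at h4
      intro x hx y hy
      have hyK : y ∈ K := by
        rw [← h3] at hy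
        exact hy.2
      exact h4 x hx y hyK
  · right
    refine cm_of_perf hL.perf ?_
    refine Cm.mono h3 ?_ le_rfl
    rw [commutator_le]
    intro x hx y hy
    refine ⟨?_, ?_⟩
    · have e : ⁅x, y⁆ = x * (y * x⁻¹ * y⁻¹) := by rw [commutatorElement_def]; group
      rw [e]
      exact L.mul_mem hx (h2 y hy _ (L.inv_mem hx))
    · rw [commutatorElement_def]
      exact K.mul_mem (h1 x hx y hy) (K.inv_mem hy)

/-- the components of `X` that are normal in `X` -/
def comps (X : Subgroup G) : Set (Subgroup G) :=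
  {L | L ≤ X ∧ (∀ x ∈ X, ∀ y ∈ L, x * y * x⁻¹ ∈ L) ∧ Qs L}

/-- `X` is a central product of quasisimple groups. -/
def SQ (X : Subgroup G) : Prop := X ≤ sSup (comps X)

theorem comps_comm {X L K : Subgroup G} (hL : L ∈ comps X) (hK : K ∈ comps X) (hne : L ≠ K) :
    Cm L K := by
  rcases hL.2.2.eq_or_cm hK.2.2 (fun x hx => hK.2.1 x (hL.1 hx)) (fun x hx => hL.2.1 x (hK.1 hx))
    with h | h
  · exact absurd h hne
  · exact h

theorem sSup_comps (X : Subgroup G) : sSup (comps X) ≤ X := sSup_le fun _ h => h.1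

theorem SQ.eq {X : Subgroup G} (hX : SQ X) : sSup (comps X) = X := le_antisymm (sSup_comps X) hX

theorem SQ.perfect {X : Subgroup G} (hX : SQ X) : ⁅X, X⁆ = X := by
  apply le_antisymm (commutator_le_self X)
  conv_lhs => rw [← hX.eq]
  refine sSup_le fun L hL => ?_
  rw [← hL.2.2.perf]
  exact commutator_mono hL.1 hL.1

/-- a family of commuting quasisimple groups -/
theorem SQ.of_comm {𝒯 : Set (Subgroup G)} (h : ∀ T ∈ 𝒯, Qs T)
    (hcomm : ∀ T ∈ 𝒯, ∀ T' ∈ 𝒯, T ≠ T' → Cm T T') : SQ (sSup 𝒯) ∧ comps (sSup 𝒯) = 𝒯 := by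
  have hT : ∀ T ∈ 𝒯, T ∈ comps (sSup 𝒯) := by
    intro T hT
    refine ⟨le_sSup hT, ?_, h T hT⟩
    have h3 : sSup 𝒯 ≤ normalizer (T : Set G) := by
      refine sSup_le fun T' hT' => ?_
      by_cases hne : T = T'
      · rw [← hne]
        exact le_normalizer
      · refine le_trans ?_ (centralizer_le_normalizer _)
        exact cm_iff.mp (hcomm T hT T' hT' hne).symm
    intro x hx s hs
    exact (mem_normalizer_iff.mp (h3 hx) s).mp hs
  refine ⟨sSup_le fun T h => le_sSup (hT T h), ?_⟩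
  apply Set.Subset.antisymm
  · intro S hS
    by_contra hST
    apply hS.2.2.not_comm
    have h4 : Cm (sSup 𝒯) S := cm_sSup fun T hT' =>
      comps_comm (hT T hT') hS (fun h => hST (h ▸ hT'))
    exact h4.mono hS.1 le_rfl
  · exact hT

/-- A quasisimple group in a central product of quasisimple groups. -/
theorem SQ.mem_of_sub {X : Subgroup G} (hX : SQ X) {L : Subgroup G} (hL : Qs L) (hLX : L ≤ X)
    (h : ∀ K ∈ comps X, K = L ∨ Cm K L) : L ∈ comps X := by
  by_contra hLn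
  apply hL.not_comm
  have h4 : Cm (sSup (comps X)) L := cm_sSup fun K hK => by
    rcases h K hK with h1 | h1
    · exact absurd (h1 ▸ hK) hLn
    · exact h1
  exact h4.mono (hLX.trans hX) le_rfl

end Perf

section Normal

variable {G : Type} [Group G] {X N : Subgroup G} [hXn : X.Normal] [hNn : N.Normal]

theorem comps_dich {L : Subgroup G} (hL : L ∈ comps X) : L ≤ N ∨ Cm L N := by
  obtain ⟨h1, h2, h3⟩ := hL
  have hn : ∀ x ∈ L, ∀ y ∈ L ⊓ N, x * y * x⁻¹ ∈ L ⊓ N := fun x hx y hy =>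
    ⟨L.mul_mem (L.mul_mem hx hy.1) (L.inv_mem hx), hNn.conj_mem y hy.2 x⟩
  rcases h3.dich _ inf_le_left hn with h | h
  · left
    rw [← h]
    exact inf_le_right
  · right
    have h4 : Cm L (X ⊓ N) := by
      refine cm_of_perf h3.perf (Cm.mono h ?_ le_rfl)
      rw [commutator_le]
      intro x hx y hy
      refine ⟨?_, ?_⟩
      · have e : ⁅x, y⁆ = x * (y * x⁻¹ * y⁻¹) := by rw [commutatorElement_def]; group
        rw [e]
        exact L.mul_mem hx (h2 y hy.1 _ (L.inv_mem hx))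
      · rw [commutatorElement_def]
        exact N.mul_mem (hNn.conj_mem y hy.2 x) (N.inv_mem hy.2)
    refine cm_of_perf h3.perf ?_
    refine (Cm.mono h4 le_rfl ?_).symm
    rw [commutator_le]
    intro x hx y hy
    refine ⟨?_, ?_⟩
    · have e : ⁅x, y⁆ = x * (y * x⁻¹ * y⁻¹) := by rw [commutatorElement_def]; group
      rw [e]
      exact X.mul_mem (h1 hx) (hXn.conj_mem _ (X.inv_mem (h1 hx)) y)
    · rw [commutatorElement_def]
      exact N.mul_mem (hNn.conj_mem y hy x) (N.inv_mem hy)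

variable (X N)

/-- The product of the components of `X` commuting with `N`. -/
def cenQ : Subgroup G := sSup {L | L ∈ comps X ∧ Cm L N}

variable {X N}

omit hXn hNn in
theorem cenQ_le : cenQ X N ≤ X := sSup_le fun _ h => h.1.1

omit hXn hNn in
theorem cenQ_cm : Cm (cenQ X N) N := cm_sSup fun _ h => h.2

omit hXn hNn in
theorem cenQ_props : SQ (cenQ X N) ∧ comps (cenQ X N) = {L | L ∈ comps X ∧ Cm L N} :=
  SQ.of_comm (fun _ h => h.1.2.2) fun _ h _ h' hne => comps_comm h.1 h'.1 hne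

theorem SQ.le_sup (hX : SQ X) : X ≤ cenQ X N ⊔ (X ⊓ N) := by
  refine hX.trans (sSup_le fun L hL => ?_)
  rcases comps_dich (N := N) hL with h | h
  · exact le_sup_of_le_right (le_inf hL.1 h)
  · exact le_sup_of_le_left (le_sSup ⟨hL, h⟩)

end Normal

section Map

variable {G H : Type} [Group G] [Group H]

/-- the image of a quasisimple group under a homomorphism with central kernel -/
theorem Qs.map {L : Subgroup G} (hL : Qs L) (f : G →* H)
    (hf : ∀ x ∈ L, f x = 1 → ∀ y ∈ L, x * y = y * x) : Qs (L.map f) := by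
  refine ⟨?_, ?_, ?_⟩
  · rw [← map_commutator, hL.perf]
  · intro h
    apply hL.not_comm
    intro x hx y hy
    refine hf x hx ?_ y hy
    have h1 : f x ∈ L.map f := mem_map_of_mem f hx
    rwa [h, mem_bot] at h1
  · intro M hM hMn
    have h1 : ∀ x ∈ L, ∀ y ∈ L ⊓ M.comap f, x * y * x⁻¹ ∈ L ⊓ M.comap f := by
      intro x hx y hy
      refine ⟨L.mul_mem (L.mul_mem hx hy.1) (L.inv_mem hx), ?_⟩
      change f (x * y * x⁻¹) ∈ M
      rw [map_mul, map_mul, map_inv]
      exact hMn _ (mem_map_of_mem f hx) _ hy.2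
    rcases hL.dich _ inf_le_left h1 with h2 | h2
    · left
      apply le_antisymm hM
      rintro _ ⟨x, hx, rfl⟩
      rw [← h2] at hx
      exact hx.2
    · right
      intro x hx y hy
      obtain ⟨x', hx', rfl⟩ := hM hx
      obtain ⟨y', hy', rfl⟩ := hy
      rw [← map_mul, ← map_mul, h2 x' ⟨hx', hx⟩ y' hy']

theorem Qs.of_map {L : Subgroup G} {f : G →* H} (hf : Function.Injective f) (hL : Qs (L.map f)) :
    Qs L := by
  refine ⟨?_, ?_, ?_⟩
  · apply map_injective hf
    rw [map_commutator, hL.perf]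
  · intro h
    apply hL.ne
    rw [h, Subgroup.map_bot]
  · intro M hM hMn
    rcases hL.dich (M.map f) (map_mono hM) (by
      rintro _ ⟨x, hx, rfl⟩ _ ⟨y, hy, rfl⟩
      exact ⟨_, hMn x hx y hy, by rw [map_mul, map_mul, map_inv]⟩) with h | h
    · left
      exact map_injective hf h
    · right
      intro x hx y hy
      apply hf
      rw [map_mul, map_mul]
      exact h _ (mem_map_of_mem f hx) _ (mem_map_of_mem f hy)

theorem comps_map_mem {X L : Subgroup G} (f : G →* H)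
    (hf : ∀ x ∈ X, f x = 1 → ∀ y ∈ X, x * y = y * x) (hL : L ∈ comps X) :
    L.map f ∈ comps (X.map f) := by
  refine ⟨map_mono hL.1, ?_, hL.2.2.map f fun x hx h y hy => hf x (hL.1 hx) h y (hL.1 hy)⟩
  rintro _ ⟨x, hx, rfl⟩ _ ⟨y, hy, rfl⟩
  exact ⟨_, hL.2.1 x hx y hy, by rw [map_mul, map_mul, map_inv]⟩

theorem SQ.map {X : Subgroup G} (hX : SQ X) (f : G →* H)
    (hf : ∀ x ∈ X, f x = 1 → ∀ y ∈ X, x * y = y * x) : SQ (X.map f) := by
  intro y hy
  have h1 : X.map f ≤ sSup (comps (X.map f)) := by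
    rw [map_le_iff_le_comap]
    refine hX.trans (sSup_le fun L hL => ?_)
    rw [← map_le_iff_le_comap]
    exact le_sSup (comps_map_mem f hf hL)
  exact h1 hy

theorem SQ.comps_map {X : Subgroup G} (hX : SQ X) (f : G →* H)
    (hf : ∀ x ∈ X, f x = 1 → ∀ y ∈ X, x * y = y * x) {L' : Subgroup H}
    (hL' : L' ∈ comps (X.map f)) : ∃ L ∈ comps X, L.map f = L' := by
  by_contra hcon
  push Not at hcon
  apply hL'.2.2.not_comm
  have h1 : X.map f ≤ centralizer (L' : Set H) := by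
    rw [map_le_iff_le_comap]
    refine hX.trans (sSup_le fun L hL => ?_)
    rw [← map_le_iff_le_comap]
    exact cm_iff.mp (comps_comm (comps_map_mem f hf hL) hL' (hcon L hL))
  exact cm_iff.mpr (hL'.1.trans h1)

theorem Qs.conj {L : Subgroup G} (hL : Qs L) (g : G) : Qs (L.map (MulAut.conj g).toMonoidHom) :=
  hL.map _ fun x _ h => by
    have h1 : x = 1 := (MulAut.conj g).injective (by rw [map_one]; exact h)
    intro y _
    rw [h1, one_mul, mul_one]

theorem comps_conj {X : Subgroup G} [hX : X.Normal] {L : Subgroup G} (hL : L ∈ comps X) (g : G) :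
    L.map (MulAut.conj g).toMonoidHom ∈ comps X := by
  have h1 := comps_map_mem (MulAut.conj g).toMonoidHom (fun x _ h => by
    have h1 : x = 1 := (MulAut.conj g).injective (by rw [map_one]; exact h)
    intro y _
    rw [h1, one_mul, mul_one]) hL
  have h2 : X.map (MulAut.conj g).toMonoidHom = X := by
    apply le_antisymm
    · rintro _ ⟨x, hx, rfl⟩
      exact hX.conj_mem x hx g
    · intro x hx
      refine ⟨g⁻¹ * x * g, ?_, ?_⟩
      · have := hX.conj_mem x hx g⁻¹
        rwa [inv_inv] at this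
      · change g * (g⁻¹ * x * g) * g⁻¹ = x
        group
  rwa [h2] at h1

instance cenQ_normal {X N : Subgroup G} [X.Normal] [hN : N.Normal] : (cenQ X N).Normal := by
  constructor
  intro x hx g
  have h6 : cenQ X N ≤ (cenQ X N).comap (MulAut.conj g).toMonoidHom := by
    refine sSup_le fun L hL => ?_
    rw [← map_le_iff_le_comap]
    refine le_sSup ⟨comps_conj hL.1 g, ?_⟩
    rintro _ ⟨y, hy, rfl⟩ n hn
    have h1 := hL.2 y hy (g⁻¹ * n * g) (by
      have := hN.conj_mem n hn g⁻¹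
      rwa [inv_inv] at this)
    change g * y * g⁻¹ * n = n * (g * y * g⁻¹)
    calc g * y * g⁻¹ * n = g * (y * (g⁻¹ * n * g)) * g⁻¹ := by group
      _ = g * ((g⁻¹ * n * g) * y) * g⁻¹ := by rw [h1]
      _ = n * (g * y * g⁻¹) := by group
  exact h6 hx

theorem SQ.subgroupOf {X T : Subgroup G} (hX : SQ X) (hXT : X ≤ T) : SQ (X.subgroupOf T) := by
  intro x hx
  have h1 : sSup (comps X) ≤ (sSup (comps (X.subgroupOf T))).map T.subtype := by
    refine sSup_le fun L hL => ?_
    have hLT : L ≤ T := hL.1.trans hXT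
    have h2 : (L.subgroupOf T).map T.subtype = L := map_subgroupOf_eq_of_le hLT
    have h3 : L.subgroupOf T ∈ comps (X.subgroupOf T) := by
      refine ⟨comap_mono hL.1, ?_, Qs.of_map T.subtype_injective (by rw [h2]; exact hL.2.2)⟩
      intro x hx y hy
      exact hL.2.1 x hx y hy
    rw [← h2]
    exact map_mono (le_sSup h3)
  obtain ⟨y, hy, hyx⟩ := h1 (hX hx)
  have h2 : y = x := Subtype.ext hyx
  rwa [← h2]

theorem comps_sub {X T : Subgroup G} (hXT : X ≤ T) {L : Subgroup T}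
    (hL : L ∈ comps (X.subgroupOf T)) : L.map T.subtype ∈ comps X := by
  have h1 := comps_map_mem T.subtype (fun x _ h => by
    have h1 : x = 1 := T.subtype_injective (by rw [map_one]; exact h)
    intro y _
    rw [h1, one_mul, mul_one]) hL
  rwa [map_subgroupOf_eq_of_le hXT] at h1

end Map

end Vale.Agent.P180.R2.H47
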