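import Vale.Agent.P180.H768.Main2
import Vale.Agent.P180.R2.H47.SS
import Vale.Agent.P180.R2.H47.Theta

set_option linter.unusedSectionVars false

/-!
P180: the relation `RC` modulo a normal subgroup `X`, and its behaviour in the reduction steps.
-/

namespace Vale.Agent.P180.R2.H47

open Vale.Agent.P180 Vale.Agent.P180.H768.Gd
open Vale.Agent.P180.H768 hiding pull mem_pull exists_factor Lay mk_mem comm_mem

open scoped Nat commutatorElement

section Group

variable {G : Type} [Group G] {p q m : ℕ}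

theorem RC_sup {X P Q : Subgroup G} [X.Normal] (h : RC p q m P Q) :
    RC p q m (X ⊔ P) (X ⊔ Q) := by
  intro K S _ _ f hK hf hx hp
  let g : K →* G ⧸ X := (QuotientGroup.mk' X).comp K.subtype
  obtain ⟨f', hf'⟩ := exists_factor g.rangeRestrict g.rangeRestrict_surjective f (by
    intro x h1
    apply hx
    have h2 : QuotientGroup.mk' X (x : G) = 1 := congrArg Subtype.val h1
    exact Subgroup.mem_sup_left ((QuotientGroup.eq_one_iff _).mp h2))
  let K' : Subgroup G := Q ⊓ g.range.comap (QuotientGroup.mk' X)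
  let r : K' →* g.range :=
    { toFun := fun x => ⟨QuotientGroup.mk' X x, x.2.2⟩
      map_one' := Subtype.ext (map_one _)
      map_mul' := fun x y => Subtype.ext (map_mul _ _ _) }
  refine h K' S (f'.comp r) inf_le_left ?_ ?_ hp
  · intro s
    obtain ⟨x, rfl⟩ := hf s
    obtain ⟨x₀, hx₀, y, hy, hxy⟩ := Subgroup.mem_sup_of_normal_left.mp (hK x.2)
    have h1 : QuotientGroup.mk' X y = g x := by
      change QuotientGroup.mk' X y = QuotientGroup.mk' X (x : G)
      rw [← hxy, map_mul, (show QuotientGroup.mk' X x₀ = 1 from (QuotientGroup.eq_one_iff _).mpr hx₀),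
        one_mul]
    refine ⟨⟨y, hy, ?_⟩, ?_⟩
    · exact ⟨x, h1.symm⟩
    · rw [← hf' x]
      change f' (r ⟨y, _⟩) = _
      congr 1
      exact Subtype.ext h1
  · rintro ⟨y, hyQ, x, hxy⟩ hyP
    have h1 : (r ⟨y, hyQ, x, hxy⟩) = g.rangeRestrict x := Subtype.ext hxy.symm
    change f' (r ⟨y, hyQ, x, hxy⟩) = 1
    rw [h1, hf']
    apply hx
    have h2 : QuotientGroup.mk' X (x : G) = QuotientGroup.mk' X y := hxy
    have h3 : (x : G) * y⁻¹ ∈ X := by
      rw [← QuotientGroup.eq_one_iff]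
      change QuotientGroup.mk' X ((x : G) * y⁻¹) = 1
      rw [map_mul, h2, map_inv, mul_inv_cancel]
    have h4 : (x : G) = (x : G) * y⁻¹ * y := by group
    rw [h4]
    exact Subgroup.mul_mem_sup h3 hyP

theorem RC.of_ge {A B B' : Subgroup G} (h : B' ≤ B) (hA : RC p q m A B) : RC p q m A B' :=
  fun K S _ _ f hK hf hx hp => hA K S f (hK.trans h) hf hx hp

/-- the part centralising `X` -/
theorem RC_inf_centralizer {X A : Subgroup G} (hX : ∀ x ∈ X, (∀ y ∈ X, x * y = y * x) → x = 1)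
    (hA : RC p q m X A) : RC p q m ⊥ (A ⊓ Subgroup.centralizer (X : Set G)) := by
  intro K S _ _ f hK hf _ hp
  refine hA K S f (hK.trans inf_le_left) hf ?_ hp
  intro x hx
  have h1 : (x : G) = 1 := by
    apply hX _ hx
    intro y hy
    exact ((Subgroup.mem_centralizer_iff.mp (hK x.2).2) y hy).symm
  have h2 : x = 1 := Subtype.ext h1
  rw [h2, map_one]

variable [Finite G] [Fact p.Prime] (hpm : p ≤ m)

include hpm

theorem cls_ker {N Y : Subgroup G} [N.Normal] {H : Type} [Group H] [Finite H]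
    (hY : IsPGroup p Y) {Z : Subgroup H} {π : H →* G ⧸ N}
    (hZ : ∀ z ∈ Z, ∀ h, z * h = h * z) (hZπ : Z ≤ π.ker)
    (hcard : Nat.card π.ker = Nat.card Z * Nat.card Y) : Cls p m π.ker := by
  obtain ⟨j, hj⟩ := IsPGroup.iff_card.mp hY
  have h1 : (Z.subgroupOf π.ker).index = p ^ j := by
    have h5 := Subgroup.card_mul_index (Z.subgroupOf π.ker)
    rw [hcard, Nat.card_congr (Subgroup.subgroupOfEquivOfLe hZπ).toEquiv, hj] at h5
    exact Nat.eq_of_mul_eq_mul_left Nat.card_pos h5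
  have h2 : Group.IsSolvable π.ker :=
    solvable_of_central (fun z hz g => Subtype.ext (hZ _ hz g)) h1
  exact Cls.of_solvable.mono hpm

variable {Q : ∀ (S : Type) [Group S], Prop}

/-- The new subgroup `X` after the reduction of Kulshammer and Puig. -/
theorem kp_state (hQ : IsoInv Q) {X N : Subgroup G} [hXn : X.Normal] [hNn : N.Normal]
    (hX : SSP Q X)
    {H : Type} [Group H] [Finite H] {π : H →* G ⧸ N} (hT : Th N π)
    {A : Subgroup G} (hNA : N ≤ A) (hXA : X ≤ A) (hR : RC p q m (X ⊔ N) A) {Z : Subgroup H}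
    {Y : Subgroup G}
    (hY : IsPGroup p Y) (hZ : ∀ z ∈ Z, ∀ h, z * h = h * z) (hZπ : Z ≤ π.ker)
    (hcard : Nat.card π.ker = Nat.card Z * Nat.card Y) :
    ∃ X' : Subgroup H, X'.Normal ∧ SSP Q X' ∧ X' ≤ pull N π A ∧ RC p q m X' (pull N π A) := by
  have hT0n : (cenP X N).Normal := inferInstance
  have hT0 : SSP Q (cenP X N) := hX.cenP N
  obtain ⟨θ, hθ1, hθ2⟩ := hT (cenP X N) (fun c hc n hn => (mem_cenP.mp hc).2 n hn) hT0.perfect
  have hθi : Function.Injective θ := by
    rw [injective_iff_map_eq_one]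
    intro c hc
    have h1 := hθ1 c
    rw [hc, map_one] at h1
    have h2 : (c : G) ∈ N := (QuotientGroup.eq_one_iff _).mp h1.symm
    have h3 : (c : G) ∈ cenP X N ⊓ N := ⟨c.2, h2⟩
    rw [hX.inf_eq_bot N, Subgroup.mem_bot] at h3
    exact Subtype.ext h3
  have hX'n : θ.range.Normal := by
    constructor
    rintro _ ⟨c, rfl⟩ h
    obtain ⟨g, hg⟩ := QuotientGroup.mk'_surjective N (π h)
    refine ⟨⟨g * c * g⁻¹, hT0n.conj_mem _ c.2 g⟩, ?_⟩
    exact (hθ2 h g c _ hg.symm rfl).symm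
  have hle : pull N π (X ⊔ N) ≤ θ.range ⊔ π.ker := by
    intro h hh
    obtain ⟨x, hx, hxh⟩ := mem_pull.mp hh
    have h1 : X ⊔ N ≤ H47.cenP X N ⊔ N := by
      refine sup_le ?_ le_sup_right
      refine (hX.le_sup N).trans (sup_le ?_ le_sup_left)
      exact inf_le_right.trans le_sup_right
    obtain ⟨t, ht, n, hn, htn⟩ := Subgroup.mem_sup_of_normal_right.mp (h1 hx)
    have h2 : π (θ ⟨t, ht⟩) = π h := by
      rw [hθ1, ← hxh, ← htn, map_mul,
        (show QuotientGroup.mk' N n = 1 from (QuotientGroup.eq_one_iff _).mpr hn), mul_one]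
      rfl
    have h3 : (θ ⟨t, ht⟩)⁻¹ * h ∈ π.ker := by
      rw [MonoidHom.mem_ker, map_mul, map_inv, h2, inv_mul_cancel]
    have h4 : h = θ ⟨t, ht⟩ * ((θ ⟨t, ht⟩)⁻¹ * h) := by group
    rw [h4]
    exact Subgroup.mul_mem_sup ⟨_, rfl⟩ h3
  refine ⟨θ.range, hX'n, ?_, ?_, ?_⟩
  · have h1 : SSP Q (⊤ : Subgroup (H47.cenP X N)) := by
      refine SSP.of_map hQ (H47.cenP X N).subtype (fun x _ hx => Subtype.ext hx) ?_
      rw [← MonoidHom.range_eq_map, Subgroup.range_subtype]
      exact hT0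
    have h2 := h1.map hQ θ (fun x _ hx => hθi (by rw [hx, map_one]))
    rwa [← MonoidHom.range_eq_map] at h2
  · rintro _ ⟨c, rfl⟩
    exact mem_pull.mpr ⟨c, hXA (mem_cenP.mp c.2).1, (hθ1 c).symm⟩
  · have h1 : RC p q m (⊥ : Subgroup H) π.ker := RC.of_cls (cls_ker hpm hY hZ hZπ hcard)
    have h2 : RC p q m (θ.range ⊔ ⊥) (θ.range ⊔ π.ker) := RC_sup h1
    rw [sup_bot_eq] at h2
    have h3 := RC.of_ge hle h2
    have h4 : RC p q m (pull N π (X ⊔ N)) (pull N π A) :=
      RC.pull le_sup_right (sup_le hXA hNA) π hR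
    have h5 : ((X ⊔ N).map (QuotientGroup.mk' N)).Normal :=
      Subgroup.Normal.map inferInstance _ (QuotientGroup.mk'_surjective N)
    exact h3.trans h4

end Group

end Vale.Agent.P180.R2.H47
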