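import Vale.Agent.P180.R2.H47.QsT
import Vale.Agent.P180.R2.H47.RCx

set_option linter.all false

/-!
P180: the condition on the components in the reduction steps.
-/

namespace Vale.Agent.P180.R2.H47

open Vale.Agent.P180 Vale.Agent.P180.H768.Gd
open Vale.Agent.P180.H768 hiding pull mem_pull exists_factor Lay mk_mem comm_mem
open scoped commutatorElement
open Subgroup (mem_centralizer_iff mem_normalizer_iff centralizer normalizer)

variable {Q1 : ∀ (S : Type) [Group S], Prop} {ι : Type}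
  {Q : ι → ∀ (S : Type) [Group S], Subgroup S → Prop}
  {𝒟 : ι → ∀ (Γ : Type) [Group Γ], Subgroup Γ → Prop}
  {𝒪 : ∀ (Γ : Type) [Group Γ], Subgroup Γ → Prop}
  {p : ℕ} [Fact p.Prime]

theorem KQ.mono {G : Type} [Group G] [Finite G] {X D D' : Subgroup G} (h𝒟 : ∀ a, OutC (𝒟 a))
    (h : D' ≤ D) (hK : KQ Q1 Q 𝒟 𝒪 p X D) : KQ Q1 Q 𝒟 𝒪 p X D' := fun L hL => (hK L hL).mono h𝒟 h

theorem mem_mapc {G : Type} [Group G] {S : Subgroup G} {g x : G} :
    x ∈ S.map (MulAut.conj g).toMonoidHom ↔ g⁻¹ * x * g ∈ S := by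
  constructor
  · rintro ⟨y, hy, rfl⟩
    change g⁻¹ * (g * y * g⁻¹) * g ∈ S
    have : g⁻¹ * (g * y * g⁻¹) * g = y := by group
    rw [this]; exact hy
  · intro h
    refine ⟨_, h, ?_⟩
    change g * (g⁻¹ * x * g) * g⁻¹ = x
    group

/-- The components of `X` in a subgroup. -/
theorem fr_rel {G : Type} [Group G] [Finite G] {X D T : Subgroup G} [X.Normal] (hXT : X ≤ T)
    (x : G) {L' : Subgroup T} (hL' : L' ∈ comps (X.subgroupOf T)) :
    ∃ L ∈ comps X, ∃ f : L →* L', Function.Surjective f ∧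
      (∀ s, f s = 1 → ∀ t, s * t = t * s) ∧
      (∀ t ∈ normalizer (L' : Set T), ∃ g ∈ normalizer (L : Set G), Rl f t g) ∧
      ∀ t ∈ (conjS x D).subgroupOf T, t ∈ normalizer (L' : Set T) →
        ∃ g ∈ D, g ∈ normalizer (L : Set G) ∧ Rl f t g := by
  obtain ⟨L, hLdef⟩ : ∃ L, L = (L'.map T.subtype).map (MulAut.conj x⁻¹).toMonoidHom := ⟨_, rfl⟩
  have hL : L ∈ comps X := by
    rw [hLdef]
    exact comps_conj (comps_sub hXT hL') x⁻¹
  have hm : ∀ {s : G}, s ∈ L → ∃ y : T, y ∈ L' ∧ (y : G) = x * s * x⁻¹ := by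
    intro s hs
    rw [hLdef, mem_mapc, inv_inv] at hs
    obtain ⟨y, hy, h⟩ := hs
    exact ⟨y, hy, h⟩
  have hm2 : ∀ {y : T}, y ∈ L' → x⁻¹ * (y : G) * x ∈ L := by
    intro y hy
    rw [hLdef, mem_mapc, inv_inv]
    refine ⟨y, hy, ?_⟩
    change (y : G) = x * (x⁻¹ * y * x) * x⁻¹
    group
  have hT : ∀ s : L, x * (s : G) * x⁻¹ ∈ T := by
    intro s
    obtain ⟨y, hy, h⟩ := hm s.2
    rw [← h]
    exact y.2
  have hT2 : ∀ s : L, (⟨x * (s : G) * x⁻¹, hT s⟩ : T) ∈ L' := by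
    intro s
    obtain ⟨y, hy, h⟩ := hm s.2
    have e : (⟨x * (s : G) * x⁻¹, hT s⟩ : T) = y := Subtype.ext h.symm
    rw [e]
    exact hy
  let f : L →* L' :=
    { toFun := fun s => ⟨⟨x * (s : G) * x⁻¹, hT s⟩, hT2 s⟩
      map_one' := by
        apply Subtype.ext
        apply Subtype.ext
        change x * (1 : G) * x⁻¹ = 1
        group
      map_mul' := by
        intro s t
        apply Subtype.ext
        apply Subtype.ext
        change x * ((s : G) * t) * x⁻¹ = x * s * x⁻¹ * (x * t * x⁻¹)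
        group }
  have hf : Function.Surjective f := by
    rintro ⟨y, hy⟩
    refine ⟨⟨x⁻¹ * (y : G) * x, hm2 hy⟩, ?_⟩
    apply Subtype.ext
    apply Subtype.ext
    change x * (x⁻¹ * (y : G) * x) * x⁻¹ = y
    group
  have hker : ∀ s, f s = 1 → ∀ t, s * t = t * s := by
    intro s hs t
    have h1 : x * (s : G) * x⁻¹ = 1 := congrArg (fun z : L' => ((z : T) : G)) hs
    have h2 : (s : G) = 1 := by
      calc (s : G) = x⁻¹ * (x * (s : G) * x⁻¹) * x := by group
        _ = 1 := by rw [h1]; group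
    have h3 : s = 1 := Subtype.ext h2
    rw [h3, one_mul, mul_one]
  have hrel : ∀ t : T, t ∈ normalizer (L' : Set T) →
      x⁻¹ * (t : G) * x ∈ normalizer (L : Set G) ∧ Rl f t (x⁻¹ * (t : G) * x) := by
    intro t ht
    rw [mem_normalizer_iff] at ht
    constructor
    · rw [mem_normalizer_iff]
      intro s
      constructor
      · intro hs
        obtain ⟨y, hy, h⟩ := hm hs
        have h1 := hm2 ((ht y).mp hy)
        have e : x⁻¹ * (((t * y * t⁻¹ : T)) : G) * x =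
            x⁻¹ * (t : G) * x * s * (x⁻¹ * (t : G) * x)⁻¹ := by
          change x⁻¹ * ((t : G) * y * (t : G)⁻¹) * x = _
          rw [h]
          group
        rwa [e] at h1
      · intro hs
        obtain ⟨y, hy, h⟩ := hm hs
        have h1 : t * (t⁻¹ * y * t) * t⁻¹ ∈ L' := by
          have e : t * (t⁻¹ * y * t) * t⁻¹ = y := by group
          rw [e]; exact hy
        have h2 := hm2 ((ht _).mpr h1)
        have e : x⁻¹ * (((t⁻¹ * y * t : T)) : G) * x = s := by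
          change x⁻¹ * ((t : G)⁻¹ * y * (t : G)) * x = _
          rw [h]
          group
        rwa [e] at h2
    · intro s s' hs
      apply Subtype.ext
      change x * (s' : G) * x⁻¹ = (t : G) * (x * s * x⁻¹) * (t : G)⁻¹
      rw [hs]
      group
  refine ⟨L, hL, f, hf, hker, ?_, ?_⟩
  · intro t ht
    exact ⟨_, (hrel t ht).1, (hrel t ht).2⟩
  · intro t htD ht
    exact ⟨_, mem_conjS.mp (Subgroup.mem_subgroupOf.mp htD), (hrel t ht).1, (hrel t ht).2⟩

theorem KQ.fr (hQ1 : CQ Q1) (hQ : ∀ a, CK p (Q a)) (h𝒟 : ∀ a, OutC (𝒟 a))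
    (h𝒪 : OutC 𝒪) {G : Type} [Group G] [Finite G]
    {X D T : Subgroup G} [X.Normal] (hXT : X ≤ T) (x : G) (hK : KQ Q1 Q 𝒟 𝒪 p X D) :
    KQ Q1 Q 𝒟 𝒪 p (X.subgroupOf T) ((conjS x D).subgroupOf T) := by
  intro L' hL'
  obtain ⟨L, hL, f, hf, hker, h1, h2⟩ := fr_rel (D := D) hXT x hL'
  exact (hK L hL).transfer hL.2.2.perf hf hker hQ1 hQ h𝒟 h𝒪 h1 h2

/-- The new components after the reduction of Kulshammer and Puig. -/
theorem kp_rel {G H : Type} [Group G] [Finite G]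
    [Group H] [Finite H] {X N D : Subgroup G} [X.Normal] [N.Normal] (hX : SQ X)
    {π : H →* G ⧸ N} (θ : cenQ X N →* H) (h1 : ∀ c, π (θ c) = ((c : G) : G ⧸ N))
    (h2 : ∀ (h : H) (g : G) (c c' : cenQ X N), π h = (g : G ⧸ N) → (c' : G) = g * c * g⁻¹ →
      h * θ c * h⁻¹ = θ c')
    (D' : Subgroup H) (hD' : D' ≤ pull N π D) :
    SQ θ.range ∧ θ.range.Normal ∧ ∀ L' ∈ comps θ.range, ∃ L ∈ comps X, ∃ f : L →* L',
      Function.Surjective f ∧ (∀ s, f s = 1 → ∀ t, s * t = t * s) ∧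
      (∀ t ∈ normalizer (L' : Set H), ∃ g ∈ normalizer (L : Set G), Rl f t g) ∧
      ∀ t ∈ D', t ∈ normalizer (L' : Set H) →
        ∃ g ∈ D, g ∈ normalizer (L : Set G) ∧ Rl f t g := by
  have hTn : (cenQ X N).Normal := cenQ_normal
  obtain ⟨hTQ, hTc⟩ := cenQ_props (X := X) (N := N)
  have hTop : SQ (⊤ : Subgroup (cenQ X N)) := by
    have h3 := hTQ.subgroupOf (T := cenQ X N) le_rfl
    rwa [Subgroup.subgroupOf_self] at h3
  have hker : ∀ x ∈ (⊤ : Subgroup (cenQ X N)), θ x = 1 → ∀ y ∈ (⊤ : Subgroup (cenQ X N)),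
      x * y = y * x := by
    intro x _ hx y _
    have h3 := h1 x
    rw [hx, map_one] at h3
    have h4 : (x : G) ∈ N := (QuotientGroup.eq_one_iff _).mp h3.symm
    exact Subtype.ext (cenQ_cm (X := X) (N := N) y y.2 x h4).symm
  have hrange : θ.range = (⊤ : Subgroup (cenQ X N)).map θ := MonoidHom.range_eq_map θ
  refine ⟨?_, ?_, ?_⟩
  · rw [hrange]
    exact hTop.map θ hker
  · constructor
    rintro _ ⟨c, rfl⟩ h
    obtain ⟨g, hg⟩ := QuotientGroup.mk'_surjective N (π h)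
    refine ⟨⟨g * c * g⁻¹, hTn.conj_mem _ c.2 g⟩, ?_⟩
    exact (h2 h g c _ hg.symm rfl).symm
  · intro L' hL'
    rw [hrange] at hL'
    obtain ⟨L₀, hL₀, hL₀'⟩ := hTop.comps_map θ hker hL'
    obtain ⟨L, hLdef⟩ : ∃ L, L = L₀.map (cenQ X N).subtype := ⟨_, rfl⟩
    have hLT : L ∈ comps (cenQ X N) := by
      rw [hLdef]
      have h3 : L₀ ∈ comps ((cenQ X N).subgroupOf (cenQ X N)) := by
        rw [Subgroup.subgroupOf_self]; exact hL₀
      exact comps_sub le_rfl h3
    have hLX : L ∈ comps X := by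
      rw [hTc] at hLT
      exact hLT.1
    have hle : L ≤ cenQ X N := hLT.1
    have hmem : ∀ c : cenQ X N, (c : G) ∈ L ↔ c ∈ L₀ := by
      intro c
      rw [hLdef]
      constructor
      · rintro ⟨y, hy, hyc⟩
        rwa [← Subtype.ext (a1 := y) (a2 := c) hyc]
      · intro hc
        exact ⟨c, hc, rfl⟩
    have hfm : ∀ s : L, θ ⟨s, hle s.2⟩ ∈ L' := by
      intro s
      rw [← hL₀']
      exact Subgroup.mem_map_of_mem θ ((hmem _).mp s.2)
    let f : L →* L' :=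
      { toFun := fun s => ⟨θ ⟨s, hle s.2⟩, hfm s⟩
        map_one' := Subtype.ext (map_one θ)
        map_mul' := fun x y => Subtype.ext (map_mul θ ⟨x, hle x.2⟩ ⟨y, hle y.2⟩) }
    have hf : Function.Surjective f := by
      rintro ⟨y, hy⟩
      rw [← hL₀'] at hy
      obtain ⟨c, hc, rfl⟩ := hy
      exact ⟨⟨c, (hmem c).mpr hc⟩, rfl⟩
    have hfk : ∀ x, f x = 1 → ∀ y, x * y = y * x := by
      intro x hx y
      have h3 : θ ⟨x, hle x.2⟩ = 1 := congrArg Subtype.val hx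
      have h4 := hker _ trivial h3 ⟨y, hle y.2⟩ trivial
      exact Subtype.ext (congrArg (fun z : cenQ X N => (z : G)) h4)
    have hrel : ∀ (t : H) (g : G), π t = (g : G ⧸ N) → t ∈ normalizer (L' : Set H) →
        g ∈ normalizer (L : Set G) ∧ Rl f t g := by
      intro t g hg ht
      have hkey : ∀ s : G, ∀ hs : s ∈ cenQ X N,
          θ ⟨g * s * g⁻¹, hTn.conj_mem _ hs g⟩ = t * θ ⟨s, hs⟩ * t⁻¹ :=
        fun s hs => (h2 t g ⟨s, hs⟩ ⟨g * s * g⁻¹, hTn.conj_mem _ hs g⟩ hg rfl).symm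
      have hLg : L.map (MulAut.conj g).toMonoidHom ∈ comps (cenQ X N) := comps_conj hLT g
      have hEq : L = L.map (MulAut.conj g).toMonoidHom := by
        by_contra hne
        apply hL'.2.2.not_comm
        have hcm := comps_comm hLT hLg hne
        intro y hy z hz
        obtain ⟨⟨s, hs⟩, hs'⟩ := hf ⟨y, hy⟩
        have hz2 : t⁻¹ * z * t ∈ L' := by
          rw [mem_normalizer_iff] at ht
          have := (ht (t⁻¹ * z * t)).mpr (by
            have e : t * (t⁻¹ * z * t) * t⁻¹ = z := by group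
            rw [e]; exact hz)
          exact this
        obtain ⟨⟨r, hr⟩, hr'⟩ := hf ⟨_, hz2⟩
        have hy1 : y = θ ⟨s, hle hs⟩ := (congrArg Subtype.val hs').symm
        have hz1 : z = θ ⟨g * r * g⁻¹, hTn.conj_mem _ (hle hr) g⟩ := by
          rw [hkey r (hle hr)]
          have h5 : θ ⟨r, hle hr⟩ = t⁻¹ * z * t := congrArg Subtype.val hr'
          rw [h5]
          group
        rw [hy1, hz1, ← map_mul, ← map_mul]
        congr 1
        apply Subtype.ext
        change s * (g * r * g⁻¹) = g * r * g⁻¹ * s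
        exact hcm s hs _ ⟨r, hr, rfl⟩
      constructor
      · rw [mem_normalizer_iff]
        intro s
        constructor
        · intro hs
          rw [hEq]
          exact ⟨s, hs, rfl⟩
        · intro hs
          rw [hEq, mem_mapc] at hs
          have e : g⁻¹ * (g * s * g⁻¹) * g = s := by group
          rwa [e] at hs
      · intro s s' hs
        change θ ⟨s', hle s'.2⟩ = t * θ ⟨s, hle s.2⟩ * t⁻¹
        rw [← hkey s (hle s.2)]
        congr 1
        exact Subtype.ext hs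
    refine ⟨L, hLX, f, hf, hfk, ?_, ?_⟩
    · intro t ht
      obtain ⟨g, hg⟩ := QuotientGroup.mk'_surjective N (π t)
      exact ⟨g, (hrel t g hg.symm ht).1, (hrel t g hg.symm ht).2⟩
    · intro t htD ht
      obtain ⟨d, hd, hdt⟩ := mem_pull.mp (hD' htD)
      exact ⟨d, hd, (hrel t d hdt.symm ht).1, (hrel t d hdt.symm ht).2⟩

/-- The new components after the reduction of Kulshammer and Puig. -/
theorem KQ.kp (hQ1 : CQ Q1) (hQ : ∀ a, CK p (Q a)) (h𝒟 : ∀ a, OutC (𝒟 a))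
    (h𝒪 : OutC 𝒪) {G H : Type} [Group G] [Finite G]
    [Group H] [Finite H] {X N D : Subgroup G} [X.Normal] [N.Normal] (hX : SQ X)
    {π : H →* G ⧸ N} (θ : cenQ X N →* H) (h1 : ∀ c, π (θ c) = ((c : G) : G ⧸ N))
    (h2 : ∀ (h : H) (g : G) (c c' : cenQ X N), π h = (g : G ⧸ N) → (c' : G) = g * c * g⁻¹ →
      h * θ c * h⁻¹ = θ c')
    (D' : Subgroup H) (hD' : D' ≤ pull N π D) (hK : KQ Q1 Q 𝒟 𝒪 p X D) :
    SQ θ.range ∧ θ.range.Normal ∧ KQ Q1 Q 𝒟 𝒪 p θ.range D' := by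
  obtain ⟨h3, h4, h5⟩ := kp_rel hX θ h1 h2 D' hD'
  refine ⟨h3, h4, fun L' hL' => ?_⟩
  obtain ⟨L, hL, f, hf, hker, h6, h7⟩ := h5 L' hL'
  exact (hK L hL).transfer hL.2.2.perf hf hker hQ1 hQ h𝒟 h𝒪 h6 h7

end Vale.Agent.P180.R2.H47
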