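import Vale.Agent.P180.R2.H47.QsK

set_option linter.all false

/-!
P180: sections relative to a normal subgroup, and the condition carried along the reductions.
-/

namespace Vale.Agent.P180.R2.H47

open Vale.Agent.P180 Vale.Agent.P180.H768.Gd
open Vale.Agent.P180.H768 hiding pull mem_pull exists_factor Lay mk_mem comm_mem
open scoped commutatorElement
open Subgroup (mem_centralizer_iff mem_normalizer_iff centralizer normalizer)

section RCs

variable {𝒮 : ∀ (S : Type) [Group S], Prop} {p : ℕ} {G : Type} [Group G]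

/-- Every nonabelian simple section of `B / A` of order divisible by `p` is in the class `𝒮`. -/
def RCs (p : ℕ) (𝒮 : ∀ (S : Type) [Group S], Prop) {G : Type} [Group G] (A B : Subgroup G) :
    Prop :=
  ∀ (K : Subgroup G) (S : Type) [Group S] [IsSimpleGroup S] (f : K →* S), K ≤ B →
    Function.Surjective f → (∀ x : K, (x : G) ∈ A → f x = 1) → (¬ ∀ a b : S, a * b = b * a) →
    p ∣ Nat.card S → 𝒮 S

theorem RCs.trans {A B C : Subgroup G} [B.Normal] (h1 : RCs p 𝒮 A B)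
    (h2 : RCs p 𝒮 B C) : RCs p 𝒮 A C := by
  intro K S _ _ f hK hf hx hna hp
  let L : Subgroup K := B.subgroupOf K
  have hLn : (L.map f).Normal := Subgroup.Normal.map inferInstance f hf
  rcases IsSimpleGroup.eq_bot_or_eq_top_of_normal _ hLn with h | h
  · refine h2 K S f hK hf ?_ hna hp
    intro x hxB
    have h3 : f x ∈ L.map f := Subgroup.mem_map_of_mem f hxB
    rw [h] at h3
    exact h3
  · let K' : Subgroup G := K ⊓ B
    let g : K' →* K := Subgroup.inclusion inf_le_left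
    refine h1 K' S (f.comp g) inf_le_right ?_ ?_ hna hp
    · intro s
      have hs : s ∈ L.map f := by rw [h]; exact Subgroup.mem_top s
      obtain ⟨x, hxL, rfl⟩ := hs
      exact ⟨⟨x, Subgroup.mem_inf.mpr ⟨x.2, hxL⟩⟩, rfl⟩
    · intro x hxA
      exact hx (g x) hxA

theorem RCs.of_ge {A B B' : Subgroup G} (h : B' ≤ B) (hA : RCs p 𝒮 A B) : RCs p 𝒮 A B' :=
  fun K S _ _ f hK hf hx hna hp => hA K S f (hK.trans h) hf hx hna hp

theorem RCs.subgroupOf {A B : Subgroup G} (h : RCs p 𝒮 A B) (T : Subgroup G) :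
    RCs p 𝒮 (A.subgroupOf T) (B.subgroupOf T) := by
  intro K S _ _ f hK hf hx hna hp
  let e := K.equivMapOfInjective T.subtype T.subtype_injective
  refine h (K.map T.subtype) S (f.comp e.symm.toMonoidHom) ?_ (hf.comp e.symm.surjective) ?_ hna hp
  · rintro _ ⟨x, hxK, rfl⟩
    exact hK hxK
  · intro x hxA
    apply hx
    have h1 : ((e (e.symm x) : K.map T.subtype) : G) = ((e.symm x : K) : T) := rfl
    rw [e.apply_symm_apply] at h1
    have h2 : (((e.symm x : K) : T) : G) ∈ A := by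
      rw [← h1]
      exact hxA
    exact h2

theorem RCs.pull {N A B : Subgroup G} [N.Normal] (hNA : N ≤ A) (hAB : A ≤ B)
    {H : Type} [Group H] (π : H →* G ⧸ N) (h : RCs p 𝒮 A B) :
    RCs p 𝒮 (pull N π A) (pull N π B) := by
  intro K S _ _ f hK hf hx hna hp
  let g : K →* (K.map π) :=
    { toFun := fun x => ⟨π x, Subgroup.mem_map_of_mem _ x.2⟩
      map_one' := Subtype.ext (map_one _)
      map_mul' := fun x y => Subtype.ext (map_mul _ _ _) }
  have hg : Function.Surjective g := by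
    rintro ⟨_, x, hx, rfl⟩
    exact ⟨⟨x, hx⟩, rfl⟩
  obtain ⟨f', hf'⟩ := exists_factor g hg f (by
    intro x h1
    apply hx
    refine mem_pull.mpr ⟨1, A.one_mem, ?_⟩
    rw [map_one]
    exact (congrArg Subtype.val h1).symm)
  let L : Subgroup G := (K.map π).comap (QuotientGroup.mk' N)
  have hLB : L ≤ B := by
    intro y hy
    obtain ⟨x, hxK, hxy⟩ := Subgroup.mem_comap.mp hy
    obtain ⟨z, hz, hzx⟩ := mem_pull.mp (hK hxK)
    exact mk_mem (hNA.trans hAB) hz (hzx.trans hxy)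
  let q : L →* (K.map π) :=
    { toFun := fun x => ⟨QuotientGroup.mk' N x, x.2⟩
      map_one' := Subtype.ext (map_one _)
      map_mul' := fun x y => Subtype.ext (map_mul _ _ _) }
  refine h L S (f'.comp q) hLB ?_ ?_ hna hp
  · intro s
    obtain ⟨x, rfl⟩ := hf s
    obtain ⟨y, hy⟩ := QuotientGroup.mk'_surjective N (π x)
    refine ⟨⟨y, Subgroup.mem_comap.mpr ⟨x, x.2, hy.symm⟩⟩, ?_⟩
    have h1 : q ⟨y, Subgroup.mem_comap.mpr ⟨x, x.2, hy.symm⟩⟩ = g x := Subtype.ext hy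
    change f' (q _) = f x
    rw [h1, hf']
  · intro y hyA
    obtain ⟨x, hxK, hxy⟩ := Subgroup.mem_comap.mp y.2
    have h1 : q y = g ⟨x, hxK⟩ := Subtype.ext hxy.symm
    change f' (q y) = 1
    rw [h1, hf']
    apply hx
    exact mem_pull.mpr ⟨y, hyA, hxy.symm⟩

theorem RCs_sup {X P Q : Subgroup G} [X.Normal] (h : RCs p 𝒮 P Q) :
    RCs p 𝒮 (X ⊔ P) (X ⊔ Q) := by
  intro K S _ _ f hK hf hx hna hp
  let g : K →* G ⧸ X := (QuotientGroup.mk' X).comp K.subtype
  obtain ⟨f', hf'⟩ := exists_factor g.rangeRestrict g.rangeRestrict_surjective f (by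
    intro x h1
    apply hx
    have h2 : QuotientGroup.mk' X (x : G) = 1 := congrArg Subtype.val h1
    exact Subgroup.mem_sup_left ((QuotientGroup.eq_one_iff _).mp h2))
  let K' : Subgroup G := Q ⊓ g.range.comap (QuotientGroup.mk' X)
  let r : K' →* g.range :=
    { toFun := fun x => ⟨QuotientGroup.mk' X x, x.2.2⟩
      map_one' := Subtype.ext (map_one _)
      map_mul' := fun x y => Subtype.ext (map_mul _ _ _) }
  refine h K' S (f'.comp r) inf_le_left ?_ ?_ hna hp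
  · intro s
    obtain ⟨x, rfl⟩ := hf s
    obtain ⟨x₀, hx₀, y, hy, hxy⟩ := Subgroup.mem_sup_of_normal_left.mp (hK x.2)
    have h1 : QuotientGroup.mk' X y = g x := by
      change QuotientGroup.mk' X y = QuotientGroup.mk' X (x : G)
      rw [← hxy, map_mul, (show QuotientGroup.mk' X x₀ = 1 from (QuotientGroup.eq_one_iff _).mpr hx₀),
        one_mul]
    refine ⟨⟨y, hy, ?_⟩, ?_⟩
    · exact ⟨x, h1.symm⟩
    · rw [← hf' x]
      change f' (r ⟨y, _⟩) = _
      congr 1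
      exact Subtype.ext h1
  · rintro ⟨y, hyQ, x, hxy⟩ hyP
    have h1 : (r ⟨y, hyQ, x, hxy⟩) = g.rangeRestrict x := Subtype.ext hxy.symm
    change f' (r ⟨y, hyQ, x, hxy⟩) = 1
    rw [h1, hf']
    apply hx
    have h2 : QuotientGroup.mk' X (x : G) = QuotientGroup.mk' X y := hxy
    have h3 : (x : G) * y⁻¹ ∈ X := by
      rw [← QuotientGroup.eq_one_iff]
      change QuotientGroup.mk' X ((x : G) * y⁻¹) = 1
      rw [map_mul, h2, map_inv, mul_inv_cancel]
    have h4 : (x : G) = (x : G) * y⁻¹ * y := by group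
    rw [h4]
    exact Subgroup.mul_mem_sup h3 hyP

/-- solvable groups have no nonabelian simple sections -/
theorem RCs.of_solvable {B : Subgroup G} (hB : Group.IsSolvable B) (A : Subgroup G) :
    RCs p 𝒮 A B := by
  intro K S _ _ f hK hf _ hna _
  exfalso
  apply hna
  have h1 : Group.IsSolvable K :=
    solvable_of_solvable_injective (f := Subgroup.inclusion hK) (Subgroup.inclusion_injective hK)
  have h2 : Group.IsSolvable S := solvable_of_surjective hf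
  exact IsSimpleGroup.comm_iff_isSolvable.mpr h2

/-- the kernel in the reduction of Kulshammer and Puig -/
theorem solvable_ker [Finite G] [Fact p.Prime] {N Y : Subgroup G} [N.Normal] {H : Type} [Group H]
    [Finite H] (hY : IsPGroup p Y) {Z : Subgroup H} {π : H →* G ⧸ N}
    (hZ : ∀ z ∈ Z, ∀ h, z * h = h * z) (hZπ : Z ≤ π.ker)
    (hcard : Nat.card π.ker = Nat.card Z * Nat.card Y) : Group.IsSolvable π.ker := by
  obtain ⟨j, hj⟩ := IsPGroup.iff_card.mp hY
  have h1 : (Z.subgroupOf π.ker).index = p ^ j := by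
    have h5 := Subgroup.card_mul_index (Z.subgroupOf π.ker)
    rw [hcard, Nat.card_congr (Subgroup.subgroupOfEquivOfLe hZπ).toEquiv, hj] at h5
    exact Nat.eq_of_mul_eq_mul_left Nat.card_pos h5
  exact solvable_of_central (fun z hz g => Subtype.ext (hZ _ hz g)) h1

end RCs

/-- A condition on a finite group and a subgroup, inherited in the reductions. -/
structure Ctr (p : ℕ) (𝒞 : ∀ (G : Type) [Group G], Subgroup G → Prop) : Prop where
  mono : ∀ {G : Type} [Group G] [Finite G] {D D' : Subgroup G}, D' ≤ D → 𝒞 G D → 𝒞 G D'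
  fr : ∀ {G : Type} [Group G] [Finite G] {N T D : Subgroup G} [N.Normal], N ≤ T →
    centralizer (N : Set G) ≤ T → ∀ x : G, 𝒞 G D → 𝒞 T ((conjS x D).subgroupOf T)
  kp : ∀ {G H : Type} [Group G] [Finite G] [Group H] [Finite H] {N D Y : Subgroup G} [N.Normal]
    {π : H →* G ⧸ N} {Z : Subgroup H}, Th N π → IsPGroup p Y → (∀ z ∈ Z, ∀ h, z * h = h * z) →
    Z ≤ π.ker → Nat.card π.ker = Nat.card Z * Nat.card Y → ∀ D' : Subgroup H, D' ≤ pull N π D →
    𝒞 G D → 𝒞 H D'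

/-- `G` has normal subgroups `X ≤ M`, `D ≤ M`, such that `X` is a central product of quasisimple
groups satisfying the condition, and the simple sections of `M / X` are in the class `𝒮`. -/
def Con (Q1 : ∀ (S : Type) [Group S], Prop) {ι : Type}
    (Q : ι → ∀ (S : Type) [Group S], Subgroup S → Prop)
    (𝒟 : ι → ∀ (Γ : Type) [Group Γ], Subgroup Γ → Prop) (𝒪 : ∀ (Γ : Type) [Group Γ], Subgroup Γ → Prop)
    (𝒮 : ∀ (S : Type) [Group S], Prop) (p : ℕ) (G : Type) [Group G] (D : Subgroup G) : Prop :=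
  ∃ X M : Subgroup G, X.Normal ∧ M.Normal ∧ SQ X ∧ X ≤ M ∧ D ≤ M ∧ KQ Q1 Q 𝒟 𝒪 p X D ∧ RCs p 𝒮 X M

/-- The new groups after the reduction of Kulshammer and Puig. -/
theorem kp_shape' {p : ℕ} [Fact p.Prime] {G H : Type} [Group G]
    [Finite G] [Group H] [Finite H] {N D Y : Subgroup G} [N.Normal]
    {π : H →* G ⧸ N} {Z : Subgroup H} (hT : Th N π) (hY : IsPGroup p Y)
    (hZ : ∀ z ∈ Z, ∀ h, z * h = h * z) (hZπ : Z ≤ π.ker)
    (hcard : Nat.card π.ker = Nat.card Z * Nat.card Y) (D' : Subgroup H) (hD' : D' ≤ pull N π D)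
    {X : Subgroup G} (hX : X.Normal) (hXQ : SQ X) :
    ∃ X' : Subgroup H, X'.Normal ∧ SQ X' ∧
      (∀ M : Subgroup G, M.Normal → X ≤ M → X' ≤ pull N π (N ⊔ M) ∧
        ∀ 𝒮 : ∀ (S : Type) [Group S], Prop, RCs p 𝒮 X M → RCs p 𝒮 X' (pull N π (N ⊔ M))) ∧
      ∀ L' ∈ comps X', ∃ L ∈ comps X, ∃ f : L →* L',
      Function.Surjective f ∧ (∀ s, f s = 1 → ∀ t, s * t = t * s) ∧
      (∀ t ∈ normalizer (L' : Set H), ∃ g ∈ normalizer (L : Set G), Rl f t g) ∧
      ∀ t ∈ D', t ∈ normalizer (L' : Set H) →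
        ∃ g ∈ D, g ∈ normalizer (L : Set G) ∧ Rl f t g := by
  obtain ⟨hTQ, -⟩ := cenQ_props (X := X) (N := N)
  obtain ⟨θ, hθ1, hθ2⟩ := hT (cenQ X N) (fun c hc n hn => cenQ_cm (X := X) (N := N) c hc n hn)
    hTQ.perfect
  obtain ⟨h1, h2, h3⟩ := kp_rel (D := D) hXQ θ hθ1 hθ2 D' hD'
  have hNXn : (N ⊔ X).Normal := inferInstance
  have hpX : ((N ⊔ X).map (QuotientGroup.mk' N)).Normal :=
    Subgroup.Normal.map inferInstance _ (QuotientGroup.mk'_surjective N)
  have hle : pull N π (N ⊔ X) ≤ θ.range ⊔ π.ker := by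
    intro h hh
    obtain ⟨x, hx, hxh⟩ := mem_pull.mp hh
    have h1 : N ⊔ X ≤ cenQ X N ⊔ N := by
      refine sup_le le_sup_right ?_
      refine (hXQ.le_sup (N := N)).trans (sup_le le_sup_left ?_)
      exact inf_le_right.trans le_sup_right
    obtain ⟨t, ht, n, hn, htn⟩ := Subgroup.mem_sup_of_normal_right.mp (h1 hx)
    have h2 : π (θ ⟨t, ht⟩) = π h := by
      rw [hθ1, ← hxh, ← htn, map_mul,
        (show QuotientGroup.mk' N n = 1 from (QuotientGroup.eq_one_iff _).mpr hn), mul_one]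
      rfl
    have h3 : (θ ⟨t, ht⟩)⁻¹ * h ∈ π.ker := by
      rw [MonoidHom.mem_ker, map_mul, map_inv, h2, inv_mul_cancel]
    have h4 : h = θ ⟨t, ht⟩ * ((θ ⟨t, ht⟩)⁻¹ * h) := by group
    rw [h4]
    exact Subgroup.mul_mem_sup ⟨_, rfl⟩ h3
  refine ⟨θ.range, h2, h1, fun M hM hXM => ⟨?_, fun 𝒮 hR => ?_⟩, h3⟩
  · rintro _ ⟨c, rfl⟩
    exact mem_pull.mpr ⟨c, (le_sup_right (a := N)) (hXM (cenQ_le c.2)), (hθ1 c).symm⟩
  · have h4 : RCs p 𝒮 (⊥ : Subgroup H) π.ker :=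
      RCs.of_solvable (solvable_ker hY hZ hZπ hcard) ⊥
    have h5 : RCs p 𝒮 (θ.range ⊔ ⊥) (θ.range ⊔ π.ker) := RCs_sup h4
    rw [sup_bot_eq] at h5
    have h6 := RCs.of_ge hle h5
    have h7 : RCs p 𝒮 (pull N π (N ⊔ X)) (pull N π (N ⊔ M)) :=
      RCs.pull le_sup_left (sup_le le_sup_left (hXM.trans le_sup_right)) π (RCs_sup hR)
    exact h6.trans h7

/-- The new groups after the reduction of Kulshammer and Puig. -/
theorem kp_shape {𝒮 : ∀ (S : Type) [Group S], Prop} {p : ℕ} [Fact p.Prime] {G H : Type} [Group G]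
    [Finite G] [Group H] [Finite H] {N D Y : Subgroup G} [N.Normal]
    {π : H →* G ⧸ N} {Z : Subgroup H} (hT : Th N π) (hY : IsPGroup p Y)
    (hZ : ∀ z ∈ Z, ∀ h, z * h = h * z) (hZπ : Z ≤ π.ker)
    (hcard : Nat.card π.ker = Nat.card Z * Nat.card Y) (D' : Subgroup H) (hD' : D' ≤ pull N π D)
    {X M : Subgroup G} (hX : X.Normal) (hM : M.Normal) (hXQ : SQ X) (hXM : X ≤ M) (hDM : D ≤ M)
    (hR : RCs p 𝒮 X M) :
    ∃ X' M' : Subgroup H, X'.Normal ∧ M'.Normal ∧ SQ X' ∧ X' ≤ M' ∧ D' ≤ M' ∧ RCs p 𝒮 X' M' ∧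
      ∀ L' ∈ comps X', ∃ L ∈ comps X, ∃ f : L →* L',
      Function.Surjective f ∧ (∀ s, f s = 1 → ∀ t, s * t = t * s) ∧
      (∀ t ∈ normalizer (L' : Set H), ∃ g ∈ normalizer (L : Set G), Rl f t g) ∧
      ∀ t ∈ D', t ∈ normalizer (L' : Set H) →
        ∃ g ∈ D, g ∈ normalizer (L : Set G) ∧ Rl f t g := by
  obtain ⟨X', h1, h2, h3, h4⟩ := kp_shape' (Y := Y) hT hY hZ hZπ hcard D' hD' hX hXQ
  have hNMn : (N ⊔ M).Normal := inferInstance
  have hpM : ((N ⊔ M).map (QuotientGroup.mk' N)).Normal :=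
    Subgroup.Normal.map inferInstance _ (QuotientGroup.mk'_surjective N)
  exact ⟨X', pull N π (N ⊔ M), h1, inferInstance, h2, (h3 M hM hXM).1,
    hD'.trans (Subgroup.comap_mono (Subgroup.map_mono (hDM.trans le_sup_right))),
    (h3 M hM hXM).2 𝒮 hR, h4⟩

theorem ctr_con {Q1 : ∀ (S : Type) [Group S], Prop} {ι : Type}
    {Q : ι → ∀ (S : Type) [Group S], Subgroup S → Prop}
    {𝒟 : ι → ∀ (Γ : Type) [Group Γ], Subgroup Γ → Prop}
    {𝒪 : ∀ (Γ : Type) [Group Γ], Subgroup Γ → Prop} {𝒮 : ∀ (S : Type) [Group S], Prop} {p : ℕ}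
    [Fact p.Prime] (hQ1 : CQ Q1) (hQ : ∀ a, CK p (Q a)) (h𝒟 : ∀ a, OutC (𝒟 a))
    (h𝒪 : OutC 𝒪) : Ctr p (Con Q1 Q 𝒟 𝒪 𝒮 p) where
  mono := by
    rintro G _ _ D D' hD ⟨X, M, hX, hM, hXQ, hXM, hDM, hK, hR⟩
    exact ⟨X, M, hX, hM, hXQ, hXM, hD.trans hDM, hK.mono h𝒟 hD, hR⟩
  fr := by
    rintro G _ _ N T D _ hNT hCT x ⟨X, M, hX, hM, hXQ, hXM, hDM, hK, hR⟩
    have hXT : X ≤ T := by
      refine (hXQ.le_sup (N := N)).trans (sup_le ?_ (inf_le_right.trans hNT))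
      exact (cm_iff.mp cenQ_cm).trans hCT
    refine ⟨X.subgroupOf T, M.subgroupOf T, inferInstance, inferInstance, hXQ.subgroupOf hXT,
      Subgroup.comap_mono hXM, ?_, hK.fr hQ1 hQ h𝒟 h𝒪 hXT x, hR.subgroupOf T⟩
    intro y hy
    rw [Subgroup.mem_subgroupOf, mem_conjS] at hy
    rw [Subgroup.mem_subgroupOf]
    have h1 := hM.conj_mem _ (hDM hy) x
    have e : x * (x⁻¹ * (y : G) * x) * x⁻¹ = y := by group
    rwa [e] at h1
  kp := by
    rintro G H _ _ _ _ N D Y _ π Z hT hY hZ hZπ hcard D' hD' ⟨X, M, hX, hM, hXQ, hXM, hDM, hK, hR⟩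
    obtain ⟨X', M', h1, h2, h3, h4, h5, h6, h7⟩ :=
      kp_shape (𝒮 := 𝒮) hT hY hZ hZπ hcard D' hD' hX hM hXQ hXM hDM hR
    refine ⟨X', M', h1, h2, h3, h4, h5, fun L' hL' => ?_, h6⟩
    obtain ⟨L, hL, f, hf, hker, h8, h9⟩ := h7 L' hL'
    exact (hK L hL).transfer hL.2.2.perf hf hker hQ1 hQ h𝒟 h𝒪 h8 h9

end Vale.Agent.P180.R2.H47
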