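import Vale.Agent.P180.R2.H47.QsR
import Vale.Agent.P180.R2.H365.RedAll

set_option linter.all false

/-!
P180: the general reduction, carrying a condition on the group and the defect group.
-/

namespace Vale.Agent.P180.R2.H47

open Vale.Agent.P180 Vale.Agent.P180.H768.Gd Vale.Agent.P180.R2.H365
open Vale.Agent.P180.H768 hiding pull mem_pull exists_factor Lay mk_mem comm_mem

universe u

variable {k : Type u} [Field k] {p n : ℕ} [Fact p.Prime] [CharP k p]

theorem cent_le_stabE {G : Type} [Group G] [Finite G] {N : Subgroup G} {e : MonoidAlgebra k G}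
    (he : IsBlockOf N e) : Subgroup.centralizer (N : Set G) ≤ stabE e := by
  intro g hg
  rw [mem_stabE]
  exact cj_eq_self_of_commute he.mem.1 fun a ha =>
    (Subgroup.mem_centralizer_iff.mp hg a ha).symm

theorem reduce_ctr_aux {𝒞 : ∀ (G : Type) [Group G], Subgroup G → Prop} (hC : Ctr p 𝒞)
    {P : ∀ (G : Type) [Group G], MonoidAlgebra k G → Prop}
    (hP : Clo k p P)
    (hend : ∀ (G : Type) [Group G] [Finite G] (Z D : Subgroup G) (a b : MonoidAlgebra k G),
      Rs p n Z D a b → 𝒞 G D → STab b → NRed p Z ⊤ b → P G b) (i : ℕ) :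
    ∀ (G : Type) [Group G] [Finite G] (Z D : Subgroup G) (a b : MonoidAlgebra k G),
      Rs p n Z D a b → 𝒞 G D → Z.index ≤ i → P G b := by
  induction i with
  | zero =>
    intro G _ _ Z D a b _ _ hi
    exact absurd (Nat.le_zero.mp hi) Z.index_ne_zero_of_finite
  | succ i ih =>
    intro G _ _ Z D a b hs hCD hi
    by_cases hST : STab b
    swap
    · unfold STab at hST
      push Not at hST
      obtain ⟨N, hN, e, he, hbe, g, hg⟩ := hST
      obtain ⟨b', hb', hbb', -, x, a', ha', hb'a'⟩ := fong_reynolds he hs.hb hbe hs.ha hs.hba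
      refine hP.fr he hs.hb hbe hb' hbb' ?_
      have hZT : Z ≤ stabE e := by
        intro z hz
        rw [mem_stabE]
        exact cj_eq_self_of_commute he.mem.1 fun a _ => hs.Zc z hz a
      have hT : (stabE e).index ≠ 1 := by
        rw [Ne, Subgroup.index_eq_one]
        intro h
        apply hg
        rw [← mem_stabE, h]
        exact Subgroup.mem_top g
      have hT0 : (stabE e).index ≠ 0 := Subgroup.index_ne_zero_of_finite
      have hidx : (Z.subgroupOf (stabE e)).index ≤ i := by
        have h1 : Z.relIndex (stabE e) * (stabE e).index = Z.index :=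
          Subgroup.relIndex_mul_index hZT
        have h2 : (Z.subgroupOf (stabE e)).index ≠ 0 := Subgroup.index_ne_zero_of_finite
        have h3 : Z.relIndex (stabE e) * 2 ≤ Z.relIndex (stabE e) * (stabE e).index :=
          Nat.mul_le_mul_left _ (by omega)
        change Z.relIndex (stabE e) ≠ 0 at h2
        change Z.relIndex (stabE e) ≤ i
        omega
      have hDp : IsPGroup p ((conjS x D).subgroupOf (stabE e)) := by
        rintro ⟨⟨w, hwT⟩, hw⟩
        rw [Subgroup.mem_subgroupOf, mem_conjS] at hw
        obtain ⟨r, hr⟩ := hs.Dp ⟨_, hw⟩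
        refine ⟨r, Subtype.ext (Subtype.ext ?_)⟩
        have h3 : (x⁻¹ * w * x) ^ (p ^ r) = 1 := congrArg Subtype.val hr
        have h4 : (x⁻¹ * w * (x⁻¹)⁻¹) ^ (p ^ r) = 1 := by rwa [inv_inv]
        rw [conj_pow] at h4
        change w ^ (p ^ r) = 1
        calc w ^ (p ^ r) = x * (x⁻¹ * w ^ (p ^ r) * (x⁻¹)⁻¹) * x⁻¹ := by group
          _ = 1 := by rw [h4, mul_one, mul_inv_cancel]
      refine ih (stabE e) (Z.subgroupOf (stabE e)) ((conjS x D).subgroupOf (stabE e)) a' b' ?_
        (hC.fr (le_stabE he) (cent_le_stabE he) x hCD) hidx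
      exact
        { Dp := hDp
          Zc := fun z hz g => Subtype.ext (hs.Zc _ hz g)
          Zp := by
            rw [Nat.card_congr (Subgroup.subgroupOfEquivOfLe hZT).toEquiv]
            exact hs.Zp
          hb := hb'
          ha := ha'
          hba := hb'a'
          Dn := (card_subgroupOf_conjS_le _ x D).trans hs.Dn }
    · by_cases hNR : NRed p Z ⊤ b
      swap
      · unfold NRed at hNR
        push Not at hNR
        obtain ⟨N, Y, hN, hYn, hZN, hNA, hYN, hY, hYc, e, he, hbe, hez, hcard⟩ := hNR
        have hYD : Y ≤ D := op_le p hY hs.hb.idem hs.hb.ne_zero hs.ha hs.hba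
        obtain ⟨H, iH, fH, Z', π, c, hc, hZ', hpZ', hZπ, hidx', hπ, hker, hMo, hTh, D', a', hD',
          ha', hca', hD'M⟩ := hP.kp hY hYN hYc he (hST N hN e he hbe) hs.hb hbe hez hs.ha hs.hba
            hYD
        apply hMo
        have hidx : Z'.index ≤ i := by
          have h1 : Nat.card Z * Nat.card Y ≤ Nat.card N := by
            rw [← card_sup_eq hs.Zp hY]
            exact Nat.card_le_card_of_injective _
              (Subgroup.inclusion_injective (sup_le hZN hYN))
          have h2 : Nat.card Z * Nat.card Y < Nat.card N :=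
            lt_of_le_of_ne h1 (Ne.symm hcard)
          have h3 := Subgroup.card_mul_index N
          have h4 := Subgroup.card_mul_index Z
          have h5 : 0 < N.index := Nat.pos_of_ne_zero Subgroup.index_ne_zero_of_finite
          have h6 : Nat.card Z * (Nat.card Y * N.index) < Nat.card Z * Z.index := by
            rw [h4, ← h3, ← mul_assoc]
            exact Nat.mul_lt_mul_of_pos_right h2 h5
          have h7 := Nat.lt_of_mul_lt_mul_left h6
          omega
        obtain ⟨P', hPD, hP', a'', ha'', hca''⟩ := exists_sylow_trace (p := p) ha' hca'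
        refine ih H Z' P' a'' c ?_ (hC.kp hTh hY hZ' hZπ hker P' (hPD.trans hD'M) hCD) hidx
        exact
          { Dp := hP'
            Zc := hZ'
            Zp := hpZ'
            hb := hc
            ha := ha''
            hba := hca''
            Dn := ((Nat.card_le_card_of_injective _ (Subgroup.inclusion_injective hPD)).trans
              hD').trans hs.Dn }
      · exact hend G Z D a b hs hCD hST hNR

/-- **The general reduction with a condition.** -/
theorem reduce_ctr {𝒞 : ∀ (G : Type) [Group G], Subgroup G → Prop} (hC : Ctr p 𝒞)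
    {P : ∀ (G : Type) [Group G], MonoidAlgebra k G → Prop}
    (hP : Clo k p P)
    (hend : ∀ (G : Type) [Group G] [Finite G] (Z D : Subgroup G) (a b : MonoidAlgebra k G),
      Rs p n Z D a b → 𝒞 G D → STab b → NRed p Z ⊤ b → P G b)
    (G : Type) [Group G] [Finite G] (D : Subgroup G) (hD : IsPGroup p D)
    (hDn : Nat.card D ≤ n) (a b : MonoidAlgebra k G) (hb : IsBlock b)
    (ha : a ∈ Fix (cj k G) D) (hba : b = tr (cj k G) D ⊤ a) (hCD : 𝒞 G D) : P G b := by
  refine reduce_ctr_aux hC hP hend (⊥ : Subgroup G).index G ⊥ D a b ?_ hCD le_rfl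
  exact
    { Dp := hD
      Zc := fun z hz g => by
        rw [Subgroup.mem_bot] at hz
        rw [hz, one_mul, mul_one]
      Zp := by
        rw [Subgroup.card_bot]
        intro h
        exact absurd (Nat.le_of_dvd one_pos h)
          (Nat.not_le.mpr (Nat.Prime.one_lt (Fact.out : p.Prime)))
      hb := hb
      ha := ha
      hba := hba
      Dn := hDn }

end Vale.Agent.P180.R2.H47
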