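import Vale.Agent.P180.R2.H47.Adm
import Vale.Agent.P180.R2.H47.Red

set_option linter.all false

/-!
P180: the reduction carrying a normal direct product of simple groups and a condition on it.
-/

namespace Vale.Agent.P180.R2.H47

open Vale.Agent.P180 Vale.Agent.P180.H768.Gd
open Vale.Agent.P180.H768 hiding pull mem_pull exists_factor Lay mk_mem comm_mem

open scoped Nat commutatorElement

universe u

variable {K : ∀ (G : Type) [Group G], Subgroup G → Subgroup G → Prop}

section Group

variable {G : Type} [Group G] {p q m : ℕ}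

variable [Finite G] [Fact p.Prime] (hpm : p ≤ m)

include hpm

/-- The new subgroup `X` after the reduction of Kulshammer and Puig. -/
theorem kp_stateK (hK : Adm K) {X N : Subgroup G} [hXn : X.Normal] [hNn : N.Normal]
    (hX : SSP QT X)
    {H : Type} [Group H] [Finite H] {π : H →* G ⧸ N} (hT : Th N π)
    {A : Subgroup G} (hNA : N ≤ A) (hXA : X ≤ A) (hR : RC p q m (X ⊔ N) A) {Z : Subgroup H}
    {Y : Subgroup G}
    (hY : IsPGroup p Y) (hZ : ∀ z ∈ Z, ∀ h, z * h = h * z) (hZπ : Z ≤ π.ker)
    (hcard : Nat.card π.ker = Nat.card Z * Nat.card Y) :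
    ∃ X' : Subgroup H, X'.Normal ∧ SSP QT X' ∧ X' ≤ pull N π A ∧ RC p q m X' (pull N π A) ∧
      ∀ (D : Subgroup G) (D' : Subgroup H), D' ≤ pull N π D → K G X D → K H X' D' := by
  have hT0n : (cenP X N).Normal := inferInstance
  have hT0 : SSP QT (cenP X N) := hX.cenP N
  obtain ⟨θ, hθ1, hθ2⟩ := hT (cenP X N) (fun c hc n hn => (mem_cenP.mp hc).2 n hn) hT0.perfect
  have hθi : Function.Injective θ := by
    rw [injective_iff_map_eq_one]
    intro c hc
    have h1 := hθ1 c
    rw [hc, map_one] at h1
    have h2 : (c : G) ∈ N := (QuotientGroup.eq_one_iff _).mp h1.symm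
    have h3 : (c : G) ∈ cenP X N ⊓ N := ⟨c.2, h2⟩
    rw [hX.inf_eq_bot N, Subgroup.mem_bot] at h3
    exact Subtype.ext h3
  have hX'n : θ.range.Normal := by
    constructor
    rintro _ ⟨c, rfl⟩ h
    obtain ⟨g, hg⟩ := QuotientGroup.mk'_surjective N (π h)
    refine ⟨⟨g * c * g⁻¹, hT0n.conj_mem _ c.2 g⟩, ?_⟩
    exact (hθ2 h g c _ hg.symm rfl).symm
  have hle : pull N π (X ⊔ N) ≤ θ.range ⊔ π.ker := by
    intro h hh
    obtain ⟨x, hx, hxh⟩ := mem_pull.mp hh
    have h1 : X ⊔ N ≤ H47.cenP X N ⊔ N := by
      refine sup_le ?_ le_sup_right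
      refine (hX.le_sup N).trans (sup_le ?_ le_sup_left)
      exact inf_le_right.trans le_sup_right
    obtain ⟨t, ht, n, hn, htn⟩ := Subgroup.mem_sup_of_normal_right.mp (h1 hx)
    have h2 : π (θ ⟨t, ht⟩) = π h := by
      rw [hθ1, ← hxh, ← htn, map_mul,
        (show QuotientGroup.mk' N n = 1 from (QuotientGroup.eq_one_iff _).mpr hn), mul_one]
      rfl
    have h3 : (θ ⟨t, ht⟩)⁻¹ * h ∈ π.ker := by
      rw [MonoidHom.mem_ker, map_mul, map_inv, h2, inv_mul_cancel]
    have h4 : h = θ ⟨t, ht⟩ * ((θ ⟨t, ht⟩)⁻¹ * h) := by group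
    rw [h4]
    exact Subgroup.mul_mem_sup ⟨_, rfl⟩ h3
  refine ⟨θ.range, hX'n, ?_, ?_, ?_, fun D D' hD' hKD => hK.kp hX θ hθi hθ1 hθ2 D' hD' hKD⟩
  · have h1 : SSP QT (⊤ : Subgroup (H47.cenP X N)) := by
      refine SSP.of_map (fun _ _ _ _ _ _ => ⟨1⟩) (H47.cenP X N).subtype (fun x _ hx => Subtype.ext hx) ?_
      rw [← MonoidHom.range_eq_map, Subgroup.range_subtype]
      exact hT0
    have h2 := h1.map (fun _ _ _ _ _ _ => ⟨1⟩) θ (fun x _ hx => hθi (by rw [hx, map_one]))
    rwa [← MonoidHom.range_eq_map] at h2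
  · rintro _ ⟨c, rfl⟩
    exact mem_pull.mpr ⟨c, hXA (mem_cenP.mp c.2).1, (hθ1 c).symm⟩
  · have h1 : RC p q m (⊥ : Subgroup H) π.ker := RC.of_cls (cls_ker hpm hY hZ hZπ hcard)
    have h2 : RC p q m (θ.range ⊔ ⊥) (θ.range ⊔ π.ker) := RC_sup h1
    rw [sup_bot_eq] at h2
    have h3 := RC.of_ge hle h2
    have h4 : RC p q m (pull N π (X ⊔ N)) (pull N π A) :=
      RC.pull le_sup_right (sup_le hXA hNA) π hR
    have h5 : ((X ⊔ N).map (QuotientGroup.mk' N)).Normal :=
      Subgroup.Normal.map inferInstance _ (QuotientGroup.mk'_surjective N)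
    exact h3.trans h4

end Group

variable {k : Type u} [Field k] {p n : ℕ} [Fact p.Prime] [CharP k p]

theorem reduceK (hK : Adm K) {P : ∀ (G : Type) [Group G], MonoidAlgebra k G → Prop}
    (hP : Clo k p P) {j m : ℕ} (hpm : p ≤ m)
    (hend : ∀ (G : Type) [Group G] [Finite G] (Z X A D : Subgroup G) (a b : MonoidAlgebra k G),
      St QT p n m j Z X A D a b → K G X D → STab b → NRed p Z A b → P G b) (i : ℕ) :
    ∀ (G : Type) [Group G] [Finite G] (Z X A D : Subgroup G) (a b : MonoidAlgebra k G),
      St QT p n m j Z X A D a b → K G X D → Z.index ≤ i → P G b := by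
  induction i with
  | zero =>
    intro G _ _ Z X A D a b _ _ hi
    exact absurd (Nat.le_zero.mp hi) Z.index_ne_zero_of_finite
  | succ i ih =>
    intro G _ _ Z X A D a b hs hKD hi
    have hAn := hs.An
    have hXn := hs.Xn
    by_cases hST : STab b
    swap
    · unfold STab at hST
      push Not at hST
      obtain ⟨N, hN, e, he, hbe, g, hg⟩ := hST
      obtain ⟨b', hb', hbb', -, x, a', ha', hb'a'⟩ := fong_reynolds he hs.hb hbe hs.ha hs.hba
      refine hP.fr he hs.hb hbe hb' hbb' ?_
      have hZT : Z ≤ stabE e := by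
        intro z hz
        rw [mem_stabE]
        exact cj_eq_self_of_commute he.mem.1 fun a _ => hs.Zc z hz a
      have hXT : X ≤ stabE e := X_le_stabE hs.Xss he
      have hT : (stabE e).index ≠ 1 := by
        rw [Ne, Subgroup.index_eq_one]
        intro h
        apply hg
        rw [← mem_stabE, h]
        exact Subgroup.mem_top g
      have hT0 : (stabE e).index ≠ 0 := Subgroup.index_ne_zero_of_finite
      have hidx : (Z.subgroupOf (stabE e)).index ≤ i := by
        have h1 : Z.relIndex (stabE e) * (stabE e).index = Z.index :=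
          Subgroup.relIndex_mul_index hZT
        have h2 : (Z.subgroupOf (stabE e)).index ≠ 0 := Subgroup.index_ne_zero_of_finite
        have h3 : Z.relIndex (stabE e) * 2 ≤ Z.relIndex (stabE e) * (stabE e).index :=
          Nat.mul_le_mul_left _ (by omega)
        change Z.relIndex (stabE e) ≠ 0 at h2
        change Z.relIndex (stabE e) ≤ i
        omega
      have hDp : IsPGroup p ((conjS x D).subgroupOf (stabE e)) := by
        rintro ⟨⟨w, hwT⟩, hw⟩
        rw [Subgroup.mem_subgroupOf, mem_conjS] at hw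
        obtain ⟨r, hr⟩ := hs.Dp ⟨_, hw⟩
        refine ⟨r, Subtype.ext (Subtype.ext ?_)⟩
        have h3 : (x⁻¹ * w * x) ^ (p ^ r) = 1 := congrArg Subtype.val hr
        have h4 : (x⁻¹ * w * (x⁻¹)⁻¹) ^ (p ^ r) = 1 := by rwa [inv_inv]
        rw [conj_pow] at h4
        change w ^ (p ^ r) = 1
        calc w ^ (p ^ r) = x * (x⁻¹ * w ^ (p ^ r) * (x⁻¹)⁻¹) * x⁻¹ := by group
          _ = 1 := by rw [h4, mul_one, mul_inv_cancel]
      refine ih (stabE e) (Z.subgroupOf (stabE e)) (X.subgroupOf (stabE e))
        (A.subgroupOf (stabE e)) ((conjS x D).subgroupOf (stabE e)) a' b' ?_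
        (hK.fr hs.Xss hXT x hKD) hidx
      exact
        { An := inferInstance
          Xn := inferInstance
          Xss := SSP.of_map (fun _ _ _ _ _ _ => ⟨1⟩) (stabE e).subtype (fun x _ hx => Subtype.ext hx) (by
            rw [Subgroup.map_subgroupOf_eq_of_le hXT]
            exact hs.Xss)
          XA := Subgroup.comap_mono hs.XA
          Dp := hDp
          rc := hs.rc.subgroupOf _
          lay := hs.lay.subgroupOf (stabE e) x hAn
          ZA := Subgroup.comap_mono hs.ZA
          Zc := fun z hz g => Subtype.ext (hs.Zc _ hz g)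
          Zp := by
            rw [Nat.card_congr (Subgroup.subgroupOfEquivOfLe hZT).toEquiv]
            exact hs.Zp
          hb := hb'
          ha := ha'
          hba := hb'a'
          Dn := (card_subgroupOf_conjS_le _ x D).trans hs.Dn }
    · by_cases hNR : NRed p Z A b
      swap
      · unfold NRed at hNR
        push Not at hNR
        obtain ⟨N, Y, hN, hYn, hZN, hNA, hYN, hY, hYc, e, he, hbe, hez, hcard⟩ := hNR
        have hYD : Y ≤ D := op_le p hY hs.hb.idem hs.hb.ne_zero hs.ha hs.hba
        obtain ⟨H, iH, fH, Z', π, c, hc, hZ', hpZ', hZπ, hidx', hπ, hker, hMo, hTh, D', a', hD',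
          ha', hca', hD'M⟩ := hP.kp hY hYN hYc he (hST N hN e he hbe) hs.hb hbe hez hs.ha hs.hba
            hYD
        apply hMo
        have hidx : Z'.index ≤ i := by
          have h1 : Nat.card Z * Nat.card Y ≤ Nat.card N := by
            rw [← card_sup_eq hs.Zp hY]
            exact Nat.card_le_card_of_injective _
              (Subgroup.inclusion_injective (sup_le hZN hYN))
          have h2 : Nat.card Z * Nat.card Y < Nat.card N :=
            lt_of_le_of_ne h1 (Ne.symm hcard)
          have h3 := Subgroup.card_mul_index N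
          have h4 := Subgroup.card_mul_index Z
          have h5 : 0 < N.index := Nat.pos_of_ne_zero Subgroup.index_ne_zero_of_finite
          have h6 : Nat.card Z * (Nat.card Y * N.index) < Nat.card Z * Z.index := by
            rw [h4, ← h3, ← mul_assoc]
            exact Nat.mul_lt_mul_of_pos_right h2 h5
          have h7 := Nat.lt_of_mul_lt_mul_left h6
          omega
        obtain ⟨P', hPD, hP', a'', ha'', hca''⟩ := exists_sylow_trace (p := p) ha' hca'
        obtain ⟨X', hX'n, hX's, hX'A, hX'R, hX'K⟩ := kp_stateK (p := p) (q := n) (m := m) hpm hK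
          (X := X) (N := N) hs.Xss hTh hNA hs.XA (RC.of_le le_sup_left hs.rc) hY hZ' hZπ hker
        refine ih H Z' X' (pull N π A) P' a'' c ?_ (hX'K D P' (hPD.trans hD'M) hKD) hidx
        have hAn' : (A.map (QuotientGroup.mk' N)).Normal :=
          Subgroup.Normal.map hAn _ (QuotientGroup.mk'_surjective N)
        exact
          { An := inferInstance
            Xn := hX'n
            Xss := hX's
            XA := hX'A
            Dp := hP'
            rc := hX'R
            lay := (hs.lay.pull π hD'M hNA).mono_D hPD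
            ZA := by
              refine hZπ.trans ?_
              intro h hh
              exact mem_pull.mpr ⟨1, A.one_mem, (map_one _).trans (MonoidHom.mem_ker.mp hh).symm⟩
            Zc := hZ'
            Zp := hpZ'
            hb := hc
            ha := ha''
            hba := hca''
            Dn := ((Nat.card_le_card_of_injective _ (Subgroup.inclusion_injective hPD)).trans
              hD').trans hs.Dn }
      · exact hend G Z X A D a b hs hKD hST hNR


end Vale.Agent.P180.R2.H47
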