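import Vale.Agent.P180.R2.H47.SecDef
import Vale.Agent.P180.R2.H47.AcW
import Vale.Agent.P180.R2.H47.PjQ

set_option linter.all false

/-!
P180: groups whose simple sections are of given types satisfy the condition carried along the
reductions.
-/

namespace Vale.Agent.P180.R2.H47

open Vale.Agent.P180 Vale.Agent.P180.H768.Gd Vale.Agent.P180.R2.H365
open scoped commutatorElement Pointwise
open Subgroup (mem_centralizer_iff mem_normalizer_iff centralizer normalizer mul_mem_sup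
  mem_sup_left mem_sup_right)

universe u

section Cls

/-- Isomorphism invariance of the local characteristic. -/
theorem lc_iso {p n : ℕ} [Fact p.Prime] : IsoInv (fun (S : Type) [Group S] =>
    IsLocalChar p n S ∧ (p = 2 ∨ ∀ P : Sylow p S, n < Nat.card P)) := by
  rintro S S' _ _ ⟨e⟩ ⟨h1, h2⟩
  refine ⟨isLocalChar_of_equiv e h1, ?_⟩
  rcases h2 with h2 | h2
  · exact Or.inl h2
  · right
    intro P
    let P' : Sylow p S := P.comapOfInjective e.toMonoidHom e.injective (by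
      rw [MonoidHom.range_eq_top.mpr e.surjective]
      exact le_top)
    refine (h2 P').trans_eq ?_
    exact Nat.card_congr
      { toFun := fun x : P' => (⟨e x.1, x.2⟩ : P)
        invFun := fun y => ⟨e.symm y.1, by
          change e (e.symm y.1) ∈ P
          rw [e.apply_symm_apply]
          exact y.2⟩
        left_inv := fun x => Subtype.ext (e.symm_apply_apply _)
        right_inv := fun y => Subtype.ext (e.apply_symm_apply _) }

theorem lin_iso {d : ℕ} {K : Type} [Field K] {S S' : Type} [Group S] [Group S'] (e : S ≃* S')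
    (h : IsLin d K S) : IsLin d K S' := by
  obtain ⟨f⟩ := h
  exact ⟨e.symm.trans f⟩

theorem classIn_iso {p : ℕ} {S S' : Type} [Group S] [Group S'] (e : S ≃* S')
    (h : ClassIn p S) : ClassIn p S' := by
  obtain ⟨K, iK, fK, d, h1, h2, h | ⟨h3, h4, Q, X, h5, ⟨e'⟩⟩⟩ := h
  · obtain ⟨X, π, h3, h4, h5⟩ := h
    refine ⟨K, iK, fK, d, h1, h2, Or.inl ⟨X, e.toMonoidHom.comp π, h3, e.surjective.comp h4,
      fun x => ?_⟩⟩
    rw [← h5]
    exact e.map_eq_one_iff
  · exact ⟨K, iK, fK, d, h1, h2, Or.inr ⟨h3, h4, Q, X, h5, ⟨e.symm.trans e'⟩⟩⟩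

theorem form_iso {d : ℕ} {K : Type} [Field K] {θ : K →+* K} {S S' : Type} [Group S]
    [Group S'] (e : S ≃* S') (h : IsFormGrp d θ S) : IsFormGrp d θ S' := by
  obtain ⟨hd, ε, B, X, π, h0, h2, h3, h4, h5⟩ := h
  refine ⟨hd, ε, B, X, e.toMonoidHom.comp π, h0, h2, h3, e.surjective.comp h4, fun x => ?_⟩
  rw [← h5]
  exact e.map_eq_one_iff

theorem orth_iso {p m d : ℕ} {K : Type} [Field K] {θ : K →+* K} {S S' : Type} [Group S]
    [Group S'] (e : S ≃* S') (h : IsOrthGrp p m d θ S) : IsOrthGrp p m d θ S' := by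
  obtain ⟨h1, h2, h3, h5⟩ := h
  exact ⟨h1, h2, h3, orthQuot_iso e h5⟩

theorem covered_iso {a e s : Prop} {p n m : ℕ} [Fact p.Prime] :
    IsoInv (Covered a e s p n m) := by
  rintro S S' _ _ ⟨e⟩ (h | ⟨d, ⟨f⟩⟩ | h | h | ⟨K, iK, fK, d, h⟩)
  · left
    rwa [← Nat.card_congr e.toEquiv]
  · exact Or.inr (Or.inl ⟨d, ⟨e.symm.trans f⟩⟩)
  · exact Or.inr (Or.inr (Or.inl (classIn_iso e h)))
  · exact Or.inr (Or.inr (Or.inr (Or.inl (lc_iso _ _ ⟨e⟩ h))))
  · exact Or.inr (Or.inr (Or.inr (Or.inr ⟨K, iK, fK, d,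
      h.imp (fun h => ⟨lin_iso e h.1, h.2⟩) fun ⟨θ, h, h'⟩ =>
        ⟨θ, h.imp (form_iso e) (orth_iso e), h'⟩⟩)))

theorem tameDim_mono {a a' e e' s s' : Prop} {p m d : ℕ} {K : Type} [Field K] {θ : K →+* K}
    (ha : a → a') (he : e → e') (hs : s → s') (h : TameDim a e s p m d θ) :
    TameDim a' e' s' p m d θ :=
  h.imp (fun h => ⟨h.1, h.2.imp_right fun h => h.imp_right fun h => h.imp ha he⟩)
    fun h => ⟨h.1.imp ha fun h => ⟨hs h.1, h.2.imp_right he⟩, h.2⟩

theorem covered_mono {a a' e e' s s' : Prop} {p n m : ℕ} {T : Type} [Group T] (ha : a → a')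
    (he : e → e') (hs : s → s') (h : Covered a e s p n m T) : Covered a' e' s' p n m T := by
  rcases h with h | h | h | h | ⟨K, iK, fK, d, h⟩
  · exact Or.inl h
  · exact Or.inr (Or.inl h)
  · exact Or.inr (Or.inr (Or.inl h))
  · exact Or.inr (Or.inr (Or.inr (Or.inl h)))
  · refine Or.inr (Or.inr (Or.inr (Or.inr ⟨K, iK, fK, d, ?_⟩)))
    rcases h with ⟨h1, h2⟩ | ⟨θ, h1, h3, h4, h5⟩
    · exact Or.inl ⟨h1, h2.imp_right fun h => h.imp_right fun h => ⟨h.1, tameDim_mono ha he hs h.2⟩⟩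
    · exact Or.inr ⟨θ, h1, h3, h4, tameDim_mono ha he hs h5⟩

/-- the class of actions given by `Covered` -/
def Qc (p n m : ℕ) (L : Type) [Group L] (Γ : Subgroup (MulAut L)) : Prop :=
  Covered (AP p (CenOn p) L Γ) (AP p (fun S _ _ A => ExpOn p S A) L Γ)
    (AP p (fun S _ _ A => SmallOn p S A) L Γ) p n m (L ⧸ Subgroup.center L)

theorem ak_qc {p n m : ℕ} [Fact p.Prime] : AK (Qc p n m) := by
  intro S S' _ _ _ _ f hf hker hS Γ Γ' hΓ h
  refine covered_mono (fun ha => ?_) (fun ha => ?_) (fun ha => ?_)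
    (cq_of_center covered_iso f hf hker hS h)
  · exact AW.ak aw_cen f hf hker hS Γ Γ' hΓ ha
  · exact AW.ak aw_exp f hf hker hS Γ Γ' hΓ ha
  · exact AW.ak aw_small f hf hker hS Γ Γ' hΓ ha

end Cls

section Imp

variable {p n m : ℕ}

theorem isSec_of {G₀ : Type} [Group G₀] {D₀ : Subgroup G₀} {G : Type} [Group G] [Finite G]
    {D L : Subgroup G} (h : ActSec D₀ D L) : IsSec D₀ (Gam D L) := by
  obtain ⟨K, f, hK, h⟩ := h
  let ι : K.subgroupOf D₀ →* K :=
    { toFun := fun x => ⟨x.1, x.2⟩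
      map_one' := rfl
      map_mul' := fun x y => rfl }
  refine ⟨K.subgroupOf D₀, f.comp ι, ?_⟩
  have h1 : (f.comp ι).range = f.range := by
    apply le_antisymm
    · rintro _ ⟨x, rfl⟩
      exact ⟨ι x, rfl⟩
    · rintro _ ⟨x, rfl⟩
      exact ⟨⟨⟨x, hK x.2⟩, x.2⟩, rfl⟩
  rw [h1]
  ext φ
  rw [h, mem_Gam]
  constructor
  · rintro ⟨r, hr, hφ⟩
    refine ⟨r, hr, ?_, hφ⟩
    rw [mem_normalizer_iff]
    intro y
    constructor
    · intro hy
      rw [← hφ ⟨y, hy⟩]
      exact (φ ⟨y, hy⟩).2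
    · intro hy
      obtain ⟨z, hz⟩ := φ.surjective ⟨_, hy⟩
      have h4 := hφ z
      rw [hz] at h4
      have h5 : y = z := mul_left_cancel (mul_right_cancel h4)
      rw [h5]
      exact z.2
  · rintro ⟨r, hr, -, hφ⟩
    exact ⟨r, hr, hφ⟩

end Imp

section Out

variable {G : Type} [Group G] [Finite G] {m : ℕ}

theorem OS_iff {L : Subgroup G} : OS m (normalizer (L : Set G))
    ((L ⊔ centralizer (L : Set G)).subgroupOf (normalizer (L : Set G))) ↔
    ((L ⊔ centralizer (L : Set G)).relIndex (normalizer (L : Set G)) ≤ m ∨ SolvOut L) := by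
  unfold OS SolvOut
  constructor
  · rintro (h | ⟨l, hl⟩)
    · exact Or.inl h
    · refine Or.inr ⟨l, ?_⟩
      rw [Subgroup.map_le_iff_le_comap]
      exact hl
  · rintro (h | ⟨l, hl⟩)
    · exact Or.inl h
    · refine Or.inr ⟨l, ?_⟩
      rw [Subgroup.map_le_iff_le_comap] at hl
      exact hl

theorem out_of_quot {L : Subgroup G} (hperf : commutator L = ⊤)
    (h : SmallOut m (L ⧸ Subgroup.center L)) :
    (L ⊔ centralizer (L : Set G)).relIndex (normalizer (L : Set G)) ≤ m ∨ SolvOut L := by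
  rcases h with h | ⟨l, hl⟩
  · left
    refine (Nat.le_of_dvd (Nat.pos_of_ne_zero Subgroup.index_ne_zero_of_finite)
      (H589.outI_dvd_quot hperf)).trans h
  · exact Or.inr ⟨l, H589.solvOut_of_quot hperf hl⟩

theorem dinn_of_quot {p : ℕ} [Fact p.Prime] {D L : Subgroup G} (hD : IsPGroup p D)
    (hperf : commutator L = ⊤)
    (h : ¬ p ∣ (MulAut.conj : L ⧸ Subgroup.center L →*
      MulAut (L ⧸ Subgroup.center L)).range.index) : OD DI D L := by
  rintro ⟨d, hd, hdN⟩
  obtain ⟨l, hl⟩ := hD ⟨d, hd⟩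
  exact mem_sup_cent (fun h1 => h (h1.trans (H589.outI_dvd_quot hperf))) hdN
    (congrArg Subtype.val hl)

omit [Finite G] in
/-- the action of the normaliser on `L / Z(L)` -/
theorem mem_sup_of_autQ {L : Subgroup G} (hperf : commutator L = ⊤)
    (x : normalizer (L : Set G))
    (h : H589.autQ (L.normalizerMonoidHom x) ∈ (MulAut.conj : L ⧸ Subgroup.center L →*
      MulAut (L ⧸ Subgroup.center L)).range) : (x : G) ∈ L ⊔ centralizer (L : Set G) := by
  rw [← H589.autQ_conj] at h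
  obtain ⟨_, ⟨y, rfl⟩, hy⟩ := h
  have h3 : MulAut.conj y = L.normalizerMonoidHom x := H589.autQ_injective hperf hy
  have h4 : x ∈ (L ⊔ centralizer (L : Set G)).subgroupOf (normalizer (L : Set G)) := by
    rw [sup_cent_subgroupOf]
    exact ⟨y, h3⟩
  exact h4

omit [Finite G] in
theorem gam_le_iff {D L : Subgroup G} (h : D ⊓ normalizer (L : Set G) ≤
    L ⊔ centralizer (L : Set G)) : Gam D L ≤ (MulAut.conj : L →* MulAut L).range := by
  intro α hα
  obtain ⟨g, hg, hgN, h1⟩ := mem_Gam.mp hα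
  obtain ⟨l, hl, c, hc, rfl⟩ := Vale.Agent.P180.mem_sup_of_commute
    (fun s hs c hc => mem_centralizer_iff.mp hc s hs) (h ⟨hg, hgN⟩)
  refine ⟨⟨l, hl⟩, ?_⟩
  ext s
  rw [h1]
  have e := mem_centralizer_iff.mp hc s s.2
  change l * (s : G) * l⁻¹ = _
  calc l * (s : G) * l⁻¹ = l * (s * c) * c⁻¹ * l⁻¹ := by group
    _ = l * (c * s) * c⁻¹ * l⁻¹ := by rw [e]
    _ = l * c * s * (l * c)⁻¹ := by group

theorem gam_inner {p : ℕ} [Fact p.Prime] {D L : Subgroup G} (hD : IsPGroup p D)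
    (hperf : commutator L = ⊤)
    (h : ¬ p ∣ (MulAut.conj : L ⧸ Subgroup.center L →*
      MulAut (L ⧸ Subgroup.center L)).range.index) :
    Gam D L ≤ (MulAut.conj : L →* MulAut L).range :=
  gam_le_iff fun d hd => dinn_of_quot hD hperf h ⟨d, hd⟩

/-- the `p`-subgroups of `Out(T)` are cyclic -/
def CycOut (p : ℕ) (T : Type) [Group T] : Prop :=
  ∀ P : Subgroup (MulAut T), IsPGroup p P →
    ∃ x ∈ P, ∀ y ∈ P, ∃ i : ℤ, x ^ i * y ∈ (MulAut.conj : T →* MulAut T).range

omit [Finite G] in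
theorem dcyc_of_quot {p : ℕ} {D L : Subgroup G} (hD : IsPGroup p D)
    (hperf : commutator L = ⊤) (h : CycOut p (L ⧸ Subgroup.center L)) : OD DC D L := by
  let ψ : (D ⊓ normalizer (L : Set G) : Subgroup G) →* MulAut (L ⧸ Subgroup.center L) :=
    (H589.autQ.comp L.normalizerMonoidHom).comp (Subgroup.inclusion inf_le_right)
  have hp : IsPGroup p ψ.range :=
    (hD.to_le (inf_le_left : D ⊓ normalizer (L : Set G) ≤ D)).of_surjective ψ.rangeRestrict
      ψ.rangeRestrict_surjective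
  obtain ⟨_, ⟨x, rfl⟩, hx⟩ := h _ hp
  refine ⟨x, fun y => ?_⟩
  obtain ⟨i, hi⟩ := hx _ ⟨y, rfl⟩
  refine ⟨i, ?_⟩
  rw [← map_zpow, ← map_mul] at hi
  exact mem_sup_of_autQ hperf (Subgroup.inclusion inf_le_right (x ^ i * y)) hi

end Out

section Pj

variable {k : Type u} [Field k] {p : ℕ} [Fact p.Prime] [CharP k p]

/-- a subgroup of maximal order among the `p`-subgroups of `J` -/
theorem exists_conj_le {S : Type} [Group S] [Finite S] {J A Q : Subgroup S} (hA : IsPGroup p A)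
    (hAJ : A ≤ J) (hQ : IsPGroup p Q) (hQJ : Q ≤ J)
    (hcard : ∀ R : Subgroup S, IsPGroup p R → R ≤ J → Nat.card R ≤ Nat.card A) :
    ∃ s ∈ J, Q ≤ A.map (MulAut.conj s).toMonoidHom := by
  obtain ⟨P, hP⟩ := (hA.comap_of_injective J.subtype J.subtype_injective).exists_le_sylow
  have h3 : Nat.card P ≤ Nat.card A := by
    have h4 := hcard (P.1.map J.subtype) (P.2.map _) (Subgroup.map_subtype_le _)
    rwa [Nat.card_congr (P.1.equivMapOfInjective _ J.subtype_injective).symm.toEquiv] at h4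
  have h4 : A.subgroupOf J = P.1 := by
    refine Subgroup.eq_of_le_of_card_ge hP ?_
    refine h3.trans (le_of_eq ?_)
    exact (Nat.card_congr (Subgroup.subgroupOfEquivOfLe hAJ).toEquiv).symm
  obtain ⟨P', hP'⟩ := (hQ.comap_of_injective J.subtype J.subtype_injective).exists_le_sylow
  obtain ⟨g, hg⟩ := MulAction.exists_smul_eq J P P'
  refine ⟨g, g.2, ?_⟩
  intro x hx
  have h5 : (⟨x, hQJ hx⟩ : J) ∈ P' := hP' hx
  rw [← hg] at h5
  have h6 : (g⁻¹ * ⟨x, hQJ hx⟩ * g : J) ∈ P.1 := by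
    have h7 : (⟨x, hQJ hx⟩ : J) ∈ MulAut.conj g • (P : Subgroup J) := by
      rw [← Sylow.coe_subgroup_smul]
      exact h5
    rw [Subgroup.mem_pointwise_smul_iff_inv_smul_mem, ← map_inv, MulAut.smul_def,
      MulAut.conj_apply, inv_inv] at h7
    exact h7
  rw [← h4] at h6
  refine ⟨(g : S)⁻¹ * x * g, h6, ?_⟩
  change (g : S) * ((g : S)⁻¹ * x * g) * (g : S)⁻¹ = x
  group

theorem ap_of_card {W : ∀ (S : Type) [Group S], Subgroup (MulAut S) → Subgroup S → Prop}
    (hW : AW p W) {G : Type} [Group G] [Finite G] {D L : Subgroup G} (hD : IsPGroup p D)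
    (hperf : commutator L = ⊤)
    (hcard : ∀ Q : Subgroup G, IsPGroup p Q → Q ≤ Pj D L → Nat.card Q ≤
      Nat.card (D ⊓ L : Subgroup G)) (h : W L (Gam D L) (D.subgroupOf L)) :
    AP p W L (Gam D L) := by
  intro Q hQp hQ
  have hDL : IsPGroup p (D.subgroupOf L) :=
    hD.comap_of_injective L.subtype L.subtype_injective
  obtain ⟨s, hsJ, hs⟩ := exists_conj_le (J := (Pj D L).subgroupOf L) hDL (by
      intro x hx
      exact inf_le_Pj D L ⟨hx, x.2⟩) hQp (by
      intro x hx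
      exact conj_mem_Gam.mp (hQ x hx)) (by
      intro R hR hRJ
      have h1 := hcard (R.map L.subtype) (hR.map _) (by
        rintro _ ⟨x, hx, rfl⟩
        exact hRJ hx)
      rw [Nat.card_congr (R.equivMapOfInjective _ L.subtype_injective).symm.toEquiv] at h1
      refine h1.trans (le_of_eq ?_)
      rw [← Subgroup.subgroupOf_map_subtype]
      exact (Nat.card_congr ((D.subgroupOf L).equivMapOfInjective _
        L.subtype_injective).toEquiv).symm)
  have hsΓ : MulAut.conj s ∈ Gam D L := conj_mem_Gam.mpr hsJ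
  have h1 := hW.map (MulAut.conj s).toMonoidHom (MulAut.conj s).surjective (by
    intro x hx y
    have hx1 : x = 1 := (MulAut.conj s).injective (by rw [map_one]; exact hx)
    rw [hx1, one_mul, mul_one]) hperf (Gam D L) (Gam D L) _ hDL (by
    intro α hα
    refine ⟨(MulAut.conj s)⁻¹ * α * MulAut.conj s,
      Subgroup.mul_mem _ (Subgroup.mul_mem _ (Subgroup.inv_mem _ hsΓ) hα) hsΓ, fun x => ?_⟩
    change MulAut.conj s ((MulAut.conj s)⁻¹ (α (MulAut.conj s x))) = α (MulAut.conj s x)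
    exact MulAut.apply_inv_self _ _ _) h
  exact hW.sub hs h1

theorem cm_of_card {G : Type} [Group G] [Finite G] {D L : Subgroup G} (hD : IsPGroup p D)
    (hcard : ∀ Q : Subgroup G, IsPGroup p Q → Q ≤ Pj D L → Nat.card Q ≤
      Nat.card (D ⊓ L : Subgroup G)) (h : ∀ x ∈ D, x ∈ L → ∀ y ∈ L, x * y = y * x) :
    Cm (Pj D L) L := by
  -- the `p`-elements of `Pj D L` are in `D ⊓ L`
  have key : ∀ t ∈ Pj D L, ∀ e : ℕ, t ^ p ^ e = 1 → t ∈ D ⊓ L := by
    intro t ht e hte
    have hc : ∀ x ∈ D ⊓ L, ∀ y ∈ Subgroup.zpowers t, x * y = y * x := by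
      rintro x hx _ ⟨i, rfl⟩
      exact h x hx.1 hx.2 _ (L.zpow_mem (Pj_le D L ht) i)
    have h1 : IsPGroup p (D ⊓ L : Subgroup G) := hD.to_le inf_le_left
    have h2 : IsPGroup p (Subgroup.zpowers t) := by
      rintro ⟨_, i, rfl⟩
      refine ⟨e, Subtype.ext ?_⟩
      change (t ^ i) ^ p ^ e = 1
      rw [← zpow_natCast, ← zpow_mul, mul_comm, zpow_mul, zpow_natCast, hte, one_zpow]
    have h3 : IsPGroup p (D ⊓ L ⊔ Subgroup.zpowers t : Subgroup G) := by
      refine h1.to_sup_of_normal_right' h2 ?_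
      refine le_trans ?_ (Subgroup.centralizer_le_normalizer _)
      intro x hx
      rw [mem_centralizer_iff]
      intro y hy
      exact (hc x hx y hy).symm
    have h4 := hcard _ h3 (sup_le (inf_le_Pj D L) (by
      rw [Subgroup.zpowers_le]
      exact ht))
    have h5 : D ⊓ L = D ⊓ L ⊔ Subgroup.zpowers t :=
      Subgroup.eq_of_le_of_card_ge le_sup_left h4
    rw [h5]
    exact mem_sup_right (Subgroup.mem_zpowers t)
  intro s hs y hy
  obtain ⟨hsL, c, hc, hsc⟩ := hs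
  have hs : s ∈ Pj D L := ⟨hsL, c, hc, hsc⟩
  have hcomm : Commute s c := mem_centralizer_iff.mp hc s hsL
  obtain ⟨a, ha⟩ := hD ⟨s * c, hsc⟩
  have ha : (s * c) ^ p ^ a = 1 := congrArg Subtype.val ha
  rw [hcomm.mul_pow] at ha
  -- `s ^ p ^ a` is central
  have h1 : ∀ i : ℕ, s ^ (p ^ a * i) * y = y * s ^ (p ^ a * i) := by
    intro i
    have h2 : s ^ (p ^ a * i) = (c ^ (p ^ a * i))⁻¹ := by
      rw [pow_mul, pow_mul, ← inv_pow, eq_inv_of_mul_eq_one_left ha]
    rw [h2]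
    have h3 : (c ^ (p ^ a * i))⁻¹ ∈ centralizer (L : Set G) :=
      Subgroup.inv_mem _ (Subgroup.pow_mem _ hc _)
    exact (mem_centralizer_iff.mp h3 y hy).symm
  -- the `p'`-part of the order
  obtain ⟨e, r, hr, hN⟩ := Nat.exists_eq_pow_mul_and_not_dvd (orderOf_pos s).ne' p
    (Fact.out : p.Prime).ne_one
  have hcop : Nat.Coprime (p ^ a) r := by
    apply Nat.Coprime.pow_left
    exact ((Fact.out : p.Prime).coprime_iff_not_dvd).mpr hr
  have h2 : s ^ r ∈ D ⊓ L := by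
    refine key _ (Subgroup.pow_mem _ hs r) e ?_
    rw [← pow_mul, mul_comm, ← hN, pow_orderOf_eq_one]
  have h3 : s ^ r * y = y * s ^ r := h _ h2.1 h2.2 y hy
  have h4 : Commute (s ^ r) y := h3
  have h5 : Commute (s ^ p ^ a) y := by
    have := h1 1
    rwa [mul_one] at this
  have h6 : s = (s ^ p ^ a) ^ (Nat.gcdA (p ^ a) r) * (s ^ r) ^ (Nat.gcdB (p ^ a) r) := by
    rw [← zpow_natCast, ← zpow_natCast, ← zpow_mul, ← zpow_mul, ← zpow_add,
      ← Nat.gcd_eq_gcd_ab, hcop]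
    simp
  rw [h6]
  exact (h5.zpow_left _).mul_left (h4.zpow_left _)

end Pj

end Vale.Agent.P180.R2.H47
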