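import Vale.Agent.P180.R2.H47.SecA
import Vale.Agent.P180.R2.H47.FinC
import Vale.Agent.P180.R2.H365.Fin7
import Vale.Agent.P180.R2.H365.LocY
import Vale.Agent.P180.R2.H365.SecN

set_option linter.all false

/-!
P180: the theorem on groups whose simple sections are of given types.
-/

namespace Vale.Agent.P180.R2.H47

open IsLocalRing
open Vale.Agent.P180 Vale.Agent.P180.H768.Gd Vale.Agent.P180.R2.H259 Vale.Agent.P180.R2.H365
open Vale.Agent.P180.I (EO rd Lf isBlock_rd isBlockR_of_lf exists_trace_rd isBlockR_iff exists_lf)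
open Vale.Agent.P180.H768 hiding pull mem_pull exists_factor Lay mk_mem comm_mem
open Subgroup (mem_centralizer_iff mem_normalizer_iff centralizer normalizer mul_mem_sup
  mem_sup_left mem_sup_right)

open scoped Nat

universe u

section Con

variable {p n m : ℕ} [Fact p.Prime]

theorem Ctr.ex {ι : Sort*} {C : ι → ∀ (G : Type) [Group G], Subgroup G → Prop}
    (h : ∀ i, Ctr p (C i)) : Ctr p (fun G _ D => ∃ i, C i G D) where
  mono := fun hD ⟨i, hC⟩ => ⟨i, (h i).mono hD hC⟩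
  fr := fun hN hT x ⟨i, hC⟩ => ⟨i, (h i).fr hN hT x hC⟩
  kp := fun h1 h2 h3 h4 h5 D' hD' ⟨i, hC⟩ => ⟨i, (h i).kp h1 h2 h3 h4 h5 D' hD' hC⟩

/-- the condition carried along the reductions, with the original group `G₀` -/
abbrev ConV (p n m : ℕ) (G : Type) [Group G] (D : Subgroup G) : Prop :=
  ∃ (l : ℕ) (G₀ : Type) (_ : Group G₀) (D₀ : Subgroup G₀) (N₀ : ℕ → Subgroup G₀)
    (_ : ∀ i, (N₀ i).Normal), ConL (Qc p n m) (AP p (TameAct p m)) (OS m)
      (fun i => TameT p n m (D₀.map (QuotientGroup.mk' (N₀ i)))) p l D₀ N₀ G D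

theorem ctr_conV : Ctr p (ConV p n m) :=
  Ctr.ex fun l => Ctr.ex fun G₀ => Ctr.ex fun _ => Ctr.ex fun D₀ => Ctr.ex fun N₀ =>
    Ctr.ex fun h => ctr_conL ak_qc (AW.ak aw_tac) (outC_OS m) h

theorem conV_of_tame {k : Type u} [Field k] [CharP k p] {G : Type} [Group G] [Finite G]
    {D P : Subgroup G} (h : HasTameSections p n m D) (hPD : P ≤ D)
    (hP : IsPGroup p P)
    {b a : MonoidAlgebra k G} (hb : IsBlock b) (ha : a ∈ Fix (cj k G) P)
    (hba : b = tr (cj k G) P ⊤ a) (hbr : br P b ≠ 0) : ConV p n m G P := by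
  obtain ⟨l, N, hN, ⟨r, L, hcomm, hX, hL⟩, hDl, hS⟩ := h
  refine ⟨l, G, inferInstance, D, N, hN, ?_⟩
  obtain ⟨X, hXd⟩ : ∃ X, X = N 0 := ⟨_, rfl⟩
  have hXn : X.Normal := by rw [hXd]; exact hN 0
  rw [← hXd] at hX
  have hne : ∀ i j, L i ≠ L j → Cm (L i) (L j) := by
    intro i j hij
    exact hcomm i j fun h => hij (by rw [h])
  have hXs : X = sSup (Set.range L) := by rw [hX, sSup_range]
  obtain ⟨hSQ, hc⟩ := SQ.of_comm (𝒯 := Set.range L)
    (by
      rintro _ ⟨i, rfl⟩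
      exact qs_of_isQuasisimple (hL i).1)
    (by
      rintro _ ⟨i, rfl⟩ _ ⟨j, rfl⟩ hij
      exact hne i j hij)
  rw [← hXs] at hSQ hc
  refine ⟨X, N, ((MonoidHom.id G).prod (MonoidHom.id G)).range, hXn, hN, hSQ, hXd.le,
    hPD.trans hDl, ?_, ?_, hS, fun y => ⟨y, y, rfl⟩, fun y hy => ⟨y, hPD hy, y, rfl⟩, ?_⟩
  rotate_left
  · rw [← hXd]
    intro K T _ _ f hK hf hx hna
    exfalso
    apply hna
    intro a b
    obtain ⟨a, rfl⟩ := hf a
    obtain ⟨b, rfl⟩ := hf b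
    rw [hx a (hK a.2), hx b (hK b.2)]
  · rintro i x hx y ⟨z, hz⟩
    have h1 : z = x := congrArg Prod.fst hz
    have h2 : z = y := congrArg Prod.snd hz
    rw [← h2, h1]
    exact hx
  intro K hK
  rw [hc] at hK
  obtain ⟨j, rfl⟩ := hK
  have hLX : L j ≤ X := by rw [hX]; exact le_iSup L j
  have hXL : X ≤ L j ⊔ centralizer (L j : Set G) := by
    rw [hX]
    refine iSup_le fun i => ?_
    by_cases hij : L i = L j
    · rw [hij]; exact le_sup_left
    · exact (cm_iff.mp (hne i j hij)).trans le_sup_right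
  have hcard : ∀ Q : Subgroup G, IsPGroup p Q → Q ≤ Pj P (L j) → Nat.card Q ≤
      Nat.card (P ⊓ L j : Subgroup G) := fun Q hQ hQP =>
    PjQ_card hLX hXL hP hb ha hba hbr hQ hQP
  have hDL : IsPGroup p (P.subgroupOf (L j)) :=
    hP.comap_of_injective (L j).subtype (L j).subtype_injective
  -- passage from `D` to `P`
  have hW : ∀ {W : ∀ (S : Type) [Group S], Subgroup (MulAut S) → Subgroup S → Prop}, AW p W →
      commutator (L j) = ⊤ → W (L j) (Gam D (L j)) (P.subgroupOf (L j)) →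
      AP p W (L j) (Gam P (L j)) := by
    intro W hW hperf h
    refine ap_of_card hW hP hperf hcard ?_
    have h1 := hW.map (MonoidHom.id (L j)) Function.surjective_id (fun x hx y => by
      rw [MonoidHom.id_apply] at hx
      rw [hx, one_mul, mul_one]) hperf (Gam D (L j)) (Gam P (L j)) _ hDL
      (fun α hα => ⟨α, Gam_mono hPD _ hα, fun _ => rfl⟩) h
    rwa [Subgroup.map_id] at h1
  obtain ⟨hq, h1 | ⟨h1, h3⟩ | h1⟩ := hL j
  · refine Or.inl (covered_mono (fun ha => ?_) (fun ha => ?_) (fun ha => ?_) h1)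
    · exact hW aw_cen hq.1 ((aw_cen (p := p)).sub (Subgroup.comap_mono hPD) ha)
    · exact hW aw_exp hq.1 (fun y hy => ha y (Subgroup.comap_mono hPD hy))
    · exact hW aw_small hq.1 ((aw_small (p := p)).sub (Γ := Gam D (L j))
        (Subgroup.comap_mono hPD) ha)
  · refine Or.inr (Or.inl ⟨hW aw_tac hq.1 ?_, OS_iff.mpr h3⟩)
    exact aw_tac.sub (Subgroup.comap_mono hPD) h1
  · refine Or.inr (Or.inr ?_)
    exact cm_of_card hP hcard fun x hx => h1 x (hPD hx)

end Con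

section Loc

/-- the image of `A` in `S / Z(S)` is a section of `P` -/
theorem isSec_quot {P : Type} [Group P] {S : Type} [Group S] {Γ : Subgroup (MulAut S)}
    {A : Subgroup S} (h : IsSec P Γ) (hA : ∀ x ∈ A, MulAut.conj x ∈ Γ) :
    IsSec P (A.map (QuotientGroup.mk' (Subgroup.center S))) := by
  obtain ⟨Q, f, hf⟩ := h
  obtain ⟨j, hj⟩ : ∃ j : S ⧸ Subgroup.center S →* MulAut S,
      ∀ x : S, j (QuotientGroup.mk' _ x) = MulAut.conj x :=
    ⟨QuotientGroup.lift _ MulAut.conj fun x hx => by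
      ext s
      rw [MulAut.conj_apply, ← Subgroup.mem_center_iff.mp hx s, mul_inv_cancel_right]
      rfl, fun x => rfl⟩
  have hji : Function.Injective j := by
    rw [injective_iff_map_eq_one]
    intro x hx
    obtain ⟨x, rfl⟩ := QuotientGroup.mk'_surjective _ x
    rw [hj] at hx
    rw [QuotientGroup.mk'_apply, QuotientGroup.eq_one_iff, Subgroup.mem_center_iff]
    intro s
    have h1 : x * s * x⁻¹ = s := by
      rw [← MulAut.conj_apply, hx]
      rfl
    have h2 : x * s = s * x := by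
      rw [mul_inv_eq_iff_eq_mul] at h1
      exact h1
    exact h2.symm
  obtain ⟨A', hA'⟩ : ∃ A', A' = A.map (QuotientGroup.mk' (Subgroup.center S)) := ⟨_, rfl⟩
  have hjA : A'.map j ≤ f.range := by
    rw [hf, hA']
    rintro _ ⟨_, ⟨x, hx, rfl⟩, rfl⟩
    rw [hj]
    exact hA x hx
  let e := A'.equivMapOfInjective j hji
  have h0 : ∀ x : ((A'.map j).comap f).map Q.subtype, ∃ q : Q, (q : P) = x ∧ f q ∈ A'.map j := by
    rintro ⟨_, q, hq, rfl⟩
    exact ⟨q, rfl, hq⟩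
  choose q hq hqA using h0
  let g : ((A'.map j).comap f).map Q.subtype →* A'.map j :=
    MonoidHom.mk' (fun x => ⟨f (q x), hqA x⟩) fun x y => by
      apply Subtype.ext
      change f (q (x * y)) = f (q x) * f (q y)
      rw [← map_mul]
      congr 1
      apply Subtype.ext
      rw [hq, Subgroup.coe_mul, Subgroup.coe_mul, hq, hq]
  rw [← hA']
  refine ⟨_, A'.subtype.comp (e.symm.toMonoidHom.comp g), ?_⟩
  apply le_antisymm
  · rintro _ ⟨x, rfl⟩
    exact (e.symm (g x)).2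
  · intro x hx
    obtain ⟨z, hz⟩ := hjA ⟨x, hx, rfl⟩
    have h2 : f z ∈ A'.map j := by
      rw [hz]
      exact ⟨x, hx, rfl⟩
    obtain ⟨y, hy⟩ : ∃ y : ((A'.map j).comap f).map Q.subtype, (y : P) = z :=
      ⟨⟨z, z, h2, rfl⟩, rfl⟩
    refine ⟨y, ?_⟩
    have h3 : q y = z := Subtype.ext ((hq y).trans hy)
    have h4 : g y = e ⟨x, hx⟩ := by
      apply Subtype.ext
      change f (q y) = j x
      rw [h3, hz]
    change ((e.symm (g y) : A') : S ⧸ Subgroup.center S) = x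
    rw [h4, MulEquiv.symm_apply_apply]

theorem expOn_of_expS {p : ℕ} {P : Type} [Group P] {S : Type} [Group S]
    {Γ : Subgroup (MulAut S)} {A : Subgroup S} (h : IsSec P Γ) (hA : ∀ x ∈ A, MulAut.conj x ∈ Γ)
    (he : ExpS p P (S ⧸ Subgroup.center S)) : ExpOn p S A := by
  intro y hy
  have h1 := he _ (isSec_quot h hA) _ ⟨y, hy, rfl⟩
  rw [← map_pow, QuotientGroup.mk'_apply, QuotientGroup.eq_one_iff] at h1
  exact h1

theorem smallOn_of_smallS {p : ℕ} {P : Type} [Group P] {S : Type} [Group S]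
    {Γ : Subgroup (MulAut S)} {A : Subgroup S} (h : IsSec P Γ) (hA : ∀ x ∈ A, MulAut.conj x ∈ Γ)
    (he : SmallS p P (S ⧸ Subgroup.center S)) : SmallOn p S A :=
  he _ (isSec_quot h hA)

/-- abelian groups of automorphisms -/
theorem cenOn_of_comm {p : ℕ} {S : Type} [Group S] {Γ : Subgroup (MulAut S)} {A : Subgroup S}
    (hcomm : ∀ x ∈ Γ, ∀ y ∈ Γ, x * y = y * x) (hA : ∀ x ∈ A, MulAut.conj x ∈ Γ) :
    CenOn p S Γ A := by
  left
  intro α hα y hy
  have h4 := hcomm α hα _ (hA y hy)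
  have h5 : ∀ z, α y * z * (α y)⁻¹ = y * z * y⁻¹ := by
    intro z
    have h6 := congrArg (fun β : MulAut S => β (α.symm z)) h4
    have h7 : α (MulAut.conj y (α.symm z)) = MulAut.conj y (α (α.symm z)) := h6
    rw [MulEquiv.apply_symm_apply, MulAut.conj_apply, MulAut.conj_apply, map_mul, map_mul,
      map_inv, MulEquiv.apply_symm_apply] at h7
    exact h7
  rw [Subgroup.mem_center_iff]
  intro z
  have h6 := h5 (y⁻¹ * z * y)
  calc z * (α y * y⁻¹) = (y * (y⁻¹ * z * y) * y⁻¹) * (α y * y⁻¹) := by group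
    _ = (α y * (y⁻¹ * z * y) * (α y)⁻¹) * (α y * y⁻¹) := by rw [h6]
    _ = (α y * y⁻¹) * z := by group

theorem cenOn_of_abS {p : ℕ} {P : Type} [Group P] {S : Type} [Group S]
    {Γ : Subgroup (MulAut S)} {A : Subgroup S} (h : IsSec P Γ) (hA : ∀ x ∈ A, MulAut.conj x ∈ Γ)
    (he : AbS p P (S ⧸ Subgroup.center S)) : CenOn p S Γ A := by
  rcases he with hcomm | ⟨he, hcomm⟩
  · refine cenOn_of_comm ?_ hA
    obtain ⟨Q, f, hf⟩ := h
    rw [← hf]
    rintro _ ⟨x, rfl⟩ _ ⟨y, rfl⟩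
    rw [← map_mul, ← map_mul]
    congr 1
    exact Subtype.ext (hcomm x y)
  · right
    refine ⟨expOn_of_expS h hA he, fun x hx y hy => ?_⟩
    have h1 := hcomm _ (isSec_quot h hA) _ ⟨x, hx, rfl⟩ _ ⟨y, hy, rfl⟩
    rw [← QuotientGroup.eq_one_iff]
    change QuotientGroup.mk' (Subgroup.center S) (x * y * x⁻¹ * y⁻¹) = 1
    rw [map_mul, map_mul, map_mul, map_inv, map_inv, h1]
    group

theorem noX {p n m : ℕ} [Fact p.Prime] (k : Type u) [Field k] (G : Type) [Group G] [Finite G]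
    (b : MonoidAlgebra k G) (D L : Subgroup G) (hD : IsPGroup p D)
    (hDn : Nat.card D ≤ n) (hC : ConV p n m G D) (hL : IsComponent L)
    (hp : p ∣ Nat.card (L ⧸ Subgroup.center L))
    (hr : ∃ x ∈ D, x ∈ L ∧ ¬ ∀ y ∈ L, x * y = y * x) : ¬ ExcX p n m k G b D L := by
  have hq := hL.1
  have hDL : IsPGroup p (D.subgroupOf L) :=
    hD.comap_of_injective L.subtype L.subtype_injective
  have hDLn : Nat.card (D.subgroupOf L) ≤ n := H799.BN.card_subgroupOf_le hDn le_rfl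
  have hAΓ : ∀ x ∈ D.subgroupOf L, MulAut.conj x ∈ Gam D L := by
    intro x hx
    exact conj_mem_Gam.mpr (inf_le_Pj D L ⟨Subgroup.mem_subgroupOf.mp hx, x.2⟩)
  -- covered components
  have c1 : ∀ a e s : Prop, Covered a e s p n m (L ⧸ Subgroup.center L) →
      (a → CenOn p L (Gam D L) (D.subgroupOf L)) → (e → ExpOn p L (D.subgroupOf L)) →
      (s → SmallOn p L (D.subgroupOf L)) → ¬ ExcX p n m k G b D L :=
    fun a e s h ha he hs hE => hE.1 (covered_mono ha he hs h)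
  -- tame actions
  have c4 : TameAct p m L (Gam D L) (D.subgroupOf L) →
      ((L ⊔ centralizer (L : Set G)).relIndex (normalizer (L : Set G)) ≤ m ∨ SolvOut L) →
      ¬ ExcX p n m k G b D L := by
    rintro h1 h3 ⟨-, h4 | h4⟩
    · rcases h3 with h3 | h3
      · exact absurd h4.2 (not_lt.mpr h3)
      · exact h4.1 h3
    · exact h4.2.2 h1
  obtain ⟨l, G₀, iG₀, D₀, N₀, hN₀, hC⟩ := hC
  rcases conL_comp hN₀ hC hL hp hr with h | ⟨h1, h3⟩ | ⟨i, -, h, hsec⟩
  · exact c1 _ _ _ h (fun ha => ha _ hDL hAΓ) (fun ha => ha _ hDL hAΓ) fun ha => ha _ hDL hAΓ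
  · exact c4 (h1 _ hDL hAΓ) (OS_iff.mp h3)
  rcases h with h | ⟨h2, ⟨h3, h4⟩ | h3⟩
  · exact c1 _ _ _ h (cenOn_of_abS hsec hAΓ) (expOn_of_expS hsec hAΓ)
      (smallOn_of_smallS hsec hAΓ)
  · exact c4 (Or.inr (Or.inl ⟨Or.inl (H589.cyclic_of_quot hq.1 h3 _ hDL),
      Or.inl (gam_inner hD hq.1 h4)⟩)) (out_of_quot hq.1 h2)
  · refine c4 (h3 L hq.1 ⟨MulEquiv.refl _⟩ (Gam D L) (D.subgroupOf L)
      hsec hDL hDLn ?_ hAΓ) (out_of_quot hq.1 h2)
    intro hZ
    obtain ⟨x, hx, hxL, hxc⟩ := hr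
    apply hxc
    intro y hy
    have h4 := Subgroup.mem_center_iff.mp (hZ (show (⟨x, hxL⟩ : L) ∈ D.subgroupOf L from hx))
      ⟨y, hy⟩
    exact (congrArg Subtype.val h4).symm

end Loc

/-- **The theorem on groups with tame simple sections.** -/
theorem finalT (p : ℕ) [Fact p.Prime] (n m : ℕ) :
    ∃ (r : ℕ) (H : Fin r → Type) (_ : ∀ i, Group (H i)) (_ : ∀ i, Finite (H i)),
      (∀ (k : Type u) [Field k] [IsAlgClosed k] [CharP k p],
        ∃ (c : ∀ i, MonoidAlgebra k (H i)) (hc : ∀ i, IsBlockR (c i)),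
          ∀ (G : Type) [Group G] [Finite G] (b : MonoidAlgebra k G) (hb : IsBlockR b)
            (D : Subgroup G), IsDefectGroupR b D → Nat.card D ≤ n → HasTameSections p n m D →
            ∃ i, IsMoritaEquivalent k hb.Alg (hc i).Alg) ∧
      (∀ (O : Type u) [CommRing O] [IsDomain O] [IsDiscreteValuationRing O]
        [IsAdicComplete (maximalIdeal O) O] [IsAlgClosed (ResidueField O)]
        [CharP (ResidueField O) p],
        ∃ (C : ∀ i, MonoidAlgebra O (H i)) (hC : ∀ i, IsBlockR (C i)),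
          ∀ (G : Type) [Group G] [Finite G] (B : MonoidAlgebra O G) (hB : IsBlockR B)
            (D : Subgroup G),
            (IsDefectGroupR B D ∨
              IsDefectGroupR (MonoidAlgebra.mapRingHom G (residue O) B) D) → Nat.card D ≤ n →
            HasTameSections p n m D →
            ∃ i, IsMoritaEquivalent O hB.Alg (hC i).Alg) := by
  obtain ⟨r, H, iG, iF, h1, h2⟩ := finalC.{u} (uni_T p n ((max 1 (cY p n m)) ^ n)
    (b7 n (mY p n m) (max m 2))) (fun k _ _ _ => locY p n m k) ctr_conV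
    (fun k _ _ _ G _ _ b D L => noX k G b D L)
  refine ⟨r, H, iG, iF, ?_, ?_⟩
  · intro k _ _ _
    obtain ⟨c, hc, h⟩ := h1 k
    refine ⟨c, hc, ?_⟩
    intro G _ _ b hb D hD hn hs
    exact h G b hb D hD hn (fun P a hPD hP ha hba hbr =>
      conV_of_tame hs hPD hP (isBlockR_iff.mp hb) ha hba hbr)
  · intro O _ _ _ _ _ _
    obtain ⟨c, hc, h⟩ := h2 O
    refine ⟨c, hc, ?_⟩
    intro G _ _ B hB D hD hn hs
    exact h G B hB D hD hn (fun P a hPD hP ha hba hbr =>
      conV_of_tame hs hPD hP (isBlock_rd hB).1 ha hba hbr)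

end Vale.Agent.P180.R2.H47
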