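import Vale.Agent.P180.R2.H47.Ups

set_option linter.all false

/-!
P180: the corner at a rank one idempotent is a twisted group algebra; the twisted group contains
the commutators of the elements centralising `N`.
-/

namespace Vale.Agent.P180.R2.H47

open Vale.Agent.P180 Vale.Agent.P180.KP

open scoped Classical

universe u

section KPMain

variable {k : Type u} [Field k] {G : Type} [Group G]
variable {C : Type} [CommGroup C] [Finite C] [Finite G]
variable {N : Subgroup G} [N.Normal] {κ : C →* G} {e : MonoidAlgebra k G}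

variable {p : ℕ} [Fact p.Prime] [CharP k p]

theorem exists_twisted_ext [IsAlgClosed k] (h : CB N κ e) (hC : IsPGroup p C)
    (heG : e ∈ Fix (cj k G) ⊤) {α : G →* MulAut C} (hα : ConjData κ α) :
    ∃ (i : MonoidAlgebra k G) (hi : IsIdempotentElem i), i ∈ SubAlg k N ∧ i * e = i ∧
      (∃ (n : ℕ) (a b : Fin n → MonoidAlgebra k G), e = ∑ l, a l * i * b l) ∧
      ∃ (H : Type) (_ : Group H) (_ : Finite H) (φ : H →* hi.Cornerˣ)
        (ε : MonoidAlgebra k H) (s : hi.Corner →ₗ[k] MonoidAlgebra k H)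
        (π : H →* G ⧸ N) (Z : Subgroup H),
        ε ∈ Subalgebra.center k (MonoidAlgebra k H) ∧ (∀ x, s (liftU φ x) = ε * x) ∧
        (∀ y, liftU φ (s y) = y) ∧ Nat.card H ≤ (Nat.card C * N.index) ^ 2 ∧
        Function.Surjective π ∧ (∀ h, SuppIn (cst N (π h)) (vl hi (φ h))) ∧
        (∀ z ∈ Z, ∀ h, z * h = h * z) ∧ ¬ p ∣ Nat.card Z ∧ Z ≤ π.ker ∧
        Z.index = Nat.card C * N.index ∧ Function.Injective φ ∧
        ∀ T : Subgroup G, (∀ c ∈ T, ∀ n ∈ N, c * n = n * c) → ∀ c ∈ ⁅T, T⁆,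
          ∃ g : H, vl hi (φ g) = MonoidAlgebra.single c 1 * i ∧ π g = (c : G ⧸ N) := by
  obtain ⟨d, hd, ψ, i, hψ, hci, hψi⟩ := exists_CIdem h hC
  have hi : IsIdempotentElem i := hci.idem
  have hN : i ∈ SubAlg k N := hci.mem
  refine ⟨i, hi, hN, hci.ie, ?_, ?_⟩
  · obtain ⟨n, a, b, -, -, hab⟩ := hci.full
    exact ⟨n, a, b, hab⟩
  obtain ⟨L, hL1, hL2⟩ := exists_LL (hi := hi) (hN := hN) h hC heG hα hψ hci hψi
  letI := Fintype.ofFinite C
  letI := Fintype.ofFinite (G ⧸ N)
  have hi0 : i ≠ 0 := by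
    intro h0
    exact one_ne_zero (hci.faithful 1 (by rw [h0, mul_zero]))
  haveI : Nontrivial hi.Corner := ⟨⟨1, 0, fun h => hi0 (congrArg Subtype.val h)⟩⟩
  -- representatives
  have hc : ∀ x : G ⧸ N, ∃ c ∈ L, deg c = x := by
    intro x
    obtain ⟨u, hu⟩ := deg_surjective (hi := hi) (hN := hN) hci h hC heG x
    have hu' : u ∈ L ⊔ (deg : HU N hi hN →* G ⧸ N).ker := by rw [hL2]; trivial
    rw [Subgroup.mem_sup_of_normal_right] at hu'
    obtain ⟨c, hc, w, hw, rfl⟩ := hu'
    refine ⟨c, hc, ?_⟩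
    rw [← hu, map_mul, show deg w = 1 from hw, mul_one]
  choose c hcL hcdeg using hc
  choose ky hkyK hky using fun y : C => exists_ky (hi := hi) (hN := hN) hci h (1 : kˣ) y
  let F : HU N hi hN →* hi.Cornerˣ := (MonoidHom.fst _ _).comp (HU N hi hN).subtype
  have hFinj : Function.Injective F := fun u w huw => supp_unique hi0 huw
  have hvF : ∀ w, vl hi (F w) = hv w := fun _ => rfl
  let l : C × (G ⧸ N) → hi.Cornerˣ := fun b => F (ky b.1 * c b.2)
  have hl : ∀ y x, vl hi (l (y, x)) = kap k κ (MonoidAlgebra.single y 1) * hv (c x) := by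
    intro y x
    rw [hvF, hv_mul, hky, Units.val_one, mul_assoc, i_hv]
  obtain ⟨B, hB⟩ := exists_basis hci h c hcdeg l hl
  have hKL : KK hci h ≤ L := by rw [← hL1]; exact inf_le_left
  have hscal' : ∀ t : kˣ, ∃ w ∈ KK hci h, F w = scal k hi.Corner t := by
    intro t
    obtain ⟨w, hw, hw'⟩ := exists_ky (hi := hi) (hN := hN) hci h t (1 : C)
    refine ⟨w, hw, ?_⟩
    apply vl_ext
    rw [hvF, hw']
    have h1 : (MonoidAlgebra.single (1 : C) (t : k)) = algebraMap k (MonoidAlgebra k C) (t : k) :=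
      rfl
    rw [h1, AlgHom.commutes]
    change _ = (t : k) • i
    rw [Algebra.smul_def]
  have hscal : ∀ t : kˣ, scal k hi.Corner t ∈ L.map F := by
    intro t
    obtain ⟨w, hw, hw'⟩ := hscal' t
    exact ⟨w, hKL hw, hw'⟩
  obtain ⟨H, hG, hF, φ, r, B', hφ, hφL, hB', hsc, hrl, hcard, hnorm⟩ := twisted_group_ext (k := k) (L.map F)
    hscal l (fun b => ⟨_, L.mul_mem (hKL (hkyK b.1)) (hcL b.2), rfl⟩) B hB (by
      rintro _ ⟨w, hw, rfl⟩
      have hmem : w * (c (deg w))⁻¹ ∈ KK hci h := by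
        rw [← hL1]
        refine ⟨L.mul_mem hw (L.inv_mem (hcL _)), ?_⟩
        change deg (w * (c (deg w))⁻¹) = 1
        rw [map_mul, map_inv, hcdeg, mul_inv_cancel]
      obtain ⟨-, t, y, hty⟩ := hmem
      refine ⟨t, (y, deg w), ?_⟩
      apply vl_ext
      have h1 : vl hi (scal k hi.Corner t * l (y, deg w)) = (t : k) • vl hi (l (y, deg w)) := by
        change (((scal k hi.Corner t * l (y, deg w) : hi.Cornerˣ) : hi.Corner)).1 = _
        rw [scal_mul_val, corner_smul_val]
        rfl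
      rw [h1, hl]
      have h2 : kap k κ (MonoidAlgebra.single y (t : k)) =
          (t : k) • kap k κ (MonoidAlgebra.single y 1) := by
        rw [← map_smul, MonoidAlgebra.smul_single', mul_one]
      have h3 : hv w = hv (w * (c (deg w))⁻¹) * hv (c (deg w)) := by
        rw [← hv_mul, inv_mul_cancel_right]
      rw [hvF, h3, hty, h2, mul_assoc, i_hv, smul_mul_assoc])
  obtain ⟨ε, s, hε, -, hs1, hs2⟩ := twisted_idempotent (k := k) φ hφ r B' hB' hsc
  -- the lift of `φ`
  have hlift : ∀ h : H, ∃ w : HU N hi hN, F w = φ h := by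
    intro h
    obtain ⟨w, -, hw⟩ := hφL h
    exact ⟨w, hw⟩
  choose φ' hφ' using hlift
  let Φ : H →* HU N hi hN :=
    { toFun := φ'
      map_one' := hFinj (by rw [hφ', map_one, map_one])
      map_mul' := fun a b => hFinj (by rw [hφ', map_mul, map_mul, hφ', hφ']) }
  have hΦ : ∀ h, F (Φ h) = φ h := hφ'
  have hZc : ∀ z ∈ scalSub k φ, ∀ h, z * h = h * z := fun z hz h =>
    scalSub_central k φ hφ ⟨z, hz⟩ h
  obtain ⟨χ, hχ, hχinj⟩ := exists_chi k φ hφ
  refine ⟨H, hG, hF, φ, ε, s, deg.comp Φ, scalSub k φ, hε, hs1, hs2, ?_, ?_, ?_, hZc, ?_, ?_, ?_,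
    hφ, ?_⟩
  · rw [Fintype.card_prod, ← Nat.card_eq_fintype_card, ← Nat.card_eq_fintype_card] at hcard
    exact hcard
  · intro x
    obtain ⟨t, ht⟩ := hrl ((1 : C), x)
    refine ⟨r (1, x), ?_⟩
    obtain ⟨w, hw, hw'⟩ := hscal' t
    have h1 : Φ (r (1, x)) = w * (ky 1 * c x) := by
      apply hFinj
      rw [hΦ, ht, map_mul, hw']
    change deg (Φ (r (1, x))) = x
    rw [h1, map_mul, map_mul, hw.1, (hkyK 1).1, one_mul, one_mul, hcdeg]
  · intro h
    have h1 := supp_hv (Φ h)
    rw [← hvF, hΦ] at h1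
    exact h1
  · rw [← CharP.cast_eq_zero_iff k p]
    exact card_ne_zero_of_injective χ hχinj
  · intro z hz
    obtain ⟨t, ht⟩ := hz
    obtain ⟨w, hw, hw'⟩ := hscal' t
    have h1 : Φ z = w := hFinj (by rw [hΦ, ← ht, hw'])
    change deg (Φ z) = 1
    rw [h1, hw.1]
  · have hZn : ∀ z ∈ scalSub k φ, ∀ h : H, h⁻¹ * z * h ∈ scalSub k φ := by
      intro z hz h
      rw [mul_assoc, hZc z hz h, inv_mul_cancel_left]
      exact hz
    have hbij : Function.Bijective (fun b : C × (G ⧸ N) =>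
        (QuotientGroup.mk (r b) : H ⧸ scalSub k φ)) := by
      constructor
      · intro b b' hbb
        simp only [QuotientGroup.eq] at hbb
        obtain ⟨t, ht⟩ := hbb
        have h1 : φ (r b') = scal k hi.Corner t * φ (r b) := by
          rw [ht, map_mul, map_inv]
          have h2 := scal_commute (k := k) (E := hi.Corner) t (φ (r b))
          rw [ht, map_mul, map_inv] at h2
          rw [h2, mul_inv_cancel_left]
        have h3 : B' b' = (t : k) • B' b := by
          rw [hB', hB', h1, scal_mul_val]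
        by_contra hne
        have h4 := congrArg (fun x => B'.repr x b') h3
        simp only [Module.Basis.repr_self, map_smul, Finsupp.smul_apply, smul_eq_mul] at h4
        rw [Finsupp.single_eq_same, Finsupp.single_eq_of_ne (Ne.symm hne), mul_zero] at h4
        exact one_ne_zero h4
      · intro q
        obtain ⟨h, rfl⟩ := QuotientGroup.mk_surjective q
        obtain ⟨t, b, ht⟩ := hsc h
        refine ⟨b, ?_⟩
        simp only [QuotientGroup.eq]
        refine ⟨t, ?_⟩
        rw [map_mul, map_inv, ht, scal_commute, inv_mul_cancel_left]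
    rw [Subgroup.index, ← Nat.card_congr (Equiv.ofBijective _ hbij), Nat.card_prod]
    rfl
  · intro T hT c' hc'
    obtain ⟨u, huL, hu1, hu2, hu3⟩ := ups_mem hi hN hL2 (fun u w hu hw =>
      ker_comm hci h u hu w hw) hT hc'
    obtain ⟨g, hg⟩ := hnorm (F u) ⟨u, huL, rfl⟩ hu3
    refine ⟨g, ?_, ?_⟩
    · rw [hg, hvF, hu1]
    · have h1 : Φ g = u := hFinj (by rw [hΦ, hg])
      change deg (Φ g) = _
      rw [h1, hu2]

end KPMain

end Vale.Agent.P180.R2.H47
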