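import Vale.Agent.P180.R2.H47.Tg

/-!
P180: elements centralising `N` give homogeneous units of the corner.
-/

namespace Vale.Agent.P180.R2.H47

open Vale.Agent.P180 Vale.Agent.P180.KP

open scoped commutatorElement

section Ups

variable {k : Type*} [Field k] {G : Type*} [Group G]

theorem single_comm {N : Subgroup G} {g : G} (hg : ∀ n ∈ N, g * n = n * g) {a : MonoidAlgebra k G}
    (ha : a ∈ SubAlg k N) (r : k) : MonoidAlgebra.single g r * a = a * MonoidAlgebra.single g r := by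
  symm
  apply Vale.Agent.P180.commute_of_mem ha
  intro n hn
  rw [cj_single, ← hg n hn, mul_inv_cancel_right]

theorem supp_single {N : Subgroup G} (g : G) (r : k) :
    SuppIn (cst N (g : G ⧸ N)) (MonoidAlgebra.single g r) :=
  SuppIn.single (S := cst N (g : G ⧸ N)) rfl r

variable [Finite G] {N : Subgroup G} [N.Normal] {i : MonoidAlgebra k G}

theorem exists_ups (hi : IsIdempotentElem i) (hN : i ∈ SubAlg k N) {g : G}
    (hg : ∀ n ∈ N, g * n = n * g) :
    ∃ u : HU N hi hN, hv u = MonoidAlgebra.single g 1 * i ∧ deg u = (g : G ⧸ N) := by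
  have hg' : ∀ n ∈ N, g⁻¹ * n = n * g⁻¹ := by
    intro n hn
    rw [inv_mul_eq_iff_eq_mul, ← mul_assoc, hg n hn, mul_inv_cancel_right]
  have h1 : ∀ y : G, (∀ n ∈ N, y * n = n * y) → i * (MonoidAlgebra.single y 1 * i) =
      MonoidAlgebra.single y 1 * i := by
    intro y hy
    rw [← mul_assoc, ← single_comm hy hN, mul_assoc, hi.eq]
  have h2 : ∀ y : G, (MonoidAlgebra.single y 1 * i) * i = MonoidAlgebra.single y (1 : k) * i := by
    intro y
    rw [mul_assoc, hi.eq]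
  have h3 : ∀ y z : G, (∀ n ∈ N, y * n = n * y) → (∀ n ∈ N, z * n = n * z) → y * z = 1 →
      (MonoidAlgebra.single y 1 * i) * (MonoidAlgebra.single z 1 * i) = i := by
    intro y z hy hz hyz
    rw [mul_assoc, h1 z hz, ← mul_assoc, MonoidAlgebra.single_mul_single, hyz, mul_one,
      ← MonoidAlgebra.one_def, one_mul]
  have h4 : ∀ y : G, SuppIn (cst N (y : G ⧸ N)) (MonoidAlgebra.single y (1 : k) * i) := by
    intro y
    have := supp_mul (supp_single (N := N) y (1 : k)) (supp_one_iff.mpr hN)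
    rwa [mul_one] at this
  obtain ⟨u, hu, -, hu'⟩ := exists_hu (hi := hi) (hN := hN) (h1 g hg) (h2 g) (h1 _ hg') (h2 _)
    (h3 g g⁻¹ hg hg' (mul_inv_cancel g)) (h3 g⁻¹ g hg' hg (inv_mul_cancel g)) (h4 g)
    (by rw [← QuotientGroup.mk_inv]; exact h4 g⁻¹)
  exact ⟨u, hu, hu'⟩

/-- The homomorphism `g ↦ g i` on the centraliser of `N`. -/
noncomputable def ups (hi : IsIdempotentElem i) (hN : i ∈ SubAlg k N) :
    Subgroup.centralizer (N : Set G) →* HU N hi hN where
  toFun g := (exists_ups hi hN (g := (g : G)) fun n hn =>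
    (Subgroup.mem_centralizer_iff.mp g.2 n hn).symm).choose
  map_one' := by
    have h := (exists_ups hi hN (g := ((1 : Subgroup.centralizer (N : Set G)) : G)) fun n hn =>
      (Subgroup.mem_centralizer_iff.mp (1 : Subgroup.centralizer (N : Set G)).2 n hn).symm).choose_spec
    apply hu_ext
    · rw [h.1, hv_one, Subgroup.coe_one, ← MonoidAlgebra.one_def, one_mul]
    · rw [h.2, map_one]; rfl
  map_mul' x y := by
    have hx := (exists_ups hi hN (g := (x : G)) fun n hn =>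
      (Subgroup.mem_centralizer_iff.mp x.2 n hn).symm).choose_spec
    have hy := (exists_ups hi hN (g := (y : G)) fun n hn =>
      (Subgroup.mem_centralizer_iff.mp y.2 n hn).symm).choose_spec
    have hxy := (exists_ups hi hN (g := ((x * y : Subgroup.centralizer (N : Set G)) : G)) fun n hn =>
      (Subgroup.mem_centralizer_iff.mp (x * y).2 n hn).symm).choose_spec
    apply hu_ext
    · rw [hxy.1, hv_mul, hx.1, hy.1, mul_assoc, ← mul_assoc i, ← single_comm (fun n hn =>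
        (Subgroup.mem_centralizer_iff.mp y.2 n hn).symm) hN, mul_assoc, hi.eq, ← mul_assoc,
        MonoidAlgebra.single_mul_single, mul_one]
      rfl
    · rw [hxy.2, map_mul, hx.2, hy.2]; rfl

theorem hv_ups (hi : IsIdempotentElem i) (hN : i ∈ SubAlg k N)
    (g : Subgroup.centralizer (N : Set G)) :
    hv (ups hi hN g) = MonoidAlgebra.single (g : G) 1 * i :=
  (exists_ups hi hN (g := (g : G)) fun n hn =>
    (Subgroup.mem_centralizer_iff.mp g.2 n hn).symm).choose_spec.1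

theorem deg_ups (hi : IsIdempotentElem i) (hN : i ∈ SubAlg k N)
    (g : Subgroup.centralizer (N : Set G)) : deg (ups hi hN g) = ((g : G) : G ⧸ N) :=
  (exists_ups hi hN (g := (g : G)) fun n hn =>
    (Subgroup.mem_centralizer_iff.mp g.2 n hn).symm).choose_spec.2

theorem ups_comm (hi : IsIdempotentElem i) (hN : i ∈ SubAlg k N)
    (g : Subgroup.centralizer (N : Set G)) {w : HU N hi hN} (hw : deg w = 1) :
    Commute w (ups hi hN g) := by
  have hwN : hv w ∈ SubAlg k N := by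
    rw [← supp_one_iff]
    have := supp_hv w
    rwa [hw] at this
  apply hu_ext
  · rw [hv_mul, hv_mul, hv_ups, ← mul_assoc, ← single_comm (fun n hn =>
        (Subgroup.mem_centralizer_iff.mp g.2 n hn).symm) hwN, mul_assoc, hv_i, mul_assoc, i_hv]
  · rw [map_mul, map_mul, hw, one_mul, mul_one]

theorem comm_eq {U : Type*} [Group U] {a b w₁ w₂ l₁ l₂ : U} (h1 : a = l₁ * w₁) (h2 : b = l₂ * w₂)
    (c1 : Commute w₁ a) (c2 : Commute w₁ b) (c3 : Commute w₂ a) (c4 : Commute w₂ b)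
    (c5 : Commute w₁ w₂) : ⁅a, b⁆ = ⁅l₁, l₂⁆ := by
  have e1 : l₁ = a * w₁⁻¹ := by rw [h1, mul_inv_cancel_right]
  have e2 : l₂ = b * w₂⁻¹ := by rw [h2, mul_inv_cancel_right]
  have e3 : l₁ * l₂ = a * b * (w₁⁻¹ * w₂⁻¹) := by
    rw [e1, e2]
    calc a * w₁⁻¹ * (b * w₂⁻¹) = a * (w₁⁻¹ * b) * w₂⁻¹ := by group
      _ = a * (b * w₁⁻¹) * w₂⁻¹ := by rw [c2.inv_left.eq]
      _ = _ := by group
  have e4 : l₂ * l₁ = b * a * (w₁⁻¹ * w₂⁻¹) := by
    rw [e1, e2]
    calc b * w₂⁻¹ * (a * w₁⁻¹) = b * (w₂⁻¹ * a) * w₁⁻¹ := by group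
      _ = b * (a * w₂⁻¹) * w₁⁻¹ := by rw [c3.inv_left.eq]
      _ = b * a * (w₂⁻¹ * w₁⁻¹) := by group
      _ = b * a * (w₁⁻¹ * w₂⁻¹) := by rw [c5.inv_inv.eq]
  calc ⁅a, b⁆ = (a * b) * (b * a)⁻¹ := by rw [commutatorElement_def]; group
    _ = (l₁ * l₂) * (l₂ * l₁)⁻¹ := by rw [e3, e4]; group
    _ = ⁅l₁, l₂⁆ := by rw [commutatorElement_def]; group

/-- The units `g i`, `g` a product of commutators of elements centralising `N`, lie in every
supplement `L` of the kernel of the degree map. -/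
theorem ups_mem (hi : IsIdempotentElem i) (hN : i ∈ SubAlg k N) {L : Subgroup (HU N hi hN)}
    (hL : L ⊔ (deg : HU N hi hN →* G ⧸ N).ker = ⊤)
    (hker : ∀ u w : HU N hi hN, deg u = 1 → deg w = 1 → Commute u w)
    {C : Subgroup G} (hC : ∀ c ∈ C, ∀ n ∈ N, c * n = n * c) {c : G} (hc : c ∈ ⁅C, C⁆) :
    ∃ u ∈ L, hv u = MonoidAlgebra.single c 1 * i ∧ deg u = (c : G ⧸ N) ∧
      normU k hi.Corner u.1.1 = 1 := by
  let F : HU N hi hN →* hi.Cornerˣ := (MonoidHom.fst _ _).comp (HU N hi hN).subtype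
  let M : Subgroup G := ((L ⊓ ((normU k hi.Corner).comp F).ker).comap (ups hi hN)).map
    (Subgroup.centralizer (N : Set G)).subtype
  have hCN : C ≤ Subgroup.centralizer (N : Set G) := fun c hc =>
    Subgroup.mem_centralizer_iff.mpr fun n hn => (hC c hc n hn).symm
  have hM : ⁅C, C⁆ ≤ M := by
    rw [Subgroup.commutator_le]
    intro x hx y hy
    let x' : Subgroup.centralizer (N : Set G) := ⟨x, hCN hx⟩
    let y' : Subgroup.centralizer (N : Set G) := ⟨y, hCN hy⟩
    refine ⟨⁅x', y'⁆, ?_, rfl⟩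
    have h0 : ∀ u : HU N hi hN, ∃ l ∈ L, ∃ w, deg w = 1 ∧ u = l * w := by
      intro u
      have hu : u ∈ L ⊔ (deg : HU N hi hN →* G ⧸ N).ker := by rw [hL]; trivial
      rw [Subgroup.mem_sup_of_normal_right] at hu
      obtain ⟨l, hl, w, hw, rfl⟩ := hu
      exact ⟨l, hl, w, hw, rfl⟩
    obtain ⟨l₁, hl₁, w₁, hw₁, e₁⟩ := h0 (ups hi hN x')
    obtain ⟨l₂, hl₂, w₂, hw₂, e₂⟩ := h0 (ups hi hN y')
    have h1 : ups hi hN ⁅x', y'⁆ = ⁅l₁, l₂⁆ := by
      rw [map_commutatorElement]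
      exact comm_eq e₁ e₂ (ups_comm hi hN _ hw₁) (ups_comm hi hN _ hw₁) (ups_comm hi hN _ hw₂)
        (ups_comm hi hN _ hw₂) (hker _ _ hw₁ hw₂)
    refine Subgroup.mem_comap.mpr (Subgroup.mem_inf.mpr ⟨?_, ?_⟩)
    · rw [h1, commutatorElement_def]
      exact L.mul_mem (L.mul_mem (L.mul_mem hl₁ hl₂) (L.inv_mem hl₁)) (L.inv_mem hl₂)
    · rw [MonoidHom.mem_ker, map_commutatorElement, map_commutatorElement,
        commutatorElement_eq_one_iff_commute]
      exact Commute.all _ _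
  obtain ⟨x, hx, rfl⟩ := hM hc
  obtain ⟨hx1, hx2⟩ := Subgroup.mem_inf.mp (Subgroup.mem_comap.mp hx)
  exact ⟨ups hi hN x, hx1, hv_ups hi hN x, deg_ups hi hN x, hx2⟩

end Ups

end Vale.Agent.P180.R2.H47
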