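import Vale.Agent.P180.R2.H259.Bd.Rd
import Vale.Agent.P180.R2.H47.Ups

set_option linter.all false
set_option linter.style.haveILetI false
set_option maxHeartbeats 1000000

/-!
P180: the finite group of homogeneous units lifts to `O`, version with the commutators of the
elements centralising `N`.
-/

namespace Vale.Agent.P180.R2.H47

open IsLocalRing
open Vale.Agent.P180 Vale.Agent.P180.I Vale.Agent.P180.R2.H259.Bd
open Vale.Agent.P180 (cst)
open Vale.Agent.P180.KP (vl vl_mul vl_one i_vl vl_i vl_vl_inv vl_inv_vl vl_ext exists_vl)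

section Tw

universe u

variable {O : Type u} [CommRing O] [IsDomain O] [IsDiscreteValuationRing O]
variable [IsAdicComplete (maximalIdeal O) O]
variable {G : Type} [Group G] {C : Type} [CommGroup C] [Finite C] [Finite G]
variable {N : Subgroup G} [N.Normal] {κ : C →* G}
variable {p : ℕ} [Fact p.Prime] [CharP (ResidueField O) p]

theorem exists_twistedO_ext [IsAlgClosed (ResidueField O)] {e : MonoidAlgebra (ResidueField O) G}
    (h : KP.CB N κ e) (hC : IsPGroup p C)
    (heG : e ∈ Fix (cj (ResidueField O) G) ⊤) {α : G →* MulAut C} (hα : KP.ConjData κ α) :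
    ∃ (I : MonoidAlgebra O G) (hI : IsIdempotentElem I) (hi : IsIdempotentElem (rd I)),
      Sp (N : Set G) I ∧ rd I ∈ SubAlg (ResidueField O) N ∧ rd I * e = rd I ∧
      (∃ (n : ℕ) (a b : Fin n → MonoidAlgebra (ResidueField O) G), e = ∑ l, a l * rd I * b l) ∧
      ∃ (H : Type) (_ : Group H) (_ : Finite H) (φ : H →* hi.Cornerˣ)
        (ε : MonoidAlgebra (ResidueField O) H)
        (s : hi.Corner →ₗ[ResidueField O] MonoidAlgebra (ResidueField O) H)
        (π : H →* G ⧸ N) (Z : Subgroup H),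
        ε ∈ Subalgebra.center (ResidueField O) (MonoidAlgebra (ResidueField O) H) ∧
        (∀ x, s (liftU φ x) = ε * x) ∧
        (∀ y, liftU φ (s y) = y) ∧ Nat.card H ≤ (Nat.card C * N.index) ^ 2 ∧
        Function.Surjective π ∧ (∀ h, SuppIn (cst N (π h)) (vl hi (φ h))) ∧
        (∀ z ∈ Z, ∀ h, z * h = h * z) ∧ ¬ p ∣ Nat.card Z ∧ Z ≤ π.ker ∧
        Z.index = Nat.card C * N.index ∧
        (Function.Injective φ) ∧
        (∀ T : Subgroup G, (∀ c ∈ T, ∀ n ∈ N, c * n = n * c) → ∀ c ∈ ⁅T, T⁆,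
          ∃ g : H, vl hi (φ g) = MonoidAlgebra.single c 1 * rd I ∧ π g = (c : G ⧸ N)) ∧
        ∃ Φ : H →* hI.Cornerˣ, ∀ h, rd (vl hI (Φ h)) = vl hi (φ h) := by
  obtain ⟨d, hd, ψ, i, hψ, hci, hψi⟩ := KP.exists_CIdem h hC
  obtain ⟨I, hIN, -, hII₀, rfl⟩ := exists_idem_IB (O := O) (N := N) (D := ∅) (f := i)
    hci.mem (fun _ h => absurd h (Set.notMem_empty _)) hci.idem
  have hII : IsIdempotentElem I := hII₀
  have hi : IsIdempotentElem (rd I) := hci.idem
  have hN : rd I ∈ SubAlg (ResidueField O) N := hci.mem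
  refine ⟨I, hII, hi, hIN, hN, hci.ie, ?_, ?_⟩
  · obtain ⟨n, a, b, -, -, hab⟩ := hci.full
    exact ⟨n, a, b, hab⟩
  have hIO : IO N κ I := IO.of_rd h hIN hII hci
  have hds : Function.Surjective (dg : HO N hII hIN →* G ⧸ N) :=
    dg_surjective hIO (hi' := hi) (hN' := hN) (KP.deg_surjective hci h hC heG)
  obtain ⟨L', hL1', hL2'⟩ := exists_LO (hi := hII) (hN := hIN) h hC heG hα hψ hci hψi hIO hds
  -- the complement over `k`
  obtain ⟨L, hLdef⟩ : ∃ L : Subgroup (KP.HU N hi hN),
      L = L'.map (rdV hi hN) ⊔ KP.KK hci h := ⟨_, rfl⟩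
  have hKn : (KP.KK hci h : Subgroup (KP.HU N hi hN)).Normal := KP.KK_normal hci h hα
  have hKOKK : ∀ u ∈ (KO hIO : Subgroup (HO N hII hIN)), rdV hi hN u ∈ KP.KK hci h := by
    rintro u ⟨h1, t, y, ht, h2⟩
    obtain ⟨s, hs, hts⟩ := ht.exists_inv
    have hts' : residue O t * residue O s = 1 := by rw [← map_mul, hts, map_one]
    refine ⟨h1, ⟨residue O t, residue O s, hts', by rw [mul_comm, hts']⟩, y, ?_⟩
    rw [hv_rdV, h2, map_mul, rd_kp, rd_single]
    rfl
  have hLmem : ∀ x, x ∈ L ↔ ∃ l ∈ L', ∃ w ∈ KP.KK hci h, x = rdV hi hN l * w := by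
    intro x
    rw [hLdef, Subgroup.mem_sup_of_normal_right]
    constructor
    · rintro ⟨_, ⟨l, hl, rfl⟩, w, hw, rfl⟩
      exact ⟨l, hl, w, hw, rfl⟩
    · rintro ⟨l, hl, w, hw, rfl⟩
      exact ⟨_, ⟨l, hl, rfl⟩, w, hw, rfl⟩
  have hL1 : L ⊓ (KP.deg : KP.HU N hi hN →* G ⧸ N).ker = KP.KK hci h := by
    apply le_antisymm
    · rintro x ⟨hx, hx1⟩
      obtain ⟨l, hl, w, hw, rfl⟩ := (hLmem x).mp hx
      have h1 : KP.deg (rdV hi hN l * w) = 1 := hx1
      rw [map_mul, deg_rdV, hw.1, mul_one] at h1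
      have h2 : l ∈ (KO hIO : Subgroup (HO N hII hIN)) := by rw [← hL1']; exact ⟨hl, h1⟩
      exact Subgroup.mul_mem _ (hKOKK l h2) hw
    · intro x hx
      exact ⟨by rw [hLdef]; exact (le_sup_right : KP.KK hci h ≤ _) hx, hx.1⟩
  have hL2 : L ⊔ (KP.deg : KP.HU N hi hN →* G ⧸ N).ker = ⊤ := by
    rw [eq_top_iff]
    intro x _
    obtain ⟨u, hu⟩ := hds (KP.deg x)
    have hu' : u ∈ L' ⊔ (dg : HO N hII hIN →* G ⧸ N).ker := by rw [hL2']; trivial
    rw [Subgroup.mem_sup_of_normal_right] at hu'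
    obtain ⟨c, hc, w, hw, rfl⟩ := hu'
    rw [map_mul, show dg w = 1 from hw, mul_one] at hu
    have h1 : x = rdV hi hN c * ((rdV hi hN c)⁻¹ * x) := by group
    rw [h1]
    refine Subgroup.mul_mem_sup ?_ ?_
    · rw [hLdef]; exact (le_sup_left : L'.map (rdV hi hN) ≤ _) ⟨c, hc, rfl⟩
    · change KP.deg ((rdV hi hN c)⁻¹ * x) = 1
      rw [map_mul, map_inv, deg_rdV, hu, inv_mul_cancel]
  letI := Fintype.ofFinite C
  letI := Fintype.ofFinite (G ⧸ N)
  have hi0 : rd I ≠ 0 := by
    intro h0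
    exact one_ne_zero (hci.faithful 1 (by rw [h0, mul_zero]))
  haveI : Nontrivial hi.Corner := ⟨⟨1, 0, fun h => hi0 (congrArg Subtype.val h)⟩⟩
  -- representatives
  have hc : ∀ x : G ⧸ N, ∃ c ∈ L, KP.deg c = x := by
    intro x
    obtain ⟨u, hu⟩ := KP.deg_surjective (hi := hi) (hN := hN) hci h hC heG x
    have hu' : u ∈ L ⊔ (KP.deg : KP.HU N hi hN →* G ⧸ N).ker := by rw [hL2]; trivial
    rw [Subgroup.mem_sup_of_normal_right] at hu'
    obtain ⟨c, hc, w, hw, rfl⟩ := hu'
    refine ⟨c, hc, ?_⟩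
    rw [← hu, map_mul, show KP.deg w = 1 from hw, mul_one]
  choose c hcL hcdeg using hc
  choose ky hkyK hky using fun y : C => KP.exists_ky (hi := hi) (hN := hN) hci h (1 : (ResidueField O)ˣ) y
  let F : KP.HU N hi hN →* hi.Cornerˣ := (MonoidHom.fst _ _).comp (KP.HU N hi hN).subtype
  have hFinj : Function.Injective F := fun u w huw => KP.supp_unique hi0 huw
  have hvF : ∀ w, vl hi (F w) = KP.hv w := fun _ => rfl
  let l : C × (G ⧸ N) → hi.Cornerˣ := fun b => F (ky b.1 * c b.2)
  have hl : ∀ y x, vl hi (l (y, x)) = KP.kap (ResidueField O) κ (MonoidAlgebra.single y 1) * KP.hv (c x) := by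
    intro y x
    rw [hvF, KP.hv_mul, hky, Units.val_one, mul_assoc, KP.i_hv]
  obtain ⟨B, hB⟩ := KP.exists_basis hci h c hcdeg l hl
  have hKL : KP.KK hci h ≤ L := by rw [← hL1]; exact inf_le_left
  have hscal' : ∀ t : (ResidueField O)ˣ, ∃ w ∈ KP.KK hci h, F w = scal (ResidueField O) hi.Corner t := by
    intro t
    obtain ⟨w, hw, hw'⟩ := KP.exists_ky (hi := hi) (hN := hN) hci h t (1 : C)
    refine ⟨w, hw, ?_⟩
    apply vl_ext
    rw [hvF, hw']
    have h1 : (MonoidAlgebra.single (1 : C) (t : (ResidueField O))) = algebraMap (ResidueField O) (MonoidAlgebra (ResidueField O) C) (t : (ResidueField O)) :=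
      rfl
    rw [h1, AlgHom.commutes]
    change _ = (t : (ResidueField O)) • rd I
    rw [Algebra.smul_def]
  have hscal : ∀ t : (ResidueField O)ˣ, scal (ResidueField O) hi.Corner t ∈ L.map F := by
    intro t
    obtain ⟨w, hw, hw'⟩ := hscal' t
    exact ⟨w, hKL hw, hw'⟩
  obtain ⟨H, hG, hF, φ, r, B', hφ, hφL, hB', hsc, hrl, hcard, hnorm⟩ := twisted_group_ext (k := (ResidueField O)) (L.map F)
    hscal l (fun b => ⟨_, L.mul_mem (hKL (hkyK b.1)) (hcL b.2), rfl⟩) B hB (by
      rintro _ ⟨w, hw, rfl⟩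
      have hmem : w * (c (KP.deg w))⁻¹ ∈ KP.KK hci h := by
        rw [← hL1]
        refine ⟨L.mul_mem hw (L.inv_mem (hcL _)), ?_⟩
        change KP.deg (w * (c (KP.deg w))⁻¹) = 1
        rw [map_mul, map_inv, hcdeg, mul_inv_cancel]
      obtain ⟨-, t, y, hty⟩ := hmem
      refine ⟨t, (y, KP.deg w), ?_⟩
      apply vl_ext
      have h1 : vl hi (scal (ResidueField O) hi.Corner t * l (y, KP.deg w)) =
          (t : (ResidueField O)) • vl hi (l (y, KP.deg w)) := by
        change (((scal (ResidueField O) hi.Corner t * l (y, KP.deg w) : hi.Cornerˣ) : hi.Corner)).1 = _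
        rw [scal_mul_val, corner_smul_val]
        rfl
      rw [h1, hl]
      have h2 : KP.kap (ResidueField O) κ (MonoidAlgebra.single y (t : (ResidueField O))) =
          (t : (ResidueField O)) • KP.kap (ResidueField O) κ (MonoidAlgebra.single y 1) := by
        rw [← map_smul, MonoidAlgebra.smul_single', mul_one]
      have h3 : KP.hv w = KP.hv (w * (c (KP.deg w))⁻¹) * KP.hv (c (KP.deg w)) := by
        rw [← KP.hv_mul, inv_mul_cancel_right]
      rw [hvF, h3, hty, h2, mul_assoc, KP.i_hv, smul_mul_assoc])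
  obtain ⟨ε, s, hε, -, hs1, hs2⟩ := twisted_idempotent (k := (ResidueField O)) φ hφ r B' hB' hsc
  -- the lift of `φ`
  have hlift : ∀ h : H, ∃ w : KP.HU N hi hN, F w = φ h := by
    intro h
    obtain ⟨w, -, hw⟩ := hφL h
    exact ⟨w, hw⟩
  choose φ' hφ' using hlift
  let Φ : H →* KP.HU N hi hN :=
    { toFun := φ'
      map_one' := hFinj (by rw [hφ', map_one, map_one])
      map_mul' := fun a b => hFinj (by rw [hφ', map_mul, map_mul, hφ', hφ']) }
  have hΦ : ∀ h, F (Φ h) = φ h := hφ'
  have hZc : ∀ z ∈ scalSub (ResidueField O) φ, ∀ h, z * h = h * z := fun z hz h =>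
    scalSub_central (ResidueField O) φ hφ ⟨z, hz⟩ h
  obtain ⟨χ, hχ, hχinj⟩ := exists_chi (ResidueField O) φ hφ
  refine ⟨H, hG, hF, φ, ε, s, KP.deg.comp Φ, scalSub (ResidueField O) φ, hε, hs1, hs2, ?_, ?_, ?_, hZc, ?_, ?_,
    ?_, hφ, ?_, ?_⟩
  · rw [Fintype.card_prod, ← Nat.card_eq_fintype_card, ← Nat.card_eq_fintype_card] at hcard
    exact hcard
  · intro x
    obtain ⟨t, ht⟩ := hrl ((1 : C), x)
    refine ⟨r (1, x), ?_⟩
    obtain ⟨w, hw, hw'⟩ := hscal' t
    have h1 : Φ (r (1, x)) = w * (ky 1 * c x) := by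
      apply hFinj
      rw [hΦ, ht, map_mul, hw']
    change KP.deg (Φ (r (1, x))) = x
    rw [h1, map_mul, map_mul, hw.1, (hkyK 1).1, one_mul, one_mul, hcdeg]
  · intro h
    have h1 := KP.supp_hv (Φ h)
    rw [← hvF, hΦ] at h1
    exact h1
  · rw [← CharP.cast_eq_zero_iff (ResidueField O) p]
    exact card_ne_zero_of_injective χ hχinj
  · intro z hz
    obtain ⟨t, ht⟩ := hz
    obtain ⟨w, hw, hw'⟩ := hscal' t
    have h1 : Φ z = w := hFinj (by rw [hΦ, ← ht, hw'])
    change KP.deg (Φ z) = 1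
    rw [h1, hw.1]
  · have hbij : Function.Bijective (fun b : C × (G ⧸ N) =>
        (QuotientGroup.mk (r b) : H ⧸ scalSub (ResidueField O) φ)) := by
      constructor
      · intro b b' hbb
        simp only [QuotientGroup.eq] at hbb
        obtain ⟨t, ht⟩ := hbb
        have h1 : φ (r b') = scal (ResidueField O) hi.Corner t * φ (r b) := by
          rw [ht, map_mul, map_inv]
          have h2 := scal_commute (k := (ResidueField O)) (E := hi.Corner) t (φ (r b))
          rw [ht, map_mul, map_inv] at h2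
          rw [h2, mul_inv_cancel_left]
        have h3 : B' b' = (t : (ResidueField O)) • B' b := by
          rw [hB', hB', h1, scal_mul_val]
        by_contra hne
        have h4 := congrArg (fun x => B'.repr x b') h3
        simp only [Module.Basis.repr_self, map_smul, Finsupp.smul_apply, smul_eq_mul] at h4
        rw [Finsupp.single_eq_same, Finsupp.single_eq_of_ne (Ne.symm hne), mul_zero] at h4
        exact one_ne_zero h4
      · intro q
        obtain ⟨h, rfl⟩ := QuotientGroup.mk_surjective q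
        obtain ⟨t, b, ht⟩ := hsc h
        refine ⟨b, ?_⟩
        simp only [QuotientGroup.eq]
        refine ⟨t, ?_⟩
        rw [map_mul, map_inv, ht, scal_commute, inv_mul_cancel_left]
    rw [Subgroup.index, ← Nat.card_congr (Equiv.ofBijective _ hbij), Nat.card_prod]
    rfl
  · intro T hT c' hc'
    obtain ⟨u, huL, hu1, hu2, hu3⟩ := ups_mem hi hN hL2 (fun u w hu hw =>
      KP.ker_comm hci h u hu w hw) hT hc'
    obtain ⟨g, hg⟩ := hnorm (F u) ⟨u, huL, rfl⟩ hu3
    refine ⟨g, ?_, ?_⟩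
    · rw [hg, hvF, hu1]
    · have h1 : Φ g = u := hFinj (by rw [hΦ, hg])
      change KP.deg (Φ g) = _
      rw [h1, hu2]
  · -- the lift to `O`
    have htor : ∀ m ∈ L', ∃ M : ℕ, M ≠ 0 ∧ m ^ M = 1 := by
      intro m hm
      have h1 : m ^ Nat.card (G ⧸ N) ∈ (KO hIO : Subgroup (HO N hII hIN)) := by
        rw [← hL1']
        refine ⟨L'.pow_mem hm _, ?_⟩
        change dg (m ^ Nat.card (G ⧸ N)) = 1
        rw [map_pow]
        exact pow_card_eq_one'
      obtain ⟨h2, t, y, ⟨M, hM, htM⟩, h3⟩ := h1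
      have hM0 : M ≠ 0 := by rintro rfl; simp at hM
      have hc1 : Nat.card (G ⧸ N) ≠ 0 := Nat.card_pos.ne'
      have hc2 : Nat.card C ≠ 0 := Nat.card_pos.ne'
      refine ⟨Nat.card (G ⧸ N) * (M * Nat.card C), mul_ne_zero hc1 (mul_ne_zero hM0 hc2), ?_⟩
      rw [pow_mul]
      apply ho_ext
      · rw [ho_pow hIO h3, MonoidAlgebra.single_pow, mul_comm M, pow_mul, pow_card_eq_one',
          one_pow, mul_comm, pow_mul, htM, one_pow, ← MonoidAlgebra.one_def, map_one, one_mul]
        rfl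
      · rw [map_pow, h2, one_pow, map_one]
    have hrdinj : ∀ a ∈ L', ∀ b ∈ L', rd (ho a) = rd (ho b) → dg a = dg b → a = b := by
      intro a ha b hb hab hdab
      have h1 : a * b⁻¹ ∈ (KO hIO : Subgroup (HO N hII hIN)) := by
        rw [← hL1']
        refine ⟨L'.mul_mem ha (L'.inv_mem hb), ?_⟩
        change dg (a * b⁻¹) = 1
        rw [map_mul, map_inv, hdab, mul_inv_cancel]
      obtain ⟨h2, t, y, ht, h3⟩ := h1
      have h4 : rd (ho (a * b⁻¹)) = rd I := by
        rw [ho_mul, map_mul, hab, ← map_mul, ho_ho_inv]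
      rw [h3, map_mul, rd_kp, rd_single] at h4
      have h5 : MonoidAlgebra.single y (residue O t) = (1 : MonoidAlgebra (ResidueField O) C) := by
        have h6 : KP.kap (ResidueField O) κ (MonoidAlgebra.single y (residue O t) - 1) * rd I = 0 := by
          rw [map_sub, sub_mul, map_one, one_mul, sub_eq_zero]
          exact h4
        exact sub_eq_zero.mp (hci.faithful _ h6)
      have h7 : y = 1 ∧ residue O t = 1 := by
        have h8 : (MonoidAlgebra.single y (residue O t)).coeff y =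
            (1 : MonoidAlgebra (ResidueField O) C).coeff y := by rw [h5]
        have h9 := congrArg (aug (ResidueField O) C) h5
        rw [aug_single, map_one] at h9
        refine ⟨?_, h9⟩
        by_contra hne
        rw [MonoidAlgebra.one_def, MonoidAlgebra.coeff_single, MonoidAlgebra.coeff_single,
          Finsupp.single_eq_same, Finsupp.single_eq_of_ne hne, h9] at h8
        exact one_ne_zero h8
      have h10 := ht.eq_one h7.2
      have h11 : ho (a * b⁻¹) = I := by
        rw [h3, h10, h7.1, ← MonoidAlgebra.one_def, map_one, one_mul]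
      have h12 : a * b⁻¹ = 1 := ho_ext (by rw [h11]; rfl) (by rw [h2, map_one])
      exact mul_inv_eq_one.mp h12
    have hex : ∀ h : H, ∃ m ∈ L', rd (ho m) = vl hi (φ h) ∧ dg m = KP.deg (Φ h) := by
      intro g
      have hwL : Φ g ∈ L := by
        obtain ⟨w, hw, hw'⟩ := hφL g
        have : Φ g = w := hFinj (by rw [hΦ, hw'])
        rw [this]; exact hw
      obtain ⟨l₀, hl₀, w, hw, hlw⟩ := (hLmem _).mp hwL
      obtain ⟨hw1, t, y, hty⟩ := hw
      -- the element of `κ(C)`
      have hyu : IsUnit (MonoidAlgebra.single y (1 : O)) :=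
        IsUnit.of_mul_eq_one (MonoidAlgebra.single y⁻¹ 1) (by
          rw [MonoidAlgebra.single_mul_single, mul_inv_cancel, one_mul, MonoidAlgebra.one_def])
      obtain ⟨yu, hyu⟩ := hyu
      obtain ⟨Y, hY, -, hY1⟩ := exists_unit_one (hi := hII) (hN := hIN) hIO yu
      rw [hyu] at hY
      have hYK : Y ∈ (KO hIO : Subgroup (HO N hII hIN)) := ⟨hY1, 1, y, Mu.one, hY⟩
      have hYL : Y ∈ L' := by rw [← hL1'] at hYK; exact hYK.1
      obtain ⟨m, hmdef⟩ : ∃ m, m = l₀ * Y := ⟨_, rfl⟩
      have hmL : m ∈ L' := by rw [hmdef]; exact L'.mul_mem hl₀ hYL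
      have hmv : vl hi (φ g) = (t : (ResidueField O)) • rd (ho m) := by
        rw [← hΦ, hvF, hlw, KP.hv_mul, hty, hv_rdV, hmdef, ho_mul, map_mul, hY, map_mul, rd_kp,
          rd_single, map_one]
        have h2 : KP.kap (ResidueField O) κ (MonoidAlgebra.single y (t : (ResidueField O))) =
            (t : (ResidueField O)) • kp (ResidueField O) κ (MonoidAlgebra.single y 1) := by
          have : (MonoidAlgebra.single y (t : (ResidueField O))) = (t : (ResidueField O)) • MonoidAlgebra.single y (1 : (ResidueField O)) := by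
            rw [MonoidAlgebra.smul_single', mul_one]
          rw [this, map_smul]
          rfl
        rw [h2, smul_mul_assoc, mul_smul_comm]
      have hmdg : dg m = KP.deg (Φ g) := by
        rw [hlw, map_mul, deg_rdV, hw1, mul_one, hmdef, map_mul, hY1, mul_one]
      -- the scalar is a root of unity
      obtain ⟨M, hM0, hM⟩ := htor m hmL
      have hpowv : ∀ n : ℕ, vl hi (φ g ^ n) = (t : (ResidueField O)) ^ n • rd (ho (m ^ n)) := by
        intro n
        induction n with
        | zero => rw [pow_zero, pow_zero, pow_zero, one_smul]; rfl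
        | succ n ih =>
          rw [pow_succ, vl_mul, ih, hmv, pow_succ (t : (ResidueField O)), pow_succ m, ho_mul, map_mul,
            smul_mul_smul_comm]
      have hn0 : Nat.card H ≠ 0 := Nat.card_pos.ne'
      have ht1 : (t : (ResidueField O)) ^ (Nat.card H * M) = 1 := by
        have h1 : φ g ^ (Nat.card H * M) = 1 := by
          rw [pow_mul, ← map_pow, pow_card_eq_one', map_one, one_pow]
        have h2 := hpowv (Nat.card H * M)
        rw [h1, mul_comm (Nat.card H) M, pow_mul m, hM, one_pow, ho_one, vl_one] at h2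
        have h3 : KP.kap (ResidueField O) κ (MonoidAlgebra.single 1 ((t : (ResidueField O)) ^ (M * Nat.card H)) - 1) * rd I
            = 0 := by
          rw [map_sub, sub_mul, map_one, one_mul, sub_eq_zero]
          have h4 : (MonoidAlgebra.single (1 : C) ((t : (ResidueField O)) ^ (M * Nat.card H))) =
              ((t : (ResidueField O)) ^ (M * Nat.card H)) • (1 : MonoidAlgebra (ResidueField O) C) := by
            rw [MonoidAlgebra.one_def, MonoidAlgebra.smul_single', mul_one]
          rw [h4, map_smul, map_one, smul_mul_assoc, one_mul]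
          exact h2.symm
        have h5 := hci.faithful _ h3
        have h6 := congrArg (aug (ResidueField O) C) h5
        rw [map_sub, aug_single, map_one, map_zero, sub_eq_zero] at h6
        rw [mul_comm]; exact h6
      -- remove the `p`-part
      obtain ⟨a, q, hq, haq⟩ := Nat.exists_eq_pow_mul_and_not_dvd
        (n := Nat.card H * M) (mul_ne_zero hn0 hM0) p (Fact.out : p.Prime).ne_one
      have ht2 : (t : (ResidueField O)) ^ q = 1 := by
        rw [haq, mul_comm, pow_mul] at ht1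
        haveI : ExpChar (ResidueField O) p := ExpChar.prime Fact.out
        have h1 : ((t : (ResidueField O)) ^ q - 1) ^ p ^ a = 0 := by
          rw [sub_pow_expChar_pow, ht1, one_pow, sub_self]
        exact sub_eq_zero.mp (pow_eq_zero_iff (pow_ne_zero _ (Fact.out : p.Prime).ne_zero) |>.mp h1)
      have hq' : (q : (ResidueField O)) ≠ 0 := by
        rw [Ne, CharP.cast_eq_zero_iff (ResidueField O) p]
        exact hq
      obtain ⟨T, hT, hTt⟩ := exists_Mu (O := O) hq' ht2
      have hTM : Mu T := ⟨q, hq', hT⟩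
      obtain ⟨T', -, hTT'⟩ := hTM.exists_inv
      have hTu : IsUnit (MonoidAlgebra.single (1 : C) T) :=
        IsUnit.of_mul_eq_one (MonoidAlgebra.single 1 T') (by
          rw [MonoidAlgebra.single_mul_single, mul_one, hTT', MonoidAlgebra.one_def])
      obtain ⟨Tu, hTu⟩ := hTu
      obtain ⟨S, hS, -, hS1⟩ := exists_unit_one (hi := hII) (hN := hIN) hIO Tu
      rw [hTu] at hS
      have hSK : S ∈ (KO hIO : Subgroup (HO N hII hIN)) := ⟨hS1, T, 1, hTM, hS⟩
      have hSL : S ∈ L' := by rw [← hL1'] at hSK; exact hSK.1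
      refine ⟨S * m, L'.mul_mem hSL hmL, ?_, by rw [map_mul, hS1, one_mul, hmdg]⟩
      rw [ho_mul, map_mul, hS, map_mul, rd_kp, rd_single, hTt, hmv]
      have h4 : (MonoidAlgebra.single (1 : C) (t : (ResidueField O))) = (t : (ResidueField O)) • (1 : MonoidAlgebra (ResidueField O) C) := by
        rw [MonoidAlgebra.one_def, MonoidAlgebra.smul_single', mul_one]
      rw [h4, map_smul, map_one, smul_mul_assoc, one_mul, smul_mul_assoc, ← map_mul, i_ho]
    choose Ψ hΨL hΨv hΨd using hex
    refine ⟨{ toFun := fun h => (Ψ h).1.1, map_one' := ?_, map_mul' := ?_ }, fun h => hΨv h⟩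
    · have h1 : Ψ 1 = 1 := hrdinj _ (hΨL 1) _ L'.one_mem
        (by rw [hΨv, map_one, vl_one]; rfl) (by rw [hΨd, map_one, map_one, map_one])
      rw [h1]; rfl
    · intro a b
      have h1 : Ψ (a * b) = Ψ a * Ψ b := hrdinj _ (hΨL _) _ (L'.mul_mem (hΨL a) (hΨL b))
        (by rw [ho_mul, map_mul, hΨv, hΨv, hΨv, map_mul, vl_mul])
        (by rw [map_mul, hΨd, hΨd, hΨd, map_mul, map_mul])
      change (Ψ (a * b)).1.1 = (Ψ a).1.1 * (Ψ b).1.1
      rw [h1]; rfl

end Tw

end Vale.Agent.P180.R2.H47
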