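import Vale.Agent.P180.R2.H47.FinK
import Vale.Agent.P180.R2.H47.Small
import Vale.Agent.P180.R2.H47.MixDef

set_option linter.all false

/-!
P180: the part of a direct product of simple groups generated by the factors in a class.
-/

namespace Vale.Agent.P180.R2.H47

open Vale.Agent.P180 Vale.Agent.P180.H768.Gd
open Vale.Agent.P180.H768 hiding pull mem_pull exists_factor Lay mk_mem comm_mem
open Vale.Agent.P180.R2.H471 (QA)

open scoped Nat

section XW

variable {G : Type} [Group G] [Finite G] {X : Subgroup G} [hXn : X.Normal]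
  (W : ∀ (S : Type) [Group S], Prop)

/-- the part of `X` generated by the simple factors in the class `W` -/
def XW (X : Subgroup G) : Subgroup G := sSup {S | S ∈ simps QT X ∧ W S}

variable {W}

theorem XW_le : XW W X ≤ X := sSup_le fun S hS => hS.1.1

theorem XW_normal (hW : IsoInv W) : (XW W X).Normal := by
  constructor
  intro x hx g
  have h6 : XW W X ≤ (XW W X).comap (MulAut.conj g).toMonoidHom := by
    refine sSup_le fun S hS => ?_
    rw [← Subgroup.map_le_iff_le_comap]
    refine le_sSup ⟨simps_conj (Q := QT) (fun _ _ _ _ _ _ => ⟨1⟩) hS.1 g, ?_⟩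
    exact hW _ _ ⟨S.equivMapOfInjective _ (MulAut.conj g).injective⟩ hS.2
  exact h6 hx

theorem XW_SSP : SSP QT (XW W X) := by
  refine sSup_le fun S hS => le_sSup ?_
  refine ⟨le_sSup hS, ?_, hS.1.2.2.1, hS.1.2.2.2.1, ⟨1⟩⟩
  intro x hx s hs
  exact hS.1.2.1 x (XW_le hx) s hs

theorem simps_XW (hX : SSP QT X) {S : Subgroup G} (hS : S ∈ simps QT (XW W X)) :
    S ∈ simps QT X ∧ W S := by
  obtain ⟨h1, h2, h3, h4, h5⟩ := hS
  -- a factor of `X` outside the class commutes with `XW W X`
  have hc : ∀ T ∈ simps QT X, ¬ W T → ∀ t ∈ T, ∀ y ∈ XW W X, t * y = y * t := by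
    intro T hT hTW t ht y hy
    have h8 : XW W X ≤ Subgroup.centralizer ({t} : Set G) := by
      refine sSup_le fun U hU z hz => ?_
      rw [Subgroup.mem_centralizer_singleton_iff]
      have hne : U ≠ T := fun h => hTW (by rw [← h]; exact hU.2)
      exact simps_comm hU.1 hT hne hz ht
    exact (Subgroup.mem_centralizer_singleton_iff.mp (h8 hy)).symm
  have h6 : X ≤ Subgroup.normalizer (S : Set G) := by
    refine hX.trans (sSup_le fun T hT => ?_)
    by_cases hTQ : W T
    · have h7 : T ≤ XW W X := le_sSup ⟨hT, hTQ⟩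
      intro t ht
      rw [Subgroup.mem_normalizer_iff]
      intro s
      constructor
      · exact fun hs => h2 t (h7 ht) s hs
      · intro hs
        have := h2 t⁻¹ ((XW W X).inv_mem (h7 ht)) _ hs
        have e : t⁻¹ * (t * s * t⁻¹) * t⁻¹⁻¹ = s := by group
        rwa [e] at this
    · intro t ht
      have h7 := hc T hT hTQ t ht
      rw [Subgroup.mem_normalizer_iff]
      intro s
      constructor
      · intro hs
        rw [h7 s (h1 hs), mul_inv_cancel_right]
        exact hs
      · intro hs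
        have h8 := h7 _ (h1 hs)
        have h9 : t * s * t⁻¹ = s := by
          calc t * s * t⁻¹ = t⁻¹ * (t * (t * s * t⁻¹)) := by group
            _ = t⁻¹ * (t * s * t⁻¹ * t) := by rw [h8]
            _ = s := by group
        rwa [h9] at hs
  have hSX : S ∈ simps QT X :=
    ⟨h1.trans XW_le, fun x hx s hs => (Subgroup.mem_normalizer_iff.mp (h6 hx) s).mp hs, h3, h4,
      ⟨1⟩⟩
  refine ⟨hSX, ?_⟩
  by_contra hSW
  apply h4
  intro x hx y hy
  exact hc S hSX hSW x hx y (h1 hy)

end XW

section Good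

/-- `GoodSections` is invariant under isomorphisms. -/
theorem isoInv_good (p n m : ℕ) : IsoInv (fun S _ => GoodSections p n m S) := by
  rintro L L' _ _ ⟨e⟩ h K S _ _ f hf hna hp
  let g : (K.comap e.toMonoidHom) →* K :=
    { toFun := fun x => ⟨e x, x.2⟩
      map_one' := Subtype.ext (map_one e)
      map_mul' := fun x y => Subtype.ext (map_mul e _ _) }
  have hg : Function.Surjective g := by
    rintro ⟨y, hy⟩
    refine ⟨⟨e.symm y, ?_⟩, ?_⟩
    · change e (e.symm y) ∈ K
      rw [e.apply_symm_apply]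
      exact hy
    · apply Subtype.ext
      change e (e.symm y) = y
      rw [e.apply_symm_apply]
  exact h (K.comap e.toMonoidHom) S (f.comp g) (hf.comp hg) hna hp

/-- The class of the groups which are not good. -/
def Wg (p n m : ℕ) (S : Type) [Group S] : Prop := ¬ GoodSections p n m S

theorem isoInv_Wg (p n m : ℕ) : IsoInv (Wg p n m) := by
  intro S T _ _ e h h1
  exact h (isoInv_good p n m _ _ ⟨e.some.symm⟩ h1)

theorem good_of_card {p n m : ℕ} {S : Type} [Group S] [Finite S] (h : Nat.card S ≤ m) :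
    GoodSections p n m S := by
  intro K T _ _ f hf _ _
  left
  exact (Nat.card_le_card_of_surjective f hf).trans
    ((Nat.card_le_card_of_injective _ Subtype.val_injective).trans h)

theorem good_mono {p n m m' : ℕ} (hm : m ≤ m') {S : Type} [Group S] (h : GoodSections p n m S) :
    GoodSections p n m' S := by
  intro K T _ _ f hf hna hp
  rcases h K T f hf hna hp with h | h
  · exact Or.inl (h.trans hm)
  · exact Or.inr h

theorem mm_mono {p n m m' : ℕ} (hm : m ≤ m') : mm p n m ≤ mm p n m' :=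
  max_le_max (max_le_max hm le_rfl) le_rfl

variable {p n m : ℕ} [Fact p.Prime]

theorem RC_bot_of_good {P : Type} [Group P] [Finite P] {S : Subgroup P}
    (h : GoodSections p n m S) : RC p n (mm p n m) ⊥ S := by
  intro K T _ _ f hK hf _ hp
  let g : (K.subgroupOf S) →* K :=
    { toFun := fun x => ⟨x, x.2⟩
      map_one' := rfl
      map_mul' := fun x y => rfl }
  have hg : Function.Surjective g := by
    rintro ⟨y, hy⟩
    exact ⟨⟨⟨y, hK hy⟩, hy⟩, rfl⟩
  exact isGood_of h (K.subgroupOf S) T (f.comp g) (hf.comp hg) hp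

theorem RC_sup_finset {P : Type} [Group P] [Finite P] (X : Subgroup P) [X.Normal]
    (s : Finset (Subgroup P)) (hn : ∀ S ∈ s, S.Normal) (hg : ∀ S ∈ s, GoodSections p n m S) :
    (X ⊔ s.sup id).Normal ∧ RC p n (mm p n m) X (X ⊔ s.sup id) := by
  classical
  induction s using Finset.induction_on with
  | empty =>
    rw [Finset.sup_empty, sup_bot_eq]
    exact ⟨inferInstance, RC.self _ _ _ _⟩
  | insert S s hS ih =>
    obtain ⟨h1, h2⟩ := ih (fun T hT => hn T (Finset.mem_insert_of_mem hT))
      (fun T hT => hg T (Finset.mem_insert_of_mem hT))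
    have hSn := hn S (Finset.mem_insert_self _ _)
    have h3 := RC_sup (X := X ⊔ s.sup id) (RC_bot_of_good (hg S (Finset.mem_insert_self _ _)))
    rw [sup_bot_eq] at h3
    have h4 : X ⊔ (insert S s).sup id = X ⊔ s.sup id ⊔ S := by
      rw [Finset.sup_insert, id, sup_comm S, sup_assoc]
    rw [h4]
    exact ⟨inferInstance, h2.trans h3⟩

end Good

section RCX

variable {G : Type} [Group G] [Finite G] {X : Subgroup G} [hXn : X.Normal] {p n m : ℕ}
  [Fact p.Prime]

/-- the relation of the part generated by the factors which are not good and `X` -/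
theorem RC_XW (hX : SSP QT X) :
    RC p n (mm p n m) (XW (Wg p n m) X) X := by
  classical
  have hYn : (XW (Wg p n m) X).Normal := XW_normal (isoInv_Wg p n m)
  -- in the group `X`
  let Y : Subgroup X := (XW (Wg p n m) X).subgroupOf X
  have hYn' : Y.Normal := inferInstance
  have hfin : (simps QT X).Finite := Set.toFinite _
  let s : Finset (Subgroup X) := (hfin.toFinset.filter
    (fun S : Subgroup G => GoodSections p n m S)).image (fun S : Subgroup G => S.subgroupOf X)
  have hs : ∀ T ∈ s, ∃ S ∈ simps QT X, GoodSections p n m S ∧ T = S.subgroupOf X := by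
    intro T hT
    obtain ⟨S, hS, rfl⟩ := Finset.mem_image.mp hT
    obtain ⟨h1, h2⟩ := Finset.mem_filter.mp hS
    exact ⟨S, hfin.mem_toFinset.mp h1, h2, rfl⟩
  obtain ⟨-, h1⟩ := RC_sup_finset (p := p) (n := n) (m := m) Y s (by
    intro T hT
    obtain ⟨S, hS, -, rfl⟩ := hs T hT
    constructor
    intro t ht g
    exact hS.2.1 g g.2 t ht) (by
    intro T hT
    obtain ⟨S, hS, hg, rfl⟩ := hs T hT
    exact isoInv_good p n m _ _ ⟨(Subgroup.subgroupOfEquivOfLe hS.1).symm⟩ hg)
  have h2 := RC_map (f := X.subtype) X.subtype_injective h1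
  have h3 : Y.map X.subtype = XW (Wg p n m) X := Subgroup.map_subgroupOf_eq_of_le XW_le
  rw [h3] at h2
  refine RC.of_ge ?_ h2
  refine hX.trans (sSup_le fun S hS => ?_)
  by_cases hg : GoodSections p n m S
  · have h4 : S.subgroupOf X ≤ Y ⊔ s.sup id := by
      refine le_trans ?_ le_sup_right
      exact Finset.le_sup (f := id) (Finset.mem_image.mpr
        ⟨S, Finset.mem_filter.mpr ⟨hfin.mem_toFinset.mpr hS, hg⟩, rfl⟩)
    intro x hx
    exact ⟨⟨x, hS.1 hx⟩, h4 hx, rfl⟩
  · have h4 : S ≤ XW (Wg p n m) X := le_sSup ⟨hS, hg⟩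
    intro x hx
    refine ⟨⟨x, hS.1 hx⟩, Subgroup.mem_sup_left ?_, rfl⟩
    exact h4 hx

end RCX

section Spec

variable {p n m : ℕ} [Fact p.Prime]

/-- The bound for the sections. -/
def mX (p n m : ℕ) : ℕ := mm p n (max m 720)

theorem alt_large {G : Type} [Group G] [Finite G] {S : Subgroup G}
    (hS : ¬ GoodSections p n (max m 720) S)
    (h : ∃ d : ℕ, Nonempty (S ≃* alternatingGroup (Fin d))) : QA S := by
  obtain ⟨d, ⟨e⟩⟩ := h
  refine ⟨d, ?_, ⟨e⟩⟩
  by_contra hd
  apply hS
  apply good_of_card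
  refine le_trans ?_ (le_max_right _ _)
  calc Nat.card S = Nat.card (alternatingGroup (Fin d)) := Nat.card_congr e.toEquiv
    _ ≤ Nat.card (Equiv.Perm (Fin d)) := Nat.card_le_card_of_injective _ Subtype.val_injective
    _ = d ! := by rw [Nat.card_perm, Nat.card_fin]
    _ ≤ 6 ! := Nat.factorial_le (by omega)
    _ = 720 := rfl

theorem mixed_spec {G : Type} [Group G] [Finite G] {D : Subgroup G}
    (h : HasMixedSeries p n m D) :
    ∃ (X : Subgroup G) (_ : X.Normal) (l : ℕ) (N : ℕ → Subgroup G) (_ : ∀ i, (N i).Normal),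
      SSP QT X ∧ (∀ S ∈ simps QT X, QA S ∨ (IsCyclic (D ⊓ S : Subgroup G) ∧ outI S ≤ m ∧
        ¬ p ∣ outI S) ∨ D ⊓ S = ⊥) ∧ X ≤ N 0 ∧ RC p n (mX p n m) X (N 0) ∧ N l = ⊤ ∧
      (∀ i < l, N i ≤ N (i + 1)) ∧ ∀ i < l, RC p n (mX p n m) (N i) (N (i + 1)) ∨
        ∀ x ∈ D, x ∈ N (i + 1) → ∀ y ∈ N (i + 1), x * y * x⁻¹ * y⁻¹ ∈ N i := by
  obtain ⟨l, N, hN, ⟨r, S, hSc, hS0, hSt⟩, hl, hlay⟩ := h
  have hN0 := hN 0
  have hmm : mm p n m ≤ mX p n m := mm_mono (le_max_left _ _)
  have hmem : ∀ j, S j ∈ simps QT (N 0) := by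
    intro j
    refine ⟨by rw [hS0]; exact le_iSup S j, ?_, (hSt j).1, (hSt j).2.1, ⟨1⟩⟩
    have h1 : N 0 ≤ Subgroup.normalizer (S j : Set G) := by
      rw [hS0]
      refine iSup_le fun i => ?_
      by_cases hij : i = j
      · rw [hij]; exact Subgroup.le_normalizer
      · intro x hx
        rw [Subgroup.mem_normalizer_iff]
        intro s
        have h6 := hSc i j hij x hx
        constructor
        · intro hs
          rw [h6 s hs, mul_inv_cancel_right]
          exact hs
        · intro hs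
          have h7 := h6 _ hs
          have h8 : x * s * x⁻¹ = s := by
            calc x * s * x⁻¹ = x⁻¹ * (x * (x * s * x⁻¹)) := by group
              _ = x⁻¹ * (x * s * x⁻¹ * x) := by rw [h7]
              _ = s := by group
          rwa [h8] at hs
    intro x hx s hs
    exact (Subgroup.mem_normalizer_iff.mp (h1 hx) s).mp hs
  have hX : SSP QT (N 0) := by
    intro x hx
    have h1 : N 0 ≤ sSup (simps QT (N 0)) := by
      conv_lhs => rw [hS0]
      exact iSup_le fun j => le_sSup (hmem j)
    exact h1 hx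
  have hall : ∀ T ∈ simps QT (N 0), ∃ j, T = S j := by
    intro T hT
    by_contra hcon
    push Not at hcon
    apply hT.2.2.2.1
    intro x hx y hy
    have h1 : N 0 ≤ Subgroup.centralizer ({x} : Set G) := by
      conv_lhs => rw [hS0]
      refine iSup_le fun j z hz => ?_
      rw [Subgroup.mem_centralizer_singleton_iff]
      exact (simps_comm hT (hmem j) (hcon j) hx hz).symm
    exact (Subgroup.mem_centralizer_singleton_iff.mp (h1 (hT.1 hy))).symm
  refine ⟨XW (Wg p n (max m 720)) (N 0), XW_normal (isoInv_Wg _ _ _), l, N, hN, XW_SSP, ?_, XW_le,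
    RC_XW hX, hl, fun i hi => (hlay i hi).1, ?_⟩
  · intro T hT
    obtain ⟨hT1, hTW⟩ := simps_XW hX hT
    obtain ⟨j, rfl⟩ := hall T hT1
    rcases (hSt j).2.2 with h | h | h | h
    · exact Or.inl (alt_large hTW h)
    · exact Or.inr (Or.inl h)
    · exact Or.inr (Or.inr h)
    · exact absurd (good_mono (le_max_left _ _) h) hTW
  · intro i hi
    rcases (hlay i hi).2 with h | h | ⟨h2, h⟩
    · exact Or.inr h
    · exact Or.inl ((RC.of_hom (isGood_of h)).mono hmm)
    · subst h2
      exact Or.inl ((RC.of_hom (isGood_of (goodSections_of_cit h))).mono hmm)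

end Spec

/-- the condition on the simple factors -/
theorem KK_of_defect {k : Type*} [Field k] {p m : ℕ} [Fact p.Prime] [CharP k p] {G : Type}
    [Group G] [Finite G] {X D P : Subgroup G} [X.Normal] (hX : SSP QT X)
    (h : ∀ S ∈ simps QT X, QA S ∨ (IsCyclic (D ⊓ S : Subgroup G) ∧ outI S ≤ m ∧
        ¬ p ∣ outI S) ∨ D ⊓ S = ⊥) (hPD : P ≤ D) (hP : IsPGroup p P)
    {b a : MonoidAlgebra k G} (hb : IsBlock b) (ha : a ∈ Fix (cj k G) P)
    (hba : b = tr (cj k G) P ⊤ a) (hbr : br P b ≠ 0) : KK QA p m G X P := by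
  intro S hS
  have h1 : Pj P S ≤ D ⊓ S := le_inf ((Pj_le_of_defect hX hS hP hb ha hba hbr).trans hPD)
    (Pj_le P S)
  rcases h S hS with h2 | ⟨h2, h3⟩ | h2
  · exact Or.inl h2
  · right; left
    refine ⟨?_, h3⟩
    exact isCyclic_of_injective (Subgroup.inclusion h1) (Subgroup.inclusion_injective h1)
  · right; right
    rw [eq_bot_iff, ← h2]
    exact h1

end Vale.Agent.P180.R2.H47
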